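import Vale.Agent.Lib.P252.Main

open scoped ContDiff Matrix
open MeasureTheory

namespace Vale.Agent.Lib.P252

variable {n : ℕ} {Ω : Set (Fin n → ℝ)} {u : (Fin n → ℝ) → ℝ}

/-! ### The second primitive -/

/-- The primitive of `stepΓ`, normalised to vanish at `+∞`. -/
noncomputable def stepΛ (t : ℝ) : ℝ := ∫ τ in t..1, stepΓ τ

lemma stepΓ_continuous : Continuous stepΓ := stepΓ_contDiff.continuous

lemma stepΛ_hasDerivAt (t : ℝ) : HasDerivAt stepΛ (- stepΓ t) t :=
  intervalIntegral.integral_hasDerivAt_left (stepΓ_continuous.intervalIntegrable _ _)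
    (stepΓ_continuous.stronglyMeasurableAtFilter _ _) stepΓ_continuous.continuousAt

lemma stepΛ_contDiff : ContDiff ℝ ∞ stepΛ := by
  rw [contDiff_infty_iff_deriv]
  refine ⟨fun t => (stepΛ_hasDerivAt t).differentiableAt, ?_⟩
  have : deriv stepΛ = fun t => - stepΓ t := funext fun t => (stepΛ_hasDerivAt t).deriv
  rw [this]
  exact stepΓ_contDiff.neg

lemma stepΛ_zero {t : ℝ} (ht : 1 ≤ t) : stepΛ t = 0 := by
  simp only [stepΛ]
  rw [intervalIntegral.integral_symm]
  have : ∫ τ in (1 : ℝ)..t, stepΓ τ = ∫ τ in (1 : ℝ)..t, (0 : ℝ) := by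
    apply intervalIntegral.integral_congr
    intro τ hτ
    rw [Set.uIcc_of_le ht] at hτ
    exact stepΓ_zero hτ.1
  rw [this]
  simp

lemma stepΛ_nonneg (t : ℝ) : 0 ≤ stepΛ t := by
  by_cases ht : t ≤ 1
  · exact intervalIntegral.integral_nonneg ht fun τ _ => stepΓ_nonneg τ
  · rw [stepΛ_zero (le_of_not_ge ht)]

namespace IsAffineMaximal

variable (hs : IsAffineMaximal Ω u)
include hs

/-- The cross term identity. -/
lemma cross_term (hΩ : IsOpen Ω) {Λ : (Fin n → ℝ) → ℝ} (hΛ : IsTest Ω Λ) (q : ℝ) :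
    ∫ x, weightW u x ^ (q - 1) * formQ u Λ (weightW u) x =
      (1 - q) * ∫ x, Λ x * (weightW u x ^ (q - 2) * formQ u (weightW u) (weightW u) x) := by
  classical
  set W := weightW u with hW
  have hWs : ContDiffOn ℝ ∞ W Ω := hs.contDiffOn_W hΩ
  have hpow : ∀ p : ℝ, ContDiffOn ℝ ∞ (fun x => W x ^ p) Ω := fun p => hs.contDiffOn_W_rpow hΩ p
  have hφ : IsTest Ω (fun x => Λ x * W x ^ (q - 1)) := hΛ.mul_smoothOn hΩ (hpow _)
  have hweak := hs.weak_eq hΩ hφ
  have hK : IsCompact (tsupport Λ) := hΛ.cpt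
  have hI1 : Integrable (fun x => W x ^ (q - 1) * formQ u Λ W x) :=
    integrable_of_support hK hΛ.sub
      ((hpow _).continuousOn.mul (contOn_formQ hΩ hs.smooth hΛ.contDiffOn hWs))
      (fun x hx => by simp [formQ_eq_zero_of_test hx])
  have hI2 : Integrable (fun x => Λ x * (W x ^ (q - 2) * formQ u W W x)) :=
    integrable_of_support hK hΛ.sub
      (hΛ.contDiffOn.continuousOn.mul ((hpow _).continuousOn.mul (contOn_formQ hΩ hs.smooth hWs hWs)))
      (fun x hx => by simp [IsTest.eq_zero hx])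
  have hid : ∀ x, formQ u (fun x => Λ x * W x ^ (q - 1)) W x =
      W x ^ (q - 1) * formQ u Λ W x + (q - 1) * (Λ x * (W x ^ (q - 2) * formQ u W W x)) := by
    intro x
    by_cases hx : x ∈ Ω
    · have hΛd : DifferentiableAt ℝ Λ x := diffAt hΩ hΛ.contDiffOn hx
      have hWd : DifferentiableAt ℝ W x := diffAt hΩ hWs hx
      have hWp : 0 < W x := hs.W_pos hx
      have hpd : DifferentiableAt ℝ (fun y => W y ^ (q - 1)) x := diffAt hΩ (hpow _) hx
      have hd1 : HasDerivAt (fun t : ℝ => t ^ (q - 1)) ((q - 1) * W x ^ (q - 1 - 1)) (W x) :=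
        Real.hasDerivAt_rpow_const (Or.inl hWp.ne')
      have g1 : gr (fun y => W y ^ (q - 1)) x = ((q - 1) * W x ^ (q - 1 - 1)) • gr W x :=
        gr_comp hd1 hWd
      have g2 : gr (fun x => Λ x * W x ^ (q - 1)) x =
          W x ^ (q - 1) • gr Λ x + Λ x • gr (fun y => W y ^ (q - 1)) x := gr_mul hΛd hpd
      have e1 : q - 1 - 1 = q - 2 := by ring
      rw [formQ_eq, g2, g1, e1]
      simp only [Qv_add_left, Qv_smul_left, formQ_eq]
      ring
    · have hx' : x ∉ tsupport Λ := fun h => hx (hΛ.sub h)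
      have hx2 : x ∉ tsupport (fun x => Λ x * W x ^ (q - 1)) := fun h => hx (hφ.sub h)
      rw [formQ_eq_zero_of_test hx2, formQ_eq_zero_of_test hx', IsTest.eq_zero hx']
      simp
  have h1 : ∫ x, (W x ^ (q - 1) * formQ u Λ W x +
      (q - 1) * (Λ x * (W x ^ (q - 2) * formQ u W W x))) = 0 := by
    rw [← hweak]
    exact integral_congr_ae (Filter.Eventually.of_forall fun x => (hid x).symm)
  rw [integral_add hI1 (hI2.const_mul _), integral_const_mul] at h1
  linarith

end IsAffineMaximal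

section Energy

variable {x₀ : Fin n → ℝ}

open IsAffineMaximal

/-- The exponent relation. -/
lemma W_rpow_mul_det (hs : IsAffineMaximal Ω u) {x : Fin n → ℝ} (hx : x ∈ Ω) (β : ℝ) :
    weightW u x ^ ((1 - β) * (((n : ℝ) + 2) / ((n : ℝ) + 1))) * (hess u x).det =
      (hess u x).det ^ β := by
  have hn : (0 : ℝ) ≤ n := Nat.cast_nonneg n
  have hD := hs.det_pos hx
  unfold weightW
  rw [← Real.rpow_mul hD.le]
  have e : -((n : ℝ) + 1) / ((n : ℝ) + 2) * ((1 - β) * (((n : ℝ) + 2) / ((n : ℝ) + 1))) = β - 1 := by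
    have h1 : (n : ℝ) + 1 ≠ 0 := by linarith
    have h2 : (n : ℝ) + 2 ≠ 0 := by linarith
    field_simp
    ring
  rw [e, Real.rpow_sub_one hD.ne']
  field_simp

/-- The energy estimate for the primal exhaustion, `0 ≤ q ≤ 1`. -/
lemma energy_primal (hs : IsAffineMaximal Ω u) (hΩ : IsOpen Ω)
    (hcpt : ∀ s : ℝ, IsCompact {x | x ∈ Ω ∧ uBar u x₀ x ≤ s}) {q : ℝ} (hq0 : 0 ≤ q) (hq1 : q ≤ 1)
    (t : ℝ) :
    ∫ x, - (weightW u x ^ q * formQ u (testOf Ω (uBar u x₀) fun s => stepΓ (s - t)) (uBar u x₀) x)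
      ≤ n * ∫ x, testOf Ω (uBar u x₀) (fun s => stepΓ (s - t)) x *
          (weightW u x ^ q * (hess u x).det) := by
  classical
  set f := uBar u x₀ with hfdef
  have hf : ContDiffOn ℝ ∞ f Ω := contDiffOn_uBar hs.smooth
  set W := weightW u with hW
  have hWs : ContDiffOn ℝ ∞ W Ω := hs.contDiffOn_W hΩ
  have hpow : ∀ p : ℝ, ContDiffOn ℝ ∞ (fun x => W x ^ p) Ω := fun p => hs.contDiffOn_W_rpow hΩ p
  have hDc : ContDiffOn ℝ ∞ (fun x => (hess u x).det) Ω := contDiffOn_detHess hΩ hs.smooth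
  set φ := testOf Ω f fun s => stepΓ (s - t) with hφdef
  set Λ := testOf Ω f fun s => stepΛ (s - t) with hΛdef
  have hφ : IsTest Ω φ := isTest_testOf hΩ hf (hcpt (t + 1))
    (stepΓ_contDiff.comp (contDiff_id.sub contDiff_const)) (fun s hs' => stepΓ_zero (by linarith))
  have hΛ : IsTest Ω Λ := isTest_testOf hΩ hf (hcpt (t + 1))
    (stepΛ_contDiff.comp (contDiff_id.sub contDiff_const)) (fun s hs' => stepΛ_zero (by linarith))
  have hψ : IsTest Ω (fun x => φ x * W x ^ q) := hφ.mul_smoothOn hΩ (hpow _)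
  -- integration by parts
  have hibp := ibp_master hΩ hs.smooth (fun x hx => hs.det_ne hx) hψ hf
  -- the pointwise Leibniz rule
  have hpt : ∀ x, formQ u (fun x => φ x * W x ^ q) f x =
      W x ^ q * formQ u φ f x - q * (W x ^ (q - 1) * formQ u Λ W x) := by
    intro x
    by_cases hx : x ∈ Ω
    · have hφd : DifferentiableAt ℝ φ x := diffAt hΩ hφ.contDiffOn hx
      have hWd : DifferentiableAt ℝ W x := diffAt hΩ hWs hx
      have hWp : 0 < W x := hs.W_pos hx
      have hpd : DifferentiableAt ℝ (fun y => W y ^ q) x := diffAt hΩ (hpow _) hx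
      have hd1 : HasDerivAt (fun t : ℝ => t ^ q) (q * W x ^ (q - 1)) (W x) :=
        Real.hasDerivAt_rpow_const (Or.inl hWp.ne')
      have g1 : gr (fun y => W y ^ q) x = (q * W x ^ (q - 1)) • gr W x := gr_comp hd1 hWd
      have g2 : gr (fun x => φ x * W x ^ q) x = W x ^ q • gr φ x + φ x • gr (fun y => W y ^ q) x :=
        gr_mul hφd hpd
      have hd2 : HasDerivAt (fun s => stepΛ (s - t)) (- stepΓ (f x - t)) (f x) := by
        have := (stepΛ_hasDerivAt (f x - t)).comp (f x) ((hasDerivAt_id (f x)).sub_const t)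
        simpa [Function.comp_def] using this
      have g3 : gr Λ x = (- stepΓ (f x - t)) • gr f x := gr_testOf hΩ hf hx hd2
      have e1 : φ x = stepΓ (f x - t) := testOf_eq_of_mem hx
      have hsym : Qv (hess u x).adjugate (gr f x) (gr W x) =
          Qv (hess u x).adjugate (gr W x) (gr f x) := Qv_symm (hs.adj_symm hx) _ _
      rw [formQ_eq, g2, g1, formQ_eq, formQ_eq, g3]
      simp only [Qv_add_left, Qv_smul_left]
      rw [e1, hsym]
      ring
    · have hx1 : x ∉ tsupport (fun x => φ x * W x ^ q) := fun h => hx (hψ.sub h)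
      have hx2 : x ∉ tsupport φ := fun h => hx (hφ.sub h)
      have hx3 : x ∉ tsupport Λ := fun h => hx (hΛ.sub h)
      rw [formQ_eq_zero_of_test hx1, formQ_eq_zero_of_test hx2, formQ_eq_zero_of_test hx3]
      simp
  have hK1 : IsCompact (tsupport φ) := hφ.cpt
  have hK2 : IsCompact (tsupport Λ) := hΛ.cpt
  have hI1 : Integrable (fun x => W x ^ q * formQ u φ f x) :=
    integrable_of_support hK1 hφ.sub
      ((hpow _).continuousOn.mul (contOn_formQ hΩ hs.smooth hφ.contDiffOn hf))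
      (fun x hx => by simp [formQ_eq_zero_of_test hx])
  have hI2 : Integrable (fun x => W x ^ (q - 1) * formQ u Λ W x) :=
    integrable_of_support hK2 hΛ.sub
      ((hpow _).continuousOn.mul (contOn_formQ hΩ hs.smooth hΛ.contDiffOn hWs))
      (fun x hx => by simp [formQ_eq_zero_of_test hx])
  have h1 : ∫ x, formQ u (fun x => φ x * W x ^ q) f x =
      (∫ x, W x ^ q * formQ u φ f x) - q * ∫ x, W x ^ (q - 1) * formQ u Λ W x := by
    have h0 := integral_sub hI1 (hI2.const_mul q)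
    rw [integral_const_mul] at h0
    rw [← h0]
    exact integral_congr_ae (Filter.Eventually.of_forall hpt)
  have h2 := hs.cross_term hΩ hΛ q
  -- the sign of the cross term
  have h3 : 0 ≤ ∫ x, Λ x * (W x ^ (q - 2) * formQ u W W x) := by
    refine integral_nonneg fun x => ?_
    by_cases hx : x ∈ Ω
    · have e1 : Λ x = stepΛ (f x - t) := testOf_eq_of_mem hx
      rw [e1]
      exact mul_nonneg (stepΛ_nonneg _)
        (mul_nonneg (Real.rpow_nonneg (hs.W_pos hx).le _) (hs.formQ_nonneg hx W))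
    · have e1 : Λ x = 0 := testOf_eq_of_notMem hx
      simp [e1]
  -- the right hand side
  have h4 : ∫ x, φ x * W x ^ q * opL u f x =
      n * ∫ x, φ x * (W x ^ q * (hess u x).det) := by
    rw [← integral_const_mul]
    refine integral_congr_ae (Filter.Eventually.of_forall fun x => ?_)
    by_cases hx : x ∈ Ω
    · change φ x * W x ^ q * opL u f x = _
      rw [hfdef, opL_uBar hs hΩ hx]
      ring
    · have e1 : φ x = 0 := testOf_eq_of_notMem hx
      simp [e1]
  rw [integral_neg]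
  rw [h1, h2, h4] at hibp
  have h5 : 0 ≤ q * ((1 - q) * ∫ x, Λ x * (W x ^ (q - 2) * formQ u W W x)) :=
    mul_nonneg hq0 (mul_nonneg (by linarith) h3)
  linarith

/-- The energy estimate for the dual exhaustion, `1 ≤ q ≤ (n+2)/(n+1)`. -/
lemma energy_dual (hs : IsAffineMaximal Ω u) (hΩ : IsOpen Ω)
    (hcpt : ∀ s : ℝ, IsCompact {x | x ∈ Ω ∧ vDual u x₀ x ≤ s}) {q : ℝ} (hq0 : 1 ≤ q)
    (hq1 : q ≤ ((n : ℝ) + 2) / ((n : ℝ) + 1)) (t : ℝ) :
    ∫ x, - (weightW u x ^ q * formQ u (testOf Ω (vDual u x₀) fun s => stepΓ (s - t)) (vDual u x₀) x)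
      ≤ n * ∫ x, testOf Ω (vDual u x₀) (fun s => stepΓ (s - t)) x *
          (weightW u x ^ q * (hess u x).det) := by
  classical
  set f := vDual u x₀ with hfdef
  have hf : ContDiffOn ℝ ∞ f Ω := contDiffOn_vDual hΩ hs.smooth
  set W := weightW u with hW
  have hWs : ContDiffOn ℝ ∞ W Ω := hs.contDiffOn_W hΩ
  have hpow : ∀ p : ℝ, ContDiffOn ℝ ∞ (fun x => W x ^ p) Ω := fun p => hs.contDiffOn_W_rpow hΩ p
  have hDc : ContDiffOn ℝ ∞ (fun x => (hess u x).det) Ω := contDiffOn_detHess hΩ hs.smooth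
  set φ := testOf Ω f fun s => stepΓ (s - t) with hφdef
  set Λ := testOf Ω f fun s => stepΛ (s - t) with hΛdef
  have hφ : IsTest Ω φ := isTest_testOf hΩ hf (hcpt (t + 1))
    (stepΓ_contDiff.comp (contDiff_id.sub contDiff_const)) (fun s hs' => stepΓ_zero (by linarith))
  have hΛ : IsTest Ω Λ := isTest_testOf hΩ hf (hcpt (t + 1))
    (stepΛ_contDiff.comp (contDiff_id.sub contDiff_const)) (fun s hs' => stepΛ_zero (by linarith))
  -- the weight
  let ρ : (Fin n → ℝ) → ℝ := fun x => W x ^ q * (hess u x).det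
  have hρs : ContDiffOn ℝ ∞ ρ Ω := (hpow q).mul hDc
  have hψ : IsTest Ω (fun x => φ x * ρ x) := hφ.mul_smoothOn hΩ hρs
  have hrad := integral_radial (x₀ := x₀) hψ
  -- the exponent of `W` in `ρ`
  set γ : ℝ := q - ((n : ℝ) + 2) / ((n : ℝ) + 1) with hγ
  have hn : (0 : ℝ) ≤ n := Nat.cast_nonneg n
  have hD_eq : ∀ x ∈ Ω, (hess u x).det = W x ^ (- (((n : ℝ) + 2) / ((n : ℝ) + 1))) := by
    intro x hx
    have h1 := W_rpow_dual hs hx
    rw [Real.rpow_neg (hs.W_pos hx).le, h1, inv_inv]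
  have hρ_eq : ∀ x ∈ Ω, ρ x = W x ^ γ := by
    intro x hx
    simp only [ρ]
    rw [hD_eq x hx, ← Real.rpow_add (show 0 < W x from hs.W_pos hx), hγ]
    ring_nf
  -- the pointwise identity
  have hpt : ∀ x, (∑ i, (x i - x₀ i) * pd i (fun x => φ x * ρ x) x) =
      ρ x * (∑ i, (x i - x₀ i) * pd i φ x) - γ * (W x ^ (q - 1) * formQ u Λ W x) := by
    intro x
    by_cases hx : x ∈ Ω
    · have hφd : DifferentiableAt ℝ φ x := diffAt hΩ hφ.contDiffOn hx
      have hρd : DifferentiableAt ℝ ρ x := diffAt hΩ hρs hx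
      have hWd : DifferentiableAt ℝ W x := diffAt hΩ hWs hx
      have hWp : 0 < W x := hs.W_pos hx
      have hDp : 0 < (hess u x).det := hs.det_pos hx
      -- the gradient of `ρ`
      have hd1 : HasDerivAt (fun t : ℝ => t ^ γ) (γ * W x ^ (γ - 1)) (W x) :=
        Real.hasDerivAt_rpow_const (Or.inl hWp.ne')
      have hρpd : ∀ i, pd i ρ x = γ * W x ^ (γ - 1) * pd i W x := by
        intro i
        have h1 : pd i ρ x = pd i (fun y => W y ^ γ) x :=
          pd_congr_on hΩ hx (fun y hy => hρ_eq y hy) i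
        rw [h1]
        exact pd_comp hd1 hWd i
      -- the form with `v`
      have hd2 : HasDerivAt (fun s => stepΛ (s - t)) (- stepΓ (f x - t)) (f x) := by
        have := (stepΛ_hasDerivAt (f x - t)).comp (f x) ((hasDerivAt_id (f x)).sub_const t)
        simpa [Function.comp_def] using this
      have g3 : gr Λ x = (- stepΓ (f x - t)) • gr f x := gr_testOf hΩ hf hx hd2
      have e1 : φ x = stepΓ (f x - t) := testOf_eq_of_mem hx
      have h2 : formQ u Λ W x = - (φ x * ((hess u x).det * ∑ i, (x i - x₀ i) * pd i W x)) := by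
        have h3 := formQ_vDual (x₀ := x₀) hΩ hs.smooth hx W
        have hsym : Qv (hess u x).adjugate (gr f x) (gr W x) =
            Qv (hess u x).adjugate (gr W x) (gr f x) := Qv_symm (hs.adj_symm hx) _ _
        rw [formQ_eq, g3, Qv_smul_left, hsym, ← formQ_eq, hfdef, h3, e1]
        ring
      -- powers of `W`
      have h4 : W x ^ (γ - 1) = W x ^ (q - 1) * (hess u x).det := by
        rw [hD_eq x hx, ← Real.rpow_add hWp, hγ]
        ring_nf
      have h5 : ∀ i, pd i (fun x => φ x * ρ x) x = pd i φ x * ρ x + φ x * pd i ρ x :=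
        fun i => pd_mul hφd hρd i
      have h6 : ∀ i, (x i - x₀ i) * pd i (fun x => φ x * ρ x) x =
          ρ x * ((x i - x₀ i) * pd i φ x) +
            (γ * W x ^ (q - 1) * φ x * (hess u x).det) * ((x i - x₀ i) * pd i W x) := by
        intro i
        rw [h5, hρpd, h4]
        ring
      simp only [h6, Finset.sum_add_distrib, ← Finset.mul_sum]
      rw [h2]
      ring
    · have hx1 : x ∉ tsupport (fun x => φ x * ρ x) := fun h => hx (hψ.sub h)
      have hx2 : x ∉ tsupport φ := fun h => hx (hφ.sub h)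
      have hx3 : x ∉ tsupport Λ := fun h => hx (hΛ.sub h)
      simp [IsTest.pd_eq_zero hx1, IsTest.pd_eq_zero hx2, formQ_eq_zero_of_test hx3]
  -- the target integrand
  have htarget : ∀ x, - (W x ^ q * formQ u φ f x) =
      - (ρ x * ∑ i, (x i - x₀ i) * pd i φ x) := by
    intro x
    by_cases hx : x ∈ Ω
    · rw [hfdef, formQ_vDual hΩ hs.smooth hx φ]
      simp only [ρ]
      ring
    · have hx2 : x ∉ tsupport φ := fun h => hx (hφ.sub h)
      simp [formQ_eq_zero_of_test hx2, IsTest.pd_eq_zero hx2]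
  have hK1 : IsCompact (tsupport φ) := hφ.cpt
  have hK2 : IsCompact (tsupport Λ) := hΛ.cpt
  have hI1 : Integrable (fun x => ρ x * ∑ i, (x i - x₀ i) * pd i φ x) := by
    refine integrable_of_support hK1 hφ.sub (hρs.continuousOn.mul ?_) ?_
    · refine continuousOn_finsetSum _ fun i _ => ?_
      exact (contDiff_coord i (x₀ i)).continuous.continuousOn.mul (hφ.pd i).contDiffOn.continuousOn
    · intro x hx
      simp [IsTest.pd_eq_zero hx]
  have hI2 : Integrable (fun x => W x ^ (q - 1) * formQ u Λ W x) :=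
    integrable_of_support hK2 hΛ.sub
      ((hpow _).continuousOn.mul (contOn_formQ hΩ hs.smooth hΛ.contDiffOn hWs))
      (fun x hx => by simp [formQ_eq_zero_of_test hx])
  have h1 : ∫ x, ∑ i, (x i - x₀ i) * pd i (fun x => φ x * ρ x) x =
      (∫ x, ρ x * (∑ i, (x i - x₀ i) * pd i φ x)) - γ * ∫ x, W x ^ (q - 1) * formQ u Λ W x := by
    have h0 := integral_sub hI1 (hI2.const_mul γ)
    rw [integral_const_mul] at h0
    rw [← h0]
    exact integral_congr_ae (Filter.Eventually.of_forall hpt)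
  have h2 := hs.cross_term hΩ hΛ q
  have h3 : 0 ≤ ∫ x, Λ x * (W x ^ (q - 2) * formQ u W W x) := by
    refine integral_nonneg fun x => ?_
    by_cases hx : x ∈ Ω
    · have e1 : Λ x = stepΛ (f x - t) := testOf_eq_of_mem hx
      rw [e1]
      exact mul_nonneg (stepΛ_nonneg _)
        (mul_nonneg (Real.rpow_nonneg (hs.W_pos hx).le _) (hs.formQ_nonneg hx W))
    · have e1 : Λ x = 0 := testOf_eq_of_notMem hx
      simp [e1]
  rw [integral_congr_ae (Filter.Eventually.of_forall htarget), integral_neg]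
  rw [h1, h2] at hrad
  have hγ0 : γ ≤ 0 := by rw [hγ]; linarith
  have h5 : 0 ≤ γ * ((1 - q) * ∫ x, Λ x * (W x ^ (q - 2) * formQ u W W x)) := by
    have h6 : (1 - q) * ∫ x, Λ x * (W x ^ (q - 2) * formQ u W W x) ≤ 0 :=
      mul_nonpos_of_nonpos_of_nonneg (by linarith) h3
    nlinarith
  change - ∫ x, ρ x * ∑ i, (x i - x₀ i) * pd i φ x ≤ n * ∫ x, φ x * ρ x
  have h7 : ∫ x, (fun x => φ x * ρ x) x = ∫ x, φ x * ρ x := rfl
  rw [h7] at hrad
  linarith

lemma contOn_det_rpow (hs : IsAffineMaximal Ω u) (hΩ : IsOpen Ω) (β : ℝ) :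
    ContinuousOn (fun x => (hess u x).det ^ β) Ω :=
  (contDiffOn_detHess hΩ hs.smooth).continuousOn.rpow_const fun x hx => Or.inl (hs.det_ne hx)

/-- The primal Liouville theorem, with a general exponent. -/
theorem liouville_primal_beta (hs : IsAffineMaximal Ω u) (hΩ : IsOpen Ω) (hconn : IsPreconnected Ω)
    (hx₀ : x₀ ∈ Ω) (hcpt : ∀ s : ℝ, IsCompact {x | x ∈ Ω ∧ uBar u x₀ x ≤ s})
    {β : ℝ} (hβ1 : 1 / ((n : ℝ) + 2) < β) (hβ2 : β ≤ 1)
    (hV : ¬ IntegrableOn
      (fun s : ℝ => (∫ x in {x | x ∈ Ω ∧ uBar u x₀ x < s}, (hess u x).det ^ β)⁻¹) (Set.Ioi 1))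
    {x y : Fin n → ℝ} (hx : x ∈ Ω) (hy : y ∈ Ω) : (hess u x).det = (hess u y).det := by
  have hf := contDiffOn_uBar (x₀ := x₀) hs.smooth
  have hn : (0 : ℝ) ≤ n := Nat.cast_nonneg n
  have hn1 : (0 : ℝ) < (n : ℝ) + 1 := by linarith
  have hn2 : (0 : ℝ) < (n : ℝ) + 2 := by linarith
  set q : ℝ := (1 - β) * (((n : ℝ) + 2) / ((n : ℝ) + 1)) with hq
  have hq0 : 0 ≤ q := mul_nonneg (by linarith) (by positivity)
  have hq1 : q < 1 := by
    rw [hq, mul_div_assoc', div_lt_one hn1]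
    rw [div_lt_iff₀ hn2] at hβ1
    nlinarith
  refine hs.det_const_of_energy (f := uBar u x₀) (ρ := fun x => (hess u x).det ^ β) (q := q)
    (C := n) hΩ hconn hf hcpt (contOn_det_rpow hs hΩ β)
    (fun z hz => Real.rpow_pos_of_pos (hs.det_pos hz) β) hn hq1.ne ?_ hx₀
    (by rw [uBar_self]; norm_num) hV hx hy
  intro t
  refine (energy_primal hs hΩ hcpt hq0 hq1.le t).trans (le_of_eq ?_)
  congr 1
  refine integral_congr_ae (Filter.Eventually.of_forall fun z => ?_)
  by_cases hz : z ∈ Ω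
  · change _ * (weightW u z ^ q * (hess u z).det) = _ * (hess u z).det ^ β
    rw [W_rpow_mul_det hs hz β]
  · have : testOf Ω (uBar u x₀) (fun s => stepΓ (s - t)) z = 0 := testOf_eq_of_notMem hz
    simp [this]

/-- The dual Liouville theorem, with a general exponent. -/
theorem liouville_dual_beta (hs : IsAffineMaximal Ω u) (hΩ : IsOpen Ω) (hconn : IsPreconnected Ω)
    (hx₀ : x₀ ∈ Ω) (hcpt : ∀ s : ℝ, IsCompact {x | x ∈ Ω ∧ vDual u x₀ x ≤ s})
    {β : ℝ} (hβ1 : 0 ≤ β) (hβ2 : β < 1 / ((n : ℝ) + 2))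
    (hV : ¬ IntegrableOn
      (fun s : ℝ => (∫ x in {x | x ∈ Ω ∧ vDual u x₀ x < s}, (hess u x).det ^ β)⁻¹) (Set.Ioi 1))
    {x y : Fin n → ℝ} (hx : x ∈ Ω) (hy : y ∈ Ω) : (hess u x).det = (hess u y).det := by
  have hf := contDiffOn_vDual (x₀ := x₀) hΩ hs.smooth
  have hn : (0 : ℝ) ≤ n := Nat.cast_nonneg n
  have hn1 : (0 : ℝ) < (n : ℝ) + 1 := by linarith
  have hn2 : (0 : ℝ) < (n : ℝ) + 2 := by linarith
  set q : ℝ := (1 - β) * (((n : ℝ) + 2) / ((n : ℝ) + 1)) with hq
  have hq0 : 1 < q := by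
    rw [hq, mul_div_assoc', one_lt_div hn1]
    rw [lt_div_iff₀ hn2] at hβ2
    nlinarith
  have hq1 : q ≤ ((n : ℝ) + 2) / ((n : ℝ) + 1) := by
    rw [hq]
    have : 0 ≤ ((n : ℝ) + 2) / ((n : ℝ) + 1) := by positivity
    nlinarith
  refine hs.det_const_of_energy (f := vDual u x₀) (ρ := fun x => (hess u x).det ^ β) (q := q)
    (C := n) hΩ hconn hf hcpt (contOn_det_rpow hs hΩ β)
    (fun z hz => Real.rpow_pos_of_pos (hs.det_pos hz) β) hn hq0.ne' ?_ hx₀
    (by rw [vDual_self]; norm_num) hV hx hy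
  intro t
  refine (energy_dual hs hΩ hcpt hq0.le hq1 t).trans (le_of_eq ?_)
  congr 1
  refine integral_congr_ae (Filter.Eventually.of_forall fun z => ?_)
  by_cases hz : z ∈ Ω
  · change _ * (weightW u z ^ q * (hess u z).det) = _ * (hess u z).det ^ β
    rw [W_rpow_mul_det hs hz β]
  · have : testOf Ω (vDual u x₀) (fun s => stepΓ (s - t)) z = 0 := testOf_eq_of_notMem hz
    simp [this]

end Energy

end Vale.Agent.Lib.P252
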