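import Vale.Agent.Lib.P252.SubLevel

open scoped ContDiff Topology Matrix
open MeasureTheory Set Filter

namespace Vale.Agent.Lib.P252

variable {n : ℕ} {Ω : Set (Fin n → ℝ)} {u : (Fin n → ℝ) → ℝ} {x₀ : Fin n → ℝ}

/-- The gradient map of `ū`. -/
noncomputable def gradMap (u : (Fin n → ℝ) → ℝ) (x₀ x : Fin n → ℝ) : Fin n → ℝ :=
  fun i => pd i (uBar u x₀) x

lemma hasFDerivAt_gradMap (hΩ : IsOpen Ω) (hu : ContDiffOn ℝ ∞ u Ω) {x : Fin n → ℝ} (hx : x ∈ Ω) :
    HasFDerivAt (gradMap u x₀) (LinearMap.toContinuousLinearMap (Matrix.toLin' (hess u x))) x := by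
  rw [hasFDerivAt_pi']
  intro i
  have hb := contDiffOn_uBar (x₀ := x₀) hu
  have h1 : HasFDerivAt (pd i (uBar u x₀)) (fderiv ℝ (pd i (uBar u x₀)) x) x :=
    (diffAt hΩ (contDiffOn_pd hΩ hb i) hx).hasFDerivAt
  have e : (ContinuousLinearMap.proj i).comp
      (LinearMap.toContinuousLinearMap (Matrix.toLin' (hess u x))) =
      fderiv ℝ (pd i (uBar u x₀)) x := by
    refine ContinuousLinearMap.ext fun w => ?_
    rw [fderiv_eq_sum]
    simp only [ContinuousLinearMap.comp_apply, ContinuousLinearMap.proj_apply,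
      LinearMap.coe_toContinuousLinearMap', Matrix.toLin'_apply, Matrix.mulVec, dotProduct]
    refine Finset.sum_congr rfl fun j _ => ?_
    rw [pd2_uBar hΩ hu hx]
    have := pd_comm hΩ hu hx i j
    simp only [hess, Matrix.of_apply]
    rw [this]
    ring
  rw [e]
  exact h1

lemma volume_image_le (hΩ : IsOpen Ω) (hu : ContDiffOn ℝ ∞ u Ω)
    (hpos : ∀ x ∈ Ω, (hess u x).PosDef) {s : Set (Fin n → ℝ)} (hs : MeasurableSet s) (hsub : s ⊆ Ω) :
    volume (gradMap u x₀ '' s) ≤ ∫⁻ x in s, ENNReal.ofReal ((hess u x).det) := by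
  have h := addHaar_image_le_lintegral_abs_det_fderiv (μ := (volume : Measure (Fin n → ℝ))) hs
    (f := gradMap u x₀) (fun x hx => (hasFDerivAt_gradMap (x₀ := x₀) hΩ hu (hsub hx)).hasFDerivWithinAt)
  refine h.trans (le_of_eq (setLIntegral_congr_fun hs fun x hx => ?_))
  have e : (LinearMap.toContinuousLinearMap (Matrix.toLin' (hess u x))).det = (hess u x).det := by
    rw [ContinuousLinearMap.det]
    simp [LinearMap.det_toLin']
  simp only [e]
  rw [abs_of_pos (hpos x (hsub hx)).det_pos]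

lemma sum_mul_abs_le (p y : Fin n → ℝ) : |∑ i, p i * y i| ≤ n * (‖p‖ * ‖y‖) := by
  calc |∑ i, p i * y i| ≤ ∑ i, |p i * y i| := Finset.abs_sum_le_sum_abs _ _
    _ ≤ ∑ _i : Fin n, ‖p‖ * ‖y‖ := by
        refine Finset.sum_le_sum fun i _ => ?_
        rw [abs_mul]
        exact mul_le_mul (norm_le_pi_norm p i) (norm_le_pi_norm y i) (abs_nonneg _) (norm_nonneg _)
    _ = n * (‖p‖ * ‖y‖) := by simp

/-- The gradient image of a sublevel set contains a ball whose radius is proportional to the level. -/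
lemma ball_subset_image (hΩ : IsOpen Ω) (hu : ContDiffOn ℝ ∞ u Ω) (hx₀ : x₀ ∈ Ω)
    (hcpt : ∀ s : ℝ, IsCompact {x | x ∈ Ω ∧ uBar u x₀ x ≤ s}) {R : ℝ} (hR0 : 0 ≤ R)
    (hR : ∀ x ∈ Ω, ‖x - x₀‖ ≤ R) {s : ℝ} (hs : 0 < s) :
    Metric.ball (0 : Fin n → ℝ) (s / (n * R + 1)) ⊆ gradMap u x₀ '' {x | x ∈ Ω ∧ uBar u x₀ x < s} := by
  intro p hp
  have hb := contDiffOn_uBar (x₀ := x₀) hu
  have hden : 0 < (n : ℝ) * R + 1 := by positivity
  have hpn : ‖p‖ < s / (n * R + 1) := by simpa [dist_eq_norm] using hp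
  set φ : (Fin n → ℝ) → ℝ := fun y => uBar u x₀ y - ∑ i, p i * (y i - x₀ i) with hφ
  have hlin : Continuous fun y : Fin n → ℝ => ∑ i, p i * (y i - x₀ i) := by
    refine continuous_finsetSum _ fun i _ => ?_
    exact continuous_const.mul ((continuous_apply i).sub continuous_const)
  have hcoord : ∀ k : Fin n, ContDiff ℝ ∞ (fun y : Fin n → ℝ => p k * (y k - x₀ k)) := fun k =>
    contDiff_const.mul (contDiff_coord k (x₀ k))
  have hlinD : ∀ y : Fin n → ℝ, DifferentiableAt ℝ (fun y : Fin n → ℝ => ∑ i, p i * (y i - x₀ i)) y :=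
    fun y => DifferentiableAt.fun_sum fun k _ => ((hcoord k).differentiable (by simp)) y
  have hpdlin : ∀ (y : Fin n → ℝ) (i : Fin n),
      pd i (fun y : Fin n → ℝ => ∑ k, p k * (y k - x₀ k)) y = p i := by
    intro y i
    rw [pd_sum Finset.univ (f := fun k y => p k * (y k - x₀ k))
      (fun k _ => ((hcoord k).differentiable (by simp)) y) i]
    have h1 : ∀ k, pd i (fun y : Fin n → ℝ => p k * (y k - x₀ k)) y =
        p k * pd i (fun y : Fin n → ℝ => y k - x₀ k) y := fun k =>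
      pd_const_mul _ (((contDiff_coord k (x₀ k)).differentiable (by simp)) y) i
    rw [Finset.sum_congr rfl fun k _ => h1 k]
    simp only [pd_coord]
    rw [Finset.sum_eq_single i]
    · simp
    · intro b _ hb
      simp [Pi.single_apply, hb]
    · simp
  have hcont : ContinuousOn φ {x | x ∈ Ω ∧ uBar u x₀ x ≤ s} :=
    (hb.continuousOn.mono fun x hx => hx.1).sub hlin.continuousOn
  obtain ⟨xs, hxs, hmin⟩ := (hcpt s).exists_isMinOn
    ⟨x₀, hx₀, by rw [uBar_self]; exact hs.le⟩ hcont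
  have hφ0 : φ x₀ = 0 := by simp [hφ, uBar_self]
  have hφs : φ xs ≤ 0 := by
    have : φ xs ≤ φ x₀ := hmin ⟨hx₀, by rw [uBar_self]; exact hs.le⟩
    rwa [hφ0] at this
  have hlt : uBar u x₀ xs < s := by
    have h1 : uBar u x₀ xs ≤ ∑ i, p i * (xs i - x₀ i) := by
      have : φ xs = uBar u x₀ xs - ∑ i, p i * (xs i - x₀ i) := rfl
      linarith
    have h2 := sum_mul_abs_le p (xs - x₀)
    have h3 : ∑ i, p i * (xs i - x₀ i) ≤ n * (‖p‖ * ‖xs - x₀‖) :=
      (le_abs_self _).trans h2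
    have h4 : (n : ℝ) * (‖p‖ * ‖xs - x₀‖) ≤ n * (‖p‖ * R) := by
      apply mul_le_mul_of_nonneg_left _ (Nat.cast_nonneg n)
      exact mul_le_mul_of_nonneg_left (hR xs hxs.1) (norm_nonneg p)
    have h5 : ‖p‖ * (n * R + 1) < s := (lt_div_iff₀ hden).1 hpn
    have h6 : 0 ≤ ‖p‖ := norm_nonneg p
    nlinarith
  have hopen : IsOpen {x | x ∈ Ω ∧ uBar u x₀ x < s} := by
    have := hb.continuousOn.isOpen_inter_preimage hΩ isOpen_Iio (t := Iio s)
    exact this
  have hlocal : IsLocalMin φ xs := by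
    refine Filter.eventually_of_mem (hopen.mem_nhds ⟨hxs.1, hlt⟩) fun y hy => ?_
    exact hmin ⟨hy.1, hy.2.le⟩
  have hder : fderiv ℝ φ xs = 0 := hlocal.fderiv_eq_zero
  refine ⟨xs, ⟨hxs.1, hlt⟩, ?_⟩
  funext i
  have h1 : pd i φ xs = 0 := by simp [pd, hder]
  have h2 : pd i φ xs = pd i (uBar u x₀) xs - p i := by
    rw [hφ, pd_sub (diffAt hΩ hb hxs.1) (hlinD xs), hpdlin]
  simp only [gradMap]
  linarith

/-- Sublevel sets of the dual potential are compact over a bounded domain. -/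
theorem isCompact_subLevel_vDual (hΩ : IsOpen Ω) (hc : Convex ℝ Ω) (hu : ContDiffOn ℝ ∞ u Ω)
    (hpos : ∀ x ∈ Ω, (hess u x).PosDef) (hx₀ : x₀ ∈ Ω)
    (hcpt : ∀ s : ℝ, IsCompact {x | x ∈ Ω ∧ uBar u x₀ x ≤ s}) {R : ℝ}
    (hR : ∀ x ∈ Ω, ‖x - x₀‖ ≤ R) (s : ℝ) :
    IsCompact {x | x ∈ Ω ∧ vDual u x₀ x ≤ s} := by
  obtain ⟨r, hr, hball⟩ := Metric.nhds_basis_closedBall.mem_iff.1 (hΩ.mem_nhds hx₀)
  have hb := contDiffOn_uBar (x₀ := x₀) hu
  have hbdd := (isCompact_closedBall x₀ r).bddAbove_image (hb.continuousOn.mono hball)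
  obtain ⟨M₀, hM₀⟩ := hbdd
  set M := max M₀ 0 with hM
  have hM0 : 0 ≤ M := le_max_right _ _
  have hMb : ∀ z ∈ Metric.closedBall x₀ r, uBar u x₀ z ≤ M := fun z hz =>
    (hM₀ (mem_image_of_mem _ hz)).trans (le_max_left _ _)
  have hR0 : 0 ≤ R := by simpa using hR x₀ hx₀
  -- the key inequality
  have hkey : ∀ x ∈ Ω, 0 ≤ vDual u x₀ x ∧ uBar u x₀ x ≤ R / r * (M + vDual u x₀ x) := by
    intro x hx
    set P := fderiv ℝ (uBar u x₀) x (x - x₀) with hP
    have hv : vDual u x₀ x = P - uBar u x₀ x := rfl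
    have h1 := tangent_le (x₀ := x₀) hΩ hc hu hpos hx hx₀
    rw [uBar_self] at h1
    have e1 : x₀ - x = (-1 : ℝ) • (x - x₀) := by simp
    rw [e1, map_smul, smul_eq_mul, ← hP] at h1
    have hv0 : 0 ≤ vDual u x₀ x := by rw [hv]; linarith
    refine ⟨hv0, ?_⟩
    have hRr : 0 ≤ R / r := div_nonneg hR0 hr.le
    by_cases hd : x = x₀
    · subst hd
      rw [uBar_self]
      positivity
    have hd0 : 0 < ‖x - x₀‖ := norm_pos_iff.2 (sub_ne_zero.2 hd)
    set d := ‖x - x₀‖ with hd_def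
    set z := x₀ + (r / d) • (x - x₀) with hz
    have hzb : z ∈ Metric.closedBall x₀ r := by
      rw [Metric.mem_closedBall, dist_eq_norm, hz, add_sub_cancel_left, norm_smul, Real.norm_eq_abs,
        abs_of_pos (div_pos hr hd0), ← hd_def]
      have : r / d * d = r := by field_simp
      rw [this]
    have h2 := tangent_le (x₀ := x₀) hΩ hc hu hpos hx (hball hzb)
    have e2 : z - x = (r / d - 1) • (x - x₀) := by
      rw [hz, sub_smul, one_smul]
      abel
    rw [e2, map_smul, smul_eq_mul, ← hP] at h2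
    have h3 := hMb z hzb
    have h4 : r / d * P ≤ M + vDual u x₀ x := by rw [hv]; linarith
    have h5 : P ≤ d / r * (M + vDual u x₀ x) := by
      have e3 : P = d / r * (r / d * P) := by field_simp
      rw [e3]
      exact mul_le_mul_of_nonneg_left h4 (by positivity)
    have h6 : d / r ≤ R / r := div_le_div_of_nonneg_right (hR x hx) hr.le
    have h7 : d / r * (M + vDual u x₀ x) ≤ R / r * (M + vDual u x₀ x) :=
      mul_le_mul_of_nonneg_right h6 (add_nonneg hM0 hv0)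
    linarith
  set S := R / r * (M + s) with hS
  have hvc := contDiffOn_vDual (x₀ := x₀) hΩ hu
  have hcl : IsClosed ({x | x ∈ Ω ∧ uBar u x₀ x ≤ S} ∩ vDual u x₀ ⁻¹' Iic s) :=
    ContinuousOn.preimage_isClosed_of_isClosed
      (hvc.continuousOn.mono fun x hx => hx.1) (hcpt S).isClosed isClosed_Iic
  have heq : {x | x ∈ Ω ∧ vDual u x₀ x ≤ s} =
      {x | x ∈ Ω ∧ uBar u x₀ x ≤ S} ∩ vDual u x₀ ⁻¹' Iic s := by
    ext x
    constructor
    · rintro ⟨hx, hxs⟩
      refine ⟨⟨hx, ?_⟩, hxs⟩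
      refine (hkey x hx).2.trans ?_
      rw [hS]
      exact mul_le_mul_of_nonneg_left (by linarith) (div_nonneg hR0 hr.le)
    · rintro ⟨⟨hx, -⟩, hxs⟩
      exact ⟨hx, hxs⟩
  rw [heq]
  exact (hcpt S).of_isClosed_subset hcl inter_subset_left

/-- The inverse volumes of the dual sublevel sets over a bounded domain are not integrable. -/
lemma not_integrable_of_bounded (hΩ : IsOpen Ω) (hu : ContDiffOn ℝ ∞ u Ω) (hx₀ : x₀ ∈ Ω)
    (hbd : Bornology.IsBounded Ω) :
    ¬ IntegrableOn (fun s : ℝ => (volume.real {x | x ∈ Ω ∧ vDual u x₀ x < s})⁻¹) (Ioi 1) := by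
  intro hint
  have hvc := contDiffOn_vDual (x₀ := x₀) hΩ hu
  have htop : volume Ω < ⊤ := hbd.measure_lt_top
  set C := volume.real Ω with hC
  have hopen : ∀ s : ℝ, IsOpen {x | x ∈ Ω ∧ vDual u x₀ x < s} := fun s =>
    hvc.continuousOn.isOpen_inter_preimage hΩ isOpen_Iio (t := Iio s)
  have hpos : ∀ s ∈ Ioi (1 : ℝ), 0 < volume.real {x | x ∈ Ω ∧ vDual u x₀ x < s} := by
    intro s hs
    have hne : {x | x ∈ Ω ∧ vDual u x₀ x < s}.Nonempty := ⟨x₀, hx₀, by
      rw [vDual_self]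
      linarith [mem_Ioi.1 hs]⟩
    have h1 := (hopen s).measure_pos volume hne
    have h2 : volume {x | x ∈ Ω ∧ vDual u x₀ x < s} < ⊤ :=
      (measure_mono fun x hx => hx.1).trans_lt htop
    exact ENNReal.toReal_pos h1.ne' h2.ne
  have hle : ∀ s : ℝ, volume.real {x | x ∈ Ω ∧ vDual u x₀ x < s} ≤ C := fun s =>
    measureReal_mono (fun x hx => hx.1) htop.ne
  have hCpos : 0 < C := (hpos 2 (by simp)).trans_le (hle 2)
  have hconst : IntegrableOn (fun _ : ℝ => C⁻¹) (Ioi 1) := by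
    refine Integrable.mono hint aestronglyMeasurable_const ?_
    refine (ae_restrict_iff' measurableSet_Ioi).2 (Eventually.of_forall fun s hs => ?_)
    have h1 := hpos s hs
    rw [Real.norm_of_nonneg (inv_pos.2 hCpos).le, Real.norm_of_nonneg (inv_pos.2 h1).le]
    exact inv_anti₀ h1 (hle s)
  rw [integrableOn_const_iff] at hconst
  rcases hconst with h | h
  · exact (inv_pos.2 hCpos).ne' (by simpa using h)
  · simp at h

/-- There is no Euclidean complete solution over a bounded convex domain. -/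
theorem no_bounded (hn : 0 < n) (hs : IsAffineMaximal Ω u) (hΩ : IsOpen Ω) (hc : Convex ℝ Ω)
    (hbd : Bornology.IsBounded Ω) (hne : Ω.Nonempty) (hE : IsEuclideanComplete Ω u) : False := by
  obtain ⟨x₀, hx₀⟩ := hne
  have hu := hs.smooth
  have hpos := hs.posDef
  have hcpt := isCompact_subLevel_of_complete (x₀ := x₀) hΩ hc hu hpos hx₀ hE
  obtain ⟨R, hR'⟩ := hbd.subset_closedBall x₀
  have hR : ∀ x ∈ Ω, ‖x - x₀‖ ≤ R := fun x hx => by
    have := hR' hx
    rwa [Metric.mem_closedBall, dist_eq_norm] at this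
  have hR0 : 0 ≤ R := by simpa using hR x₀ hx₀
  have hcptv := isCompact_subLevel_vDual hΩ hc hu hpos hx₀ hcpt hR
  have hconst : ∀ x ∈ Ω, (hess u x).det = (hess u x₀).det := fun x hx =>
    liouville_dual hs hΩ hc.isPreconnected hx₀ hcptv (not_integrable_of_bounded hΩ hu hx₀ hbd) hx hx₀
  set c := (hess u x₀).det with hc_def
  have htop : volume Ω < ⊤ := hbd.measure_lt_top
  set Kc := ENNReal.ofReal c * volume Ω with hKc
  have hKtop : Kc ≠ ⊤ := ENNReal.mul_ne_top ENNReal.ofReal_ne_top htop.ne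
  have hden : 0 < (n : ℝ) * R + 1 := by positivity
  have hb := contDiffOn_uBar (x₀ := x₀) hu
  have hmain : ∀ s : ℝ, 0 < s → ENNReal.ofReal ((2 * (s / (n * R + 1))) ^ n) ≤ Kc := by
    intro s hs0
    have hε : 0 < s / ((n : ℝ) * R + 1) := div_pos hs0 hden
    have h1 := Real.volume_pi_ball (0 : Fin n → ℝ) hε
    simp only [Fintype.card_fin] at h1
    rw [← h1]
    have hopen : IsOpen {x | x ∈ Ω ∧ uBar u x₀ x < s} :=
      hb.continuousOn.isOpen_inter_preimage hΩ isOpen_Iio (t := Iio s)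
    calc volume (Metric.ball (0 : Fin n → ℝ) (s / (n * R + 1)))
        ≤ volume (gradMap u x₀ '' {x | x ∈ Ω ∧ uBar u x₀ x < s}) :=
          measure_mono (ball_subset_image hΩ hu hx₀ hcpt hR0 hR hs0)
      _ ≤ ∫⁻ x in {x | x ∈ Ω ∧ uBar u x₀ x < s}, ENNReal.ofReal ((hess u x).det) :=
          volume_image_le hΩ hu hpos hopen.measurableSet (fun x hx => hx.1)
      _ = ∫⁻ _x in {x | x ∈ Ω ∧ uBar u x₀ x < s}, ENNReal.ofReal c :=
          setLIntegral_congr_fun hopen.measurableSet fun x hx => by rw [hconst x hx.1]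
      _ = ENNReal.ofReal c * volume {x | x ∈ Ω ∧ uBar u x₀ x < s} := by
          rw [setLIntegral_const]
      _ ≤ Kc := mul_le_mul_right (measure_mono fun x hx => hx.1) _
  have hK : 0 ≤ Kc.toReal := ENNReal.toReal_nonneg
  have h1 := hmain (((n : ℝ) * R + 1) * (Kc.toReal + 1)) (by positivity)
  rw [ENNReal.ofReal_le_iff_le_toReal hKtop] at h1
  have e : ((n : ℝ) * R + 1) * (Kc.toReal + 1) / (n * R + 1) = Kc.toReal + 1 := by
    field_simp
  rw [e] at h1
  have h2 : (1 : ℝ) ≤ 2 * (Kc.toReal + 1) := by linarith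
  have h3 : 2 * (Kc.toReal + 1) ≤ (2 * (Kc.toReal + 1)) ^ n :=
    le_self_pow₀ h2 hn.ne'
  linarith

end Vale.Agent.Lib.P252
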