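import Vale.Agent.Lib.P252.CacMain

/-!
The admissible exponents of the Caccioppoli inequality.
-/

namespace Vale.Agent.Lib.P252

namespace Caccio

/-- The exponents for which the Caccioppoli inequality is proved: `p ≥ 3` and the certificate with
parameter `y` exists. -/
def Adm (p : ℕ) (β : ℝ) : Prop :=
  3 ≤ p ∧ ∃ y : ℝ,
    8 * y ^ 2 * ((p : ℝ) - 1) ^ 2 < 2 * ((p : ℝ) - 1) - 1 ∧
    0 < 17/100 + (3/10) * y - ((β - 1/5) / (2 * ((p : ℝ) - 1))) ^ 2 / 2 -
      (3/8) * ((4/3) * (1/2 + y * (3/5 + (β - 1/5) / (2 * ((p : ℝ) - 1))))) ^ 2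

lemma adm_iff {k : ℕ} {β : ℝ} (h : Adm (k + 3) β) : ∃ y, 0 < Dd k y ∧ 0 < Vv k β y := by
  obtain ⟨-, y, h1, h2⟩ := h
  have e : (((k + 3 : ℕ) : ℝ) - 1) = (k : ℝ) + 2 := by
    push_cast
    ring
  rw [e] at h1 h2
  refine ⟨y, ?_, ?_⟩
  · unfold Dd
    linarith
  · unfold Vv val Mm Om
    exact h2

/-- The first family: no perturbation is needed. -/
lemma adm_of_abs {p : ℕ} {β : ℝ} (hp : 3 ≤ p) (h : |β - 1/5| ≤ (3/20) * ((p : ℝ) - 1)) :
    Adm p β := by
  refine ⟨hp, 0, ?_, ?_⟩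
  · have : (3 : ℝ) ≤ p := by exact_mod_cast hp
    nlinarith
  · have hp' : (3 : ℝ) ≤ p := by exact_mod_cast hp
    set α : ℝ := (p : ℝ) - 1 with hα
    have hα2 : 2 ≤ α := by rw [hα]; linarith
    have hω : |(β - 1/5) / (2 * α)| ≤ 3/40 := by
      rw [abs_div, abs_of_pos (by positivity : 0 < 2 * α), div_le_iff₀ (by positivity)]
      linarith
    have h2 : ((β - 1/5) / (2 * α)) ^ 2 ≤ (3/40) ^ 2 := by
      rw [← sq_abs]
      exact pow_le_pow_left₀ (abs_nonneg _) hω 2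
    norm_num
    nlinarith

lemma om_blaschke {α : ℝ} (hα : 0 < α) :
    ((α + 2) / 5 - 1/5) / (2 * α) = 1/10 + 1/(10 * α) := by
  field_simp
  ring

/-- The second family: the pairing of the Blaschke metric. -/
lemma adm_blaschke {p : ℕ} (hp : 3 ≤ p) (hp2 : p ≤ 1000) : Adm p (((p : ℝ) + 1) / 5) := by
  have hp' : (3 : ℝ) ≤ p := by exact_mod_cast hp
  have hp2' : (p : ℝ) ≤ 1000 := by exact_mod_cast hp2
  set α : ℝ := (p : ℝ) - 1 with hα
  have hα2 : 2 ≤ α := by rw [hα]; linarith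
  have hα3 : α ≤ 999 := by rw [hα]; linarith
  have hα0 : 0 < α := by linarith
  have eβ : ((p : ℝ) + 1) / 5 = (α + 2) / 5 := by
    rw [hα]
    ring
  set om : ℝ := ((α + 2) / 5 - 1/5) / (2 * α) with hom
  have homv : om = 1/10 + 1/(10 * α) := om_blaschke hα0
  have hlow : 1/10 ≤ om := by
    rw [homv]
    have : 0 < 1/(10 * α) := by positivity
    linarith
  refine ⟨hp, ?_⟩
  rw [eβ, ← hα, ← hom]
  by_cases h1 : α ≤ 63
  · refine ⟨-1/16, by nlinarith, ?_⟩
    have hup : om ≤ 3/20 := by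
      rw [homv]
      have : 1/(10 * α) ≤ 1/20 := by
        rw [div_le_div_iff₀ (by positivity) (by norm_num)]
        linarith
      linarith
    nlinarith [mul_nonneg (sub_nonneg.2 hlow) (sub_nonneg.2 hup)]
  by_cases h2 : α ≤ 254
  · have h1' : 63 < α := not_le.1 h1
    refine ⟨-1/32, by nlinarith, ?_⟩
    have hup : om ≤ 13/125 := by
      rw [homv]
      have : 1/(10 * α) ≤ 1/250 := by
        rw [div_le_div_iff₀ (by positivity) (by norm_num)]
        linarith
      linarith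
    nlinarith [mul_nonneg (sub_nonneg.2 hlow) (sub_nonneg.2 hup)]
  · have h2' : 254 < α := not_le.1 h2
    refine ⟨-1/64, by nlinarith, ?_⟩
    have hup : om ≤ 101/1000 := by
      rw [homv]
      have : 1/(10 * α) ≤ 1/1000 := by
        rw [div_le_div_iff₀ (by positivity) (by norm_num)]
        linarith
      linarith
    nlinarith [mul_nonneg (sub_nonneg.2 hlow) (sub_nonneg.2 hup)]

end Caccio

end Vale.Agent.Lib.P252
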