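import Vale.Agent.Lib.P252.Hess15

/-!
The algebraic core of the Caccioppoli inequality with a general test function: an explicit certificate
for the combination of the three fields `T q`, `A(q,q)`, `p(q)`, valid for all exponents.
-/

namespace Vale.Agent.Lib.P252

namespace Caccio

/-- The polynomial produced by the combination of the three fields, with the multiplier `T`. -/
noncomputable def Pf (A : Atoms) (α β y x : ℝ) : ℝ :=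
  A.T * A.HH + 2 * (y - 1/2) * (A.T * A.HM) - (y - 1/2) * (A.T * A.MM) +
    (A.T * A.pqq) * (2 * x + (y - 1/2) + 8/5 + (β - 1)) +
    (A.T * A.Aqqq) * (-x + (y - 1/2) * (β - 1) - 4/5) + x * A.T ^ 3 * (4/5 + (β - 1)) +
    (α - 1) * (2 * x * (A.T * A.pqq) - x * (A.T * A.Aqqq) + 2 * (y - 1/2) * A.bc11 + 2 * A.b11 -
      (y - 1/2) * A.c11 - A.bc11)

/-- The Gram form for a covector `z₁ p(q) + z₃ A(q,q) + ζ T q`. -/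
noncomputable def Fv (A : Atoms) (z1 z3 ζ : ℝ) : ℝ :=
  z1 ^ 2 * A.b11 + 2 * z1 * z3 * A.bc11 + z3 ^ 2 * A.c11 + 2 * z1 * ζ * (A.T * A.pqq) +
    2 * z3 * ζ * (A.T * A.Aqqq) + ζ ^ 2 * A.T ^ 3

/-- The Gram form for the antisymmetrised array `q ∧ (z₁ p + z₂ A(q) + ζ T g)`. -/
noncomputable def Ft (A : Atoms) (z1 z2 ζ : ℝ) : ℝ :=
  z1 ^ 2 * (A.T * A.HH) + 2 * z1 * z2 * (A.T * A.HM) + z2 ^ 2 * (A.T * A.MM) +
    (8/5) * z1 * ζ * A.T ^ 3 + 2 * z2 * ζ * A.T ^ 3 + 3 * ζ ^ 2 * A.T ^ 3 -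
    (z1 ^ 2 * A.b11 + 2 * z1 * z2 * A.bc11 + z2 ^ 2 * A.c11 + 2 * z1 * ζ * (A.T * A.pqq) +
      2 * z2 * ζ * (A.T * A.Aqqq) + ζ ^ 2 * A.T ^ 3)

lemma Fv_nonneg (A : Atoms)
    (hv : ∀ z1 z2 z3 z4 z5 z6 z7 : ℝ, 0 ≤ A.fPV z1 z2 z3 z4 z5 z6 z7 z1 z2 z3 z4 z5 z6 z7)
    (z1 z3 ζ : ℝ) : 0 ≤ Fv A z1 z3 ζ := by
  have h := hv z1 0 z3 0 0 (ζ * A.T) 0
  have e : A.fPV z1 0 z3 0 0 (ζ * A.T) 0 z1 0 z3 0 0 (ζ * A.T) 0 = Fv A z1 z3 ζ := by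
    unfold Atoms.fPV Fv
    ring
  rwa [e] at h

lemma Ft_nonneg (A : Atoms)
    (ht : ∀ a1 a2 a3 a4 a5 a6 a7 b1 b2 b3 b4 b5 b6 b7 c1 c2 c3 c4 c5 c6 c7 d1 d2 d3 d4 d5 d6 d7 : ℝ,
      0 ≤ A.fTens a1 a2 a3 a4 a5 a6 a7 b1 b2 b3 b4 b5 b6 b7 c1 c2 c3 c4 c5 c6 c7 d1 d2 d3 d4 d5 d6 d7)
    (z1 z2 ζ : ℝ) : 0 ≤ Ft A z1 z2 ζ := by
  have h := ht z1 z2 0 0 0 0 (ζ * A.T) 0 0 0 0 0 0 0 (-z1) (-z2) 0 0 0 0 (-(ζ * A.T)) 0 0 0 0 0 0 0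
  have e : A.fTens z1 z2 0 0 0 0 (ζ * A.T) 0 0 0 0 0 0 0 (-z1) (-z2) 0 0 0 0 (-(ζ * A.T))
      0 0 0 0 0 0 0 = 2 * Ft A z1 z2 ζ := by
    unfold Atoms.fTens Atoms.fIP Atoms.fPV Ft
    ring
  rw [e] at h
  linarith

/-- The value of the certificate. -/
noncomputable def val (ω y m : ℝ) : ℝ := 17/100 + (3/10) * y - ω ^ 2 / 2 - (3/8) * m ^ 2

/-- The master identity for the three fields. -/
lemma Pf_eq (A : Atoms) (α ω y x m : ℝ) (hm : m = (4/3) * (1/2 + y * (3/5 + ω)))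
    (hx : 2 * α * x = (2 * α - 1) * ω - y * (2 * α + 1) * m) :
    Pf A α (1/5 + 2 * α * ω) y x =
      Ft A 1 (y - 1/2) (-((3/10 + ω + y * (1 - m)) / 2)) +
      (1/4 - y ^ 2) * Ft A 0 1 (-((1 - m) / 2)) +
      (1/8) * Fv A (8 * y * α) (1 - 4 * y * α) (-m + 8 * y * α * ω) +
      (1/8) * Fv A 0 1 (-m) +
      (2 * α - 1 - 8 * y ^ 2 * α ^ 2) * Fv A 1 (-1/2) ω +
      val ω y m * A.T ^ 3 := by
  subst hm
  unfold Pf Fv Ft val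
  linear_combination (1/2) * (2 * (A.T * A.pqq) - A.T * A.Aqqq + 2 * ω * A.T ^ 3) * hx

/-- The lower bound for the polynomial. -/
lemma Pf_lower (A : Atoms)
    (ht : ∀ a1 a2 a3 a4 a5 a6 a7 b1 b2 b3 b4 b5 b6 b7 c1 c2 c3 c4 c5 c6 c7 d1 d2 d3 d4 d5 d6 d7 : ℝ,
      0 ≤ A.fTens a1 a2 a3 a4 a5 a6 a7 b1 b2 b3 b4 b5 b6 b7 c1 c2 c3 c4 c5 c6 c7 d1 d2 d3 d4 d5 d6 d7)
    (hv : ∀ z1 z2 z3 z4 z5 z6 z7 : ℝ, 0 ≤ A.fPV z1 z2 z3 z4 z5 z6 z7 z1 z2 z3 z4 z5 z6 z7)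
    (α ω y x m : ℝ) (hm : m = (4/3) * (1/2 + y * (3/5 + ω)))
    (hx : 2 * α * x = (2 * α - 1) * ω - y * (2 * α + 1) * m) (he : y ^ 2 ≤ 1/4) :
    (2 * α - 1 - 8 * y ^ 2 * α ^ 2) * Fv A 1 (-1/2) ω + (1/8) * Fv A 0 1 (-m) +
      val ω y m * A.T ^ 3 ≤ Pf A α (1/5 + 2 * α * ω) y x := by
  rw [Pf_eq A α ω y x m hm hx]
  have h1 := Ft_nonneg A ht 1 (y - 1/2) (-((3/10 + ω + y * (1 - m)) / 2))
  have h2 := mul_nonneg (sub_nonneg.2 he) (Ft_nonneg A ht 0 1 (-((1 - m) / 2)))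
  have h3 := mul_nonneg (by norm_num : (0 : ℝ) ≤ 1/8)
    (Fv_nonneg A hv (8 * y * α) (1 - 4 * y * α) (-m + 8 * y * α * ω))
  linarith

/-- A two by two positive form. -/
lemma psd2 {S E w : ℝ} (hS : 0 ≤ S) (hE : 0 ≤ E) (h : w ^ 2 ≤ E * S) (P R : ℝ) :
    0 ≤ P ^ 2 * S + 2 * P * R * w + R ^ 2 * E := by
  rcases hS.eq_or_lt with h0 | hpos
  · have hw : w = 0 := by
      have : w ^ 2 ≤ 0 := by rw [← h0] at h; simpa using h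
      exact pow_eq_zero_iff (two_ne_zero) |>.1 (le_antisymm this (sq_nonneg w))
    rw [hw, ← h0]
    have := mul_nonneg (sq_nonneg R) hE
    linarith
  · have h1 : 0 ≤ S * (P ^ 2 * S + 2 * P * R * w + R ^ 2 * E) := by
      have e : S * (P ^ 2 * S + 2 * P * R * w + R ^ 2 * E) =
          (P * S + R * w) ^ 2 + R ^ 2 * (E * S - w ^ 2) := by ring
      rw [e]
      have := mul_nonneg (sq_nonneg R) (sub_nonneg.2 h)
      positivity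
    exact nonneg_of_mul_nonneg_right h1 hpos

/-- The absorption of the terms containing the gradient of the test function. -/
lemma bracket {ψ T E S3 S2 wA wC wq d v : ℝ} (y ξ N : ℝ) (hT : 0 ≤ T) (hE : 0 ≤ E) (hS3 : 0 ≤ S3)
    (hS2 : 0 ≤ S2) (hd : 0 < d) (hv : 0 < v) (h1 : wA ^ 2 ≤ E * S3) (h2 : wC ^ 2 ≤ E * S2)
    (h3 : wq ^ 2 ≤ E * T) :
    (v / 2) * (ψ ^ 2 * T ^ 3) - (N ^ 2 / (4 * d) + 2 * N ^ 2 * y ^ 2 + N ^ 2 * ξ ^ 2 / (2 * v)) * (T ^ 2 * E) ≤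
      ψ ^ 2 * (d * S3 + (1/8) * S2 + v * T ^ 3) + N * ψ * T * (wA + y * wC + ξ * T * wq) := by
  have a := mul_nonneg hd.le (psd2 hS3 hE h1 ψ (N * T / (2 * d)))
  have b := mul_nonneg (by norm_num : (0 : ℝ) ≤ 1/8) (psd2 hS2 hE h2 ψ (4 * N * T * y))
  have c := mul_nonneg (mul_nonneg (sq_nonneg T) (by positivity : 0 ≤ v / 2))
    (psd2 hT hE h3 ψ (N * ξ / v))
  have ea : d * (ψ ^ 2 * S3 + 2 * ψ * (N * T / (2 * d)) * wA + (N * T / (2 * d)) ^ 2 * E) =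
      d * (ψ ^ 2 * S3) + N * ψ * T * wA + N ^ 2 / (4 * d) * (T ^ 2 * E) := by
    field_simp
    ring
  have ec : T ^ 2 * (v / 2) * (ψ ^ 2 * T + 2 * ψ * (N * ξ / v) * wq + (N * ξ / v) ^ 2 * E) =
      (v / 2) * (ψ ^ 2 * T ^ 3) + N * ψ * T * (ξ * T * wq) + N ^ 2 * ξ ^ 2 / (2 * v) * (T ^ 2 * E) := by
    field_simp
  rw [ea] at a
  rw [ec] at c
  nlinarith [a, b, c]

/-- Young's inequality for natural exponents. -/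
lemma young_nat {U E δ : ℝ} (hU : 0 ≤ U) (hE : 0 ≤ E) (hδ : 0 < δ) (k : ℕ) :
    U ^ k * E ≤ δ * U ^ (k + 1) + (1 / δ) ^ k * E ^ (k + 1) := by
  by_cases h : E ≤ δ * U
  · have h1 : U ^ k * E ≤ U ^ k * (δ * U) := mul_le_mul_of_nonneg_left h (pow_nonneg hU k)
    have h2 : U ^ k * (δ * U) = δ * U ^ (k + 1) := by ring
    have h3 : 0 ≤ (1 / δ) ^ k * E ^ (k + 1) := by positivity
    linarith
  · have h' : U ≤ (1 / δ) * E := by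
      have : δ * U < E := not_le.1 h
      rw [one_div, ← div_eq_inv_mul, le_div_iff₀ hδ]
      linarith
    have h1 : U ^ k ≤ ((1 / δ) * E) ^ k := pow_le_pow_left₀ hU h' k
    have h2 : U ^ k * E ≤ ((1 / δ) * E) ^ k * E := mul_le_mul_of_nonneg_right h1 hE
    have h3 : ((1 / δ) * E) ^ k * E = (1 / δ) ^ k * E ^ (k + 1) := by
      rw [mul_pow, pow_succ E k]
      ring
    have h4 : 0 ≤ δ * U ^ (k + 1) := by positivity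
    linarith

end Caccio

end Vale.Agent.Lib.P252
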