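import Vale.Agent.Lib.P252.Bounded

open scoped ContDiff Topology Matrix
open MeasureTheory Set Filter

namespace Vale.Agent.Lib.P252

variable {n : ℕ} {Ω : Set (Fin n → ℝ)} {u : (Fin n → ℝ) → ℝ} {x₀ : Fin n → ℝ}

/-- An open convex set of finite volume is bounded. -/
lemma isBounded_of_volume_lt_top (hΩ : IsOpen Ω) (hc : Convex ℝ Ω) (hx₀ : x₀ ∈ Ω)
    (htop : volume Ω < ⊤) : Bornology.IsBounded Ω := by
  obtain ⟨r, hr, hball⟩ := Metric.nhds_basis_ball.mem_iff.1 (hΩ.mem_nhds hx₀)
  have hr2 : 0 < r / 2 := by positivity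
  set δ := volume (Metric.ball (0 : Fin n → ℝ) (r / 2)) with hδ
  have hδ0 : δ ≠ 0 := (Metric.measure_ball_pos volume _ hr2).ne'
  obtain ⟨N, hN⟩ := ENNReal.exists_nat_mul_gt hδ0 htop.ne
  refine (Metric.isBounded_closedBall (x := x₀) (r := 4 * r * N)).subset fun x hx => ?_
  rw [Metric.mem_closedBall, dist_eq_norm]
  by_contra hfar
  have hfar' : 4 * r * N < ‖x - x₀‖ := not_le.1 hfar
  have hNnn : (0 : ℝ) ≤ N := Nat.cast_nonneg N
  have hd0 : 0 < ‖x - x₀‖ := lt_of_le_of_lt (by positivity) hfar'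
  set d := ‖x - x₀‖ with hd
  set e : Fin n → ℝ := d⁻¹ • (x - x₀) with he
  have hen : ‖e‖ = 1 := by
    rw [he, norm_smul, norm_inv, Real.norm_of_nonneg hd0.le, ← hd]
    field_simp
  set p : ℕ → (Fin n → ℝ) := fun j => x₀ + (2 * r * j) • e with hp
  have hsub : ∀ j ∈ Finset.range N, Metric.ball (p j) (r / 2) ⊆ Ω := by
    intro j hj q hq
    have hjN : (j : ℝ) + 1 ≤ N := by exact_mod_cast Finset.mem_range.1 hj
    set lam : ℝ := 2 * r * j / d with hlam
    have hlam0 : 0 ≤ lam := by positivity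
    have hlam2 : lam ≤ 1 / 2 := by
      rw [hlam, div_le_iff₀ hd0]
      nlinarith
    have h1l : 0 < 1 - lam := by linarith
    set w := q - p j with hw
    have hwn : ‖w‖ < r / 2 := by
      have := Metric.mem_ball.1 hq
      rwa [dist_eq_norm] at this
    have hz : x₀ + (1 - lam)⁻¹ • w ∈ Metric.ball x₀ r := by
      rw [Metric.mem_ball, dist_eq_norm, add_sub_cancel_left, norm_smul, norm_inv,
        Real.norm_of_nonneg h1l.le, inv_mul_lt_iff₀ h1l]
      nlinarith
    have hcomb := hc (hball hz) hx h1l.le hlam0 (by ring)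
    have e1 : (1 - lam) • (x₀ + (1 - lam)⁻¹ • w) + lam • x = q := by
      rw [smul_add, smul_smul, mul_inv_cancel₀ h1l.ne', one_smul]
      have e2 : p j = x₀ + lam • (x - x₀) := by
        simp only [hp, he, smul_smul]
        congr 2
      have e3 : q = p j + w := by simp [hw]
      rw [e3, e2, smul_sub, sub_smul, one_smul]
      abel
    rwa [e1] at hcomb
  have hdisj : Set.PairwiseDisjoint (↑(Finset.range N)) (fun j => Metric.ball (p j) (r / 2)) := by
    intro j _ k _ hjk
    apply Metric.ball_disjoint_ball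
    rw [dist_eq_norm]
    have e1 : p j - p k = (2 * r * ((j : ℝ) - k)) • e := by
      simp only [hp, mul_sub, sub_smul]
      abel
    rw [e1, norm_smul, hen, mul_one, Real.norm_eq_abs, abs_mul, abs_of_pos (by positivity : 0 < 2 * r)]
    have h2 : (1 : ℝ) ≤ |(j : ℝ) - k| := by
      have : (j : ℤ) - k ≠ 0 := sub_ne_zero.2 (by exact_mod_cast hjk)
      have h3 := Int.one_le_abs this
      exact_mod_cast h3
    nlinarith
  have hvol : ∀ j, volume (Metric.ball (p j) (r / 2)) = δ := by
    intro j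
    rw [hδ, Real.volume_pi_ball _ hr2, Real.volume_pi_ball _ hr2]
  have hsum := measure_biUnion_finset (μ := (volume : Measure (Fin n → ℝ))) hdisj
    (fun j _ => (Metric.isOpen_ball (x := p j) (ε := r / 2)).measurableSet)
  have hle : volume (⋃ j ∈ Finset.range N, Metric.ball (p j) (r / 2)) ≤ volume Ω :=
    measure_mono (iUnion₂_subset hsub)
  rw [hsum] at hle
  simp only [hvol, Finset.sum_const, Finset.card_range, nsmul_eq_mul] at hle
  exact absurd hN (not_lt.2 hle)

/-- Over a Euclidean complete graph the domain has infinite volume. -/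
theorem volume_eq_top (hn : 0 < n) (hs : IsAffineMaximal Ω u) (hΩ : IsOpen Ω) (hc : Convex ℝ Ω)
    (hne : Ω.Nonempty) (hE : IsEuclideanComplete Ω u) : volume Ω = ⊤ := by
  by_contra h
  obtain ⟨x₀, hx₀⟩ := hne
  exact no_bounded hn hs hΩ hc (isBounded_of_volume_lt_top hΩ hc hx₀ (lt_top_iff_ne_top.2 h))
    ⟨x₀, hx₀⟩ hE

/-- Over a Euclidean complete graph the gradient image has infinite volume. -/
theorem lintegral_det_eq_top (hn : 0 < n) (hs : IsAffineMaximal Ω u) (hΩ : IsOpen Ω)
    (hc : Convex ℝ Ω) (hne : Ω.Nonempty) (hE : IsEuclideanComplete Ω u) :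
    ∫⁻ x in Ω, ENNReal.ofReal (hess u x).det = ⊤ := by
  by_contra htop
  obtain ⟨x₀, hx₀⟩ := hne
  have hu := hs.smooth
  have hpos := hs.posDef
  have hcpt := isCompact_subLevel_of_complete (x₀ := x₀) hΩ hc hu hpos hx₀ hE
  have hb := contDiffOn_uBar (x₀ := x₀) hu
  set I := ∫⁻ x in Ω, ENNReal.ofReal (hess u x).det with hI
  have hItop : I < ⊤ := lt_top_iff_ne_top.2 htop
  have hdetC : ContinuousOn (fun x => (hess u x).det) Ω :=
    (contDiffOn_detHess hΩ hs.smooth).continuousOn
  have hopen : ∀ s : ℝ, IsOpen {x | x ∈ Ω ∧ uBar u x₀ x < s} := fun s =>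
    hb.continuousOn.isOpen_inter_preimage hΩ isOpen_Iio (t := Iio s)
  -- the real integrals
  have hV : ∀ s : ℝ, ∫ x in {x | x ∈ Ω ∧ uBar u x₀ x < s}, (hess u x).det ^ (1 : ℝ) ≤ I.toReal := by
    intro s
    simp only [Real.rpow_one]
    rw [integral_eq_lintegral_of_nonneg_ae]
    · refine ENNReal.toReal_mono htop ?_
      exact lintegral_mono_set (μ := volume) fun x hx => hx.1
    · refine (ae_restrict_iff' (hopen s).measurableSet).2 (Eventually.of_forall fun x hx => ?_)
      exact (hpos x hx.1).det_pos.le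
    · exact (hdetC.mono fun x hx => hx.1).aestronglyMeasurable (hopen s).measurableSet
  have hfin : ∀ s : ℝ, IntegrableOn (fun x => (hess u x).det) {x | x ∈ Ω ∧ uBar u x₀ x < s} := by
    intro s
    refine ⟨(hdetC.mono fun x hx => hx.1).aestronglyMeasurable (hopen s).measurableSet, ?_⟩
    rw [hasFiniteIntegral_iff_ofReal]
    · refine lt_of_le_of_lt (lintegral_mono_set (μ := volume) fun x hx => hx.1) hItop
    · refine (ae_restrict_iff' (hopen s).measurableSet).2 (Eventually.of_forall fun x hx => ?_)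
      exact (hpos x hx.1).det_pos.le
  have hVpos : ∀ s ∈ Ioi (1 : ℝ),
      0 < ∫ x in {x | x ∈ Ω ∧ uBar u x₀ x < s}, (hess u x).det ^ (1 : ℝ) := by
    intro s hs'
    simp only [Real.rpow_one]
    rw [setIntegral_pos_iff_support_of_nonneg_ae]
    · have hsupp : {x | x ∈ Ω ∧ uBar u x₀ x < s} ⊆ Function.support fun x => (hess u x).det :=
        fun x hx => (hpos x hx.1).det_pos.ne'
      have hmeas : 0 < volume {x | x ∈ Ω ∧ uBar u x₀ x < s} :=
        (hopen s).measure_pos volume ⟨x₀, hx₀, by rw [uBar_self]; linarith [mem_Ioi.1 hs']⟩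
      rw [inter_eq_self_of_subset_right hsupp] <;> exact hmeas
    · refine (ae_restrict_iff' (hopen s).measurableSet).2 (Eventually.of_forall fun x hx => ?_)
      exact (hpos x hx.1).det_pos.le
    · exact hfin s
  have hnot : ¬ IntegrableOn (fun s : ℝ =>
      (∫ x in {x | x ∈ Ω ∧ uBar u x₀ x < s}, (hess u x).det ^ (1 : ℝ))⁻¹) (Ioi 1) := by
    intro hint
    have hCpos : 0 < I.toReal := (hVpos 2 (by simp)).trans_le (hV 2)
    have hconst : IntegrableOn (fun _ : ℝ => I.toReal⁻¹) (Ioi 1) := by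
      refine Integrable.mono hint aestronglyMeasurable_const ?_
      refine (ae_restrict_iff' measurableSet_Ioi).2 (Eventually.of_forall fun s hs' => ?_)
      have h1 := hVpos s hs'
      rw [Real.norm_of_nonneg (inv_pos.2 hCpos).le, Real.norm_of_nonneg (inv_pos.2 h1).le]
      exact inv_anti₀ h1 (hV s)
    rw [integrableOn_const_iff] at hconst
    rcases hconst with h | h
    · exact (inv_pos.2 hCpos).ne' (by simpa using h)
    · simp at h
  have hn2 : (0 : ℝ) < (n : ℝ) + 2 := by positivity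
  have hβ : 1 / ((n : ℝ) + 2) < 1 := by
    rw [div_lt_one hn2]
    have : (0 : ℝ) < n := by exact_mod_cast hn
    linarith
  have hconst : ∀ x ∈ Ω, (hess u x).det = (hess u x₀).det := fun x hx =>
    liouville_primal_beta hs hΩ hc.isPreconnected hx₀ hcpt hβ le_rfl hnot hx hx₀
  -- the domain then has finite volume
  have hcpos : 0 < (hess u x₀).det := (hpos x₀ hx₀).det_pos
  have e : I = ENNReal.ofReal (hess u x₀).det * volume Ω := by
    rw [hI, setLIntegral_congr_fun hΩ.measurableSet (fun x hx => by rw [hconst x hx]),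
      setLIntegral_const]
  have hvol : volume Ω = ⊤ := volume_eq_top hn hs hΩ hc ⟨x₀, hx₀⟩ hE
  rw [hvol, ENNReal.mul_top (by simpa using hcpos)] at e
  exact htop e

/-- Every graph over the whole space is Euclidean complete. -/
theorem isEuclideanComplete_univ (u : (Fin n → ℝ) → ℝ) : IsEuclideanComplete Set.univ u := by
  intro γ hγ _ hlen
  have hcoord : ∀ i, ∃ a : ℝ, Tendsto (fun t => γ t i) (𝓝[<] 1) (𝓝 a) := by
    intro i
    have hγi : ContDiffOn ℝ 1 (fun t => γ t i) (Ioo 0 1) :=
      (contDiffOn_pi.1 hγ i).mono Ioo_subset_Ico_self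
    have hcontd : ContinuousOn (deriv fun t => γ t i) (Ioo 0 1) :=
      hγi.continuousOn_deriv_of_isOpen isOpen_Ioo le_rfl
    have hint : IntegrableOn (deriv fun t => γ t i) (Ioo 0 1) := by
      refine Integrable.mono' hlen (hcontd.aestronglyMeasurable measurableSet_Ioo) ?_
      refine Eventually.of_forall fun t => ?_
      rw [Real.norm_eq_abs]
      apply Real.abs_le_sqrt
      have h1 : deriv (fun s => γ s i) t ^ 2 ≤ ∑ j, deriv (fun s => γ s j) t ^ 2 :=
        Finset.single_le_sum (f := fun j => deriv (fun s => γ s j) t ^ 2)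
          (fun j _ => sq_nonneg _) (Finset.mem_univ i)
      have h2 := sq_nonneg (deriv (fun s => u (γ s)) t)
      linarith
    set T₀ : ℝ := 1 / 2 with hT₀
    have hint' : IntervalIntegrable (deriv fun t => γ t i) volume T₀ 1 := by
      rw [intervalIntegrable_iff_integrableOn_Ioo_of_le (by norm_num)]
      exact hint.mono_set (Ioo_subset_Ioo_left (by norm_num))
    have hprim : ContinuousOn (fun T => ∫ t in T₀..T, deriv (fun t => γ t i) t) (uIcc T₀ 1) :=
      intervalIntegral.continuousOn_primitive_interval' hint' left_mem_uIcc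
    have hlim1 : Tendsto (fun T => ∫ t in T₀..T, deriv (fun t => γ t i) t) (𝓝[<] 1)
        (𝓝 (∫ t in T₀..1, deriv (fun t => γ t i) t)) := by
      have h1 := hprim 1 right_mem_uIcc
      rw [uIcc_of_le (by norm_num : T₀ ≤ 1)] at h1
      have h2 : Tendsto (fun T => ∫ t in T₀..T, deriv (fun t => γ t i) t) (𝓝[Icc T₀ 1] 1)
        (𝓝 (∫ t in T₀..1, deriv (fun t => γ t i) t)) := h1
      refine h2.mono_left (nhdsWithin_le_of_mem ?_)
      exact mem_of_superset (Ioo_mem_nhdsLT (by norm_num : T₀ < 1)) Ioo_subset_Icc_self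
    refine ⟨γ T₀ i + ∫ t in T₀..1, deriv (fun t => γ t i) t, ?_⟩
    refine (tendsto_const_nhds.add hlim1).congr' ?_
    filter_upwards [Ioo_mem_nhdsLT (by norm_num : T₀ < 1)] with T hT
    have hle : T₀ ≤ T := hT.1.le
    have hsub : ∀ t ∈ uIcc T₀ T, t ∈ Ioo (0 : ℝ) 1 := by
      intro t ht
      rw [uIcc_of_le hle] at ht
      exact ⟨by linarith [ht.1, (by norm_num : (0 : ℝ) < T₀)], lt_of_le_of_lt ht.2 hT.2⟩
    have hder : ∀ t ∈ uIcc T₀ T, HasDerivAt (fun t => γ t i) (deriv (fun t => γ t i) t) t := by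
      intro t ht
      exact ((hγi.differentiableOn (by norm_num)).differentiableAt
        (Ioo_mem_nhds (hsub t ht).1 (hsub t ht).2)).hasDerivAt
    have hii : IntervalIntegrable (deriv fun t => γ t i) volume T₀ T := by
      rw [intervalIntegrable_iff_integrableOn_Ioo_of_le hle]
      refine hint.mono_set (Ioo_subset_Ioo ?_ hT.2.le)
      norm_num [hT₀]
    rw [intervalIntegral.integral_eq_sub_of_hasDerivAt hder hii]
    ring
  choose a ha using hcoord
  exact ⟨a, mem_univ _, tendsto_pi_nhds.2 ha⟩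

end Vale.Agent.Lib.P252
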