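import Vale.Agent.Lib.P252.Hess10
import Vale.Agent.Lib.P252.Final

/-!
Corollaries of the main estimate in dimension three: the mass of `D^{3/5}` is controlled through the
area formula by the growth of `ū`, which gives a Liouville theorem for entire solutions under a
two sided growth condition.
-/

open scoped ContDiff Topology Matrix
open MeasureTheory Set Filter

namespace Vale.Agent.Lib.P252

section General

variable {n : ℕ} {Ω : Set (Fin n → ℝ)} {u : (Fin n → ℝ) → ℝ} {x₀ : Fin n → ℝ}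

/-- The gradient map of a function with positive definite Hessian on a convex set is injective. -/
lemma gradMap_injOn (hΩ : IsOpen Ω) (hc : Convex ℝ Ω) (hu : ContDiffOn ℝ ∞ u Ω)
    (hpos : ∀ x ∈ Ω, (hess u x).PosDef) : InjOn (gradMap u x₀) Ω := by
  intro x hx z hz h
  by_contra hne
  have h1 := tangent_lt (x₀ := x₀) hΩ hc hu hpos hx hz hne
  have h2 := tangent_lt (x₀ := x₀) hΩ hc hu hpos hz hx (Ne.symm hne)
  rw [fderiv_eq_sum] at h1 h2
  have e : ∀ i, pd i (uBar u x₀) x = pd i (uBar u x₀) z := fun i => congrFun h i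
  have e2 : ∑ i, (x - z) i * pd i (uBar u x₀) z = - ∑ i, (z - x) i * pd i (uBar u x₀) x := by
    rw [← Finset.sum_neg_distrib]
    refine Finset.sum_congr rfl fun i _ => ?_
    rw [e i]
    simp only [Pi.sub_apply]
    ring
  rw [e2] at h2
  linarith

/-- The area formula for the gradient map. -/
lemma lintegral_det_eq_volume (hΩ : IsOpen Ω) (hc : Convex ℝ Ω) (hu : ContDiffOn ℝ ∞ u Ω)
    (hpos : ∀ x ∈ Ω, (hess u x).PosDef) {s : Set (Fin n → ℝ)} (hs : MeasurableSet s)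
    (hsub : s ⊆ Ω) :
    ∫⁻ x in s, ENNReal.ofReal ((hess u x).det) = volume (gradMap u x₀ '' s) := by
  have h := lintegral_abs_det_fderiv_eq_addHaar_image (μ := (volume : Measure (Fin n → ℝ))) hs
    (f := gradMap u x₀)
    (fun x hx => (hasFDerivAt_gradMap (x₀ := x₀) hΩ hu (hsub hx)).hasFDerivWithinAt)
    ((gradMap_injOn hΩ hc hu hpos).mono hsub)
  rw [← h]
  refine setLIntegral_congr_fun hs fun x hx => ?_
  have e : (LinearMap.toContinuousLinearMap (Matrix.toLin' (hess u x))).det = (hess u x).det := by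
    rw [ContinuousLinearMap.det]
    simp [LinearMap.det_toLin']
  simp only [e]
  rw [abs_of_pos (hpos x (hsub hx)).det_pos]

/-- Bound for the integral of the determinant when the gradient image is in a ball. -/
lemma integral_det_le (hΩ : IsOpen Ω) (hc : Convex ℝ Ω) (hu : ContDiffOn ℝ ∞ u Ω)
    (hpos : ∀ x ∈ Ω, (hess u x).PosDef) {s : Set (Fin n → ℝ)} (hs : MeasurableSet s)
    (hsub : s ⊆ Ω) {P : ℝ} (hP : 0 ≤ P) (himg : gradMap u x₀ '' s ⊆ Metric.closedBall 0 P) :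
    ∫ x in s, (hess u x).det ≤ (2 * P) ^ n := by
  have h0 : 0 ≤ᵐ[volume.restrict s] fun x => (hess u x).det := by
    filter_upwards [ae_restrict_mem hs] with x hx
    exact (hpos x (hsub hx)).det_pos.le
  have hm : AEStronglyMeasurable (fun x => (hess u x).det) (volume.restrict s) := by
    have hcont : ContinuousOn (fun x => (hess u x).det) Ω :=
      (contDiffOn_detHess hΩ hu).continuousOn
    exact (hcont.mono hsub).aestronglyMeasurable hs
  rw [integral_eq_lintegral_of_nonneg_ae h0 hm, lintegral_det_eq_volume (x₀ := x₀) hΩ hc hu hpos hs hsub]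
  have hv : volume (gradMap u x₀ '' s) ≤ ENNReal.ofReal ((2 * P) ^ n) := by
    refine (measure_mono himg).trans (le_of_eq ?_)
    have := Real.volume_pi_closedBall (ι := Fin n) (0 : Fin n → ℝ) hP
    simpa using this
  exact ENNReal.toReal_le_of_le_ofReal (by positivity) hv

end General

/-- Weighted arithmetic and geometric means for the exponent `3/5`. -/
lemma rpow_young {D l : ℝ} (hD : 0 < D) (hl : 0 < l) :
    D ^ (3/5 : ℝ) ≤ (3/5) * (l ^ (2/5 : ℝ) * D) + (2/5) * l ^ (-(3/5) : ℝ) := by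
  have h := Real.geom_mean_le_arith_mean2_weighted (w₁ := 3/5) (w₂ := 2/5)
    (p₁ := l ^ (2/5 : ℝ) * D) (p₂ := l ^ (-(3/5) : ℝ)) (by norm_num) (by norm_num)
    (by positivity) (by positivity) (by norm_num)
  have e : (l ^ (2/5 : ℝ) * D) ^ (3/5 : ℝ) * (l ^ (-(3/5) : ℝ)) ^ (2/5 : ℝ) = D ^ (3/5 : ℝ) := by
    rw [Real.mul_rpow (by positivity) hD.le, ← Real.rpow_mul hl.le, ← Real.rpow_mul hl.le]
    have e1 : l ^ ((2/5 : ℝ) * (3/5)) * D ^ (3/5 : ℝ) * l ^ (-(3/5 : ℝ) * (2/5)) =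
        D ^ (3/5 : ℝ) * (l ^ ((2/5 : ℝ) * (3/5)) * l ^ (-(3/5 : ℝ) * (2/5))) := by ring
    rw [e1, ← Real.rpow_add hl]
    norm_num
  rw [e] at h
  exact h

/-- The Hölder inequality for the mass, in a form suitable for the limit. -/
lemma mass_le_of_bounds {Ω : Set (Fin 3 → ℝ)} {u : (Fin 3 → ℝ) → ℝ} (hΩ : IsOpen Ω)
    (hu : ContDiffOn ℝ ∞ u Ω) (hpos : ∀ x ∈ Ω, (hess u x).PosDef) {s : Set (Fin 3 → ℝ)}
    (hs : MeasurableSet s) (hsub : s ⊆ Ω) (hcpt : IsCompact (closure s)) (hcl : closure s ⊆ Ω)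
    {V Y : ℝ} (hV0 : 0 < V) (hY0 : 0 < Y) (hV : volume s ≤ ENNReal.ofReal V)
    (hY : ∫ x in s, (hess u x).det ≤ Y) {A : ℝ} (hA0 : 0 ≤ A) (hA : V ^ 2 * Y ^ 3 ≤ A ^ 5) :
    ∫ x in s, (hess u x).det ^ (3/5 : ℝ) ≤ A := by
  have hdet : ContinuousOn (fun x => (hess u x).det) Ω := (contDiffOn_detHess hΩ hu).continuousOn
  have hI1 : IntegrableOn (fun x => (hess u x).det) s :=
    ((hdet.mono hcl).integrableOn_compact hcpt).mono_set subset_closure
  have hfin : volume s < ⊤ := lt_of_le_of_lt hV ENNReal.ofReal_lt_top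
  have hI0 : IntegrableOn (fun _ : Fin 3 → ℝ => (1 : ℝ)) s := integrableOn_const (hs := hfin.ne)
  set l : ℝ := V / Y with hl
  have hl0 : 0 < l := div_pos hV0 hY0
  have hle : ∫ x in s, (hess u x).det ^ (3/5 : ℝ) ≤
      ∫ x in s, ((3/5) * (l ^ (2/5 : ℝ) * (hess u x).det) + (2/5) * l ^ (-(3/5) : ℝ)) := by
    refine setIntegral_mono_on ?_ ?_ hs fun x hx => rpow_young (hpos x (hsub hx)).det_pos hl0
    · have hc : ContinuousOn (fun x => (hess u x).det ^ (3/5 : ℝ)) Ω :=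
        hdet.rpow_const fun x hx => Or.inl (hpos x hx).det_pos.ne'
      exact ((hc.mono hcl).integrableOn_compact hcpt).mono_set subset_closure
    · exact ((hI1.const_mul _).const_mul _).add
        (by simpa using (hI0.const_mul ((2/5) * l ^ (-(3/5) : ℝ))))
  have hJ : ∫ x in s, ((3/5) * (l ^ (2/5 : ℝ) * (hess u x).det) + (2/5) * l ^ (-(3/5) : ℝ)) =
      (3/5) * (l ^ (2/5 : ℝ) * ∫ x in s, (hess u x).det) +
        (2/5) * l ^ (-(3/5) : ℝ) * (volume.real s) := by
    rw [integral_add ((hI1.const_mul _).const_mul _)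
      (by simpa using (hI0.const_mul ((2/5) * l ^ (-(3/5) : ℝ)))), integral_const_mul,
      integral_const_mul, setIntegral_const]
    simp only [smul_eq_mul]
    ring
  have hVr : volume.real s ≤ V := by
    rw [Measure.real]
    exact ENNReal.toReal_le_of_le_ofReal hV0.le hV
  -- the value at the chosen parameter
  set B : ℝ := V ^ (2/5 : ℝ) * Y ^ (3/5 : ℝ) with hB
  have hB0 : 0 ≤ B := by positivity
  have e1 : l ^ (2/5 : ℝ) * Y = B := by
    rw [hl, Real.div_rpow hV0.le hY0.le, hB]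
    have : Y = Y ^ (2/5 : ℝ) * Y ^ (3/5 : ℝ) := by
      rw [← Real.rpow_add hY0]
      norm_num
    nth_rewrite 2 [this]
    have hne : Y ^ (2/5 : ℝ) ≠ 0 := by positivity
    field_simp
  have e2 : l ^ (-(3/5) : ℝ) * V = B := by
    rw [hl, Real.rpow_neg hl0.le, Real.div_rpow hV0.le hY0.le, hB]
    have : V = V ^ (2/5 : ℝ) * V ^ (3/5 : ℝ) := by
      rw [← Real.rpow_add hV0]
      norm_num
    nth_rewrite 2 [this]
    have hne : V ^ (3/5 : ℝ) ≠ 0 := by positivity
    have hne2 : Y ^ (3/5 : ℝ) ≠ 0 := by positivity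
    field_simp
  have hBA : B ≤ A := by
    refine le_of_pow_le_pow_left₀ (n := 5) (by norm_num) hA0 ?_
    refine le_trans (le_of_eq ?_) hA
    rw [hB, mul_pow, ← Real.rpow_natCast, ← Real.rpow_natCast, ← Real.rpow_mul hV0.le,
      ← Real.rpow_mul hY0.le]
    norm_num
  have h1 : (3/5) * (l ^ (2/5 : ℝ) * ∫ x in s, (hess u x).det) ≤ (3/5) * B := by
    rw [← e1]
    have : l ^ (2/5 : ℝ) * ∫ x in s, (hess u x).det ≤ l ^ (2/5 : ℝ) * Y :=
      mul_le_mul_of_nonneg_left hY (by positivity)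
    linarith
  have h2 : (2/5) * l ^ (-(3/5) : ℝ) * (volume.real s) ≤ (2/5) * B := by
    rw [← e2]
    have : l ^ (-(3/5) : ℝ) * volume.real s ≤ l ^ (-(3/5) : ℝ) * V :=
      mul_le_mul_of_nonneg_left hVr (by positivity)
    linarith
  rw [hJ] at hle
  linarith

section Entire

variable {u : (Fin 3 → ℝ) → ℝ} {x₀ : Fin 3 → ℝ}

/-- Sublevels of `ū` lie in the ball on whose sphere `ū` exceeds the level. -/
lemma subLevel_subset_ball {Ω : Set (Fin 3 → ℝ)} (hΩ : IsOpen Ω) (hc : Convex ℝ Ω)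
    (hu : ContDiffOn ℝ ∞ u Ω) (hpos : ∀ x ∈ Ω, (hess u x).PosDef) (hx₀ : x₀ ∈ Ω)
    {R m : ℝ} (hR : 0 < R) (hm : 0 ≤ m)
    (hb : ∀ z ∈ Ω, ‖z - x₀‖ = R → m ≤ uBar u x₀ z) {x : Fin 3 → ℝ} (hx : x ∈ Ω)
    (hxm : uBar u x₀ x < m) : ‖x - x₀‖ < R := by
  by_contra hge
  have hge' := not_lt.1 hge
  set d := ‖x - x₀‖ with hd
  have hd0 : 0 < d := lt_of_lt_of_le hR hge'
  set z := x₀ + (R / d) • (x - x₀) with hz
  have hzn : ‖z - x₀‖ = R := by
    rw [hz, add_sub_cancel_left, norm_smul, Real.norm_eq_abs, abs_of_pos (div_pos hR hd0)]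
    field_simp
    rw [← hd]
  have hzΩ : z ∈ Ω := by
    have h01 : R / d ≤ 1 := (div_le_one hd0).2 hge'
    have h00 : 0 ≤ R / d := by positivity
    have := hc.add_smul_sub_mem hx₀ hx ⟨h00, h01⟩
    simpa [hz] using this
  have h1 := hb z hzΩ hzn
  have ht : 1 ≤ d / R := (one_le_div hR).2 hge'
  have hzx : x₀ + (d / R) • (z - x₀) = x := by
    rw [hz, add_sub_cancel_left, smul_smul]
    have : d / R * (R / d) = 1 := by field_simp
    rw [this, one_smul]
    abel
  have h2 := uBar_ray (x₀ := x₀) hΩ hc hu hpos hx₀ hzΩ ht (by rw [hzx]; exact hx)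
  rw [hzx] at h2
  have h3 : m ≤ d / R * uBar u x₀ z := by
    calc m ≤ uBar u x₀ z := h1
      _ = 1 * uBar u x₀ z := (one_mul _).symm
      _ ≤ d / R * uBar u x₀ z := mul_le_mul_of_nonneg_right ht (hm.trans h1)
  linarith

/-- The gradient bound on the sublevel set, from convexity. -/
lemma gradMap_mem_closedBall (hu : ContDiffOn ℝ ∞ u Set.univ)
    (hpos : ∀ x ∈ (Set.univ : Set (Fin 3 → ℝ)), (hess u x).PosDef) {R M : ℝ} (hR : 0 < R)
    (hM : ∀ z, ‖z - x₀‖ ≤ 2 * R → uBar u x₀ z ≤ M) {x : Fin 3 → ℝ} (hx : ‖x - x₀‖ < R) :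
    gradMap u x₀ x ∈ Metric.closedBall (0 : Fin 3 → ℝ) (M / R) := by
  have hM0 : 0 ≤ M := by
    have := hM x₀ (by simp; linarith)
    rwa [uBar_self] at this
  rw [mem_closedBall_zero_iff, pi_norm_le_iff_of_nonneg (by positivity)]
  intro i
  have hx0 : 0 ≤ uBar u x₀ x :=
    uBar_nonneg isOpen_univ convex_univ hu hpos (mem_univ x₀) (mem_univ x)
  have key : ∀ t : ℝ, |t| = R → t * pd i (uBar u x₀) x ≤ M := by
    intro t ht
    set z := x + t • (Pi.single i 1 : Fin 3 → ℝ) with hz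
    have hzn : ‖z - x₀‖ ≤ 2 * R := by
      have e : z - x₀ = (x - x₀) + t • (Pi.single i 1 : Fin 3 → ℝ) := by rw [hz]; abel
      rw [e]
      refine (norm_add_le _ _).trans ?_
      rw [norm_smul, Real.norm_eq_abs, ht]
      have : ‖(Pi.single i 1 : Fin 3 → ℝ)‖ ≤ 1 := by
        rw [pi_norm_le_iff_of_nonneg zero_le_one]
        intro j
        by_cases h : j = i
        · subst h; simp
        · simp [Pi.single_eq_of_ne h]
      nlinarith [hx.le]
    have h1 := tangent_le (x₀ := x₀) isOpen_univ convex_univ hu hpos (mem_univ x) (mem_univ z)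
    have e2 : z - x = t • (Pi.single i 1 : Fin 3 → ℝ) := by rw [hz]; abel
    rw [e2, map_smul] at h1
    have h2 := hM z hzn
    have e3 : fderiv ℝ (uBar u x₀) x (Pi.single i 1) = pd i (uBar u x₀) x := rfl
    rw [e3, smul_eq_mul] at h1
    linarith
  have h1 := key R (abs_of_pos hR)
  have h2 := key (-R) (by rw [abs_neg, abs_of_pos hR])
  change ‖pd i (uBar u x₀) x‖ ≤ M / R
  rw [Real.norm_eq_abs, le_div_iff₀ hR]
  rcases abs_cases (pd i (uBar u x₀) x) with ⟨h, _⟩ | ⟨h, _⟩ <;> rw [h] <;> nlinarith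

/-- The Liouville theorem for entire solutions under a growth condition along a sequence of radii:
with `m` a lower bound for `ū` on the sphere of radius `R` and `M` an upper bound on the ball of
radius `2R`, the determinant is constant as soon as `M⁹ = o(R³ m¹⁰)` with `m → ∞`. -/
theorem det_const_of_growth (hs : IsAffineMaximal Set.univ u)
    (hG : ∀ ε : ℝ, 0 < ε → ∀ S₁ : ℝ, ∃ R : ℝ, 0 < R ∧ ∃ m : ℝ, S₁ ≤ m ∧ ∃ M : ℝ,
      (∀ x, ‖x - x₀‖ = R → m ≤ uBar u x₀ x) ∧ (∀ x, ‖x - x₀‖ ≤ 2 * R → uBar u x₀ x ≤ M) ∧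
      M ^ 9 ≤ ε * R ^ 3 * m ^ 10) (x y : Fin 3 → ℝ) : (hess u x).det = (hess u y).det := by
  have hcpt : ∀ s, IsCompact (subLevelC Set.univ (uBar u x₀) s) :=
    isCompact_subLevel_of_complete isOpen_univ convex_univ hs.smooth hs.posDef (mem_univ x₀)
      (isEuclideanComplete_univ u)
  refine hs.det_const_of_mass isOpen_univ convex_univ (mem_univ x₀) hcpt ?_ (mem_univ x) (mem_univ y)
  intro ε hε S₁
  obtain ⟨R, hR, m, hm1, M, hsph, hball, hMm⟩ :=
    hG (ε ^ 5 / 2 ^ 15) (by positivity) (max S₁ 1)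
  have hm0 : 0 < m := lt_of_lt_of_le one_pos ((le_max_right _ _).trans hm1)
  refine ⟨m, (le_max_left _ _).trans hm1, ?_⟩
  have hf : ContDiffOn ℝ ∞ (uBar u x₀) Set.univ := contDiffOn_uBar hs.smooth
  have hsO : IsOpen (subLevel Set.univ (uBar u x₀) m) := IsAffineMaximal.isOpen_subLevel isOpen_univ hf m
  have hsub : subLevel Set.univ (uBar u x₀) m ⊆ Metric.ball x₀ R := by
    intro z hz
    rw [Metric.mem_ball, dist_eq_norm]
    exact subLevel_subset_ball isOpen_univ convex_univ hs.smooth hs.posDef (mem_univ x₀) hR hm0.le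
      (fun w _ hw => hsph w hw) hz.1 hz.2
  -- `M` is positive
  have hMpos : 0 < M := by
    have hzn : ‖(x₀ + fun _ => R) - x₀‖ = R := by
      rw [add_sub_cancel_left, pi_norm_const, Real.norm_eq_abs, abs_of_pos hR]
    have h1 := hsph _ hzn
    have h2 := hball (x₀ + fun _ => R) (by rw [hzn]; linarith)
    linarith
  have hV : volume (subLevel Set.univ (uBar u x₀) m) ≤ ENNReal.ofReal ((2 * R) ^ 3) := by
    refine (measure_mono hsub).trans (le_of_eq ?_)
    have := Real.volume_pi_ball (ι := Fin 3) x₀ hR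
    simpa using this
  have himg : gradMap u x₀ '' subLevel Set.univ (uBar u x₀) m ⊆
      Metric.closedBall (0 : Fin 3 → ℝ) (M / R) := by
    rintro _ ⟨z, hz, rfl⟩
    have hz2 := hsub hz
    rw [Metric.mem_ball, dist_eq_norm] at hz2
    exact gradMap_mem_closedBall hs.smooth hs.posDef hR hball hz2
  have hY := integral_det_le (x₀ := x₀) isOpen_univ convex_univ hs.smooth hs.posDef hsO.measurableSet
    (subset_univ _) (P := M / R) (by positivity) himg
  have hcl : IsCompact (closure (subLevel Set.univ (uBar u x₀) m)) :=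
    (isCompact_closedBall x₀ R).of_isClosed_subset isClosed_closure
      (closure_minimal (hsub.trans Metric.ball_subset_closedBall) Metric.isClosed_closedBall)
  refine mass_le_of_bounds isOpen_univ hs.smooth hs.posDef hsO.measurableSet (subset_univ _) hcl
    (subset_univ _) (V := (2 * R) ^ 3) (Y := (2 * (M / R)) ^ 3) (by positivity) (by positivity) hV hY
    (by positivity) ?_
  have e : ((2 * R) ^ 3) ^ 2 * ((2 * (M / R)) ^ 3) ^ 3 = 2 ^ 15 * M ^ 9 / R ^ 3 := by
    field_simp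
  rw [e, div_le_iff₀ (by positivity)]
  calc 2 ^ 15 * M ^ 9 ≤ 2 ^ 15 * (ε ^ 5 / 2 ^ 15 * R ^ 3 * m ^ 10) :=
        mul_le_mul_of_nonneg_left hMm (by positivity)
    _ = (ε * m ^ 2) ^ 5 * R ^ 3 := by
        field_simp

/-- The Liouville theorem for entire solutions with two sided power growth. -/
theorem det_const_of_power_growth (hs : IsAffineMaximal Set.univ u) {a b c C : ℝ} (ha : 0 < a)
    (hb : 0 < b) (hc : 0 < c) (hab : 9 * b < 10 * a + 3)
    (hlow : ∀ x, c * ‖x - x₀‖ ^ a - C ≤ uBar u x₀ x)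
    (hup : ∀ x, uBar u x₀ x ≤ C * ‖x - x₀‖ ^ b + C) (x y : Fin 3 → ℝ) :
    (hess u x).det = (hess u y).det := by
  have hC : 0 ≤ C := by
    have := hup x₀
    rw [uBar_self, sub_self, norm_zero, Real.zero_rpow hb.ne', mul_zero, zero_add] at this
    exact this
  refine det_const_of_growth (x₀ := x₀) hs (fun ε hε S₁ => ?_) x y
  -- constants
  set C₁ : ℝ := C * 2 ^ b + C with hC₁
  have hC₁0 : 0 ≤ C₁ := by positivity
  set δ : ℝ := 10 * a + 3 - 9 * b with hδ
  have hδ0 : 0 < δ := by rw [hδ]; linarith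
  have t1 : Tendsto (fun R : ℝ => R ^ a) atTop atTop := tendsto_rpow_atTop ha
  have t2 : Tendsto (fun R : ℝ => R ^ δ) atTop atTop := tendsto_rpow_atTop hδ0
  have e1 := t1.eventually_ge_atTop ((S₁ + C) / c)
  have e1' := t1.eventually_ge_atTop (2 * C / c)
  have e2 := t2.eventually_ge_atTop (C₁ ^ 9 / (ε * (c / 2) ^ 10))
  have e3 := eventually_ge_atTop (1 : ℝ)
  obtain ⟨R, hR1, hR1', hR2, hR3⟩ := (e1.and (e1'.and (e2.and e3))).exists
  have hR0 : 0 < R := lt_of_lt_of_le one_pos hR3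
  have hRa : 0 < R ^ a := by positivity
  have hRb : 1 ≤ R ^ b := Real.one_le_rpow hR3 hb.le
  refine ⟨R, hR0, c * R ^ a - C, ?_, C * (2 * R) ^ b + C, ?_, ?_, ?_⟩
  · -- the level is large
    rw [div_le_iff₀ hc] at hR1
    nlinarith
  · intro z hz
    have := hlow z
    rwa [hz] at this
  · intro z hz
    refine (hup z).trans ?_
    have : ‖z - x₀‖ ^ b ≤ (2 * R) ^ b := Real.rpow_le_rpow (norm_nonneg _) hz hb.le
    nlinarith [mul_le_mul_of_nonneg_left this hC]
  · -- the inequality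
    have h1 : c / 2 * R ^ a ≤ c * R ^ a - C := by
      rw [div_le_iff₀ hc] at hR1'
      nlinarith
    have hM : C * (2 * R) ^ b + C ≤ C₁ * R ^ b := by
      rw [Real.mul_rpow (by norm_num) hR0.le, hC₁]
      nlinarith [mul_le_mul_of_nonneg_left hRb hC]
    have hM0 : 0 ≤ C * (2 * R) ^ b + C := by positivity
    have h2 : (C * (2 * R) ^ b + C) ^ 9 ≤ (C₁ * R ^ b) ^ 9 := pow_le_pow_left₀ hM0 hM 9
    have h3 : (c / 2 * R ^ a) ^ 10 ≤ (c * R ^ a - C) ^ 10 :=
      pow_le_pow_left₀ (by positivity) h1 10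
    have h4 : C₁ ^ 9 ≤ ε * (c / 2) ^ 10 * R ^ δ := by
      rw [div_le_iff₀ (by positivity)] at hR2
      linarith
    have e : R ^ δ * (R ^ b) ^ 9 = R ^ 3 * (R ^ a) ^ 10 := by
      rw [← Real.rpow_natCast (R ^ b) 9, ← Real.rpow_natCast (R ^ a) 10, ← Real.rpow_mul hR0.le,
        ← Real.rpow_mul hR0.le, ← Real.rpow_natCast R 3, ← Real.rpow_add hR0, ← Real.rpow_add hR0]
      congr 1
      rw [hδ]
      push_cast
      ring
    calc (C * (2 * R) ^ b + C) ^ 9 ≤ (C₁ * R ^ b) ^ 9 := h2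
      _ = C₁ ^ 9 * (R ^ b) ^ 9 := mul_pow _ _ _
      _ ≤ (ε * (c / 2) ^ 10 * R ^ δ) * (R ^ b) ^ 9 :=
          mul_le_mul_of_nonneg_right h4 (by positivity)
      _ = ε * R ^ 3 * (c / 2 * R ^ a) ^ 10 := by
          rw [mul_assoc (ε * (c / 2) ^ 10), e, mul_pow]
          ring
      _ ≤ ε * R ^ 3 * (c * R ^ a - C) ^ 10 :=
          mul_le_mul_of_nonneg_left h3 (by positivity)

end Entire

end Vale.Agent.Lib.P252
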