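import Vale.Agent.Lib.P252.CacGrowth
import Vale.Agent.Lib.P252.CacAdm
import Vale.Agent.Lib.P252.Growth

/-!
Corollaries of the Caccioppoli inequality: pointwise conditions.
-/

open scoped ContDiff Matrix Topology
open MeasureTheory Set Filter

namespace Vale.Agent.Lib.P252

namespace Caccio

variable {Ω : Set (Fin 3 → ℝ)} {u : (Fin 3 → ℝ) → ℝ} {x₀ : Fin 3 → ℝ}

/-- The numerics of the growth conditions, first form. -/
lemma key_num {K₁ ε a : ℝ} (hK₁ : 0 < K₁) (hε : 0 < ε) (ha : 0 ≤ a) (p : ℕ)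
    (hp : 3 < (p : ℝ) * (2 - a)) (S₁ : ℝ) :
    ∃ R : ℝ, 1 ≤ R ∧ S₁ ≤ R ^ 2 ∧
      (K₁ * (2 * R) ^ a * R ^ 2) ^ p * (2 * R) ^ 3 ≤ ε * (R ^ 2) ^ (2 * p) := by
  set δ : ℝ := (p : ℝ) * (2 - a) - 3 with hδ
  have hδ0 : 0 < δ := by rw [hδ]; linarith
  set K₀ : ℝ := (K₁ * 2 ^ a) ^ p * 8 with hK₀
  have hK₀0 : 0 ≤ K₀ := by positivity
  have t : Tendsto (fun R : ℝ => R ^ δ) atTop atTop := tendsto_rpow_atTop hδ0
  obtain ⟨R, h1, h2, h3⟩ := ((t.eventually_ge_atTop (K₀ / ε)).and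
    ((eventually_ge_atTop S₁).and (eventually_ge_atTop (1 : ℝ)))).exists
  have hR0 : 0 < R := by linarith
  refine ⟨R, h3, by nlinarith, ?_⟩
  rw [div_le_iff₀ hε] at h1
  have e1 : (2 * R) ^ a = 2 ^ a * R ^ a := Real.mul_rpow (by norm_num) hR0.le
  have e2 : (R ^ a) ^ p * R ^ 3 * R ^ δ = (R ^ 2) ^ p := by
    rw [← Real.rpow_natCast (R ^ a) p, ← Real.rpow_mul hR0.le, ← Real.rpow_natCast R 3,
      ← Real.rpow_add hR0, ← Real.rpow_add hR0, ← Real.rpow_natCast R 2,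
      ← Real.rpow_natCast (R ^ ((2 : ℕ) : ℝ)) p, ← Real.rpow_mul hR0.le]
    congr 1
    rw [hδ]
    push_cast
    ring
  rw [e1]
  calc (K₁ * (2 ^ a * R ^ a) * R ^ 2) ^ p * (2 * R) ^ 3
      = K₀ * ((R ^ a) ^ p * R ^ 3 * (R ^ 2) ^ p) := by
        rw [hK₀]
        simp only [mul_pow]
        ring
    _ ≤ (R ^ δ * ε) * ((R ^ a) ^ p * R ^ 3 * (R ^ 2) ^ p) :=
        mul_le_mul_of_nonneg_right h1 (by positivity)
    _ = ε * (((R ^ a) ^ p * R ^ 3 * R ^ δ) * (R ^ 2) ^ p) := by ring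
    _ = ε * (R ^ 2) ^ (2 * p) := by
        rw [e2, two_mul, pow_add]

/-- The numerics of the growth conditions, second form. -/
lemma key_num2 {K₁ V ε a : ℝ} (hK₁ : 0 < K₁) (hV : 0 ≤ V) (hε : 0 < ε) (ha : 0 ≤ a) (p : ℕ)
    (hp : 3 < (p : ℝ) * (2 - a)) (S₁ : ℝ) :
    ∃ S : ℝ, 1 ≤ S ∧ S₁ ≤ S ∧
      (K₁ * (2 * S) ^ a) ^ p * (S ^ 3 * V) ≤ ε * S ^ (2 * p) := by
  set δ : ℝ := (p : ℝ) * (2 - a) - 3 with hδ
  have hδ0 : 0 < δ := by rw [hδ]; linarith
  set K₀ : ℝ := (K₁ * 2 ^ a) ^ p * V with hK₀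
  have hK₀0 : 0 ≤ K₀ := by positivity
  have t : Tendsto (fun R : ℝ => R ^ δ) atTop atTop := tendsto_rpow_atTop hδ0
  obtain ⟨S, h1, h2, h3⟩ := ((t.eventually_ge_atTop (K₀ / ε)).and
    ((eventually_ge_atTop S₁).and (eventually_ge_atTop (1 : ℝ)))).exists
  have hS0 : 0 < S := by linarith
  refine ⟨S, h3, h2, ?_⟩
  rw [div_le_iff₀ hε] at h1
  have e1 : (2 * S) ^ a = 2 ^ a * S ^ a := Real.mul_rpow (by norm_num) hS0.le
  have e2 : (S ^ a) ^ p * S ^ 3 * S ^ δ = S ^ (2 * p) := by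
    rw [← Real.rpow_natCast (S ^ a) p, ← Real.rpow_mul hS0.le, ← Real.rpow_natCast S 3,
      ← Real.rpow_add hS0, ← Real.rpow_add hS0, ← Real.rpow_natCast S (2 * p)]
    congr 1
    rw [hδ]
    push_cast
    ring
  rw [e1]
  calc (K₁ * (2 ^ a * S ^ a)) ^ p * (S ^ 3 * V) = K₀ * ((S ^ a) ^ p * S ^ 3) := by
        rw [hK₀]
        simp only [mul_pow]
        ring
    _ ≤ (S ^ δ * ε) * ((S ^ a) ^ p * S ^ 3) := mul_le_mul_of_nonneg_right h1 (by positivity)
    _ = ε * ((S ^ a) ^ p * S ^ 3 * S ^ δ) := by ring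
    _ = ε * S ^ (2 * p) := by rw [e2]

/-- The Liouville theorem under a pointwise bound for the `g`-norm of the gradient of `ū`. -/
theorem det_const_of_G_bound (hs : IsAffineMaximal Ω u) (hΩ : IsOpen Ω) (hc : Convex ℝ Ω)
    (hx₀ : x₀ ∈ Ω) (hcpt : ∀ s, IsCompact (subLevelC Ω (uBar u x₀) s)) {C a : ℝ} (ha : a < 2)
    (hG : ∀ x ∈ Ω, pa u (dF (uBar u x₀)) (dF (uBar u x₀)) x ≤ C * (1 + uBar u x₀ x) ^ a)
    {x z : Fin 3 → ℝ} (hx : x ∈ Ω) (hz : z ∈ Ω) : (hess u x).det = (hess u z).det := by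
  set a' : ℝ := max a 0 with ha'
  have ha'0 : 0 ≤ a' := le_max_right _ _
  have ha'2 : a' < 2 := max_lt ha (by norm_num)
  set C' : ℝ := max C 1 with hC'
  have hC'0 : 0 < C' := lt_of_lt_of_le one_pos (le_max_right _ _)
  have hf : ContDiffOn ℝ ∞ (uBar u x₀) Ω := contDiffOn_uBar hs.smooth
  have hu0 : ∀ x ∈ Ω, 0 ≤ uBar u x₀ x := fun x hx =>
    uBar_nonneg hΩ hc hs.smooth hs.posDef hx₀ hx
  obtain ⟨k, hk⟩ := exists_nat_gt (3 / (2 - a'))
  have hδ0 : 0 < 2 - a' := by linarith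
  rw [div_lt_iff₀ hδ0] at hk
  have hk0 : (0 : ℝ) ≤ k := Nat.cast_nonneg k
  have hpk : 3 < ((k + 3 : ℕ) : ℝ) * (2 - a') := by
    push_cast
    nlinarith
  have hadm : Adm (k + 3) 0 := adm_of_abs (by omega) (by
    have e : |(0 : ℝ) - 1/5| = 1/5 := by norm_num [abs_of_pos]
    rw [e]
    push_cast
    nlinarith)
  obtain ⟨y, hd, hv⟩ := adm_iff hadm
  refine det_const_of_energy_growth hs hΩ hd hv hc.isPreconnected hf hcpt (fun ε hε S₁ => ?_) hx hz
  set V : ℝ := volume.real (subLevel Ω (uBar u x₀) 1) with hV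
  have hV0 : 0 ≤ V := measureReal_nonneg
  obtain ⟨S, hS1, hS2, hS3⟩ := key_num2 hC'0 hV0 hε ha'0 (k + 3) hpk S₁
  refine ⟨S, hS2, le_trans ?_ (le_of_le_of_eq hS3 ?_)⟩
  · have hS0 : 0 < S := by linarith
    have hopen := IsAffineMaximal.isOpen_subLevel hΩ hf S
    have hfin : ∀ s, volume (subLevel Ω (uBar u x₀) s) < ⊤ := fun s => by
      have hsub : subLevel Ω (uBar u x₀) s ⊆ subLevelC Ω (uBar u x₀) s :=
        fun _ hz => ⟨hz.1, hz.2.le⟩
      exact (measure_mono hsub).trans_lt (hcpt s).measure_lt_top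
    set L : ℝ := (C' * (2 * S) ^ a') ^ (k + 3) with hL
    have hL0 : 0 ≤ L := by positivity
    have hdX : ∀ j, ContDiffOn ℝ ∞ (dF (uBar u x₀) j) Ω := fun j => contDiffOn_pd hΩ hf j
    have hint : IntegrableOn (fun x => (hess u x).det ^ (0 : ℝ) *
        pa u (dF (uBar u x₀)) (dF (uBar u x₀)) x ^ (k + 3)) (subLevel Ω (uBar u x₀) S) := by
      have hcont : ContinuousOn (fun z => (hess u z).det ^ (0 : ℝ) *
          pa u (dF (uBar u x₀)) (dF (uBar u x₀)) z ^ (k + 3)) Ω :=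
        (hs.contDiffOn_detpow hΩ _).continuousOn.mul
          ((hs.contDiffOn_pa hΩ hdX hdX).continuousOn.pow (k + 3))
      exact IsAffineMaximal.integrableOn_subLevel hcont (hcpt S)
    have hle : ∫ x in subLevel Ω (uBar u x₀) S, (hess u x).det ^ (0 : ℝ) *
        pa u (dF (uBar u x₀)) (dF (uBar u x₀)) x ^ (k + 3) ≤
        ∫ _ in subLevel Ω (uBar u x₀) S, L := by
      refine setIntegral_mono_on hint (integrableOn_const (hfin S).ne) hopen.measurableSet
        fun w hw => ?_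
      rw [Real.rpow_zero, one_mul]
      have hwΩ := hw.1
      have h0 : 0 ≤ pa u (dF (uBar u x₀)) (dF (uBar u x₀)) w := hs.pa_self_nonneg _ hwΩ
      refine pow_le_pow_left₀ h0 ((hG w hwΩ).trans ?_) _
      have h1 : (1 + uBar u x₀ w) ^ a ≤ (1 + uBar u x₀ w) ^ a' :=
        Real.rpow_le_rpow_of_exponent_le (by linarith [hu0 w hwΩ]) (le_max_left _ _)
      have h2 : (1 + uBar u x₀ w) ^ a' ≤ (2 * S) ^ a' :=
        Real.rpow_le_rpow (by linarith [hu0 w hwΩ]) (by linarith [hw.2]) ha'0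
      have h3 : 0 ≤ (1 + uBar u x₀ w) ^ a := Real.rpow_nonneg (by linarith [hu0 w hwΩ]) _
      calc C * (1 + uBar u x₀ w) ^ a ≤ C' * (1 + uBar u x₀ w) ^ a :=
            mul_le_mul_of_nonneg_right (le_max_left _ _) h3
        _ ≤ C' * (2 * S) ^ a' := mul_le_mul_of_nonneg_left (h1.trans h2) hC'0.le
    refine hle.trans ?_
    rw [setIntegral_const, smul_eq_mul, mul_comm]
    refine mul_le_mul_of_nonneg_left ?_ hL0
    have h1 := volume_subLevel_le hs hΩ hc hx₀ hS1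
    have h2 := ENNReal.toReal_mono (ENNReal.mul_ne_top ENNReal.ofReal_ne_top (hfin 1).ne) h1
    rw [ENNReal.toReal_mul, ENNReal.toReal_ofReal (by positivity)] at h2
    exact h2
  · congr 2

lemma Qv_single (U : Matrix (Fin 3) (Fin 3) ℝ) (a b : Fin 3) :
    Qv U (Pi.single a 1) (Pi.single b 1) = U a b := by
  simp [Qv, Pi.single_apply]

lemma offdiag_le {U : Matrix (Fin 3) (Fin 3) ℝ} (hU : U.PosDef) (i j : Fin 3) :
    2 * |U i j| ≤ U i i + U j j := by
  have hsym : U j i = U i j := by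
    have := hU.isHermitian.apply i j
    simpa using this
  have h1 := Qv_nonneg hU (Pi.single i 1 + Pi.single j 1)
  have h2 := Qv_nonneg hU (Pi.single i 1 + (-1 : ℝ) • Pi.single j 1)
  simp only [Qv_add_left, Qv_add_right, Qv_smul_left, Qv_smul_right, Qv_single, hsym] at h1 h2
  have h3 : |U i j| ≤ (U i i + U j j) / 2 := by
    rw [abs_le]
    constructor <;> linarith
  linarith

/-- A positive definite form is bounded by its trace. -/
lemma quad_le_trace {U : Matrix (Fin 3) (Fin 3) ℝ} (hU : U.PosDef) (w : Fin 3 → ℝ) :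
    Qv U w w ≤ 3 * U.trace * ‖w‖ ^ 2 := by
  have hw : ∀ i, |w i| ≤ ‖w‖ := fun i => by
    have := norm_le_pi_norm w i
    rwa [Real.norm_eq_abs] at this
  have hterm : ∀ i j, U i j * w i * w j ≤ ((U i i + U j j) / 2) * ‖w‖ ^ 2 := by
    intro i j
    have h1 : U i j * w i * w j ≤ |U i j| * |w i| * |w j| := by
      rw [← abs_mul, ← abs_mul]
      exact le_abs_self _
    have h2 : |w i| * |w j| ≤ ‖w‖ ^ 2 := by
      rw [sq]
      exact mul_le_mul (hw i) (hw j) (abs_nonneg _) (norm_nonneg _)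
    have h3 : |U i j| ≤ (U i i + U j j) / 2 := by
      have := offdiag_le hU i j
      linarith
    calc U i j * w i * w j ≤ |U i j| * |w i| * |w j| := h1
      _ = |U i j| * (|w i| * |w j|) := by ring
      _ ≤ |U i j| * ‖w‖ ^ 2 := mul_le_mul_of_nonneg_left h2 (abs_nonneg _)
      _ ≤ _ := mul_le_mul_of_nonneg_right h3 (by positivity)
  have hsum : Qv U w w ≤ ∑ i, ∑ j, ((U i i + U j j) / 2) * ‖w‖ ^ 2 :=
    Finset.sum_le_sum fun i _ => Finset.sum_le_sum fun j _ => hterm i j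
  refine hsum.trans (le_of_eq ?_)
  simp only [Matrix.trace, Matrix.diag, Fin.sum_univ_three]
  ring

/-- The squared distance to `x₀`. -/
noncomputable def rhoE (x₀ : Fin 3 → ℝ) (x : Fin 3 → ℝ) : ℝ := ∑ j, (x j - x₀ j) ^ 2

lemma rhoE_contDiff (x₀ : Fin 3 → ℝ) : ContDiff ℝ ∞ (rhoE x₀) := by
  unfold rhoE
  exact ContDiff.sum fun j _ => ((contDiff_apply ℝ ℝ j).sub contDiff_const).pow 2

lemma pd_coord (x₀ x : Fin 3 → ℝ) (i j : Fin 3) :
    pd i (fun z : Fin 3 → ℝ => z j - x₀ j) x = if i = j then 1 else 0 := by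
  unfold pd
  have h : HasFDerivAt (fun z : Fin 3 → ℝ => z j - x₀ j)
      (ContinuousLinearMap.proj (R := ℝ) (φ := fun _ : Fin 3 => ℝ) j) x :=
    (ContinuousLinearMap.proj (R := ℝ) (φ := fun _ : Fin 3 => ℝ) j).hasFDerivAt.sub_const (x₀ j)
  rw [h.fderiv]
  by_cases hij : i = j
  · subst hij; simp
  · have hji : j ≠ i := fun h => hij h.symm
    simp [Pi.single_apply, hij, hji]

lemma pd_rhoE (x₀ x : Fin 3 → ℝ) (i : Fin 3) : pd i (rhoE x₀) x = 2 * (x i - x₀ i) := by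
  have hd : ∀ j, DifferentiableAt ℝ (fun z : Fin 3 → ℝ => z j - x₀ j) x := fun j =>
    (differentiableAt_apply j x).sub_const _
  have h1 : ∀ j, pd i (fun z : Fin 3 → ℝ => (z j - x₀ j) ^ 2) x =
      2 * (x j - x₀ j) * (if i = j then 1 else 0) := by
    intro j
    have hder : HasDerivAt (fun t : ℝ => t ^ 2) (((2 : ℕ) : ℝ) * (x j - x₀ j) ^ (2 - 1))
        (x j - x₀ j) := hasDerivAt_pow 2 _
    have h := pd_comp (g := fun t : ℝ => t ^ 2) hder (hd j) i
    rw [pd_coord] at h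
    simpa using h
  have h2 : pd i (rhoE x₀) x = ∑ j, pd i (fun z : Fin 3 → ℝ => (z j - x₀ j) ^ 2) x := by
    unfold rhoE
    exact pd_sum Finset.univ (fun j _ => (hd j).pow 2) i
  rw [h2]
  simp only [h1]
  simp

lemma norm_le_of_rhoE {x₀ x : Fin 3 → ℝ} {R : ℝ} (hR : 0 ≤ R) (h : rhoE x₀ x ≤ R ^ 2) :
    ‖x - x₀‖ ≤ R := by
  rw [pi_norm_le_iff_of_nonneg hR]
  intro j
  have h1 : (x j - x₀ j) ^ 2 ≤ rhoE x₀ x :=
    Finset.single_le_sum (f := fun j => (x j - x₀ j) ^ 2) (fun j _ => sq_nonneg _) (Finset.mem_univ j)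
  rw [Real.norm_eq_abs]
  exact abs_le_of_sq_le_sq (h1.trans h) hR

lemma isCompact_rhoE (x₀ : Fin 3 → ℝ) (s : ℝ) : IsCompact (subLevelC Set.univ (rhoE x₀) s) := by
  have hcont : Continuous (rhoE x₀) := (rhoE_contDiff x₀).continuous
  have hcl : IsClosed (subLevelC Set.univ (rhoE x₀) s) := by
    have : subLevelC Set.univ (rhoE x₀) s = {x | rhoE x₀ x ≤ s} := by
      ext x
      simp [subLevelC]
    rw [this]
    exact isClosed_le hcont continuous_const
  refine Metric.isCompact_of_isClosed_isBounded hcl ?_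
  refine (Metric.isBounded_closedBall (x := x₀) (r := Real.sqrt (max s 0))).subset fun x hx => ?_
  rw [Metric.mem_closedBall, dist_eq_norm]
  refine norm_le_of_rhoE (Real.sqrt_nonneg _) ?_
  rw [Real.sq_sqrt (le_max_right _ _)]
  exact hx.2.trans (le_max_left _ _)

/-- The Liouville theorem for entire solutions under a lower bound for the Hessian. -/
theorem det_const_of_hess_lower (hs : IsAffineMaximal Set.univ u) {C a : ℝ} (ha : a < 2)
    (hT : ∀ x, Matrix.trace (hess u x)⁻¹ ≤ C * (1 + ‖x - x₀‖) ^ a) (x z : Fin 3 → ℝ) :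
    (hess u x).det = (hess u z).det := by
  set a' : ℝ := max a 0 with ha'
  have ha'0 : 0 ≤ a' := le_max_right _ _
  have ha'2 : a' < 2 := max_lt ha (by norm_num)
  set C' : ℝ := 12 * max C 1 with hC'
  have hC1 : 0 < max C 1 := lt_of_lt_of_le one_pos (le_max_right _ _)
  have hC'0 : 0 < C' := by positivity
  obtain ⟨k, hk⟩ := exists_nat_gt (3 / (2 - a'))
  have hδ0 : 0 < 2 - a' := by linarith
  rw [div_lt_iff₀ hδ0] at hk
  have hk0 : (0 : ℝ) ≤ k := Nat.cast_nonneg k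
  have hpk : 3 < ((k + 3 : ℕ) : ℝ) * (2 - a') := by
    push_cast
    nlinarith
  have hadm : Adm (k + 3) 0 := adm_of_abs (by omega) (by
    have e : |(0 : ℝ) - 1/5| = 1/5 := by norm_num [abs_of_pos]
    rw [e]
    push_cast
    nlinarith)
  obtain ⟨y, hd, hv⟩ := adm_iff hadm
  refine det_const_of_energy_growth hs isOpen_univ hd hv isPreconnected_univ
    (rhoE_contDiff x₀).contDiffOn (isCompact_rhoE x₀) (fun ε hε S₁ => ?_) (mem_univ x) (mem_univ z)
  obtain ⟨R, hR1, hR2, hR3⟩ := key_num hC'0 hε ha'0 (k + 3) hpk S₁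
  have hR0 : 0 < R := by linarith
  refine ⟨R ^ 2, hR2, le_trans ?_ (le_of_le_of_eq hR3 ?_)⟩
  · set L : ℝ := (C' * (2 * R) ^ a' * R ^ 2) ^ (k + 3) with hL
    have hL0 : 0 ≤ L := by positivity
    have hf := (rhoE_contDiff x₀).contDiffOn (s := Set.univ)
    have hopen := IsAffineMaximal.isOpen_subLevel (isOpen_univ (X := Fin 3 → ℝ)) hf (R ^ 2)
    have hsub : subLevel Set.univ (rhoE x₀) (R ^ 2) ⊆ Metric.closedBall x₀ R := by
      intro w hw
      rw [Metric.mem_closedBall, dist_eq_norm]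
      exact norm_le_of_rhoE hR0.le hw.2.le
    have hfin : volume (subLevel Set.univ (rhoE x₀) (R ^ 2)) < ⊤ :=
      (measure_mono hsub).trans_lt (isCompact_closedBall x₀ R).measure_lt_top
    have hdX : ∀ j, ContDiffOn ℝ ∞ (dF (rhoE x₀) j) Set.univ := fun j =>
      contDiffOn_pd isOpen_univ hf j
    have hint : IntegrableOn (fun x => (hess u x).det ^ (0 : ℝ) *
        pa u (dF (rhoE x₀)) (dF (rhoE x₀)) x ^ (k + 3)) (subLevel Set.univ (rhoE x₀) (R ^ 2)) := by
      have hcont : ContinuousOn (fun z => (hess u z).det ^ (0 : ℝ) *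
          pa u (dF (rhoE x₀)) (dF (rhoE x₀)) z ^ (k + 3)) Set.univ :=
        (hs.contDiffOn_detpow isOpen_univ _).continuousOn.mul
          ((hs.contDiffOn_pa isOpen_univ hdX hdX).continuousOn.pow (k + 3))
      exact IsAffineMaximal.integrableOn_subLevel hcont (isCompact_rhoE x₀ _)
    have hle : ∫ x in subLevel Set.univ (rhoE x₀) (R ^ 2), (hess u x).det ^ (0 : ℝ) *
        pa u (dF (rhoE x₀)) (dF (rhoE x₀)) x ^ (k + 3) ≤
        ∫ _ in subLevel Set.univ (rhoE x₀) (R ^ 2), L := by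
      refine setIntegral_mono_on hint (integrableOn_const hfin.ne) hopen.measurableSet
        fun w hw => ?_
      rw [Real.rpow_zero, one_mul]
      have hw0 : ‖w - x₀‖ ≤ R := by
        have := hsub hw
        rwa [Metric.mem_closedBall, dist_eq_norm] at this
      have h0 : 0 ≤ pa u (dF (rhoE x₀)) (dF (rhoE x₀)) w := hs.pa_self_nonneg _ (mem_univ w)
      refine pow_le_pow_left₀ h0 ?_ _
      -- the energy of the exhaustion
      have e1 : pa u (dF (rhoE x₀)) (dF (rhoE x₀)) w =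
          2 ^ 2 * pa u (fun j _ => w j - x₀ j) (fun j _ => w j - x₀ j) w :=
        pa_scale (fun j => pd_rhoE x₀ w j)
      have e2 : pa u (fun j _ => w j - x₀ j) (fun j _ => w j - x₀ j) w =
          Qv (hess u w)⁻¹ (w - x₀) (w - x₀) := by
        unfold pa ra Qv Ui
        refine Finset.sum_congr rfl fun i _ => ?_
        rw [Finset.mul_sum]
        refine Finset.sum_congr rfl fun j _ => ?_
        simp only [Pi.sub_apply]
        ring
      have h1 := quad_le_trace (hs.posDef w (mem_univ w)).inv (w - x₀)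
      have h2 : Matrix.trace (hess u w)⁻¹ ≤ max C 1 * (2 * R) ^ a' := by
        have h3 : (1 + ‖w - x₀‖) ^ a ≤ (1 + ‖w - x₀‖) ^ a' :=
          Real.rpow_le_rpow_of_exponent_le (by linarith [norm_nonneg (w - x₀)]) (le_max_left _ _)
        have h4 : (1 + ‖w - x₀‖) ^ a' ≤ (2 * R) ^ a' :=
          Real.rpow_le_rpow (by positivity) (by linarith) ha'0
        have h5 : 0 ≤ (1 + ‖w - x₀‖) ^ a := by positivity
        calc Matrix.trace (hess u w)⁻¹ ≤ C * (1 + ‖w - x₀‖) ^ a := hT w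
          _ ≤ max C 1 * (1 + ‖w - x₀‖) ^ a := mul_le_mul_of_nonneg_right (le_max_left _ _) h5
          _ ≤ _ := mul_le_mul_of_nonneg_left (h3.trans h4) hC1.le
      have h6 : 0 ≤ Matrix.trace (hess u w)⁻¹ := by
        have := quad_le_trace (hs.posDef w (mem_univ w)).inv (fun _ => 1)
        have h7 := Qv_pos (hs.posDef w (mem_univ w)).inv (a := fun _ => (1 : ℝ))
          (fun h => by simpa using congrFun h 0)
        have h8 : ‖(fun _ => 1 : Fin 3 → ℝ)‖ ^ 2 = 1 := by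
          rw [pi_norm_const]
          simp
        rw [h8] at this
        linarith
      have h9 : ‖w - x₀‖ ^ 2 ≤ R ^ 2 := pow_le_pow_left₀ (norm_nonneg _) hw0 2
      rw [e1, e2]
      calc 2 ^ 2 * Qv (hess u w)⁻¹ (w - x₀) (w - x₀)
          ≤ 2 ^ 2 * (3 * Matrix.trace (hess u w)⁻¹ * ‖w - x₀‖ ^ 2) :=
            mul_le_mul_of_nonneg_left h1 (by norm_num)
        _ ≤ 2 ^ 2 * (3 * (max C 1 * (2 * R) ^ a') * R ^ 2) := by
            refine mul_le_mul_of_nonneg_left ?_ (by norm_num)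
            exact mul_le_mul (mul_le_mul_of_nonneg_left h2 (by norm_num)) h9 (by positivity)
              (by positivity)
        _ = C' * (2 * R) ^ a' * R ^ 2 := by
            rw [hC']
            ring
    refine hle.trans ?_
    rw [setIntegral_const, smul_eq_mul, mul_comm]
    refine mul_le_mul_of_nonneg_left ?_ hL0
    have h1 : volume (subLevel Set.univ (rhoE x₀) (R ^ 2)) ≤ ENNReal.ofReal ((2 * R) ^ 3) := by
      refine (measure_mono hsub).trans (le_of_eq ?_)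
      have := Real.volume_pi_closedBall (ι := Fin 3) x₀ hR0.le
      simpa using this
    exact ENNReal.toReal_le_of_le_ofReal (by positivity) h1
  · congr 2

end Caccio

end Vale.Agent.Lib.P252
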