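import Vale.Agent.Lib.P252.CacCor

/-!
A Liouville theorem from the Caccioppoli inequality for a function of the gradient of `ū`.
-/

open scoped ContDiff Matrix Topology
open MeasureTheory Set Filter

namespace Vale.Agent.Lib.P252

namespace Caccio

variable {Ω : Set (Fin 3 → ℝ)} {u : (Fin 3 → ℝ) → ℝ} {x₀ : Fin 3 → ℝ}

/-- The squared length of the gradient of `ū`. -/
noncomputable def rhoG (u : (Fin 3 → ℝ) → ℝ) (x₀ x : Fin 3 → ℝ) : ℝ :=
  ∑ j, pd j (uBar u x₀) x ^ 2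

lemma rhoG_contDiffOn (hΩ : IsOpen Ω) (hu : ContDiffOn ℝ ∞ u Ω) : ContDiffOn ℝ ∞ (rhoG u x₀) Ω := by
  unfold rhoG
  exact ContDiffOn.sum fun j _ => (contDiffOn_pd hΩ (contDiffOn_uBar hu) j).pow 2

lemma pd_rhoG (hΩ : IsOpen Ω) (hu : ContDiffOn ℝ ∞ u Ω) {x : Fin 3 → ℝ} (hx : x ∈ Ω) (i : Fin 3) :
    pd i (rhoG u x₀) x = 2 * ((hess u x).mulVec (gradMap u x₀ x)) i := by
  have hd : ∀ j, DifferentiableAt ℝ (pd j (uBar u x₀)) x := fun j =>
    diffAt hΩ (contDiffOn_pd hΩ (contDiffOn_uBar hu) j) hx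
  have h1 : ∀ j, pd i (fun z : Fin 3 → ℝ => pd j (uBar u x₀) z ^ 2) x =
      2 * pd j (uBar u x₀) x * hess u x i j := by
    intro j
    have hder : HasDerivAt (fun t : ℝ => t ^ 2) (((2 : ℕ) : ℝ) * (pd j (uBar u x₀) x) ^ (2 - 1))
        (pd j (uBar u x₀) x) := hasDerivAt_pow 2 _
    have h := pd_comp (g := fun t : ℝ => t ^ 2) hder (hd j) i
    rw [pd2_uBar hΩ hu hx] at h
    simpa [hess] using h
  have h2 : pd i (rhoG u x₀) x = ∑ j, pd i (fun z : Fin 3 → ℝ => pd j (uBar u x₀) z ^ 2) x := by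
    unfold rhoG
    exact pd_sum Finset.univ (fun j _ => (hd j).pow 2) i
  rw [h2]
  simp only [h1, Matrix.mulVec, dotProduct, gradMap, Finset.mul_sum]
  refine Finset.sum_congr rfl fun j _ => ?_
  ring

lemma pa_rhoG (hs : IsAffineMaximal Ω u) (hΩ : IsOpen Ω) {x : Fin 3 → ℝ} (hx : x ∈ Ω) :
    pa u (dF (rhoG u x₀)) (dF (rhoG u x₀)) x =
      2 ^ 2 * Qv (hess u x) (gradMap u x₀ x) (gradMap u x₀ x) := by
  set H := hess u x with hH
  set Y := gradMap u x₀ x with hY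
  have e1 : pa u (dF (rhoG u x₀)) (dF (rhoG u x₀)) x =
      2 ^ 2 * pa u (fun j _ => (H.mulVec Y) j) (fun j _ => (H.mulVec Y) j) x :=
    pa_scale fun j => pd_rhoG hΩ hs.smooth hx j
  rw [e1]
  congr 1
  have hdet : IsUnit H.det := isUnit_iff_ne_zero.mpr (hs.posDef x hx).det_pos.ne'
  have hinv : H⁻¹.mulVec (H.mulVec Y) = Y := by
    rw [Matrix.mulVec_mulVec, Matrix.nonsing_inv_mul _ hdet, Matrix.one_mulVec]
  have hra : ∀ i, ∑ j, H⁻¹ i j * (H.mulVec Y) j = Y i := fun i => by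
    have := congrFun hinv i
    simpa [Matrix.mulVec, dotProduct] using this
  unfold pa ra Ui
  rw [← hH]
  simp only [hra]
  unfold Qv
  refine Finset.sum_congr rfl fun i _ => ?_
  simp only [Matrix.mulVec, dotProduct, Finset.sum_mul]
  refine Finset.sum_congr rfl fun j _ => ?_
  ring

lemma isCompact_rhoG (hΩ : IsOpen Ω) (hu : ContDiffOn ℝ ∞ u Ω)
    (hcpt : ∀ R : ℝ, IsCompact {x | x ∈ Ω ∧ ‖gradMap u x₀ x‖ ≤ R}) (s : ℝ) :
    IsCompact (subLevelC Ω (rhoG u x₀) s) := by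
  set K : Set (Fin 3 → ℝ) := {x | x ∈ Ω ∧ ‖gradMap u x₀ x‖ ≤ Real.sqrt (max s 0)} with hK
  have hKc : IsCompact K := hcpt _
  have hKsub : K ⊆ Ω := fun x hx => hx.1
  have hcl : IsClosed (K ∩ rhoG u x₀ ⁻¹' Iic s) :=
    ((rhoG_contDiffOn hΩ hu).continuousOn.mono hKsub).preimage_isClosed_of_isClosed hKc.isClosed
      isClosed_Iic
  have heq : subLevelC Ω (rhoG u x₀) s = K ∩ rhoG u x₀ ⁻¹' Iic s := by
    ext x
    constructor
    · intro hx
      refine ⟨⟨hx.1, ?_⟩, hx.2⟩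
      have h : ‖gradMap u x₀ x - 0‖ ≤ Real.sqrt (max s 0) := by
        refine norm_le_of_rhoE (Real.sqrt_nonneg _) ?_
        rw [Real.sq_sqrt (le_max_right _ _)]
        refine le_trans (le_of_eq ?_) (hx.2.trans (le_max_left _ _))
        simp [rhoE, rhoG, gradMap]
      simpa using h
    · intro hx
      exact ⟨hx.1.1, hx.2⟩
  rw [heq]
  exact hKc.of_isClosed_subset hcl inter_subset_left

/-- The Liouville theorem when the gradient map of `u` is proper and the Hessian is bounded by a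
power, smaller than two, of `1 + ‖Dū‖`. -/
theorem det_const_of_hess_upper (hs : IsAffineMaximal Ω u) (hΩ : IsOpen Ω) (hc : Convex ℝ Ω)
    (hcpt : ∀ R : ℝ, IsCompact {x | x ∈ Ω ∧ ‖gradMap u x₀ x‖ ≤ R}) {C b : ℝ} (hb : b < 2)
    (hT : ∀ x ∈ Ω, Matrix.trace (hess u x) ≤ C * (1 + ‖gradMap u x₀ x‖) ^ b)
    {x z : Fin 3 → ℝ} (hx : x ∈ Ω) (hz : z ∈ Ω) :
    (hess u x).det = (hess u z).det := by
  set a' : ℝ := max b 0 with ha'
  have ha'0 : 0 ≤ a' := le_max_right _ _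
  have ha'2 : a' < 2 := max_lt hb (by norm_num)
  set C' : ℝ := 12 * max C 1 with hC'
  have hC1 : 0 < max C 1 := lt_of_lt_of_le one_pos (le_max_right _ _)
  have hC'0 : 0 < C' := by positivity
  obtain ⟨k₀, hk⟩ := exists_nat_gt (3 / (2 - a'))
  have hδ0 : 0 < 2 - a' := by linarith
  rw [div_lt_iff₀ hδ0] at hk
  have hk0 : (0 : ℝ) ≤ k₀ := Nat.cast_nonneg k₀
  set k : ℕ := k₀ + 4 with hkdef
  have hpk : 3 < ((k + 3 : ℕ) : ℝ) * (2 - a') := by
    rw [hkdef]
    push_cast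
    nlinarith
  have hadm : Adm (k + 3) 1 := adm_of_abs (by omega) (by
    have e : |(1 : ℝ) - 1/5| = 4/5 := by norm_num [abs_of_pos]
    rw [e, hkdef]
    push_cast
    nlinarith)
  obtain ⟨y, hd, hv⟩ := adm_iff hadm
  have hρ := rhoG_contDiffOn (x₀ := x₀) hΩ hs.smooth
  have hcptρ := isCompact_rhoG hΩ hs.smooth hcpt
  refine det_const_of_energy_growth hs hΩ hd hv hc.isPreconnected hρ hcptρ
    (fun ε hε S₁ => ?_) hx hz
  obtain ⟨R, hR1, hR2, hR3⟩ := key_num hC'0 hε ha'0 (k + 3) hpk S₁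
  have hR0 : 0 < R := by linarith
  refine ⟨R ^ 2, hR2, le_trans ?_ (le_of_le_of_eq hR3 ?_)⟩
  · set L : ℝ := (C' * (2 * R) ^ a' * R ^ 2) ^ (k + 3) with hL
    have hL0 : 0 ≤ L := by positivity
    have hopen := IsAffineMaximal.isOpen_subLevel hΩ hρ (R ^ 2)
    have hsubΩ : subLevel Ω (rhoG u x₀) (R ^ 2) ⊆ Ω := fun w hw => hw.1
    have hnorm : ∀ w ∈ subLevel Ω (rhoG u x₀) (R ^ 2), ‖gradMap u x₀ w‖ ≤ R := by
      intro w hw
      have h : ‖gradMap u x₀ w - 0‖ ≤ R := by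
        refine norm_le_of_rhoE hR0.le ?_
        refine le_trans (le_of_eq ?_) hw.2.le
        simp [rhoE, rhoG, gradMap]
      simpa using h
    have hdX : ∀ j, ContDiffOn ℝ ∞ (dF (rhoG u x₀) j) Ω := fun j => contDiffOn_pd hΩ hρ j
    have hint : IntegrableOn (fun x => (hess u x).det ^ (1 : ℝ) *
        pa u (dF (rhoG u x₀)) (dF (rhoG u x₀)) x ^ (k + 3)) (subLevel Ω (rhoG u x₀) (R ^ 2)) := by
      have hcont : ContinuousOn (fun z => (hess u z).det ^ (1 : ℝ) *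
          pa u (dF (rhoG u x₀)) (dF (rhoG u x₀)) z ^ (k + 3)) Ω :=
        (hs.contDiffOn_detpow hΩ _).continuousOn.mul
          ((hs.contDiffOn_pa hΩ hdX hdX).continuousOn.pow (k + 3))
      exact IsAffineMaximal.integrableOn_subLevel hcont (hcptρ _)
    have hintD : IntegrableOn (fun x => (hess u x).det ^ (1 : ℝ))
        (subLevel Ω (rhoG u x₀) (R ^ 2)) :=
      IsAffineMaximal.integrableOn_subLevel (hs.contDiffOn_detpow hΩ _).continuousOn (hcptρ _)
    have hle : ∫ x in subLevel Ω (rhoG u x₀) (R ^ 2), (hess u x).det ^ (1 : ℝ) *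
        pa u (dF (rhoG u x₀)) (dF (rhoG u x₀)) x ^ (k + 3) ≤
        ∫ x in subLevel Ω (rhoG u x₀) (R ^ 2), (hess u x).det ^ (1 : ℝ) * L := by
      refine setIntegral_mono_on hint (hintD.mul_const L) hopen.measurableSet fun w hw => ?_
      have hwΩ := hsubΩ hw
      have hD0 : 0 ≤ (hess u w).det ^ (1 : ℝ) :=
        Real.rpow_nonneg (hs.posDef w hwΩ).det_pos.le _
      refine mul_le_mul_of_nonneg_left ?_ hD0
      have hw0 := hnorm w hw
      have h0 : 0 ≤ pa u (dF (rhoG u x₀)) (dF (rhoG u x₀)) w := hs.pa_self_nonneg _ hwΩ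
      refine pow_le_pow_left₀ h0 ?_ _
      rw [pa_rhoG hs hΩ hwΩ]
      have h1 := quad_le_trace (hs.posDef w hwΩ) (gradMap u x₀ w)
      have h2 : Matrix.trace (hess u w) ≤ max C 1 * (2 * R) ^ a' := by
        have h3 : (1 + ‖gradMap u x₀ w‖) ^ b ≤ (1 + ‖gradMap u x₀ w‖) ^ a' :=
          Real.rpow_le_rpow_of_exponent_le (by linarith [norm_nonneg (gradMap u x₀ w)])
            (le_max_left _ _)
        have h4 : (1 + ‖gradMap u x₀ w‖) ^ a' ≤ (2 * R) ^ a' :=
          Real.rpow_le_rpow (by positivity) (by linarith) ha'0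
        have h5 : 0 ≤ (1 + ‖gradMap u x₀ w‖) ^ b := by positivity
        calc Matrix.trace (hess u w) ≤ C * (1 + ‖gradMap u x₀ w‖) ^ b := hT w hwΩ
          _ ≤ max C 1 * (1 + ‖gradMap u x₀ w‖) ^ b := mul_le_mul_of_nonneg_right (le_max_left _ _) h5
          _ ≤ _ := mul_le_mul_of_nonneg_left (h3.trans h4) hC1.le
      have h6 : 0 ≤ Matrix.trace (hess u w) := by
        have := quad_le_trace (hs.posDef w hwΩ) (fun _ => 1)
        have h7 := Qv_pos (hs.posDef w hwΩ) (a := fun _ => (1 : ℝ))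
          (fun h => by simpa using congrFun h 0)
        have h8 : ‖(fun _ => 1 : Fin 3 → ℝ)‖ ^ 2 = 1 := by
          rw [pi_norm_const]
          simp
        rw [h8] at this
        linarith
      have h9 : ‖gradMap u x₀ w‖ ^ 2 ≤ R ^ 2 := pow_le_pow_left₀ (norm_nonneg _) hw0 2
      calc 2 ^ 2 * Qv (hess u w) (gradMap u x₀ w) (gradMap u x₀ w)
          ≤ 2 ^ 2 * (3 * Matrix.trace (hess u w) * ‖gradMap u x₀ w‖ ^ 2) :=
            mul_le_mul_of_nonneg_left h1 (by norm_num)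
        _ ≤ 2 ^ 2 * (3 * (max C 1 * (2 * R) ^ a') * R ^ 2) := by
            refine mul_le_mul_of_nonneg_left ?_ (by norm_num)
            exact mul_le_mul (mul_le_mul_of_nonneg_left h2 (by norm_num)) h9 (by positivity)
              (by positivity)
        _ = C' * (2 * R) ^ a' * R ^ 2 := by
            rw [hC']
            ring
    refine hle.trans ?_
    rw [integral_mul_const, mul_comm]
    refine mul_le_mul_of_nonneg_left ?_ hL0
    have himg : gradMap u x₀ '' subLevel Ω (rhoG u x₀) (R ^ 2) ⊆ Metric.closedBall 0 R := by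
      rintro _ ⟨w, hw, rfl⟩
      simpa [Metric.mem_closedBall, dist_eq_norm] using hnorm w hw
    have hdetInt := integral_det_le hΩ hc hs.smooth hs.posDef hopen.measurableSet hsubΩ hR0.le himg
    refine le_trans (le_of_eq ?_) hdetInt
    refine integral_congr_ae (ae_of_all _ fun w => ?_)
    simp only [Real.rpow_one]
  · congr 2

end Caccio

end Vale.Agent.Lib.P252
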