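import Vale.Agent.Lib.P252.CacDual

/-!
The Caccioppoli inequality and its Liouville theorems, in readable form.
-/

open scoped ContDiff Matrix Topology
open MeasureTheory Set Filter

namespace Vale.Agent.Lib.P252

namespace Caccio

variable {Ω : Set (Fin 3 → ℝ)} {u : (Fin 3 → ℝ) → ℝ} {x₀ : Fin 3 → ℝ}

/-- `|∇f|²_g = u^{ij} f_i f_j`, with `(u^{ij}) = (D²u)⁻¹`: the squared length of the gradient of `f`
for the Calabi metric `g = u_{ij} dx^i dx^j`. -/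
noncomputable def gradSq (u f : (Fin 3 → ℝ) → ℝ) (x : Fin 3 → ℝ) : ℝ :=
  ∑ i, ∑ j, (hess u x)⁻¹ i j * pd i f x * pd j f x

lemma pa_dF_eq (u f : (Fin 3 → ℝ) → ℝ) (x : Fin 3 → ℝ) :
    pa u (dF f) (dF f) x = gradSq u f x := by
  simp only [pa, ra, dF, Ui, gradSq, Finset.mul_sum]
  refine Finset.sum_congr rfl fun i _ => Finset.sum_congr rfl fun j _ => ?_
  ring

lemma aT_eq (u : (Fin 3 → ℝ) → ℝ) (x : Fin 3 → ℝ) :
    aT u x = gradSq u (fun y => Real.log (hess u y).det) x :=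
  pa_dF_eq u (logD u) x

/-- The Caccioppoli inequality in the readable form. -/
theorem caccioppoli_final {p : ℕ} {β : ℝ} (hA : Adm p β) :
    ∃ C : ℝ, 0 < C ∧ ∀ (Ω : Set (Fin 3 → ℝ)) (u ψ : (Fin 3 → ℝ) → ℝ),
      IsOpen Ω → IsAffineMaximal Ω u → ContDiff ℝ 1 ψ → HasCompactSupport ψ → tsupport ψ ⊆ Ω →
      ∫ x in Ω, (hess u x).det ^ β *
          (ψ x ^ (2 * p) * gradSq u (fun y => Real.log (hess u y).det) x ^ p) ≤
        C * ∫ x in Ω, (hess u x).det ^ β * gradSq u ψ x ^ p := by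
  obtain ⟨k, rfl⟩ : ∃ k, p = k + 3 := ⟨p - 3, by have := hA.1; omega⟩
  obtain ⟨y, hd, hv⟩ := adm_iff hA
  refine ⟨CFin k β y, CFin_pos hd hv, fun Ω u ψ hΩ hs h1 h2 h3 => ?_⟩
  have h := caccioppoli hs hΩ hd hv (ψ := ψ) ⟨h1, h2, h3⟩
  simp only [pa_dF_eq, aT_eq] at h
  refine le_trans (le_of_eq ?_) h
  refine integral_congr_ae (ae_of_all _ fun x => ?_)
  simp only
  rw [mul_pow, ← pow_mul]

/-- The capacity criterion in the readable form. -/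
theorem capacity_final {p : ℕ} {β : ℝ} (hA : Adm p β) (hΩ : IsOpen Ω) (hconn : IsPreconnected Ω)
    (hs : IsAffineMaximal Ω u)
    (hcap : ∀ K : Set (Fin 3 → ℝ), IsCompact K → K ⊆ Ω → ∀ ε : ℝ, 0 < ε →
      ∃ ψ : (Fin 3 → ℝ) → ℝ, ContDiff ℝ 1 ψ ∧ HasCompactSupport ψ ∧ tsupport ψ ⊆ Ω ∧
        (∀ x ∈ K, ψ x = 1) ∧ ∫ x in Ω, (hess u x).det ^ β * gradSq u ψ x ^ p ≤ ε) :
    ∀ x ∈ Ω, ∀ z ∈ Ω, (hess u x).det = (hess u z).det := by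
  obtain ⟨k, rfl⟩ : ∃ k, p = k + 3 := ⟨p - 3, by have := hA.1; omega⟩
  obtain ⟨y, hd, hv⟩ := adm_iff hA
  intro x hx z hz
  refine det_const_of_capacity hs hΩ hd hv hconn (fun K hK hKΩ ε hε => ?_) hx hz
  obtain ⟨ψ, h1, h2, h3, h4, h5⟩ := hcap K hK hKΩ ε hε
  refine ⟨ψ, ⟨h1, h2, h3⟩, h4, ?_⟩
  simpa only [pa_dF_eq] using h5

/-- The criterion with an exhaustion function and its energy, in the readable form. -/
theorem energy_final {p : ℕ} {β : ℝ} (hA : Adm p β) (hΩ : IsOpen Ω) (hconn : IsPreconnected Ω)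
    (hs : IsAffineMaximal Ω u) {ρ : (Fin 3 → ℝ) → ℝ} (hρ : ContDiffOn ℝ ∞ ρ Ω)
    (hcpt : ∀ s : ℝ, IsCompact {x | x ∈ Ω ∧ ρ x ≤ s})
    (hG : ∀ ε : ℝ, 0 < ε → ∀ S₁ : ℝ, ∃ S : ℝ, S₁ ≤ S ∧
      ∫ x in {x | x ∈ Ω ∧ ρ x < S}, (hess u x).det ^ β * gradSq u ρ x ^ p ≤ ε * S ^ (2 * p)) :
    ∀ x ∈ Ω, ∀ z ∈ Ω, (hess u x).det = (hess u z).det := by
  obtain ⟨k, rfl⟩ : ∃ k, p = k + 3 := ⟨p - 3, by have := hA.1; omega⟩
  obtain ⟨y, hd, hv⟩ := adm_iff hA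
  intro x hx z hz
  refine det_const_of_energy_growth hs hΩ hd hv hconn hρ hcpt (fun ε hε S₁ => ?_) hx hz
  obtain ⟨S, hS, h⟩ := hG ε hε S₁
  refine ⟨S, hS, ?_⟩
  simp only [pa_dF_eq]
  have e : 2 * (k + 3) = 2 * k + 6 := by ring
  rw [e] at h
  exact h

/-- The criterion with a function which is `1`-Lipschitz for a conformal metric, in the readable
form. -/
theorem metric_final {p : ℕ} {β τ : ℝ} (hA : Adm p β) (hΩ : IsOpen Ω) (hconn : IsPreconnected Ω)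
    (hs : IsAffineMaximal Ω u) {ρ : (Fin 3 → ℝ) → ℝ} (hρ : ContDiffOn ℝ ∞ ρ Ω)
    (hcpt : ∀ s : ℝ, IsCompact {x | x ∈ Ω ∧ ρ x ≤ s})
    (hgrad : ∀ x ∈ Ω, (hess u x).det ^ τ * gradSq u ρ x ≤ 1)
    (hG : ∀ ε : ℝ, 0 < ε → ∀ S₁ : ℝ, ∃ S : ℝ, S₁ ≤ S ∧
      ∫ x in {x | x ∈ Ω ∧ ρ x < S}, (hess u x).det ^ (β - (p : ℝ) * τ) ≤ ε * S ^ (2 * p)) :
    ∀ x ∈ Ω, ∀ z ∈ Ω, (hess u x).det = (hess u z).det := by
  obtain ⟨k, rfl⟩ : ∃ k, p = k + 3 := ⟨p - 3, by have := hA.1; omega⟩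
  obtain ⟨y, hd, hv⟩ := adm_iff hA
  intro x hx z hz
  refine det_const_of_metric_growth hs hΩ hd hv hconn (τ := τ) hρ hcpt ?_ (fun ε hε S₁ => ?_) hx hz
  · intro x hx
    rw [pa_dF_eq]
    exact hgrad x hx
  · obtain ⟨S, hS, h⟩ := hG ε hε S₁
    refine ⟨S, hS, ?_⟩
    have e : 2 * (k + 3) = 2 * k + 6 := by ring
    rw [e] at h
    have e2 : (((k + 3 : ℕ) : ℝ)) = (k : ℝ) + 3 := by push_cast; ring
    rw [e2] at h
    exact h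

lemma growth_aux (C : ℝ) {m p : ℕ} (hm : m < 2 * p) {ε : ℝ} (hε : 0 < ε) (S₁ : ℝ) :
    ∃ S : ℝ, S₁ ≤ S ∧ 1 ≤ S ∧ C * S ^ m ≤ ε * S ^ (2 * p) := by
  refine ⟨max S₁ (max 1 (|C| / ε)), le_max_left _ _, (le_max_left _ _).trans (le_max_right _ _), ?_⟩
  set S : ℝ := max S₁ (max 1 (|C| / ε)) with hS
  have hS1 : 1 ≤ S := (le_max_left _ _).trans (le_max_right _ _)
  have hS2 : |C| / ε ≤ S := (le_max_right _ _).trans (le_max_right _ _)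
  have hS0 : 0 < S := by linarith
  have h1 : S ^ (m + 1) ≤ S ^ (2 * p) := pow_le_pow_right₀ hS1 hm
  have h3 : |C| ≤ ε * S := by rwa [div_le_iff₀' hε] at hS2
  calc C * S ^ m ≤ |C| * S ^ m := mul_le_mul_of_nonneg_right (le_abs_self C) (by positivity)
    _ ≤ (ε * S) * S ^ m := mul_le_mul_of_nonneg_right h3 (by positivity)
    _ = ε * S ^ (m + 1) := by ring
    _ ≤ ε * S ^ (2 * p) := mul_le_mul_of_nonneg_left h1 hε.le

/-- The criterion with a function which is `1`-Lipschitz for a conformal metric and polynomial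
growth of the volume, when the exponent is admissible. -/
theorem poly_adm {p m : ℕ} {τ σ : ℝ} (hA : Adm p (σ + (p : ℝ) * τ)) (hm : m < 2 * p)
    (hΩ : IsOpen Ω) (hconn : IsPreconnected Ω)
    (hs : IsAffineMaximal Ω u) {ρ : (Fin 3 → ℝ) → ℝ} (hρ : ContDiffOn ℝ ∞ ρ Ω)
    (hcpt : ∀ s : ℝ, IsCompact {x | x ∈ Ω ∧ ρ x ≤ s})
    (hgrad : ∀ x ∈ Ω, (hess u x).det ^ τ * gradSq u ρ x ≤ 1) {C : ℝ}
    (hV : ∀ S : ℝ, 1 ≤ S → ∫ x in {x | x ∈ Ω ∧ ρ x < S}, (hess u x).det ^ σ ≤ C * S ^ m) :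
    ∀ x ∈ Ω, ∀ z ∈ Ω, (hess u x).det = (hess u z).det := by
  refine metric_final hA hΩ hconn hs hρ hcpt hgrad fun ε hε S₁ => ?_
  obtain ⟨S, h1, h2, h3⟩ := growth_aux C hm hε S₁
  refine ⟨S, h1, ?_⟩
  rw [add_sub_cancel_right]
  exact (hV S h2).trans h3

/-- The criterion with a function which is `1`-Lipschitz for a conformal metric and polynomial
growth of the volume: any degree. -/
theorem poly_final {τ σ : ℝ} (hτ : |τ| < 3/20) (hΩ : IsOpen Ω) (hconn : IsPreconnected Ω)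
    (hs : IsAffineMaximal Ω u) {ρ : (Fin 3 → ℝ) → ℝ} (hρ : ContDiffOn ℝ ∞ ρ Ω)
    (hcpt : ∀ s : ℝ, IsCompact {x | x ∈ Ω ∧ ρ x ≤ s})
    (hgrad : ∀ x ∈ Ω, (hess u x).det ^ τ * gradSq u ρ x ≤ 1) {C : ℝ} {m : ℕ}
    (hV : ∀ S : ℝ, 1 ≤ S → ∫ x in {x | x ∈ Ω ∧ ρ x < S}, (hess u x).det ^ σ ≤ C * S ^ m) :
    ∀ x ∈ Ω, ∀ z ∈ Ω, (hess u x).det = (hess u z).det := by
  have hδ : 0 < 3/20 - |τ| := by linarith
  obtain ⟨p₀, hp₀⟩ := exists_nat_gt ((3/20 + |σ - 1/5|) / (3/20 - |τ|))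
  rw [div_lt_iff₀ hδ] at hp₀
  have hp₀0 : (0 : ℝ) ≤ p₀ := Nat.cast_nonneg p₀
  set p : ℕ := p₀ + m + 3 with hp
  have hpR : (p : ℝ) = p₀ + m + 3 := by rw [hp]; push_cast; ring
  have hm0 : (0 : ℝ) ≤ m := Nat.cast_nonneg m
  have hle : (p₀ : ℝ) ≤ p := by rw [hpR]; linarith
  have hA : Adm p (σ + (p : ℝ) * τ) := by
    refine adm_of_abs (by omega) ?_
    have e : σ + (p : ℝ) * τ - 1/5 = (σ - 1/5) + (p : ℝ) * τ := by ring
    rw [e]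
    have h1 : |(σ - 1/5) + (p : ℝ) * τ| ≤ |σ - 1/5| + (p : ℝ) * |τ| := by
      refine (abs_add_le _ _).trans ?_
      rw [abs_mul, Nat.abs_cast]
    refine h1.trans ?_
    have h2 : (p₀ : ℝ) * (3/20 - |τ|) ≤ (p : ℝ) * (3/20 - |τ|) :=
      mul_le_mul_of_nonneg_right hle hδ.le
    nlinarith
  exact poly_adm hA (by omega) hΩ hconn hs hρ hcpt hgrad hV

/-- The criterion for the Blaschke metric: volume growth of order smaller than `2000`. -/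
theorem blaschke_final (hΩ : IsOpen Ω) (hconn : IsPreconnected Ω)
    (hs : IsAffineMaximal Ω u) {ρ : (Fin 3 → ℝ) → ℝ} (hρ : ContDiffOn ℝ ∞ ρ Ω)
    (hcpt : ∀ s : ℝ, IsCompact {x | x ∈ Ω ∧ ρ x ≤ s})
    (hgrad : ∀ x ∈ Ω, (hess u x).det ^ (1/5 : ℝ) * gradSq u ρ x ≤ 1)
    (hG : ∀ ε : ℝ, 0 < ε → ∀ S₁ : ℝ, ∃ S : ℝ, S₁ ≤ S ∧
      ∫ x in {x | x ∈ Ω ∧ ρ x < S}, (hess u x).det ^ (1/5 : ℝ) ≤ ε * S ^ 2000) :
    ∀ x ∈ Ω, ∀ z ∈ Ω, (hess u x).det = (hess u z).det := by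
  have hA : Adm 1000 (((1000 : ℕ) + 1) / 5 : ℝ) := adm_blaschke (by norm_num) (le_refl _)
  refine metric_final hA hΩ hconn hs hρ hcpt hgrad fun ε hε S₁ => ?_
  obtain ⟨S, h1, h2⟩ := hG ε hε S₁
  refine ⟨S, h1, ?_⟩
  have e : (((1000 : ℕ) : ℝ) + 1) / 5 - ((1000 : ℕ) : ℝ) * (1/5) = 1/5 := by
    norm_num
  rw [e]
  exact h2

/-- The Caccioppoli inequality for the Blaschke metric. -/
theorem caccioppoli_blaschke {p : ℕ} (hp : 3 ≤ p) (hp2 : p ≤ 1000) :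
    ∃ C : ℝ, 0 < C ∧ ∀ (Ω : Set (Fin 3 → ℝ)) (u ψ : (Fin 3 → ℝ) → ℝ),
      IsOpen Ω → IsAffineMaximal Ω u → ContDiff ℝ 1 ψ → HasCompactSupport ψ → tsupport ψ ⊆ Ω →
      ∫ x in Ω, (hess u x).det ^ (1/5 : ℝ) * (ψ x ^ (2 * p) *
          ((hess u x).det ^ (1/5 : ℝ) * gradSq u (fun y => Real.log (hess u y).det) x) ^ p) ≤
        C * ∫ x in Ω, (hess u x).det ^ (1/5 : ℝ) * ((hess u x).det ^ (1/5 : ℝ) * gradSq u ψ x) ^ p := by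
  obtain ⟨C, hC, h⟩ := caccioppoli_final (adm_blaschke hp hp2)
  refine ⟨C, hC, fun Ω u ψ hΩ hs h1 h2 h3 => ?_⟩
  have key : ∀ x ∈ Ω, ∀ t : ℝ, (hess u x).det ^ (1/5 : ℝ) * ((hess u x).det ^ (1/5 : ℝ) * t) ^ p =
      (hess u x).det ^ (((p : ℝ) + 1) / 5) * t ^ p := by
    intro x hx t
    have hD := (hs.posDef x hx).det_pos
    rw [mul_pow, ← mul_assoc, ← Real.rpow_natCast ((hess u x).det ^ (1/5 : ℝ)) p,
      ← Real.rpow_mul hD.le, ← Real.rpow_add hD]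
    congr 2
    ring
  have e1 : ∫ x in Ω, (hess u x).det ^ (1/5 : ℝ) * (ψ x ^ (2 * p) *
      ((hess u x).det ^ (1/5 : ℝ) * gradSq u (fun y => Real.log (hess u y).det) x) ^ p) =
      ∫ x in Ω, (hess u x).det ^ (((p : ℝ) + 1) / 5) * (ψ x ^ (2 * p) *
        gradSq u (fun y => Real.log (hess u y).det) x ^ p) := by
    refine setIntegral_congr_fun hΩ.measurableSet fun x hx => ?_
    have := key x hx (gradSq u (fun y => Real.log (hess u y).det) x)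
    calc _ = ψ x ^ (2 * p) * ((hess u x).det ^ (1/5 : ℝ) *
          ((hess u x).det ^ (1/5 : ℝ) * gradSq u (fun y => Real.log (hess u y).det) x) ^ p) := by
            ring
      _ = ψ x ^ (2 * p) * ((hess u x).det ^ (((p : ℝ) + 1) / 5) *
          gradSq u (fun y => Real.log (hess u y).det) x ^ p) := by rw [this]
      _ = _ := by ring
  have e2 : ∫ x in Ω, (hess u x).det ^ (1/5 : ℝ) * ((hess u x).det ^ (1/5 : ℝ) * gradSq u ψ x) ^ p =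
      ∫ x in Ω, (hess u x).det ^ (((p : ℝ) + 1) / 5) * gradSq u ψ x ^ p :=
    setIntegral_congr_fun hΩ.measurableSet fun x hx => key x hx _
  rw [e1, e2]
  exact h Ω u ψ hΩ hs h1 h2 h3

/-- Euclidean completeness and the energy of `ū`. -/
theorem uBar_energy_final {p : ℕ} {β : ℝ} (hA : Adm p β) (hΩ : IsOpen Ω) (hc : Convex ℝ Ω)
    (hs : IsAffineMaximal Ω u) (hcpt : ∀ s : ℝ, IsCompact {x | x ∈ Ω ∧ uBar u x₀ x ≤ s})
    (hG : ∀ ε : ℝ, 0 < ε → ∀ S₁ : ℝ, ∃ S : ℝ, S₁ ≤ S ∧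
      ∫ x in {x | x ∈ Ω ∧ uBar u x₀ x < S}, (hess u x).det ^ β * gradSq u (uBar u x₀) x ^ p ≤
        ε * S ^ (2 * p)) :
    ∀ x ∈ Ω, ∀ z ∈ Ω, (hess u x).det = (hess u z).det :=
  energy_final hA hΩ hc.isPreconnected hs (contDiffOn_uBar hs.smooth) hcpt hG

/-- A pointwise bound for the `g`-norm of the gradient of `ū`. -/
theorem uBar_pointwise_final (hΩ : IsOpen Ω) (hc : Convex ℝ Ω) (hx₀ : x₀ ∈ Ω)
    (hs : IsAffineMaximal Ω u) (hcpt : ∀ s : ℝ, IsCompact {x | x ∈ Ω ∧ uBar u x₀ x ≤ s})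
    {C a : ℝ} (ha : a < 2)
    (hG : ∀ x ∈ Ω, gradSq u (uBar u x₀) x ≤ C * (1 + uBar u x₀ x) ^ a) :
    ∀ x ∈ Ω, ∀ z ∈ Ω, (hess u x).det = (hess u z).det := by
  intro x hx z hz
  refine det_const_of_G_bound (C := C) hs hΩ hc hx₀ hcpt ha (fun w hw => ?_) hx hz
  rw [pa_dF_eq]
  exact hG w hw

end Caccio

end Vale.Agent.Lib.P252
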