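import Vale.Agent.Lib.P252.Grad21

open scoped ContDiff Topology Matrix
open MeasureTheory Set Filter

namespace Vale.Agent.Lib.P252

variable {Ω : Set (Fin 3 → ℝ)} {u : (Fin 3 → ℝ) → ℝ} {x₀ : Fin 3 → ℝ}

/-- The sublevels grow at most like `S³`. -/
lemma volume_subLevel_le (hs : IsAffineMaximal Ω u) (hΩ : IsOpen Ω) (hc : Convex ℝ Ω)
    (hx₀ : x₀ ∈ Ω) {S : ℝ} (hS : 1 ≤ S) :
    volume (subLevel Ω (uBar u x₀) S) ≤
      ENNReal.ofReal (S ^ 3) * volume (subLevel Ω (uBar u x₀) 1) := by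
  have hS0 : 0 < S := by linarith
  have hsub : subLevel Ω (uBar u x₀) S ⊆
      (AffineMap.homothety x₀ S) '' subLevel Ω (uBar u x₀) 1 := by
    intro x hx
    set z := x₀ + (1 / S) • (x - x₀) with hz
    have hzΩ : z ∈ Ω := by
      have h01 : 1 / S ≤ 1 := by
        rw [div_le_one hS0]
        exact hS
      have h00 : 0 ≤ 1 / S := by positivity
      have := hc.add_smul_sub_mem hx₀ hx.1 ⟨h00, h01⟩
      simpa [hz] using this
    have hzx : x₀ + S • (z - x₀) = x := by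
      rw [hz, add_sub_cancel_left, smul_smul]
      have : S * (1 / S) = 1 := by field_simp
      rw [this, one_smul]
      abel
    refine ⟨z, ⟨hzΩ, ?_⟩, ?_⟩
    · have h2 := uBar_ray (x₀ := x₀) hΩ hc hs.smooth hs.posDef hx₀ hzΩ hS (by rw [hzx]; exact hx.1)
      rw [hzx] at h2
      have h3 := hx.2
      by_contra hcon
      have h4 : 1 ≤ uBar u x₀ z := not_lt.1 hcon
      nlinarith
    · rw [AffineMap.homothety_apply]
      simp only [vsub_eq_sub, vadd_eq_add]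
      rw [add_comm]
      exact hzx
  refine (measure_mono hsub).trans (le_of_eq ?_)
  rw [Measure.addHaar_image_homothety]
  congr 2
  simp only [Module.finrank_fin_fun]
  exact abs_of_pos (by positivity)

/-- The mass of a power of `D` under a pointwise bound for `D` in terms of `ū`. -/
lemma mass_le_of_pointwise (hs : IsAffineMaximal Ω u) (hΩ : IsOpen Ω) (hc : Convex ℝ Ω)
    (hx₀ : x₀ ∈ Ω) (hcpt : ∀ s, IsCompact (subLevelC Ω (uBar u x₀) s)) {β C k : ℝ} (hβ : 0 < β)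
    (hk : 0 ≤ k) (hD : ∀ x ∈ Ω, (hess u x).det ≤ C * (1 + uBar u x₀ x) ^ k) {S : ℝ} (hS : 1 ≤ S) :
    ∫ x in subLevel Ω (uBar u x₀) S, (hess u x).det ^ β ≤
      (C * (2 * S) ^ k) ^ β * (S ^ 3 * volume.real (subLevel Ω (uBar u x₀) 1)) := by
  have hS0 : 0 < S := by linarith
  have hf : ContDiffOn ℝ ∞ (uBar u x₀) Ω := contDiffOn_uBar hs.smooth
  have hopen : ∀ s, MeasurableSet (subLevel Ω (uBar u x₀) s) := fun s =>
    (IsAffineMaximal.isOpen_subLevel hΩ hf s).measurableSet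
  have hu0 : ∀ x ∈ Ω, 0 ≤ uBar u x₀ x := fun x hx =>
    uBar_nonneg hΩ hc hs.smooth hs.posDef hx₀ hx
  have hCpos : 0 < C := by
    have h1 := hD x₀ hx₀
    have h2 := hs.det_pos hx₀
    have h3 : 0 < (1 + uBar u x₀ x₀) ^ k := Real.rpow_pos_of_pos (by linarith [hu0 x₀ hx₀]) _
    by_contra hcon
    have h4 : C ≤ 0 := not_lt.1 hcon
    nlinarith
  have hfin : ∀ s, volume (subLevel Ω (uBar u x₀) s) < ⊤ := fun s => by
    have hsub : subLevel Ω (uBar u x₀) s ⊆ subLevelC Ω (uBar u x₀) s := fun _ hz => ⟨hz.1, hz.2.le⟩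
    exact (measure_mono hsub).trans_lt (hcpt s).measure_lt_top
  have hρ : ContinuousOn (fun x => (hess u x).det ^ β) Ω :=
    (hs.contDiffOn_detpow hΩ _).continuousOn
  have hρi : IntegrableOn (fun x => (hess u x).det ^ β) (subLevel Ω (uBar u x₀) S) :=
    IsAffineMaximal.integrableOn_subLevel hρ (hcpt S)
  set L := (C * (2 * S) ^ k) ^ β with hL
  have hL0 : 0 ≤ L := by positivity
  have hle : ∫ x in subLevel Ω (uBar u x₀) S, (hess u x).det ^ β ≤
      ∫ _ in subLevel Ω (uBar u x₀) S, L := by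
    refine setIntegral_mono_on hρi (integrableOn_const (hfin S).ne) (hopen S) fun x hx => ?_
    have hdet : 0 ≤ (hess u x).det := (hs.det_pos hx.1).le
    refine Real.rpow_le_rpow hdet ((hD x hx.1).trans ?_) hβ.le
    refine mul_le_mul_of_nonneg_left ?_ hCpos.le
    refine Real.rpow_le_rpow (by linarith [hu0 x hx.1]) ?_ hk
    linarith [hx.2]
  refine hle.trans ?_
  rw [setIntegral_const, smul_eq_mul, mul_comm]
  refine mul_le_mul_of_nonneg_left ?_ hL0
  have h1 := volume_subLevel_le hs hΩ hc hx₀ hS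
  have h2 := ENNReal.toReal_mono (ENNReal.mul_ne_top ENNReal.ofReal_ne_top (hfin 1).ne) h1
  rw [ENNReal.toReal_mul, ENNReal.toReal_ofReal (by positivity)] at h2
  exact h2

/-- The mass condition under a pointwise bound for `D`. -/
lemma mass_small_of_pointwise (hs : IsAffineMaximal Ω u) (hΩ : IsOpen Ω) (hc : Convex ℝ Ω)
    (hx₀ : x₀ ∈ Ω) (hcpt : ∀ s, IsCompact (subLevelC Ω (uBar u x₀) s)) {β C k : ℝ} (hβ : 0 < β)
    (hk : 0 ≤ k) (hkβ : k * β < 1) (hD : ∀ x ∈ Ω, (hess u x).det ≤ C * (1 + uBar u x₀ x) ^ k)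
    (ε : ℝ) (hε : 0 < ε) (S₁ : ℝ) : ∃ S : ℝ, S₁ ≤ S ∧
      ∫ x in subLevel Ω (uBar u x₀) S, (hess u x).det ^ β ≤ ε * S ^ 4 := by
  have hCpos : 0 < C := by
    have h1 := hD x₀ hx₀
    have h2 := hs.det_pos hx₀
    have hu0 : 0 ≤ uBar u x₀ x₀ := uBar_nonneg hΩ hc hs.smooth hs.posDef hx₀ hx₀
    have h3 : 0 < (1 + uBar u x₀ x₀) ^ k := Real.rpow_pos_of_pos (by linarith) _
    by_contra hcon
    have h4 : C ≤ 0 := not_lt.1 hcon
    nlinarith
  set V := volume.real (subLevel Ω (uBar u x₀) 1) with hV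
  have hV0 : 0 ≤ V := measureReal_nonneg
  set K := (C * 2 ^ k) ^ β * V with hK
  have hK0 : 0 ≤ K := by positivity
  set δ := 1 - k * β with hδ
  have hδ0 : 0 < δ := by rw [hδ]; linarith
  have t : Tendsto (fun R : ℝ => R ^ δ) atTop atTop := tendsto_rpow_atTop hδ0
  obtain ⟨S, h1, h2, h3⟩ := ((t.eventually_ge_atTop (K / ε)).and
    ((eventually_ge_atTop S₁).and (eventually_ge_atTop (1 : ℝ)))).exists
  have hS0 : 0 < S := by linarith
  refine ⟨S, h2, (mass_le_of_pointwise hs hΩ hc hx₀ hcpt hβ hk hD h3).trans ?_⟩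
  have e1 : (C * (2 * S) ^ k) ^ β = (C * 2 ^ k) ^ β * S ^ (k * β) := by
    rw [Real.mul_rpow (by norm_num) hS0.le, ← mul_assoc,
      Real.mul_rpow (by positivity) (by positivity), ← Real.rpow_mul hS0.le]
  have e2 : S ^ (k * β) * S ^ δ = S := by
    rw [← Real.rpow_add hS0, hδ]
    simp
  rw [div_le_iff₀ hε] at h1
  rw [e1]
  calc (C * 2 ^ k) ^ β * S ^ (k * β) * (S ^ 3 * V) = K * (S ^ (k * β) * S ^ 3) := by
        rw [hK]
        ring
    _ ≤ (S ^ δ * ε) * (S ^ (k * β) * S ^ 3) :=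
        mul_le_mul_of_nonneg_right h1 (by positivity)
    _ = ε * ((S ^ (k * β) * S ^ δ) * S ^ 3) := by ring
    _ = ε * S ^ 4 := by
        rw [e2]
        ring

end Vale.Agent.Lib.P252
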