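import Vale.Agent.Lib.P252.CacMain
import Vale.Agent.Lib.P252.VolDet

/-!
Liouville theorems from the Caccioppoli inequality: for an exhaustion function with controlled energy.
-/

open scoped ContDiff Matrix Topology
open MeasureTheory Set Filter

namespace Vale.Agent.Lib.P252

namespace Caccio

variable {Ω : Set (Fin 3 → ℝ)} {u : (Fin 3 → ℝ) → ℝ} {ρ : (Fin 3 → ℝ) → ℝ}

/-- A bound for the derivative of the step function. -/
lemma exists_stepψ_bound : ∃ K : ℝ, 0 < K ∧ ∀ t, |stepψ t| ≤ K := by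
  obtain ⟨C, hC⟩ := (isCompact_Icc (a := (0 : ℝ)) (b := 1)).exists_bound_of_continuousOn
    stepψ_contDiff.continuous.continuousOn
  refine ⟨max C 1, lt_of_lt_of_le one_pos (le_max_right _ _), fun t => ?_⟩
  by_cases h0 : t ≤ 0
  · rw [stepψ_zero_left h0, abs_zero]
    exact le_trans zero_le_one (le_max_right _ _)
  by_cases h1 : 1 ≤ t
  · rw [stepψ_zero_right h1, abs_zero]
    exact le_trans zero_le_one (le_max_right _ _)
  have := hC t ⟨(not_le.1 h0).le, (not_le.1 h1).le⟩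
  rw [Real.norm_eq_abs] at this
  exact this.trans (le_max_left _ _)

/-- The one variable cut-off at scale `S`. -/
noncomputable def gS (S s : ℝ) : ℝ := stepΨ (2 - 2 * s / S)

lemma gS_contDiff (S : ℝ) : ContDiff ℝ ∞ (gS S) := by
  unfold gS
  exact stepΨ_contDiff.comp (contDiff_const.sub ((contDiff_const.mul contDiff_id).div_const S))

lemma gS_hasDerivAt (S s : ℝ) : HasDerivAt (gS S) (stepψ (2 - 2 * s / S) * (-(2 / S))) s := by
  have h1 : HasDerivAt (fun s : ℝ => 2 - 2 * s / S) (-(2 / S)) s := by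
    have := (((hasDerivAt_id' s).const_mul (2 : ℝ)).div_const S).const_sub (2 : ℝ)
    simpa using this
  exact (stepΨ_hasDerivAt (2 - 2 * s / S)).comp s h1

lemma gS_zero {S s : ℝ} (hS : 0 < S) (hs : S ≤ s) : gS S s = 0 := by
  unfold gS
  apply stepΨ_zero
  have : 1 ≤ s / S := by rw [le_div_iff₀ hS]; linarith
  have e : 2 * s / S = 2 * (s / S) := by ring
  rw [e]
  linarith

lemma gS_one {S s : ℝ} (hS : 0 < S) (hs : 2 * s ≤ S) : gS S s = 1 := by
  unfold gS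
  apply stepΨ_one
  have : 2 * s / S ≤ 1 := by rw [div_le_one hS]; linarith
  linarith

lemma gS_deriv_zero {S s : ℝ} (hS : 0 < S) (hs : S ≤ s) : stepψ (2 - 2 * s / S) = 0 := by
  apply stepψ_zero_left
  have : 1 ≤ s / S := by rw [le_div_iff₀ hS]; linarith
  have e : 2 * s / S = 2 * (s / S) := by ring
  rw [e]
  linarith

/-- The scaling of the pairing. -/
lemma pa_scale {a b : Fin 3 → (Fin 3 → ℝ) → ℝ} {x : Fin 3 → ℝ} {c : ℝ}
    (h : ∀ j, a j x = c * b j x) : pa u a a x = c ^ 2 * pa u b b x := by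
  unfold pa ra
  rw [Finset.mul_sum]
  refine Finset.sum_congr rfl fun i _ => ?_
  rw [h i]
  have : ∀ j, Ui u x i j * a j x = c * (Ui u x i j * b j x) := fun j => by rw [h j]; ring
  simp only [this, ← Finset.mul_sum]
  ring

variable (hs : IsAffineMaximal Ω u) (hΩ : IsOpen Ω)
include hs hΩ

/-- The energy of the cut-off at scale `S`. -/
lemma energy_le (hρ : ContDiffOn ℝ ∞ ρ Ω) (hcpt : ∀ s, IsCompact (subLevelC Ω ρ s)) {K : ℝ}
    (hK0 : 0 < K) (hK : ∀ t, |stepψ t| ≤ K) {S : ℝ} (hS : 0 < S) (β : ℝ) (k : ℕ) :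
    IsC1Test Ω (testOf Ω ρ (gS S)) ∧
    ∫ x in Ω, (hess u x).det ^ β * pa u (dF (testOf Ω ρ (gS S))) (dF (testOf Ω ρ (gS S))) x ^ (k + 3) ≤
      (2 * K / S) ^ (2 * k + 6) *
        ∫ x in subLevel Ω ρ S, (hess u x).det ^ β * pa u (dF ρ) (dF ρ) x ^ (k + 3) := by
  have hT : IsTest Ω (testOf Ω ρ (gS S)) :=
    isTest_testOf hΩ hρ (hcpt S) (gS_contDiff S) (fun s hs' => gS_zero hS hs')
  have hψ : IsC1Test Ω (testOf Ω ρ (gS S)) := ⟨hT.smooth.of_le (by simp), hT.cpt, hT.sub⟩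
  refine ⟨hψ, ?_⟩
  set ψ := testOf Ω ρ (gS S) with hψd
  have hopen := IsAffineMaximal.isOpen_subLevel hΩ hρ S
  have hρ0 : ∀ x ∈ Ω, 0 < (hess u x).det ^ β := fun x hx =>
    Real.rpow_pos_of_pos (hs.det_pos hx) _
  -- the gradient of the test function
  have hgr : ∀ x ∈ Ω, ∀ j, dF ψ j x =
      (stepψ (2 - 2 * ρ x / S) * (-(2 / S))) * dF ρ j x := by
    intro x hx j
    have h := gr_testOf hΩ hρ hx (gS_hasDerivAt S (ρ x))
    have := congrFun h j
    simpa [gr, dF, smul_eq_mul] using this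
  have hE : ∀ x ∈ Ω, pa u (dF ψ) (dF ψ) x =
      (stepψ (2 - 2 * ρ x / S) * (-(2 / S))) ^ 2 * pa u (dF ρ) (dF ρ) x := fun x hx =>
    pa_scale (hgr x hx)
  have hΓ0 : ∀ x ∈ Ω, 0 ≤ pa u (dF ρ) (dF ρ) x := fun x hx => hs.pa_self_nonneg _ hx
  -- vanishing outside the sublevel
  have hzero : ∀ x ∈ Ω \ subLevel Ω ρ S,
      (hess u x).det ^ β * pa u (dF ψ) (dF ψ) x ^ (k + 3) = 0 := by
    intro x hx
    have hlt : S ≤ ρ x := by
      by_contra h
      exact hx.2 ⟨hx.1, not_le.1 h⟩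
    rw [hE x hx.1, gS_deriv_zero hS hlt]
    simp
  have hsub : subLevel Ω ρ S ⊆ Ω := fun x hx => hx.1
  rw [setIntegral_eq_of_subset_of_forall_sdiff_eq_zero hΩ.measurableSet hsub hzero]
  -- integrability
  have hint1 : IntegrableOn (fun x => (hess u x).det ^ β * pa u (dF ψ) (dF ψ) x ^ (k + 3))
      (subLevel Ω ρ S) := by
    have hcont : ContinuousOn (fun z => (hess u z).det ^ β * pa u (dF ψ) (dF ψ) z ^ (k + 3)) Ω :=
      (hs.contDiffOn_detpow hΩ β).continuousOn.mul ((continuousOn_paE hs hΩ hψ).pow (k + 3))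
    exact IsAffineMaximal.integrableOn_subLevel hcont (hcpt S)
  have hdρ : ∀ j, ContDiffOn ℝ ∞ (dF ρ j) Ω := fun j => contDiffOn_pd hΩ hρ j
  have hint2 : IntegrableOn (fun x => (hess u x).det ^ β * pa u (dF ρ) (dF ρ) x ^ (k + 3))
      (subLevel Ω ρ S) := by
    have hcont : ContinuousOn (fun z => (hess u z).det ^ β * pa u (dF ρ) (dF ρ) z ^ (k + 3)) Ω :=
      (hs.contDiffOn_detpow hΩ β).continuousOn.mul
        ((hs.contDiffOn_pa hΩ hdρ hdρ).continuousOn.pow (k + 3))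
    exact IsAffineMaximal.integrableOn_subLevel hcont (hcpt S)
  rw [← integral_const_mul]
  refine setIntegral_mono_on hint1 (hint2.const_mul _) hopen.measurableSet fun x hx => ?_
  have hxΩ := hx.1
  rw [hE x hxΩ]
  have hc : (stepψ (2 - 2 * ρ x / S) * (-(2 / S))) ^ 2 ≤ (2 * K / S) ^ 2 := by
    have h1 : |stepψ (2 - 2 * ρ x / S) * (-(2 / S))| ≤ 2 * K / S := by
      rw [abs_mul, abs_neg, abs_of_pos (by positivity : 0 < 2 / S)]
      have := hK (2 - 2 * ρ x / S)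
      calc |stepψ (2 - 2 * ρ x / S)| * (2 / S) ≤ K * (2 / S) :=
            mul_le_mul_of_nonneg_right this (by positivity)
        _ = 2 * K / S := by ring
    exact sq_le_sq' (by linarith [(abs_le.1 h1).1]) (abs_le.1 h1).2
  have hp : ((stepψ (2 - 2 * ρ x / S) * (-(2 / S))) ^ 2 * pa u (dF ρ) (dF ρ) x) ^ (k + 3) ≤
      ((2 * K / S) ^ 2 * pa u (dF ρ) (dF ρ) x) ^ (k + 3) :=
    pow_le_pow_left₀ (mul_nonneg (sq_nonneg _) (hΓ0 x hxΩ))
      (mul_le_mul_of_nonneg_right hc (hΓ0 x hxΩ)) _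
  have e : ((2 * K / S) ^ 2 * pa u (dF ρ) (dF ρ) x) ^ (k + 3) =
      (2 * K / S) ^ (2 * k + 6) * pa u (dF ρ) (dF ρ) x ^ (k + 3) := by
    rw [mul_pow, ← pow_mul]
    congr 2
  rw [e] at hp
  calc (hess u x).det ^ β * _ ≤ (hess u x).det ^ β * ((2 * K / S) ^ (2 * k + 6) *
        pa u (dF ρ) (dF ρ) x ^ (k + 3)) := mul_le_mul_of_nonneg_left hp (hρ0 x hxΩ).le
    _ = _ := by ring

/-- The Liouville theorem for an exhaustion function with controlled energy. -/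
theorem det_const_of_energy_growth {k : ℕ} {β y : ℝ} (hd : 0 < Dd k y) (hv : 0 < Vv k β y)
    (hconn : IsPreconnected Ω) (hρ : ContDiffOn ℝ ∞ ρ Ω) (hcpt : ∀ s, IsCompact (subLevelC Ω ρ s))
    (hG : ∀ ε : ℝ, 0 < ε → ∀ S₁ : ℝ, ∃ S : ℝ, S₁ ≤ S ∧
      ∫ x in subLevel Ω ρ S, (hess u x).det ^ β * pa u (dF ρ) (dF ρ) x ^ (k + 3) ≤
        ε * S ^ (2 * k + 6))
    {x z : Fin 3 → ℝ} (hx : x ∈ Ω) (hz : z ∈ Ω) : (hess u x).det = (hess u z).det := by
  obtain ⟨K, hK0, hK⟩ := exists_stepψ_bound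
  refine det_const_of_capacity hs hΩ hd hv hconn (fun A hA hAΩ ε hε => ?_) hx hz
  obtain ⟨b, hb⟩ := hA.bddAbove_image (hρ.continuousOn.mono hAΩ)
  have hb' : ∀ w ∈ A, ρ w ≤ b := fun w hw => hb (mem_image_of_mem ρ hw)
  obtain ⟨S, hS1, hS2⟩ := hG (ε / (2 * K) ^ (2 * k + 6)) (by positivity) (max 1 (2 * b))
  have hS0 : 0 < S := lt_of_lt_of_le one_pos ((le_max_left _ _).trans hS1)
  have hSb : 2 * b ≤ S := (le_max_right _ _).trans hS1
  obtain ⟨h1, h2⟩ := energy_le hs hΩ hρ hcpt hK0 hK hS0 β k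
  refine ⟨_, h1, fun w hw => ?_, h2.trans ?_⟩
  · rw [testOf_eq_of_mem (hAΩ hw)]
    exact gS_one hS0 (by linarith [hb' w hw])
  · have h3 := mul_le_mul_of_nonneg_left hS2 (by positivity : 0 ≤ (2 * K / S) ^ (2 * k + 6))
    refine h3.trans (le_of_eq ?_)
    rw [div_pow]
    field_simp

/-- The Liouville theorem for an exhaustion function which is `1`-Lipschitz for the conformal metric
`D^{-τ} D²u`. -/
theorem det_const_of_metric_growth {k : ℕ} {β y τ : ℝ} (hd : 0 < Dd k y) (hv : 0 < Vv k β y)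
    (hconn : IsPreconnected Ω) (hρ : ContDiffOn ℝ ∞ ρ Ω) (hcpt : ∀ s, IsCompact (subLevelC Ω ρ s))
    (hgrad : ∀ x ∈ Ω, (hess u x).det ^ τ * pa u (dF ρ) (dF ρ) x ≤ 1)
    (hG : ∀ ε : ℝ, 0 < ε → ∀ S₁ : ℝ, ∃ S : ℝ, S₁ ≤ S ∧
      ∫ x in subLevel Ω ρ S, (hess u x).det ^ (β - ((k : ℝ) + 3) * τ) ≤ ε * S ^ (2 * k + 6))
    {x z : Fin 3 → ℝ} (hx : x ∈ Ω) (hz : z ∈ Ω) : (hess u x).det = (hess u z).det := by
  refine det_const_of_energy_growth hs hΩ hd hv hconn hρ hcpt (fun ε hε S₁ => ?_) hx hz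
  obtain ⟨S, h1, h2⟩ := hG ε hε S₁
  refine ⟨S, h1, le_trans ?_ h2⟩
  have hopen := IsAffineMaximal.isOpen_subLevel hΩ hρ S
  have hdρ : ∀ j, ContDiffOn ℝ ∞ (dF ρ j) Ω := fun j => contDiffOn_pd hΩ hρ j
  refine setIntegral_mono_on ?_ ?_ hopen.measurableSet fun w hw => ?_
  · have hcont : ContinuousOn (fun z => (hess u z).det ^ β * pa u (dF ρ) (dF ρ) z ^ (k + 3)) Ω :=
      (hs.contDiffOn_detpow hΩ β).continuousOn.mul
        ((hs.contDiffOn_pa hΩ hdρ hdρ).continuousOn.pow (k + 3))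
    exact IsAffineMaximal.integrableOn_subLevel hcont (hcpt S)
  · exact IsAffineMaximal.integrableOn_subLevel (hs.contDiffOn_detpow hΩ _).continuousOn (hcpt S)
  · have hwΩ := hw.1
    have hD := hs.det_pos hwΩ
    have hΓ0 : 0 ≤ pa u (dF ρ) (dF ρ) w := hs.pa_self_nonneg _ hwΩ
    have hτ : 0 < (hess u w).det ^ τ := Real.rpow_pos_of_pos hD _
    have h3 : pa u (dF ρ) (dF ρ) w ≤ (hess u w).det ^ (-τ) := by
      rw [Real.rpow_neg hD.le, ← one_div, le_div_iff₀ hτ, mul_comm]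
      exact hgrad w hwΩ
    have h4 := pow_le_pow_left₀ hΓ0 h3 (k + 3)
    have e : (hess u w).det ^ (β - ((k : ℝ) + 3) * τ) =
        (hess u w).det ^ β * ((hess u w).det ^ (-τ)) ^ (k + 3) := by
      rw [← Real.rpow_natCast, ← Real.rpow_mul hD.le, ← Real.rpow_add hD]
      congr 1
      push_cast
      ring
    rw [e]
    exact mul_le_mul_of_nonneg_left h4 (Real.rpow_pos_of_pos hD _).le

end Caccio

end Vale.Agent.Lib.P252
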