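import Vale.Agent.Lib.P252.Defs

open scoped ContDiff

namespace Vale.Agent.Lib.P252

variable {n : ℕ} {Ω : Set (Fin n → ℝ)}

lemma contDiffOn_pd (hΩ : IsOpen Ω) {f : (Fin n → ℝ) → ℝ} (hf : ContDiffOn ℝ ∞ f Ω) (i : Fin n) :
    ContDiffOn ℝ ∞ (pd i f) Ω := by
  have h : ContDiffOn ℝ ∞ (fderiv ℝ f) Ω := hf.fderiv_of_isOpen hΩ (by simp)
  exact h.clm_apply contDiffOn_const

lemma contDiffOn_pd2 (hΩ : IsOpen Ω) {f : (Fin n → ℝ) → ℝ} (hf : ContDiffOn ℝ ∞ f Ω) (i j : Fin n) :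
    ContDiffOn ℝ ∞ (pd i (pd j f)) Ω :=
  contDiffOn_pd hΩ (contDiffOn_pd hΩ hf j) i

lemma diffAt (hΩ : IsOpen Ω) {f : (Fin n → ℝ) → ℝ} (hf : ContDiffOn ℝ ∞ f Ω) {x : Fin n → ℝ}
    (hx : x ∈ Ω) : DifferentiableAt ℝ f x :=
  (hf.contDiffAt (hΩ.mem_nhds hx)).differentiableAt (by simp)

lemma contDiffAt_of (hΩ : IsOpen Ω) {f : (Fin n → ℝ) → ℝ} (hf : ContDiffOn ℝ ∞ f Ω)
    {x : Fin n → ℝ} (hx : x ∈ Ω) : ContDiffAt ℝ ∞ f x :=
  hf.contDiffAt (hΩ.mem_nhds hx)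

lemma pd_add {f g : (Fin n → ℝ) → ℝ} {x : Fin n → ℝ} (hf : DifferentiableAt ℝ f x)
    (hg : DifferentiableAt ℝ g x) (i : Fin n) :
    pd i (fun y => f y + g y) x = pd i f x + pd i g x := by
  simp only [pd]
  have := (hf.hasFDerivAt.add hg.hasFDerivAt).fderiv
  rw [show (fun y => f y + g y) = f + g from rfl, this]
  rfl

lemma pd_sub {f g : (Fin n → ℝ) → ℝ} {x : Fin n → ℝ} (hf : DifferentiableAt ℝ f x)
    (hg : DifferentiableAt ℝ g x) (i : Fin n) :
    pd i (fun y => f y - g y) x = pd i f x - pd i g x := by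
  simp only [pd]
  have := (hf.hasFDerivAt.sub hg.hasFDerivAt).fderiv
  rw [show (fun y => f y - g y) = f - g from rfl, this]
  rfl

lemma pd_mul {f g : (Fin n → ℝ) → ℝ} {x : Fin n → ℝ} (hf : DifferentiableAt ℝ f x)
    (hg : DifferentiableAt ℝ g x) (i : Fin n) :
    pd i (fun y => f y * g y) x = pd i f x * g x + f x * pd i g x := by
  simp only [pd]
  have := (hf.hasFDerivAt.mul hg.hasFDerivAt).fderiv
  rw [show (fun y => f y * g y) = f * g from rfl, this]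
  simp [mul_comm, add_comm]

lemma pd_const_mul (c : ℝ) {f : (Fin n → ℝ) → ℝ} {x : Fin n → ℝ} (hf : DifferentiableAt ℝ f x)
    (i : Fin n) : pd i (fun y => c * f y) x = c * pd i f x := by
  rw [pd_mul (differentiableAt_const c) hf]
  simp [pd]

lemma pd_const (c : ℝ) (x : Fin n → ℝ) (i : Fin n) : pd i (fun _ => c) x = 0 := by
  simp [pd]

lemma pd_sum {ι : Type*} (s : Finset ι) {f : ι → (Fin n → ℝ) → ℝ} {x : Fin n → ℝ}
    (hf : ∀ k ∈ s, DifferentiableAt ℝ (f k) x) (i : Fin n) :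
    pd i (fun y => ∑ k ∈ s, f k y) x = ∑ k ∈ s, pd i (f k) x := by
  classical
  induction s using Finset.induction_on with
  | empty => simp [pd_const]
  | insert a s ha ih =>
    have h1 : DifferentiableAt ℝ (f a) x := hf a (by simp)
    have h2 : DifferentiableAt ℝ (fun y => ∑ k ∈ s, f k y) x :=
      DifferentiableAt.fun_sum (fun k hk => hf k (by simp [hk]))
    simp only [Finset.sum_insert ha]
    rw [pd_add h1 h2, ih (fun k hk => hf k (by simp [hk]))]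

lemma pd_comp {g : ℝ → ℝ} {f : (Fin n → ℝ) → ℝ} {x : Fin n → ℝ}
    {g' : ℝ} (hg : HasDerivAt g g' (f x)) (hf : DifferentiableAt ℝ f x) (i : Fin n) :
    pd i (fun y => g (f y)) x = g' * pd i f x := by
  simp only [pd]
  have := (hg.comp_hasFDerivAt x hf.hasFDerivAt).fderiv
  change fderiv ℝ (g ∘ f) x (Pi.single i 1) = _
  rw [this]
  simp

lemma pd_congr {f g : (Fin n → ℝ) → ℝ} {x : Fin n → ℝ} (h : f =ᶠ[nhds x] g) (i : Fin n) :
    pd i f x = pd i g x := by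
  simp only [pd]
  rw [h.fderiv_eq]

lemma pd_congr_on (hΩ : IsOpen Ω) {f g : (Fin n → ℝ) → ℝ} {x : Fin n → ℝ} (hx : x ∈ Ω)
    (h : ∀ y ∈ Ω, f y = g y) (i : Fin n) : pd i f x = pd i g x := by
  apply pd_congr
  filter_upwards [hΩ.mem_nhds hx] with y hy using h y hy

/-- Schwarz's theorem for `pd`. -/
lemma pd_comm (hΩ : IsOpen Ω) {f : (Fin n → ℝ) → ℝ} (hf : ContDiffOn ℝ ∞ f Ω) {x : Fin n → ℝ}
    (hx : x ∈ Ω) (i j : Fin n) : pd i (pd j f) x = pd j (pd i f) x := by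
  have hfa : ContDiffAt ℝ ∞ f x := contDiffAt_of hΩ hf hx
  have hsymm : IsSymmSndFDerivAt ℝ f x := hfa.isSymmSndFDerivAt (by simp only [minSmoothness_of_isRCLikeNormedField]; exact ENat.LEInfty.out)
  have hdiff : DifferentiableAt ℝ (fderiv ℝ f) x :=
    (hfa.fderiv_right (m := ∞) (by simp)).differentiableAt (by simp)
  have key : ∀ a b : Fin n, pd a (pd b f) x =
      fderiv ℝ (fderiv ℝ f) x (Pi.single a 1) (Pi.single b 1) := by
    intro a b
    simp only [pd]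
    have h1 : HasFDerivAt (fun y => fderiv ℝ f y (Pi.single b 1))
        ((fderiv ℝ (fderiv ℝ f) x).flip (Pi.single b 1)) x := by
      exact hdiff.hasFDerivAt.clm_apply (hasFDerivAt_const _ _) |>.congr_fderiv (by
        ext v; simp)
    change fderiv ℝ (fun y => fderiv ℝ f y (Pi.single b 1)) x (Pi.single a 1) = _
    rw [h1.fderiv]
    simp
  rw [key, key]
  exact hsymm _ _

end Vale.Agent.Lib.P252
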