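import Mathlib

/-!
Elementary bounds used to absorb the scalar remainders of the certificates.
-/

namespace Vale.Agent.Lib.P252

lemma scal_bounds (T H G : ℝ) (hT : 0 ≤ T) (hG : 0 ≤ G) (hH : H ^ 2 ≤ T * G) :
    0 ≤ T + G ∧ |T| ≤ T + G ∧ |G| ≤ T + G ∧ |H| ≤ T + G := by
  have hY : 0 ≤ T + G := add_nonneg hT hG
  refine ⟨hY, ?_, ?_, ?_⟩
  · rw [abs_of_nonneg hT]
    linarith
  · rw [abs_of_nonneg hG]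
    linarith
  · apply abs_le_of_sq_le_sq _ hY
    nlinarith [mul_nonneg hT hG, sq_nonneg T, sq_nonneg G]

lemma bnd2 (x y Y s : ℝ) (hx : |x| ≤ Y) (hy : |y| ≤ Y) (hs : 0 ≤ s) :
    -(s * Y ^ 2) ≤ s * (x * y) ∧ s * (x * y) ≤ s * Y ^ 2 := by
  have hY : 0 ≤ Y := (abs_nonneg x).trans hx
  have h : |x * y| ≤ Y ^ 2 := by
    rw [abs_mul, sq]
    exact mul_le_mul hx hy (abs_nonneg y) hY
  have h2 := abs_le.1 h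
  constructor
  · nlinarith [mul_le_mul_of_nonneg_left h2.1 hs]
  · exact mul_le_mul_of_nonneg_left h2.2 hs

lemma bnd1 (x Y s : ℝ) (hx : |x| ≤ Y) (hs : 0 ≤ s) :
    -(s ^ 2 * Y) ≤ s ^ 2 * x ∧ s ^ 2 * x ≤ s ^ 2 * Y := by
  have h2 := abs_le.1 hx
  have hs2 : 0 ≤ s ^ 2 := sq_nonneg s
  constructor
  · nlinarith [mul_le_mul_of_nonneg_left h2.1 hs2]
  · exact mul_le_mul_of_nonneg_left h2.2 hs2

lemma bnd3 (x y z Y : ℝ) (hx : |x| ≤ Y) (hy : |y| ≤ Y) (hz : |z| ≤ Y) :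
    -Y ^ 3 ≤ x * y * z ∧ x * y * z ≤ Y ^ 3 := by
  have hY : 0 ≤ Y := (abs_nonneg x).trans hx
  have h : |x * y * z| ≤ Y ^ 3 := by
    rw [abs_mul, abs_mul, pow_succ, sq]
    exact mul_le_mul (mul_le_mul hx hy (abs_nonneg y) hY) hz (abs_nonneg z)
      (mul_nonneg hY hY)
  exact abs_le.1 h

lemma young1 (Y s k ε : ℝ) (hY : 0 ≤ Y) (hs : 0 ≤ s) (hk : 0 ≤ k) (hε : 0 ≤ ε) :
    (3 / 2) * ε * k * (s * Y ^ 2) ≤ ε * Y ^ 3 + (ε * k ^ 3 / 2) * s ^ 3 := by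
  have h : 0 ≤ ε * ((Y - k * s) ^ 2 * (Y + (k / 2) * s)) := by positivity
  nlinarith [h]

lemma young2 (Y s k ε : ℝ) (hY : 0 ≤ Y) (hs : 0 ≤ s) (hk : 0 ≤ k) (hε : 0 ≤ ε) :
    3 * ε * k ^ 2 * (s ^ 2 * Y) ≤ ε * Y ^ 3 + (2 * ε * k ^ 3) * s ^ 3 := by
  have h : 0 ≤ ε * ((Y - k * s) ^ 2 * (Y + 2 * k * s)) := by positivity
  nlinarith [h]

lemma young3 (Y s k ε : ℝ) (hY : 0 ≤ Y) (hs : 0 ≤ s) (hk : 0 ≤ k) (hε : 0 ≤ ε) :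
    4 * ε * k ^ 3 * (s ^ 3 * Y) ≤ ε * Y ^ 4 + (3 * ε * k ^ 4) * s ^ 4 := by
  have h : 0 ≤ ε * ((Y - k * s) ^ 2 * (Y ^ 2 + 2 * k * Y * s + 3 * k ^ 2 * s ^ 2)) := by positivity
  nlinarith [h]

end Vale.Agent.Lib.P252
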