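import Vale.Agent.Lib.P252.Hess16
import Vale.Agent.Lib.P252.Cert32

/-!
The combination of the divergence identities for the certificate Cert32, the pointwise lower bound and
the resulting integral estimate and Liouville theorem.
-/

open scoped ContDiff Matrix Topology
open MeasureTheory

namespace Vale.Agent.Lib.P252

namespace Cert32

variable {Ω : Set (Fin 3 → ℝ)} {u : (Fin 3 → ℝ) → ℝ} {x₀ : Fin 3 → ℝ}

noncomputable def comb (hs : IsAffineMaximal Ω u) (x₀ : Fin 3 → ℝ) (S : ℝ) (x : Fin 3 → ℝ) : ℝ :=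
  (229/1000) * (1 * ((1000 : ℝ) ^ 0 * hs.fieldI x₀ (3/2) S 1000 (fun j y => aT u y * aT u y * (aT u y * qF u j y)) x))
  +  (229/1000) * (2 * ((1000 : ℝ) ^ 2 * hs.fieldI x₀ (3/2) S 998 (fun j y => aT u y * aG u x₀ y * (aT u y * qF u j y)) x))
  +  (229/1000) * (1 * ((1000 : ℝ) ^ 4 * hs.fieldI x₀ (3/2) S 996 (fun j y => aG u x₀ y * aG u x₀ y * (aT u y * qF u j y)) x))
  +  (-419/1000) * (1 * ((1000 : ℝ) ^ 1 * hs.fieldI x₀ (3/2) S 999 (fun j y => aT u y * aT u y * (aH u x₀ y * qF u j y)) x))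
  +  (-419/1000) * (2 * ((1000 : ℝ) ^ 3 * hs.fieldI x₀ (3/2) S 997 (fun j y => aT u y * aG u x₀ y * (aH u x₀ y * qF u j y)) x))
  +  (-419/1000) * (1 * ((1000 : ℝ) ^ 5 * hs.fieldI x₀ (3/2) S 995 (fun j y => aG u x₀ y * aG u x₀ y * (aH u x₀ y * qF u j y)) x))
  +  (11/50) * (1 * ((1000 : ℝ) ^ 2 * hs.fieldI x₀ (3/2) S 998 (fun j y => aT u y * aT u y * (aG u x₀ y * qF u j y)) x))
  +  (11/50) * (2 * ((1000 : ℝ) ^ 4 * hs.fieldI x₀ (3/2) S 996 (fun j y => aT u y * aG u x₀ y * (aG u x₀ y * qF u j y)) x))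
  +  (11/50) * (1 * ((1000 : ℝ) ^ 6 * hs.fieldI x₀ (3/2) S 994 (fun j y => aG u x₀ y * aG u x₀ y * (aG u x₀ y * qF u j y)) x))
  +  (-23/250) * (1 * ((1000 : ℝ) ^ 1 * hs.fieldI x₀ (3/2) S 999 (fun j y => aT u y * aT u y * (aT u y * XF u x₀ j y)) x))
  +  (-23/250) * (2 * ((1000 : ℝ) ^ 3 * hs.fieldI x₀ (3/2) S 997 (fun j y => aT u y * aG u x₀ y * (aT u y * XF u x₀ j y)) x))
  +  (-23/250) * (1 * ((1000 : ℝ) ^ 5 * hs.fieldI x₀ (3/2) S 995 (fun j y => aG u x₀ y * aG u x₀ y * (aT u y * XF u x₀ j y)) x))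
  +  (237/1000) * (1 * ((1000 : ℝ) ^ 2 * hs.fieldI x₀ (3/2) S 998 (fun j y => aT u y * aT u y * (aH u x₀ y * XF u x₀ j y)) x))
  +  (237/1000) * (2 * ((1000 : ℝ) ^ 4 * hs.fieldI x₀ (3/2) S 996 (fun j y => aT u y * aG u x₀ y * (aH u x₀ y * XF u x₀ j y)) x))
  +  (237/1000) * (1 * ((1000 : ℝ) ^ 6 * hs.fieldI x₀ (3/2) S 994 (fun j y => aG u x₀ y * aG u x₀ y * (aH u x₀ y * XF u x₀ j y)) x))
  +  (-93/1000) * (1 * ((1000 : ℝ) ^ 3 * hs.fieldI x₀ (3/2) S 997 (fun j y => aT u y * aT u y * (aG u x₀ y * XF u x₀ j y)) x))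
  +  (-93/1000) * (2 * ((1000 : ℝ) ^ 5 * hs.fieldI x₀ (3/2) S 995 (fun j y => aT u y * aG u x₀ y * (aG u x₀ y * XF u x₀ j y)) x))
  +  (-93/1000) * (1 * ((1000 : ℝ) ^ 7 * hs.fieldI x₀ (3/2) S 993 (fun j y => aG u x₀ y * aG u x₀ y * (aG u x₀ y * XF u x₀ j y)) x))
  +  (-737/1000) * (1 * ((1000 : ℝ) ^ 0 * hs.fieldI x₀ (3/2) S 1000 (fun j y => aT u y * aT u y * (Ah u (qF u) (qF u)) j y) x))
  +  (-737/1000) * (2 * ((1000 : ℝ) ^ 2 * hs.fieldI x₀ (3/2) S 998 (fun j y => aT u y * aG u x₀ y * (Ah u (qF u) (qF u)) j y) x))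
  +  (-737/1000) * (1 * ((1000 : ℝ) ^ 4 * hs.fieldI x₀ (3/2) S 996 (fun j y => aG u x₀ y * aG u x₀ y * (Ah u (qF u) (qF u)) j y) x))
  +  (537/1000) * (1 * ((1000 : ℝ) ^ 1 * hs.fieldI x₀ (3/2) S 999 (fun j y => aT u y * aT u y * (Ah u (qF u) (XF u x₀)) j y) x))
  +  (537/1000) * (2 * ((1000 : ℝ) ^ 3 * hs.fieldI x₀ (3/2) S 997 (fun j y => aT u y * aG u x₀ y * (Ah u (qF u) (XF u x₀)) j y) x))
  +  (537/1000) * (1 * ((1000 : ℝ) ^ 5 * hs.fieldI x₀ (3/2) S 995 (fun j y => aG u x₀ y * aG u x₀ y * (Ah u (qF u) (XF u x₀)) j y) x))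
  +  (-319/1000) * (1 * ((1000 : ℝ) ^ 2 * hs.fieldI x₀ (3/2) S 998 (fun j y => aT u y * aT u y * (Ah u (XF u x₀) (XF u x₀)) j y) x))
  +  (-319/1000) * (2 * ((1000 : ℝ) ^ 4 * hs.fieldI x₀ (3/2) S 996 (fun j y => aT u y * aG u x₀ y * (Ah u (XF u x₀) (XF u x₀)) j y) x))
  +  (-319/1000) * (1 * ((1000 : ℝ) ^ 6 * hs.fieldI x₀ (3/2) S 994 (fun j y => aG u x₀ y * aG u x₀ y * (Ah u (XF u x₀) (XF u x₀)) j y) x))
  +  1 * (1 * ((1000 : ℝ) ^ 0 * hs.fieldI x₀ (3/2) S 1000 (fun j y => aT u y * aT u y * (ph u (qF u)) j y) x))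
  +  1 * (2 * ((1000 : ℝ) ^ 2 * hs.fieldI x₀ (3/2) S 998 (fun j y => aT u y * aG u x₀ y * (ph u (qF u)) j y) x))
  +  1 * (1 * ((1000 : ℝ) ^ 4 * hs.fieldI x₀ (3/2) S 996 (fun j y => aG u x₀ y * aG u x₀ y * (ph u (qF u)) j y) x))
  +  (-251/1000) * (1 * ((1000 : ℝ) ^ 1 * hs.fieldI x₀ (3/2) S 999 (fun j y => aT u y * aT u y * (ph u (XF u x₀)) j y) x))
  +  (-251/1000) * (2 * ((1000 : ℝ) ^ 3 * hs.fieldI x₀ (3/2) S 997 (fun j y => aT u y * aG u x₀ y * (ph u (XF u x₀)) j y) x))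
  +  (-251/1000) * (1 * ((1000 : ℝ) ^ 5 * hs.fieldI x₀ (3/2) S 995 (fun j y => aG u x₀ y * aG u x₀ y * (ph u (XF u x₀)) j y) x))

variable (hs : IsAffineMaximal Ω u) (hΩ : IsOpen Ω)
include hs hΩ

lemma comb_integral (S : ℝ) (hcpt : IsCompact (subLevelC Ω (uBar u x₀) S)) :
    Integrable (comb hs x₀ S) ∧ ∫ x, comb hs x₀ S x = 0 := by
  have hq : ∀ j, ContDiffOn ℝ ∞ (qF u j) Ω := hs.contDiffOn_qF hΩ
  have hX : ∀ j, ContDiffOn ℝ ∞ (XF u x₀ j) Ω := hs.contDiffOn_XF hΩ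
  have hT : ContDiffOn ℝ ∞ (aT u) Ω := hs.contDiffOn_aT hΩ
  have hH : ContDiffOn ℝ ∞ (aH u x₀) Ω := hs.contDiffOn_aH hΩ
  have hG : ContDiffOn ℝ ∞ (aG u x₀) Ω := hs.contDiffOn_aG hΩ
  have i0 := hs.fieldI_integral hΩ (V := (fun j y => aT u y * aT u y * (aT u y * qF u j y)))
    (fun j => (hT.mul hT).mul (hT.mul (hq j))) (3/2) S (N := 1000) (by norm_num) hcpt
  have i1 := hs.fieldI_integral hΩ (V := (fun j y => aT u y * aG u x₀ y * (aT u y * qF u j y)))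
    (fun j => (hT.mul hG).mul (hT.mul (hq j))) (3/2) S (N := 998) (by norm_num) hcpt
  have i2 := hs.fieldI_integral hΩ (V := (fun j y => aG u x₀ y * aG u x₀ y * (aT u y * qF u j y)))
    (fun j => (hG.mul hG).mul (hT.mul (hq j))) (3/2) S (N := 996) (by norm_num) hcpt
  have i3 := hs.fieldI_integral hΩ (V := (fun j y => aT u y * aT u y * (aH u x₀ y * qF u j y)))
    (fun j => (hT.mul hT).mul (hH.mul (hq j))) (3/2) S (N := 999) (by norm_num) hcpt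
  have i4 := hs.fieldI_integral hΩ (V := (fun j y => aT u y * aG u x₀ y * (aH u x₀ y * qF u j y)))
    (fun j => (hT.mul hG).mul (hH.mul (hq j))) (3/2) S (N := 997) (by norm_num) hcpt
  have i5 := hs.fieldI_integral hΩ (V := (fun j y => aG u x₀ y * aG u x₀ y * (aH u x₀ y * qF u j y)))
    (fun j => (hG.mul hG).mul (hH.mul (hq j))) (3/2) S (N := 995) (by norm_num) hcpt
  have i6 := hs.fieldI_integral hΩ (V := (fun j y => aT u y * aT u y * (aG u x₀ y * qF u j y)))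
    (fun j => (hT.mul hT).mul (hG.mul (hq j))) (3/2) S (N := 998) (by norm_num) hcpt
  have i7 := hs.fieldI_integral hΩ (V := (fun j y => aT u y * aG u x₀ y * (aG u x₀ y * qF u j y)))
    (fun j => (hT.mul hG).mul (hG.mul (hq j))) (3/2) S (N := 996) (by norm_num) hcpt
  have i8 := hs.fieldI_integral hΩ (V := (fun j y => aG u x₀ y * aG u x₀ y * (aG u x₀ y * qF u j y)))
    (fun j => (hG.mul hG).mul (hG.mul (hq j))) (3/2) S (N := 994) (by norm_num) hcpt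
  have i9 := hs.fieldI_integral hΩ (V := (fun j y => aT u y * aT u y * (aT u y * XF u x₀ j y)))
    (fun j => (hT.mul hT).mul (hT.mul (hX j))) (3/2) S (N := 999) (by norm_num) hcpt
  have i10 := hs.fieldI_integral hΩ (V := (fun j y => aT u y * aG u x₀ y * (aT u y * XF u x₀ j y)))
    (fun j => (hT.mul hG).mul (hT.mul (hX j))) (3/2) S (N := 997) (by norm_num) hcpt
  have i11 := hs.fieldI_integral hΩ (V := (fun j y => aG u x₀ y * aG u x₀ y * (aT u y * XF u x₀ j y)))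
    (fun j => (hG.mul hG).mul (hT.mul (hX j))) (3/2) S (N := 995) (by norm_num) hcpt
  have i12 := hs.fieldI_integral hΩ (V := (fun j y => aT u y * aT u y * (aH u x₀ y * XF u x₀ j y)))
    (fun j => (hT.mul hT).mul (hH.mul (hX j))) (3/2) S (N := 998) (by norm_num) hcpt
  have i13 := hs.fieldI_integral hΩ (V := (fun j y => aT u y * aG u x₀ y * (aH u x₀ y * XF u x₀ j y)))
    (fun j => (hT.mul hG).mul (hH.mul (hX j))) (3/2) S (N := 996) (by norm_num) hcpt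
  have i14 := hs.fieldI_integral hΩ (V := (fun j y => aG u x₀ y * aG u x₀ y * (aH u x₀ y * XF u x₀ j y)))
    (fun j => (hG.mul hG).mul (hH.mul (hX j))) (3/2) S (N := 994) (by norm_num) hcpt
  have i15 := hs.fieldI_integral hΩ (V := (fun j y => aT u y * aT u y * (aG u x₀ y * XF u x₀ j y)))
    (fun j => (hT.mul hT).mul (hG.mul (hX j))) (3/2) S (N := 997) (by norm_num) hcpt
  have i16 := hs.fieldI_integral hΩ (V := (fun j y => aT u y * aG u x₀ y * (aG u x₀ y * XF u x₀ j y)))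
    (fun j => (hT.mul hG).mul (hG.mul (hX j))) (3/2) S (N := 995) (by norm_num) hcpt
  have i17 := hs.fieldI_integral hΩ (V := (fun j y => aG u x₀ y * aG u x₀ y * (aG u x₀ y * XF u x₀ j y)))
    (fun j => (hG.mul hG).mul (hG.mul (hX j))) (3/2) S (N := 993) (by norm_num) hcpt
  have i18 := hs.fieldI_integral hΩ (V := (fun j y => aT u y * aT u y * (Ah u (qF u) (qF u)) j y))
    (fun j => (hT.mul hT).mul (hs.contDiffOn_Ah hΩ hq hq j)) (3/2) S (N := 1000) (by norm_num) hcpt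
  have i19 := hs.fieldI_integral hΩ (V := (fun j y => aT u y * aG u x₀ y * (Ah u (qF u) (qF u)) j y))
    (fun j => (hT.mul hG).mul (hs.contDiffOn_Ah hΩ hq hq j)) (3/2) S (N := 998) (by norm_num) hcpt
  have i20 := hs.fieldI_integral hΩ (V := (fun j y => aG u x₀ y * aG u x₀ y * (Ah u (qF u) (qF u)) j y))
    (fun j => (hG.mul hG).mul (hs.contDiffOn_Ah hΩ hq hq j)) (3/2) S (N := 996) (by norm_num) hcpt
  have i21 := hs.fieldI_integral hΩ (V := (fun j y => aT u y * aT u y * (Ah u (qF u) (XF u x₀)) j y))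
    (fun j => (hT.mul hT).mul (hs.contDiffOn_Ah hΩ hq hX j)) (3/2) S (N := 999) (by norm_num) hcpt
  have i22 := hs.fieldI_integral hΩ (V := (fun j y => aT u y * aG u x₀ y * (Ah u (qF u) (XF u x₀)) j y))
    (fun j => (hT.mul hG).mul (hs.contDiffOn_Ah hΩ hq hX j)) (3/2) S (N := 997) (by norm_num) hcpt
  have i23 := hs.fieldI_integral hΩ (V := (fun j y => aG u x₀ y * aG u x₀ y * (Ah u (qF u) (XF u x₀)) j y))
    (fun j => (hG.mul hG).mul (hs.contDiffOn_Ah hΩ hq hX j)) (3/2) S (N := 995) (by norm_num) hcpt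
  have i24 := hs.fieldI_integral hΩ (V := (fun j y => aT u y * aT u y * (Ah u (XF u x₀) (XF u x₀)) j y))
    (fun j => (hT.mul hT).mul (hs.contDiffOn_Ah hΩ hX hX j)) (3/2) S (N := 998) (by norm_num) hcpt
  have i25 := hs.fieldI_integral hΩ (V := (fun j y => aT u y * aG u x₀ y * (Ah u (XF u x₀) (XF u x₀)) j y))
    (fun j => (hT.mul hG).mul (hs.contDiffOn_Ah hΩ hX hX j)) (3/2) S (N := 996) (by norm_num) hcpt
  have i26 := hs.fieldI_integral hΩ (V := (fun j y => aG u x₀ y * aG u x₀ y * (Ah u (XF u x₀) (XF u x₀)) j y))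
    (fun j => (hG.mul hG).mul (hs.contDiffOn_Ah hΩ hX hX j)) (3/2) S (N := 994) (by norm_num) hcpt
  have i27 := hs.fieldI_integral hΩ (V := (fun j y => aT u y * aT u y * (ph u (qF u)) j y))
    (fun j => (hT.mul hT).mul (hs.contDiffOn_ph hΩ hq j)) (3/2) S (N := 1000) (by norm_num) hcpt
  have i28 := hs.fieldI_integral hΩ (V := (fun j y => aT u y * aG u x₀ y * (ph u (qF u)) j y))
    (fun j => (hT.mul hG).mul (hs.contDiffOn_ph hΩ hq j)) (3/2) S (N := 998) (by norm_num) hcpt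
  have i29 := hs.fieldI_integral hΩ (V := (fun j y => aG u x₀ y * aG u x₀ y * (ph u (qF u)) j y))
    (fun j => (hG.mul hG).mul (hs.contDiffOn_ph hΩ hq j)) (3/2) S (N := 996) (by norm_num) hcpt
  have i30 := hs.fieldI_integral hΩ (V := (fun j y => aT u y * aT u y * (ph u (XF u x₀)) j y))
    (fun j => (hT.mul hT).mul (hs.contDiffOn_ph hΩ hX j)) (3/2) S (N := 999) (by norm_num) hcpt
  have i31 := hs.fieldI_integral hΩ (V := (fun j y => aT u y * aG u x₀ y * (ph u (XF u x₀)) j y))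
    (fun j => (hT.mul hG).mul (hs.contDiffOn_ph hΩ hX j)) (3/2) S (N := 997) (by norm_num) hcpt
  have i32 := hs.fieldI_integral hΩ (V := (fun j y => aG u x₀ y * aG u x₀ y * (ph u (XF u x₀)) j y))
    (fun j => (hG.mul hG).mul (hs.contDiffOn_ph hΩ hX j)) (3/2) S (N := 995) (by norm_num) hcpt
  exact (zero_add_aux (zero_add_aux (zero_add_aux (zero_add_aux (zero_add_aux (zero_add_aux (zero_add_aux (zero_add_aux (zero_add_aux (zero_add_aux (zero_add_aux (zero_add_aux (zero_add_aux (zero_add_aux (zero_add_aux (zero_add_aux (zero_add_aux (zero_add_aux (zero_add_aux (zero_add_aux (zero_add_aux (zero_add_aux (zero_add_aux (zero_add_aux (zero_add_aux (zero_add_aux (zero_add_aux (zero_add_aux (zero_add_aux (zero_add_aux (zero_add_aux (zero_add_aux (zero_mul_aux _ (zero_mul_aux _ (zero_mul_aux _ i0))) (zero_mul_aux _ (zero_mul_aux _ (zero_mul_aux _ i1)))) (zero_mul_aux _ (zero_mul_aux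 _ (zero_mul_aux _ i2)))) (zero_mul_aux _ (zero_mul_aux _ (zero_mul_aux _ i3)))) (zero_mul_aux _ (zero_mul_aux _ (zero_mul_aux _ i4)))) (zero_mul_aux _ (zero_mul_aux _ (zero_mul_aux _ i5)))) (zero_mul_aux _ (zero_mul_aux _ (zero_mul_aux _ i6)))) (zero_mul_aux _ (zero_mul_aux _ (zero_mul_aux _ i7)))) (zero_mul_aux _ (zero_mul_aux _ (zero_mul_aux _ i8)))) (zero_mul_aux _ (zero_mul_aux _ (zero_mul_aux _ i9)))) (zero_mul_aux _ (zero_mul_aux _ (zero_mul_aux _ i10)))) (zero_mul_aux _ (zero_mul_aux _ (zero_mul_aux _ i11)))) (zero_mul_aux _ (zero_mul_aux _ (zero_mul_aux _ i12)))) (zero_mul_aux _ (zero_mul_aux _ (zero_mul_aux _ i13)))) (zero_mul_aux _ (zero_mul_aux _ (zero_mul_aux _ i14)))) (zero_mul_aux _ (zero_mul_aux _ (zero_mul_aux _ i15)))) (zero_mul_aux _ (zero_mul_aux _ (zero_mul_aux _ i16)))) (zero_mul_aux _ (zero_mul_aux _ (zero_mul_aux _ i17)))) (zero_mul_aux _ (zero_mul_aux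 _ (zero_mul_aux _ i18)))) (zero_mul_aux _ (zero_mul_aux _ (zero_mul_aux _ i19)))) (zero_mul_aux _ (zero_mul_aux _ (zero_mul_aux _ i20)))) (zero_mul_aux _ (zero_mul_aux _ (zero_mul_aux _ i21)))) (zero_mul_aux _ (zero_mul_aux _ (zero_mul_aux _ i22)))) (zero_mul_aux _ (zero_mul_aux _ (zero_mul_aux _ i23)))) (zero_mul_aux _ (zero_mul_aux _ (zero_mul_aux _ i24)))) (zero_mul_aux _ (zero_mul_aux _ (zero_mul_aux _ i25)))) (zero_mul_aux _ (zero_mul_aux _ (zero_mul_aux _ i26)))) (zero_mul_aux _ (zero_mul_aux _ (zero_mul_aux _ i27)))) (zero_mul_aux _ (zero_mul_aux _ (zero_mul_aux _ i28)))) (zero_mul_aux _ (zero_mul_aux _ (zero_mul_aux _ i29)))) (zero_mul_aux _ (zero_mul_aux _ (zero_mul_aux _ i30)))) (zero_mul_aux _ (zero_mul_aux _ (zero_mul_aux _ i31)))) (zero_mul_aux _ (zero_mul_aux _ (zero_mul_aux _ i32))))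

lemma comb_eq {x : Fin 3 → ℝ} (hx : x ∈ Ω) (S : ℝ) (hη : 0 < S - uBar u x₀ x) :
    comb hs x₀ S x = (hess u x).det ^ ((3/2) : ℝ) * (S - uBar u x₀ x) ^ 1000 *
      ((((atomsAt u x₀ x).scale (1000 / (S - uBar u x₀ x))).T + ((atomsAt u x₀ x).scale (1000 / (S - uBar u x₀ x))).G) * psi ((atomsAt u x₀ x).scale (1000 / (S - uBar u x₀ x))) (1000 / (S - uBar u x₀ x))) := by
  have hq : ∀ j, ContDiffOn ℝ ∞ (qF u j) Ω := hs.contDiffOn_qF hΩ
  have hX : ∀ j, ContDiffOn ℝ ∞ (XF u x₀ j) Ω := hs.contDiffOn_XF hΩ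
  have hT : ContDiffOn ℝ ∞ (aT u) Ω := hs.contDiffOn_aT hΩ
  have hH : ContDiffOn ℝ ∞ (aH u x₀) Ω := hs.contDiffOn_aH hΩ
  have hG : ContDiffOn ℝ ∞ (aG u x₀) Ω := hs.contDiffOn_aG hΩ
  have t0 := hs.term_TT hΩ (V := (fun j y => aT u y * qF u j y)) (fun j => hT.mul (hq j)) (3/2) S 1000 0 999 1000 1000 (by norm_num) (by norm_num) (by norm_num) hx hη (hs.fvV1 hΩ (x₀ := x₀) hx)
  have t1 := hs.term_TG hΩ (V := (fun j y => aT u y * qF u j y)) (fun j => hT.mul (hq j)) (3/2) S 1000 2 997 1000 998 (by norm_num) (by norm_num) (by norm_num) hx hη (hs.fvV1 hΩ (x₀ := x₀) hx)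
  have t2 := hs.term_GG hΩ (V := (fun j y => aT u y * qF u j y)) (fun j => hT.mul (hq j)) (3/2) S 1000 4 995 1000 996 (by norm_num) (by norm_num) (by norm_num) hx hη (hs.fvV1 hΩ (x₀ := x₀) hx)
  have t3 := hs.term_TT hΩ (V := (fun j y => aH u x₀ y * qF u j y)) (fun j => hH.mul (hq j)) (3/2) S 1000 1 998 1000 999 (by norm_num) (by norm_num) (by norm_num) hx hη (hs.fvV2 hΩ (x₀ := x₀) hx)
  have t4 := hs.term_TG hΩ (V := (fun j y => aH u x₀ y * qF u j y)) (fun j => hH.mul (hq j)) (3/2) S 1000 3 996 1000 997 (by norm_num) (by norm_num) (by norm_num) hx hη (hs.fvV2 hΩ (x₀ := x₀) hx)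
  have t5 := hs.term_GG hΩ (V := (fun j y => aH u x₀ y * qF u j y)) (fun j => hH.mul (hq j)) (3/2) S 1000 5 994 1000 995 (by norm_num) (by norm_num) (by norm_num) hx hη (hs.fvV2 hΩ (x₀ := x₀) hx)
  have t6 := hs.term_TT hΩ (V := (fun j y => aG u x₀ y * qF u j y)) (fun j => hG.mul (hq j)) (3/2) S 1000 2 997 1000 998 (by norm_num) (by norm_num) (by norm_num) hx hη (hs.fvV3 hΩ (x₀ := x₀) hx)
  have t7 := hs.term_TG hΩ (V := (fun j y => aG u x₀ y * qF u j y)) (fun j => hG.mul (hq j)) (3/2) S 1000 4 995 1000 996 (by norm_num) (by norm_num) (by norm_num) hx hη (hs.fvV3 hΩ (x₀ := x₀) hx)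
  have t8 := hs.term_GG hΩ (V := (fun j y => aG u x₀ y * qF u j y)) (fun j => hG.mul (hq j)) (3/2) S 1000 6 993 1000 994 (by norm_num) (by norm_num) (by norm_num) hx hη (hs.fvV3 hΩ (x₀ := x₀) hx)
  have t9 := hs.term_TT hΩ (V := (fun j y => aT u y * XF u x₀ j y)) (fun j => hT.mul (hX j)) (3/2) S 1000 1 998 1000 999 (by norm_num) (by norm_num) (by norm_num) hx hη (hs.fvV4 hΩ (x₀ := x₀) hx)
  have t10 := hs.term_TG hΩ (V := (fun j y => aT u y * XF u x₀ j y)) (fun j => hT.mul (hX j)) (3/2) S 1000 3 996 1000 997 (by norm_num) (by norm_num) (by norm_num) hx hη (hs.fvV4 hΩ (x₀ := x₀) hx)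
  have t11 := hs.term_GG hΩ (V := (fun j y => aT u y * XF u x₀ j y)) (fun j => hT.mul (hX j)) (3/2) S 1000 5 994 1000 995 (by norm_num) (by norm_num) (by norm_num) hx hη (hs.fvV4 hΩ (x₀ := x₀) hx)
  have t12 := hs.term_TT hΩ (V := (fun j y => aH u x₀ y * XF u x₀ j y)) (fun j => hH.mul (hX j)) (3/2) S 1000 2 997 1000 998 (by norm_num) (by norm_num) (by norm_num) hx hη (hs.fvV5 hΩ (x₀ := x₀) hx)
  have t13 := hs.term_TG hΩ (V := (fun j y => aH u x₀ y * XF u x₀ j y)) (fun j => hH.mul (hX j)) (3/2) S 1000 4 995 1000 996 (by norm_num) (by norm_num) (by norm_num) hx hη (hs.fvV5 hΩ (x₀ := x₀) hx)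
  have t14 := hs.term_GG hΩ (V := (fun j y => aH u x₀ y * XF u x₀ j y)) (fun j => hH.mul (hX j)) (3/2) S 1000 6 993 1000 994 (by norm_num) (by norm_num) (by norm_num) hx hη (hs.fvV5 hΩ (x₀ := x₀) hx)
  have t15 := hs.term_TT hΩ (V := (fun j y => aG u x₀ y * XF u x₀ j y)) (fun j => hG.mul (hX j)) (3/2) S 1000 3 996 1000 997 (by norm_num) (by norm_num) (by norm_num) hx hη (hs.fvV6 hΩ (x₀ := x₀) hx)
  have t16 := hs.term_TG hΩ (V := (fun j y => aG u x₀ y * XF u x₀ j y)) (fun j => hG.mul (hX j)) (3/2) S 1000 5 994 1000 995 (by norm_num) (by norm_num) (by norm_num) hx hη (hs.fvV6 hΩ (x₀ := x₀) hx)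
  have t17 := hs.term_GG hΩ (V := (fun j y => aG u x₀ y * XF u x₀ j y)) (fun j => hG.mul (hX j)) (3/2) S 1000 7 992 1000 993 (by norm_num) (by norm_num) (by norm_num) hx hη (hs.fvV6 hΩ (x₀ := x₀) hx)
  have t18 := hs.term_TT hΩ (V := (Ah u (qF u) (qF u))) (fun j => hs.contDiffOn_Ah hΩ hq hq j) (3/2) S 1000 0 999 1000 1000 (by norm_num) (by norm_num) (by norm_num) hx hη (hs.fvV7 hΩ (x₀ := x₀) hx)
  have t19 := hs.term_TG hΩ (V := (Ah u (qF u) (qF u))) (fun j => hs.contDiffOn_Ah hΩ hq hq j) (3/2) S 1000 2 997 1000 998 (by norm_num) (by norm_num) (by norm_num) hx hη (hs.fvV7 hΩ (x₀ := x₀) hx)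
  have t20 := hs.term_GG hΩ (V := (Ah u (qF u) (qF u))) (fun j => hs.contDiffOn_Ah hΩ hq hq j) (3/2) S 1000 4 995 1000 996 (by norm_num) (by norm_num) (by norm_num) hx hη (hs.fvV7 hΩ (x₀ := x₀) hx)
  have t21 := hs.term_TT hΩ (V := (Ah u (qF u) (XF u x₀))) (fun j => hs.contDiffOn_Ah hΩ hq hX j) (3/2) S 1000 1 998 1000 999 (by norm_num) (by norm_num) (by norm_num) hx hη (hs.fvV8 hΩ (x₀ := x₀) hx)
  have t22 := hs.term_TG hΩ (V := (Ah u (qF u) (XF u x₀))) (fun j => hs.contDiffOn_Ah hΩ hq hX j) (3/2) S 1000 3 996 1000 997 (by norm_num) (by norm_num) (by norm_num) hx hη (hs.fvV8 hΩ (x₀ := x₀) hx)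
  have t23 := hs.term_GG hΩ (V := (Ah u (qF u) (XF u x₀))) (fun j => hs.contDiffOn_Ah hΩ hq hX j) (3/2) S 1000 5 994 1000 995 (by norm_num) (by norm_num) (by norm_num) hx hη (hs.fvV8 hΩ (x₀ := x₀) hx)
  have t24 := hs.term_TT hΩ (V := (Ah u (XF u x₀) (XF u x₀))) (fun j => hs.contDiffOn_Ah hΩ hX hX j) (3/2) S 1000 2 997 1000 998 (by norm_num) (by norm_num) (by norm_num) hx hη (hs.fvV9 hΩ (x₀ := x₀) hx)
  have t25 := hs.term_TG hΩ (V := (Ah u (XF u x₀) (XF u x₀))) (fun j => hs.contDiffOn_Ah hΩ hX hX j) (3/2) S 1000 4 995 1000 996 (by norm_num) (by norm_num) (by norm_num) hx hη (hs.fvV9 hΩ (x₀ := x₀) hx)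
  have t26 := hs.term_GG hΩ (V := (Ah u (XF u x₀) (XF u x₀))) (fun j => hs.contDiffOn_Ah hΩ hX hX j) (3/2) S 1000 6 993 1000 994 (by norm_num) (by norm_num) (by norm_num) hx hη (hs.fvV9 hΩ (x₀ := x₀) hx)
  have t27 := hs.term_TT hΩ (V := (ph u (qF u))) (fun j => hs.contDiffOn_ph hΩ hq j) (3/2) S 1000 0 999 1000 1000 (by norm_num) (by norm_num) (by norm_num) hx hη (hs.fvV10 hΩ (x₀ := x₀) hx)
  have t28 := hs.term_TG hΩ (V := (ph u (qF u))) (fun j => hs.contDiffOn_ph hΩ hq j) (3/2) S 1000 2 997 1000 998 (by norm_num) (by norm_num) (by norm_num) hx hη (hs.fvV10 hΩ (x₀ := x₀) hx)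
  have t29 := hs.term_GG hΩ (V := (ph u (qF u))) (fun j => hs.contDiffOn_ph hΩ hq j) (3/2) S 1000 4 995 1000 996 (by norm_num) (by norm_num) (by norm_num) hx hη (hs.fvV10 hΩ (x₀ := x₀) hx)
  have t30 := hs.term_TT hΩ (V := (ph u (XF u x₀))) (fun j => hs.contDiffOn_ph hΩ hX j) (3/2) S 1000 1 998 1000 999 (by norm_num) (by norm_num) (by norm_num) hx hη (hs.fvV11 hΩ (x₀ := x₀) hx)
  have t31 := hs.term_TG hΩ (V := (ph u (XF u x₀))) (fun j => hs.contDiffOn_ph hΩ hX j) (3/2) S 1000 3 996 1000 997 (by norm_num) (by norm_num) (by norm_num) hx hη (hs.fvV11 hΩ (x₀ := x₀) hx)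
  have t32 := hs.term_GG hΩ (V := (ph u (XF u x₀))) (fun j => hs.contDiffOn_ph hΩ hX j) (3/2) S 1000 5 994 1000 995 (by norm_num) (by norm_num) (by norm_num) hx hη (hs.fvV11 hΩ (x₀ := x₀) hx)
  unfold comb
  have e0 : (1000 : ℝ) ^ 0 * hs.fieldI x₀ (3/2) S 1000 (fun j y => aT u y * aT u y * (aT u y * qF u j y)) x = _ := t0
  have e1 : (1000 : ℝ) ^ 2 * hs.fieldI x₀ (3/2) S 998 (fun j y => aT u y * aG u x₀ y * (aT u y * qF u j y)) x = _ := t1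
  have e2 : (1000 : ℝ) ^ 4 * hs.fieldI x₀ (3/2) S 996 (fun j y => aG u x₀ y * aG u x₀ y * (aT u y * qF u j y)) x = _ := t2
  have e3 : (1000 : ℝ) ^ 1 * hs.fieldI x₀ (3/2) S 999 (fun j y => aT u y * aT u y * (aH u x₀ y * qF u j y)) x = _ := t3
  have e4 : (1000 : ℝ) ^ 3 * hs.fieldI x₀ (3/2) S 997 (fun j y => aT u y * aG u x₀ y * (aH u x₀ y * qF u j y)) x = _ := t4
  have e5 : (1000 : ℝ) ^ 5 * hs.fieldI x₀ (3/2) S 995 (fun j y => aG u x₀ y * aG u x₀ y * (aH u x₀ y * qF u j y)) x = _ := t5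
  have e6 : (1000 : ℝ) ^ 2 * hs.fieldI x₀ (3/2) S 998 (fun j y => aT u y * aT u y * (aG u x₀ y * qF u j y)) x = _ := t6
  have e7 : (1000 : ℝ) ^ 4 * hs.fieldI x₀ (3/2) S 996 (fun j y => aT u y * aG u x₀ y * (aG u x₀ y * qF u j y)) x = _ := t7
  have e8 : (1000 : ℝ) ^ 6 * hs.fieldI x₀ (3/2) S 994 (fun j y => aG u x₀ y * aG u x₀ y * (aG u x₀ y * qF u j y)) x = _ := t8
  have e9 : (1000 : ℝ) ^ 1 * hs.fieldI x₀ (3/2) S 999 (fun j y => aT u y * aT u y * (aT u y * XF u x₀ j y)) x = _ := t9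
  have e10 : (1000 : ℝ) ^ 3 * hs.fieldI x₀ (3/2) S 997 (fun j y => aT u y * aG u x₀ y * (aT u y * XF u x₀ j y)) x = _ := t10
  have e11 : (1000 : ℝ) ^ 5 * hs.fieldI x₀ (3/2) S 995 (fun j y => aG u x₀ y * aG u x₀ y * (aT u y * XF u x₀ j y)) x = _ := t11
  have e12 : (1000 : ℝ) ^ 2 * hs.fieldI x₀ (3/2) S 998 (fun j y => aT u y * aT u y * (aH u x₀ y * XF u x₀ j y)) x = _ := t12
  have e13 : (1000 : ℝ) ^ 4 * hs.fieldI x₀ (3/2) S 996 (fun j y => aT u y * aG u x₀ y * (aH u x₀ y * XF u x₀ j y)) x = _ := t13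
  have e14 : (1000 : ℝ) ^ 6 * hs.fieldI x₀ (3/2) S 994 (fun j y => aG u x₀ y * aG u x₀ y * (aH u x₀ y * XF u x₀ j y)) x = _ := t14
  have e15 : (1000 : ℝ) ^ 3 * hs.fieldI x₀ (3/2) S 997 (fun j y => aT u y * aT u y * (aG u x₀ y * XF u x₀ j y)) x = _ := t15
  have e16 : (1000 : ℝ) ^ 5 * hs.fieldI x₀ (3/2) S 995 (fun j y => aT u y * aG u x₀ y * (aG u x₀ y * XF u x₀ j y)) x = _ := t16
  have e17 : (1000 : ℝ) ^ 7 * hs.fieldI x₀ (3/2) S 993 (fun j y => aG u x₀ y * aG u x₀ y * (aG u x₀ y * XF u x₀ j y)) x = _ := t17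
  have e18 : (1000 : ℝ) ^ 0 * hs.fieldI x₀ (3/2) S 1000 (fun j y => aT u y * aT u y * (Ah u (qF u) (qF u)) j y) x = _ := t18
  have e19 : (1000 : ℝ) ^ 2 * hs.fieldI x₀ (3/2) S 998 (fun j y => aT u y * aG u x₀ y * (Ah u (qF u) (qF u)) j y) x = _ := t19
  have e20 : (1000 : ℝ) ^ 4 * hs.fieldI x₀ (3/2) S 996 (fun j y => aG u x₀ y * aG u x₀ y * (Ah u (qF u) (qF u)) j y) x = _ := t20
  have e21 : (1000 : ℝ) ^ 1 * hs.fieldI x₀ (3/2) S 999 (fun j y => aT u y * aT u y * (Ah u (qF u) (XF u x₀)) j y) x = _ := t21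
  have e22 : (1000 : ℝ) ^ 3 * hs.fieldI x₀ (3/2) S 997 (fun j y => aT u y * aG u x₀ y * (Ah u (qF u) (XF u x₀)) j y) x = _ := t22
  have e23 : (1000 : ℝ) ^ 5 * hs.fieldI x₀ (3/2) S 995 (fun j y => aG u x₀ y * aG u x₀ y * (Ah u (qF u) (XF u x₀)) j y) x = _ := t23
  have e24 : (1000 : ℝ) ^ 2 * hs.fieldI x₀ (3/2) S 998 (fun j y => aT u y * aT u y * (Ah u (XF u x₀) (XF u x₀)) j y) x = _ := t24
  have e25 : (1000 : ℝ) ^ 4 * hs.fieldI x₀ (3/2) S 996 (fun j y => aT u y * aG u x₀ y * (Ah u (XF u x₀) (XF u x₀)) j y) x = _ := t25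
  have e26 : (1000 : ℝ) ^ 6 * hs.fieldI x₀ (3/2) S 994 (fun j y => aG u x₀ y * aG u x₀ y * (Ah u (XF u x₀) (XF u x₀)) j y) x = _ := t26
  have e27 : (1000 : ℝ) ^ 0 * hs.fieldI x₀ (3/2) S 1000 (fun j y => aT u y * aT u y * (ph u (qF u)) j y) x = _ := t27
  have e28 : (1000 : ℝ) ^ 2 * hs.fieldI x₀ (3/2) S 998 (fun j y => aT u y * aG u x₀ y * (ph u (qF u)) j y) x = _ := t28
  have e29 : (1000 : ℝ) ^ 4 * hs.fieldI x₀ (3/2) S 996 (fun j y => aG u x₀ y * aG u x₀ y * (ph u (qF u)) j y) x = _ := t29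
  have e30 : (1000 : ℝ) ^ 1 * hs.fieldI x₀ (3/2) S 999 (fun j y => aT u y * aT u y * (ph u (XF u x₀)) j y) x = _ := t30
  have e31 : (1000 : ℝ) ^ 3 * hs.fieldI x₀ (3/2) S 997 (fun j y => aT u y * aG u x₀ y * (ph u (XF u x₀)) j y) x = _ := t31
  have e32 : (1000 : ℝ) ^ 5 * hs.fieldI x₀ (3/2) S 995 (fun j y => aG u x₀ y * aG u x₀ y * (ph u (XF u x₀)) j y) x = _ := t32
  rw [e0, e1, e2, e3, e4, e5, e6, e7, e8, e9, e10, e11, e12, e13, e14, e15, e16, e17, e18, e19, e20, e21, e22, e23, e24, e25, e26, e27, e28, e29, e30, e31, e32]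
  have x1 : aT u x = (atomsAt u x₀ x).T := rfl
  have x2 : aG u x₀ x = (atomsAt u x₀ x).G := rfl
  rw [x1, x2]
  generalize 1000 / (S - uBar u x₀ x) = s
  generalize (hess u x).det ^ ((3/2) : ℝ) * (S - uBar u x₀ x) ^ 1000 = P
  generalize atomsAt u x₀ x = A
  simp only [psi, Atoms.scale]
  ring

omit hs hΩ in
lemma pointwise (A : Atoms) (s : ℝ) (hs0 : 0 ≤ s) (hT : 0 ≤ A.T) (hG : 0 ≤ A.G)
    (hH : A.H ^ 2 ≤ A.T * A.G) (ht : ∀ a1 a2 a3 a4 a5 a6 a7 b1 b2 b3 b4 b5 b6 b7 c1 c2 c3 c4 c5 c6 c7 d1 d2 d3 d4 d5 d6 d7 : ℝ,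
      0 ≤ A.fTens a1 a2 a3 a4 a5 a6 a7 b1 b2 b3 b4 b5 b6 b7 c1 c2 c3 c4 c5 c6 c7 d1 d2 d3 d4 d5 d6 d7)
    (hv : ∀ z1 z2 z3 z4 z5 z6 z7 : ℝ, 0 ≤ A.fPV z1 z2 z3 z4 z5 z6 z7 z1 z2 z3 z4 z5 z6 z7) :
    (1/3125) * A.T ^ 4 - 5180804609172 * s ^ 4 ≤ (A.T + A.G) * psi A s := by
  have h := final A s hs0 hT hG hH ht hv
  have hY : 0 ≤ A.T + A.G := add_nonneg hT hG
  have h1 := mul_le_mul_of_nonneg_left h hY
  have h2 : A.T ^ 4 ≤ (A.T + A.G) ^ 4 := pow_le_pow_left₀ hT (by linarith) 4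
  have h3 : (1/3125) * A.T ^ 4 ≤ (1/3125) * (A.T + A.G) ^ 4 := mul_le_mul_of_nonneg_left h2 (by norm_num)
  have h4 := young3 (A.T + A.G) s 8571 (1/3125) hY hs0 (by norm_num) (by norm_num)
  have h5 : 0 ≤ s ^ 3 * (A.T + A.G) := by positivity
  have h6 : 0 ≤ s ^ 4 := by positivity
  nlinarith [h1, h3, h4, h5, h6]

lemma comb_lower_pos {x : Fin 3 → ℝ} (hx : x ∈ Ω) (S : ℝ) (hη : 0 < S - uBar u x₀ x) :
    (1/3125) * ((hess u x).det ^ ((3/2) : ℝ) * ((S - uBar u x₀ x) ^ 1000 * aT u x ^ 4)) -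
      (5180804609172 * (1000 : ℝ) ^ 4) * ((hess u x).det ^ ((3/2) : ℝ) * (S - uBar u x₀ x) ^ 996) ≤ comb hs x₀ S x := by
  have hD0 : 0 < (hess u x).det ^ ((3/2) : ℝ) := Real.rpow_pos_of_pos (hs.det_pos hx) _
  have hs0 : 0 ≤ 1000 / (S - uBar u x₀ x) := by positivity
  obtain ⟨ht, hv, hT, hG, hH⟩ := hs.scale_facts hΩ (x₀ := x₀) (1000 / (S - uBar u x₀ x)) hx
  have hc := pointwise _ _ hs0 hT hG hH ht hv
  rw [comb_eq hs hΩ hx S hη, final_alg 1000 996 4 1000 _ _ _ _ _ (by norm_num) hη]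
  exact mul_le_mul_of_nonneg_left hc (by positivity)

omit hΩ in
lemma comb_zero {x : Fin 3 → ℝ} (S : ℝ) (hη : S - uBar u x₀ x ≤ 0) : comb hs x₀ S x = 0 := by
  have h993 : ∀ V, hs.fieldI x₀ (3/2) S 993 V x = 0 := fun V => hs.fieldI_neg x₀ (3/2) S 991 V hη
  have h994 : ∀ V, hs.fieldI x₀ (3/2) S 994 V x = 0 := fun V => hs.fieldI_neg x₀ (3/2) S 992 V hη
  have h995 : ∀ V, hs.fieldI x₀ (3/2) S 995 V x = 0 := fun V => hs.fieldI_neg x₀ (3/2) S 993 V hη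
  have h996 : ∀ V, hs.fieldI x₀ (3/2) S 996 V x = 0 := fun V => hs.fieldI_neg x₀ (3/2) S 994 V hη
  have h997 : ∀ V, hs.fieldI x₀ (3/2) S 997 V x = 0 := fun V => hs.fieldI_neg x₀ (3/2) S 995 V hη
  have h998 : ∀ V, hs.fieldI x₀ (3/2) S 998 V x = 0 := fun V => hs.fieldI_neg x₀ (3/2) S 996 V hη
  have h999 : ∀ V, hs.fieldI x₀ (3/2) S 999 V x = 0 := fun V => hs.fieldI_neg x₀ (3/2) S 997 V hη
  have h1000 : ∀ V, hs.fieldI x₀ (3/2) S 1000 V x = 0 := fun V => hs.fieldI_neg x₀ (3/2) S 998 V hη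
  unfold comb
  simp only [h993, h994, h995, h996, h997, h998, h999, h1000]
  ring

omit hΩ in
lemma comb_out {x : Fin 3 → ℝ} (S : ℝ) (hx : x ∉ Ω) : comb hs x₀ S x = 0 := by
  simp [comb, IsAffineMaximal.fieldI, Set.indicator_of_notMem hx]

lemma comb_lower (S : ℝ) (x : Fin 3 → ℝ) :
    (1/3125) * massAg Ω u x₀ ((3/2) : ℝ) 4 1000 S x - (5180804609172 * (1000 : ℝ) ^ 4) * massBg Ω u x₀ ((3/2) : ℝ) 996 S x ≤
      comb hs x₀ S x := by
  by_cases hx : x ∈ Ω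
  · simp only [massAg, massBg, Set.indicator_of_mem hx]
    by_cases hη : 0 < S - uBar u x₀ x
    · rw [powP_of_pos _ hη, powP_of_pos _ hη]
      exact comb_lower_pos hs hΩ hx S hη
    · have hη' := not_lt.1 hη
      rw [powP_eq_zero_of_nonpos (by norm_num) hη', powP_eq_zero_of_nonpos (by norm_num) hη',
        comb_zero hs S hη']
      simp
  · simp [massAg, massBg, Set.indicator_of_notMem hx, comb_out hs S hx]

/-- The constant in the estimate. -/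
noncomputable def cEst : ℝ := (5180804609172 * (1000 : ℝ) ^ 4) / (1/3125) * 2 ^ 1000

omit hs hΩ in
lemma cEst_pos : 0 < cEst := by
  unfold cEst
  positivity

/-- The integral estimate. -/
theorem estimate (hc : Convex ℝ Ω) (hx₀ : x₀ ∈ Ω)
    (hcpt : ∀ s, IsCompact (subLevelC Ω (uBar u x₀) s)) {S₀ S : ℝ} (hS : 0 < S) (hS₀ : 2 * S₀ ≤ S) :
    ∫ x in subLevel Ω (uBar u x₀) S₀, (hess u x).det ^ ((3/2) : ℝ) * aT u x ^ 4 ≤
      cEst / S ^ 4 * ∫ x in subLevel Ω (uBar u x₀) S, (hess u x).det ^ ((3/2) : ℝ) :=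
  hs.estimate_of_comb hΩ ((3/2) : ℝ) 4 1000 996 (by norm_num) (by norm_num) (c₁ := (1/3125))
    (c₂ := 5180804609172 * (1000 : ℝ) ^ 4) (by norm_num) (by positivity) (fun S => comb hs x₀ S)
    (fun S h => comb_integral hs hΩ S h) (fun S x => comb_lower hs hΩ S x) hc hx₀ hcpt hS hS₀

/-- The Liouville theorem under the growth condition on the sublevel masses. -/
theorem det_const (hc : Convex ℝ Ω) (hx₀ : x₀ ∈ Ω)
    (hcpt : ∀ s, IsCompact (subLevelC Ω (uBar u x₀) s))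
    (hM : ∀ ε : ℝ, 0 < ε → ∀ S₁ : ℝ, ∃ S : ℝ, S₁ ≤ S ∧
      ∫ x in subLevel Ω (uBar u x₀) S, (hess u x).det ^ ((3/2) : ℝ) ≤ ε * S ^ 4) {x y : Fin 3 → ℝ}
    (hx : x ∈ Ω) (hy : y ∈ Ω) : (hess u x).det = (hess u y).det :=
  hs.det_const_of_estimate hΩ ((3/2) : ℝ) 4 (by norm_num) cEst_pos
    (fun _ _ hS hS₀ => estimate hs hΩ hc hx₀ hcpt hS hS₀) hc hcpt hM hx hy

end Cert32

end Vale.Agent.Lib.P252
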