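import Vale.Agent.Lib.P252.Hess18
import Vale.Agent.Lib.P252.CertR2
import Vale.Agent.Lib.P252.CertR21

/-!
The combination of the divergence identities with the real power, for the certificates CertR2 and CertR21:
the pointwise lower bound, the integral estimate with the exponent `31/10` and the Liouville theorem.
-/

open scoped ContDiff Matrix Topology
open MeasureTheory

namespace Vale.Agent.Lib.P252

namespace CombR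

variable {Ω : Set (Fin 3 → ℝ)} {u : (Fin 3 → ℝ) → ℝ} {x₀ : Fin 3 → ℝ}

noncomputable def comb (hs : IsAffineMaximal Ω u) (x₀ : Fin 3 → ℝ) (S : ℝ) (x : Fin 3 → ℝ) : ℝ :=
  (18373/100000) * ((5001 / 5 : ℝ) ^ 0 * hs.fieldI x₀ 1 S 1000 (fun j y => (zFun u x₀ S (1 / S) (5001 / 5) y ^ ((1 : ℝ) / 10) * aT u y) * (aT u y * qF u j y)) x +
      (5001 / 5 : ℝ) ^ 2 * hs.fieldI x₀ 1 S 998 (fun j y => (zFun u x₀ S (1 / S) (5001 / 5) y ^ ((1 : ℝ) / 10) * aG u x₀ y) * (aT u y * qF u j y)) x)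
  +  (-60533/100000) * ((5001 / 5 : ℝ) ^ 1 * hs.fieldI x₀ 1 S 999 (fun j y => (zFun u x₀ S (1 / S) (5001 / 5) y ^ ((1 : ℝ) / 10) * aT u y) * (aH u x₀ y * qF u j y)) x +
      (5001 / 5 : ℝ) ^ 3 * hs.fieldI x₀ 1 S 997 (fun j y => (zFun u x₀ S (1 / S) (5001 / 5) y ^ ((1 : ℝ) / 10) * aG u x₀ y) * (aH u x₀ y * qF u j y)) x)
  +  (31859/100000) * ((5001 / 5 : ℝ) ^ 2 * hs.fieldI x₀ 1 S 998 (fun j y => (zFun u x₀ S (1 / S) (5001 / 5) y ^ ((1 : ℝ) / 10) * aT u y) * (aG u x₀ y * qF u j y)) x +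
      (5001 / 5 : ℝ) ^ 4 * hs.fieldI x₀ 1 S 996 (fun j y => (zFun u x₀ S (1 / S) (5001 / 5) y ^ ((1 : ℝ) / 10) * aG u x₀ y) * (aG u x₀ y * qF u j y)) x)
  +  (-15637/100000) * ((5001 / 5 : ℝ) ^ 1 * hs.fieldI x₀ 1 S 999 (fun j y => (zFun u x₀ S (1 / S) (5001 / 5) y ^ ((1 : ℝ) / 10) * aT u y) * (aT u y * XF u x₀ j y)) x +
      (5001 / 5 : ℝ) ^ 3 * hs.fieldI x₀ 1 S 997 (fun j y => (zFun u x₀ S (1 / S) (5001 / 5) y ^ ((1 : ℝ) / 10) * aG u x₀ y) * (aT u y * XF u x₀ j y)) x)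
  +  (1369/3125) * ((5001 / 5 : ℝ) ^ 2 * hs.fieldI x₀ 1 S 998 (fun j y => (zFun u x₀ S (1 / S) (5001 / 5) y ^ ((1 : ℝ) / 10) * aT u y) * (aH u x₀ y * XF u x₀ j y)) x +
      (5001 / 5 : ℝ) ^ 4 * hs.fieldI x₀ 1 S 996 (fun j y => (zFun u x₀ S (1 / S) (5001 / 5) y ^ ((1 : ℝ) / 10) * aG u x₀ y) * (aH u x₀ y * XF u x₀ j y)) x)
  +  (-18691/100000) * ((5001 / 5 : ℝ) ^ 3 * hs.fieldI x₀ 1 S 997 (fun j y => (zFun u x₀ S (1 / S) (5001 / 5) y ^ ((1 : ℝ) / 10) * aT u y) * (aG u x₀ y * XF u x₀ j y)) x +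
      (5001 / 5 : ℝ) ^ 5 * hs.fieldI x₀ 1 S 995 (fun j y => (zFun u x₀ S (1 / S) (5001 / 5) y ^ ((1 : ℝ) / 10) * aG u x₀ y) * (aG u x₀ y * XF u x₀ j y)) x)
  +  (-74953/100000) * ((5001 / 5 : ℝ) ^ 0 * hs.fieldI x₀ 1 S 1000 (fun j y => (zFun u x₀ S (1 / S) (5001 / 5) y ^ ((1 : ℝ) / 10) * aT u y) * (Ah u (qF u) (qF u)) j y) x +
      (5001 / 5 : ℝ) ^ 2 * hs.fieldI x₀ 1 S 998 (fun j y => (zFun u x₀ S (1 / S) (5001 / 5) y ^ ((1 : ℝ) / 10) * aG u x₀ y) * (Ah u (qF u) (qF u)) j y) x)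
  +  (76383/100000) * ((5001 / 5 : ℝ) ^ 1 * hs.fieldI x₀ 1 S 999 (fun j y => (zFun u x₀ S (1 / S) (5001 / 5) y ^ ((1 : ℝ) / 10) * aT u y) * (Ah u (qF u) (XF u x₀)) j y) x +
      (5001 / 5 : ℝ) ^ 3 * hs.fieldI x₀ 1 S 997 (fun j y => (zFun u x₀ S (1 / S) (5001 / 5) y ^ ((1 : ℝ) / 10) * aG u x₀ y) * (Ah u (qF u) (XF u x₀)) j y) x)
  +  (-50221/100000) * ((5001 / 5 : ℝ) ^ 2 * hs.fieldI x₀ 1 S 998 (fun j y => (zFun u x₀ S (1 / S) (5001 / 5) y ^ ((1 : ℝ) / 10) * aT u y) * (Ah u (XF u x₀) (XF u x₀)) j y) x +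
      (5001 / 5 : ℝ) ^ 4 * hs.fieldI x₀ 1 S 996 (fun j y => (zFun u x₀ S (1 / S) (5001 / 5) y ^ ((1 : ℝ) / 10) * aG u x₀ y) * (Ah u (XF u x₀) (XF u x₀)) j y) x)
  +  1 * ((5001 / 5 : ℝ) ^ 0 * hs.fieldI x₀ 1 S 1000 (fun j y => (zFun u x₀ S (1 / S) (5001 / 5) y ^ ((1 : ℝ) / 10) * aT u y) * (ph u (qF u)) j y) x +
      (5001 / 5 : ℝ) ^ 2 * hs.fieldI x₀ 1 S 998 (fun j y => (zFun u x₀ S (1 / S) (5001 / 5) y ^ ((1 : ℝ) / 10) * aG u x₀ y) * (ph u (qF u)) j y) x)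
  +  (-1373/5000) * ((5001 / 5 : ℝ) ^ 1 * hs.fieldI x₀ 1 S 999 (fun j y => (zFun u x₀ S (1 / S) (5001 / 5) y ^ ((1 : ℝ) / 10) * aT u y) * (ph u (XF u x₀)) j y) x +
      (5001 / 5 : ℝ) ^ 3 * hs.fieldI x₀ 1 S 997 (fun j y => (zFun u x₀ S (1 / S) (5001 / 5) y ^ ((1 : ℝ) / 10) * aG u x₀ y) * (ph u (XF u x₀)) j y) x)

variable (hs : IsAffineMaximal Ω u) (hΩ : IsOpen Ω)
include hs hΩ

lemma comb_integral (hc : Convex ℝ Ω) (hx₀ : x₀ ∈ Ω) (S : ℝ) (hS : 0 < S)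
    (hcpt : IsCompact (subLevelC Ω (uBar u x₀) S)) :
    Integrable (comb hs x₀ S) ∧ ∫ x, comb hs x₀ S x = 0 := by
  have hq : ∀ j, ContDiffOn ℝ ∞ (qF u j) Ω := hs.contDiffOn_qF hΩ
  have hX : ∀ j, ContDiffOn ℝ ∞ (XF u x₀ j) Ω := hs.contDiffOn_XF hΩ
  have hT : ContDiffOn ℝ ∞ (aT u) Ω := hs.contDiffOn_aT hΩ
  have hH : ContDiffOn ℝ ∞ (aH u x₀) Ω := hs.contDiffOn_aH hΩ
  have hG : ContDiffOn ℝ ∞ (aG u x₀) Ω := hs.contDiffOn_aG hΩ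
  have hZ : ContDiffOn ℝ ∞ (fun y => zFun u x₀ S (1 / S) (5001 / 5) y ^ ((1 : ℝ) / 10)) Ω :=
    hs.contDiffOn_zrpow hΩ hc hx₀ hS (by positivity) (by norm_num) _
  have a0 := hs.fieldI_integral hΩ (V := (fun j y => (zFun u x₀ S (1 / S) (5001 / 5) y ^ ((1 : ℝ) / 10) * aT u y) * (aT u y * qF u j y)))
    (fun j => (hZ.mul hT).mul (hT.mul (hq j))) 1 S (N := 1000) (by norm_num) hcpt
  have b0 := hs.fieldI_integral hΩ (V := (fun j y => (zFun u x₀ S (1 / S) (5001 / 5) y ^ ((1 : ℝ) / 10) * aG u x₀ y) * (aT u y * qF u j y)))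
    (fun j => (hZ.mul hG).mul (hT.mul (hq j))) 1 S (N := 998) (by norm_num) hcpt
  have a1 := hs.fieldI_integral hΩ (V := (fun j y => (zFun u x₀ S (1 / S) (5001 / 5) y ^ ((1 : ℝ) / 10) * aT u y) * (aH u x₀ y * qF u j y)))
    (fun j => (hZ.mul hT).mul (hH.mul (hq j))) 1 S (N := 999) (by norm_num) hcpt
  have b1 := hs.fieldI_integral hΩ (V := (fun j y => (zFun u x₀ S (1 / S) (5001 / 5) y ^ ((1 : ℝ) / 10) * aG u x₀ y) * (aH u x₀ y * qF u j y)))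
    (fun j => (hZ.mul hG).mul (hH.mul (hq j))) 1 S (N := 997) (by norm_num) hcpt
  have a2 := hs.fieldI_integral hΩ (V := (fun j y => (zFun u x₀ S (1 / S) (5001 / 5) y ^ ((1 : ℝ) / 10) * aT u y) * (aG u x₀ y * qF u j y)))
    (fun j => (hZ.mul hT).mul (hG.mul (hq j))) 1 S (N := 998) (by norm_num) hcpt
  have b2 := hs.fieldI_integral hΩ (V := (fun j y => (zFun u x₀ S (1 / S) (5001 / 5) y ^ ((1 : ℝ) / 10) * aG u x₀ y) * (aG u x₀ y * qF u j y)))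
    (fun j => (hZ.mul hG).mul (hG.mul (hq j))) 1 S (N := 996) (by norm_num) hcpt
  have a3 := hs.fieldI_integral hΩ (V := (fun j y => (zFun u x₀ S (1 / S) (5001 / 5) y ^ ((1 : ℝ) / 10) * aT u y) * (aT u y * XF u x₀ j y)))
    (fun j => (hZ.mul hT).mul (hT.mul (hX j))) 1 S (N := 999) (by norm_num) hcpt
  have b3 := hs.fieldI_integral hΩ (V := (fun j y => (zFun u x₀ S (1 / S) (5001 / 5) y ^ ((1 : ℝ) / 10) * aG u x₀ y) * (aT u y * XF u x₀ j y)))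
    (fun j => (hZ.mul hG).mul (hT.mul (hX j))) 1 S (N := 997) (by norm_num) hcpt
  have a4 := hs.fieldI_integral hΩ (V := (fun j y => (zFun u x₀ S (1 / S) (5001 / 5) y ^ ((1 : ℝ) / 10) * aT u y) * (aH u x₀ y * XF u x₀ j y)))
    (fun j => (hZ.mul hT).mul (hH.mul (hX j))) 1 S (N := 998) (by norm_num) hcpt
  have b4 := hs.fieldI_integral hΩ (V := (fun j y => (zFun u x₀ S (1 / S) (5001 / 5) y ^ ((1 : ℝ) / 10) * aG u x₀ y) * (aH u x₀ y * XF u x₀ j y)))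
    (fun j => (hZ.mul hG).mul (hH.mul (hX j))) 1 S (N := 996) (by norm_num) hcpt
  have a5 := hs.fieldI_integral hΩ (V := (fun j y => (zFun u x₀ S (1 / S) (5001 / 5) y ^ ((1 : ℝ) / 10) * aT u y) * (aG u x₀ y * XF u x₀ j y)))
    (fun j => (hZ.mul hT).mul (hG.mul (hX j))) 1 S (N := 997) (by norm_num) hcpt
  have b5 := hs.fieldI_integral hΩ (V := (fun j y => (zFun u x₀ S (1 / S) (5001 / 5) y ^ ((1 : ℝ) / 10) * aG u x₀ y) * (aG u x₀ y * XF u x₀ j y)))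
    (fun j => (hZ.mul hG).mul (hG.mul (hX j))) 1 S (N := 995) (by norm_num) hcpt
  have a6 := hs.fieldI_integral hΩ (V := (fun j y => (zFun u x₀ S (1 / S) (5001 / 5) y ^ ((1 : ℝ) / 10) * aT u y) * (Ah u (qF u) (qF u)) j y))
    (fun j => (hZ.mul hT).mul (hs.contDiffOn_Ah hΩ hq hq j)) 1 S (N := 1000) (by norm_num) hcpt
  have b6 := hs.fieldI_integral hΩ (V := (fun j y => (zFun u x₀ S (1 / S) (5001 / 5) y ^ ((1 : ℝ) / 10) * aG u x₀ y) * (Ah u (qF u) (qF u)) j y))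
    (fun j => (hZ.mul hG).mul (hs.contDiffOn_Ah hΩ hq hq j)) 1 S (N := 998) (by norm_num) hcpt
  have a7 := hs.fieldI_integral hΩ (V := (fun j y => (zFun u x₀ S (1 / S) (5001 / 5) y ^ ((1 : ℝ) / 10) * aT u y) * (Ah u (qF u) (XF u x₀)) j y))
    (fun j => (hZ.mul hT).mul (hs.contDiffOn_Ah hΩ hq hX j)) 1 S (N := 999) (by norm_num) hcpt
  have b7 := hs.fieldI_integral hΩ (V := (fun j y => (zFun u x₀ S (1 / S) (5001 / 5) y ^ ((1 : ℝ) / 10) * aG u x₀ y) * (Ah u (qF u) (XF u x₀)) j y))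
    (fun j => (hZ.mul hG).mul (hs.contDiffOn_Ah hΩ hq hX j)) 1 S (N := 997) (by norm_num) hcpt
  have a8 := hs.fieldI_integral hΩ (V := (fun j y => (zFun u x₀ S (1 / S) (5001 / 5) y ^ ((1 : ℝ) / 10) * aT u y) * (Ah u (XF u x₀) (XF u x₀)) j y))
    (fun j => (hZ.mul hT).mul (hs.contDiffOn_Ah hΩ hX hX j)) 1 S (N := 998) (by norm_num) hcpt
  have b8 := hs.fieldI_integral hΩ (V := (fun j y => (zFun u x₀ S (1 / S) (5001 / 5) y ^ ((1 : ℝ) / 10) * aG u x₀ y) * (Ah u (XF u x₀) (XF u x₀)) j y))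
    (fun j => (hZ.mul hG).mul (hs.contDiffOn_Ah hΩ hX hX j)) 1 S (N := 996) (by norm_num) hcpt
  have a9 := hs.fieldI_integral hΩ (V := (fun j y => (zFun u x₀ S (1 / S) (5001 / 5) y ^ ((1 : ℝ) / 10) * aT u y) * (ph u (qF u)) j y))
    (fun j => (hZ.mul hT).mul (hs.contDiffOn_ph hΩ hq j)) 1 S (N := 1000) (by norm_num) hcpt
  have b9 := hs.fieldI_integral hΩ (V := (fun j y => (zFun u x₀ S (1 / S) (5001 / 5) y ^ ((1 : ℝ) / 10) * aG u x₀ y) * (ph u (qF u)) j y))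
    (fun j => (hZ.mul hG).mul (hs.contDiffOn_ph hΩ hq j)) 1 S (N := 998) (by norm_num) hcpt
  have a10 := hs.fieldI_integral hΩ (V := (fun j y => (zFun u x₀ S (1 / S) (5001 / 5) y ^ ((1 : ℝ) / 10) * aT u y) * (ph u (XF u x₀)) j y))
    (fun j => (hZ.mul hT).mul (hs.contDiffOn_ph hΩ hX j)) 1 S (N := 999) (by norm_num) hcpt
  have b10 := hs.fieldI_integral hΩ (V := (fun j y => (zFun u x₀ S (1 / S) (5001 / 5) y ^ ((1 : ℝ) / 10) * aG u x₀ y) * (ph u (XF u x₀)) j y))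
    (fun j => (hZ.mul hG).mul (hs.contDiffOn_ph hΩ hX j)) 1 S (N := 997) (by norm_num) hcpt
  exact (zero_add_aux (zero_add_aux (zero_add_aux (zero_add_aux (zero_add_aux (zero_add_aux (zero_add_aux (zero_add_aux (zero_add_aux (zero_add_aux (zero_mul_aux _ (zero_add_aux (zero_mul_aux _ a0) (zero_mul_aux _ b0))) (zero_mul_aux _ (zero_add_aux (zero_mul_aux _ a1) (zero_mul_aux _ b1)))) (zero_mul_aux _ (zero_add_aux (zero_mul_aux _ a2) (zero_mul_aux _ b2)))) (zero_mul_aux _ (zero_add_aux (zero_mul_aux _ a3) (zero_mul_aux _ b3)))) (zero_mul_aux _ (zero_add_aux (zero_mul_aux _ a4) (zero_mul_aux _ b4)))) (zero_mul_aux _ (zero_add_aux (zero_mul_aux _ a5) (zero_mul_aux _ b5)))) (zero_mul_aux _ (zero_add_aux (zero_mul_aux _ a6) (zero_mul_aux _ b6)))) (zero_mul_aux _ (zero_add_aux (zero_mul_aux _ a7) (zero_mul_aux _ b7)))) (zero_mul_aux _ (zero_add_aux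 (zero_mul_aux _ a8) (zero_mul_aux _ b8)))) (zero_mul_aux _ (zero_add_aux (zero_mul_aux _ a9) (zero_mul_aux _ b9)))) (zero_mul_aux _ (zero_add_aux (zero_mul_aux _ a10) (zero_mul_aux _ b10))))

lemma comb_eq (hc : Convex ℝ Ω) (hx₀ : x₀ ∈ Ω) {x : Fin 3 → ℝ} (hx : x ∈ Ω) (S : ℝ) (hS : 0 < S)
    (hη : 0 < S - uBar u x₀ x) :
    comb hs x₀ S x = (hess u x).det ^ (1 : ℝ) * (zFun u x₀ S (1 / S) (5001 / 5) x ^ (((1 : ℝ) / 10) - 1) *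
        (S - uBar u x₀ x) ^ (1000 + 2) *
      (1 / S * CertR2.psi ((atomsAt u x₀ x).scale (5001 / 5 / (S - uBar u x₀ x))) (5001 / 5 / (S - uBar u x₀ x)) +
        (aT u x + (5001 / 5 / (S - uBar u x₀ x)) ^ 2 * aG u x₀ x) * CertR21.psi ((atomsAt u x₀ x).scale (5001 / 5 / (S - uBar u x₀ x))) (5001 / 5 / (S - uBar u x₀ x)))) := by
  have hq : ∀ j, ContDiffOn ℝ ∞ (qF u j) Ω := hs.contDiffOn_qF hΩ
  have hX : ∀ j, ContDiffOn ℝ ∞ (XF u x₀ j) Ω := hs.contDiffOn_XF hΩ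
  have hT : ContDiffOn ℝ ∞ (aT u) Ω := hs.contDiffOn_aT hΩ
  have hH : ContDiffOn ℝ ∞ (aH u x₀) Ω := hs.contDiffOn_aH hΩ
  have hG : ContDiffOn ℝ ∞ (aG u x₀) Ω := hs.contDiffOn_aG hΩ
  have hκ : 0 < 1 / S := by positivity
  have hn : (0 : ℝ) < 5001 / 5 := by norm_num
  have t0 := hs.rpair hΩ hc hx₀ (V := (fun j y => aT u y * qF u j y)) (fun j => hT.mul (hq j)) 1 S (1 / S) (5001 / 5) ((1 : ℝ) / 10) (5 / 5001) hS hκ hn 1000 0 997 (by norm_num) (by norm_num) (by norm_num) hx hη (hs.fvV1 hΩ (x₀ := x₀) hx)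
  have t1 := hs.rpair hΩ hc hx₀ (V := (fun j y => aH u x₀ y * qF u j y)) (fun j => hH.mul (hq j)) 1 S (1 / S) (5001 / 5) ((1 : ℝ) / 10) (5 / 5001) hS hκ hn 1000 1 996 (by norm_num) (by norm_num) (by norm_num) hx hη (hs.fvV2 hΩ (x₀ := x₀) hx)
  have t2 := hs.rpair hΩ hc hx₀ (V := (fun j y => aG u x₀ y * qF u j y)) (fun j => hG.mul (hq j)) 1 S (1 / S) (5001 / 5) ((1 : ℝ) / 10) (5 / 5001) hS hκ hn 1000 2 995 (by norm_num) (by norm_num) (by norm_num) hx hη (hs.fvV3 hΩ (x₀ := x₀) hx)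
  have t3 := hs.rpair hΩ hc hx₀ (V := (fun j y => aT u y * XF u x₀ j y)) (fun j => hT.mul (hX j)) 1 S (1 / S) (5001 / 5) ((1 : ℝ) / 10) (5 / 5001) hS hκ hn 1000 1 996 (by norm_num) (by norm_num) (by norm_num) hx hη (hs.fvV4 hΩ (x₀ := x₀) hx)
  have t4 := hs.rpair hΩ hc hx₀ (V := (fun j y => aH u x₀ y * XF u x₀ j y)) (fun j => hH.mul (hX j)) 1 S (1 / S) (5001 / 5) ((1 : ℝ) / 10) (5 / 5001) hS hκ hn 1000 2 995 (by norm_num) (by norm_num) (by norm_num) hx hη (hs.fvV5 hΩ (x₀ := x₀) hx)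
  have t5 := hs.rpair hΩ hc hx₀ (V := (fun j y => aG u x₀ y * XF u x₀ j y)) (fun j => hG.mul (hX j)) 1 S (1 / S) (5001 / 5) ((1 : ℝ) / 10) (5 / 5001) hS hκ hn 1000 3 994 (by norm_num) (by norm_num) (by norm_num) hx hη (hs.fvV6 hΩ (x₀ := x₀) hx)
  have t6 := hs.rpair hΩ hc hx₀ (V := (Ah u (qF u) (qF u))) (fun j => hs.contDiffOn_Ah hΩ hq hq j) 1 S (1 / S) (5001 / 5) ((1 : ℝ) / 10) (5 / 5001) hS hκ hn 1000 0 997 (by norm_num) (by norm_num) (by norm_num) hx hη (hs.fvV7 hΩ (x₀ := x₀) hx)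
  have t7 := hs.rpair hΩ hc hx₀ (V := (Ah u (qF u) (XF u x₀))) (fun j => hs.contDiffOn_Ah hΩ hq hX j) 1 S (1 / S) (5001 / 5) ((1 : ℝ) / 10) (5 / 5001) hS hκ hn 1000 1 996 (by norm_num) (by norm_num) (by norm_num) hx hη (hs.fvV8 hΩ (x₀ := x₀) hx)
  have t8 := hs.rpair hΩ hc hx₀ (V := (Ah u (XF u x₀) (XF u x₀))) (fun j => hs.contDiffOn_Ah hΩ hX hX j) 1 S (1 / S) (5001 / 5) ((1 : ℝ) / 10) (5 / 5001) hS hκ hn 1000 2 995 (by norm_num) (by norm_num) (by norm_num) hx hη (hs.fvV9 hΩ (x₀ := x₀) hx)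
  have t9 := hs.rpair hΩ hc hx₀ (V := (ph u (qF u))) (fun j => hs.contDiffOn_ph hΩ hq j) 1 S (1 / S) (5001 / 5) ((1 : ℝ) / 10) (5 / 5001) hS hκ hn 1000 0 997 (by norm_num) (by norm_num) (by norm_num) hx hη (hs.fvV10 hΩ (x₀ := x₀) hx)
  have t10 := hs.rpair hΩ hc hx₀ (V := (ph u (XF u x₀))) (fun j => hs.contDiffOn_ph hΩ hX j) 1 S (1 / S) (5001 / 5) ((1 : ℝ) / 10) (5 / 5001) hS hκ hn 1000 1 996 (by norm_num) (by norm_num) (by norm_num) hx hη (hs.fvV11 hΩ (x₀ := x₀) hx)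
  unfold comb
  have e0 : (5001 / 5 : ℝ) ^ 0 * hs.fieldI x₀ 1 S 1000 (fun j y => (zFun u x₀ S (1 / S) (5001 / 5) y ^ ((1 : ℝ) / 10) * aT u y) * (aT u y * qF u j y)) x +
      (5001 / 5 : ℝ) ^ 2 * hs.fieldI x₀ 1 S 998 (fun j y => (zFun u x₀ S (1 / S) (5001 / 5) y ^ ((1 : ℝ) / 10) * aG u x₀ y) * (aT u y * qF u j y)) x = _ := t0
  have e1 : (5001 / 5 : ℝ) ^ 1 * hs.fieldI x₀ 1 S 999 (fun j y => (zFun u x₀ S (1 / S) (5001 / 5) y ^ ((1 : ℝ) / 10) * aT u y) * (aH u x₀ y * qF u j y)) x +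
      (5001 / 5 : ℝ) ^ 3 * hs.fieldI x₀ 1 S 997 (fun j y => (zFun u x₀ S (1 / S) (5001 / 5) y ^ ((1 : ℝ) / 10) * aG u x₀ y) * (aH u x₀ y * qF u j y)) x = _ := t1
  have e2 : (5001 / 5 : ℝ) ^ 2 * hs.fieldI x₀ 1 S 998 (fun j y => (zFun u x₀ S (1 / S) (5001 / 5) y ^ ((1 : ℝ) / 10) * aT u y) * (aG u x₀ y * qF u j y)) x +
      (5001 / 5 : ℝ) ^ 4 * hs.fieldI x₀ 1 S 996 (fun j y => (zFun u x₀ S (1 / S) (5001 / 5) y ^ ((1 : ℝ) / 10) * aG u x₀ y) * (aG u x₀ y * qF u j y)) x = _ := t2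
  have e3 : (5001 / 5 : ℝ) ^ 1 * hs.fieldI x₀ 1 S 999 (fun j y => (zFun u x₀ S (1 / S) (5001 / 5) y ^ ((1 : ℝ) / 10) * aT u y) * (aT u y * XF u x₀ j y)) x +
      (5001 / 5 : ℝ) ^ 3 * hs.fieldI x₀ 1 S 997 (fun j y => (zFun u x₀ S (1 / S) (5001 / 5) y ^ ((1 : ℝ) / 10) * aG u x₀ y) * (aT u y * XF u x₀ j y)) x = _ := t3
  have e4 : (5001 / 5 : ℝ) ^ 2 * hs.fieldI x₀ 1 S 998 (fun j y => (zFun u x₀ S (1 / S) (5001 / 5) y ^ ((1 : ℝ) / 10) * aT u y) * (aH u x₀ y * XF u x₀ j y)) x +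
      (5001 / 5 : ℝ) ^ 4 * hs.fieldI x₀ 1 S 996 (fun j y => (zFun u x₀ S (1 / S) (5001 / 5) y ^ ((1 : ℝ) / 10) * aG u x₀ y) * (aH u x₀ y * XF u x₀ j y)) x = _ := t4
  have e5 : (5001 / 5 : ℝ) ^ 3 * hs.fieldI x₀ 1 S 997 (fun j y => (zFun u x₀ S (1 / S) (5001 / 5) y ^ ((1 : ℝ) / 10) * aT u y) * (aG u x₀ y * XF u x₀ j y)) x +
      (5001 / 5 : ℝ) ^ 5 * hs.fieldI x₀ 1 S 995 (fun j y => (zFun u x₀ S (1 / S) (5001 / 5) y ^ ((1 : ℝ) / 10) * aG u x₀ y) * (aG u x₀ y * XF u x₀ j y)) x = _ := t5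
  have e6 : (5001 / 5 : ℝ) ^ 0 * hs.fieldI x₀ 1 S 1000 (fun j y => (zFun u x₀ S (1 / S) (5001 / 5) y ^ ((1 : ℝ) / 10) * aT u y) * (Ah u (qF u) (qF u)) j y) x +
      (5001 / 5 : ℝ) ^ 2 * hs.fieldI x₀ 1 S 998 (fun j y => (zFun u x₀ S (1 / S) (5001 / 5) y ^ ((1 : ℝ) / 10) * aG u x₀ y) * (Ah u (qF u) (qF u)) j y) x = _ := t6
  have e7 : (5001 / 5 : ℝ) ^ 1 * hs.fieldI x₀ 1 S 999 (fun j y => (zFun u x₀ S (1 / S) (5001 / 5) y ^ ((1 : ℝ) / 10) * aT u y) * (Ah u (qF u) (XF u x₀)) j y) x +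
      (5001 / 5 : ℝ) ^ 3 * hs.fieldI x₀ 1 S 997 (fun j y => (zFun u x₀ S (1 / S) (5001 / 5) y ^ ((1 : ℝ) / 10) * aG u x₀ y) * (Ah u (qF u) (XF u x₀)) j y) x = _ := t7
  have e8 : (5001 / 5 : ℝ) ^ 2 * hs.fieldI x₀ 1 S 998 (fun j y => (zFun u x₀ S (1 / S) (5001 / 5) y ^ ((1 : ℝ) / 10) * aT u y) * (Ah u (XF u x₀) (XF u x₀)) j y) x +
      (5001 / 5 : ℝ) ^ 4 * hs.fieldI x₀ 1 S 996 (fun j y => (zFun u x₀ S (1 / S) (5001 / 5) y ^ ((1 : ℝ) / 10) * aG u x₀ y) * (Ah u (XF u x₀) (XF u x₀)) j y) x = _ := t8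
  have e9 : (5001 / 5 : ℝ) ^ 0 * hs.fieldI x₀ 1 S 1000 (fun j y => (zFun u x₀ S (1 / S) (5001 / 5) y ^ ((1 : ℝ) / 10) * aT u y) * (ph u (qF u)) j y) x +
      (5001 / 5 : ℝ) ^ 2 * hs.fieldI x₀ 1 S 998 (fun j y => (zFun u x₀ S (1 / S) (5001 / 5) y ^ ((1 : ℝ) / 10) * aG u x₀ y) * (ph u (qF u)) j y) x = _ := t9
  have e10 : (5001 / 5 : ℝ) ^ 1 * hs.fieldI x₀ 1 S 999 (fun j y => (zFun u x₀ S (1 / S) (5001 / 5) y ^ ((1 : ℝ) / 10) * aT u y) * (ph u (XF u x₀)) j y) x +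
      (5001 / 5 : ℝ) ^ 3 * hs.fieldI x₀ 1 S 997 (fun j y => (zFun u x₀ S (1 / S) (5001 / 5) y ^ ((1 : ℝ) / 10) * aG u x₀ y) * (ph u (XF u x₀)) j y) x = _ := t10
  rw [e0, e1, e2, e3, e4, e5, e6, e7, e8, e9, e10]
  have x1 : aT u x = (atomsAt u x₀ x).T := rfl
  have x2 : aG u x₀ x = (atomsAt u x₀ x).G := rfl
  rw [x1, x2]
  generalize 5001 / 5 / (S - uBar u x₀ x) = s
  generalize zFun u x₀ S (1 / S) (5001 / 5) x ^ (((1 : ℝ) / 10) - 1) *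
        (S - uBar u x₀ x) ^ (1000 + 2) = P
  generalize (hess u x).det ^ (1 : ℝ) = D'
  generalize 1 / S = κ
  generalize atomsAt u x₀ x = A
  simp only [Pf, CertR2.psi, CertR21.psi, Atoms.scale]
  push_cast
  ring

lemma comb_lower_pos (hc : Convex ℝ Ω) (hx₀ : x₀ ∈ Ω) {x : Fin 3 → ℝ} (hx : x ∈ Ω) (S : ℝ) (hS : 0 < S)
    (hη : 0 < S - uBar u x₀ x) :
    ((17/50000) / 2) * ((hess u x).det ^ (1 : ℝ) * ((S - uBar u x₀ x) ^ 1000 * (S - uBar u x₀ x) ^ (2 * ((1 : ℝ) / 10)) *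
        aT u x ^ (3 + ((1 : ℝ) / 10)))) -
      ((15872591754 * (1 + 45368) + ((17/50000) / 2) * 45368 ^ 4) * (5001 / 5 : ℝ) ^ (3 + ((1 : ℝ) / 10))) * (S ^ ((1 : ℝ) / 10) * ((hess u x).det ^ (1 : ℝ) * (S - uBar u x₀ x) ^ 997)) ≤ comb hs x₀ S x := by
  rw [comb_eq hs hΩ hc hx₀ hx S hS hη]
  have hD := Real.rpow_pos_of_pos (hs.det_pos hx) (1 : ℝ)
  have hu0 := uBar_nonneg hΩ hc hs.smooth hs.posDef hx₀ hx
  have hs0 : 0 < (5001 / 5 / (S - uBar u x₀ x)) := by positivity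
  obtain ⟨ht, hv, hT, hG, hH⟩ := hs.scale_facts hΩ (x₀ := x₀) (5001 / 5 / (S - uBar u x₀ x)) hx
  have h2 := CertR2.final _ _ hs0.le hT hG hH ht hv
  have h21 := CertR21.final _ _ hs0.le hT hG hH ht hv
  have hG0 : 0 ≤ aG u x₀ x := hs.pa_self_nonneg _ hx
  have hT0 : 0 ≤ aT u x := hs.aT_nonneg hx
  have hY3 : 0 ≤ (aT u x + (5001 / 5 / (S - uBar u x₀ x)) ^ 2 * aG u x₀ x) ^ 3 := by positivity
  have hs3 : 0 ≤ (5001 / 5 / (S - uBar u x₀ x)) ^ 3 := by positivity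
  refine rlower (N₀ := 1000) (M₀ := 997) (by norm_num) hD.le hη (by linarith) (by norm_num)
    (by norm_num) (by norm_num) (by norm_num) (by norm_num) (by positivity)
    (div_le_div₀ (by norm_num) (by norm_num) hη (by linarith)) hT0 hG0 (by norm_num) (by norm_num)
    rfl ?_ ?_
  · exact (sub_le_sub (mul_le_mul_of_nonneg_right (by norm_num) hY3)
      (mul_le_mul_of_nonneg_right (by norm_num) hs3)).trans h2
  · exact (sub_le_sub (mul_le_mul_of_nonneg_right (by norm_num) hY3)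
      (mul_le_mul_of_nonneg_right (by norm_num) hs3)).trans h21

omit hΩ in
lemma comb_zero {x : Fin 3 → ℝ} (S : ℝ) (hη : S - uBar u x₀ x ≤ 0) : comb hs x₀ S x = 0 := by
  have h995 : ∀ V, hs.fieldI x₀ 1 S 995 V x = 0 := fun V => hs.fieldI_neg x₀ 1 S 993 V hη
  have h996 : ∀ V, hs.fieldI x₀ 1 S 996 V x = 0 := fun V => hs.fieldI_neg x₀ 1 S 994 V hη
  have h997 : ∀ V, hs.fieldI x₀ 1 S 997 V x = 0 := fun V => hs.fieldI_neg x₀ 1 S 995 V hη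
  have h998 : ∀ V, hs.fieldI x₀ 1 S 998 V x = 0 := fun V => hs.fieldI_neg x₀ 1 S 996 V hη
  have h999 : ∀ V, hs.fieldI x₀ 1 S 999 V x = 0 := fun V => hs.fieldI_neg x₀ 1 S 997 V hη
  have h1000 : ∀ V, hs.fieldI x₀ 1 S 1000 V x = 0 := fun V => hs.fieldI_neg x₀ 1 S 998 V hη
  unfold comb
  simp only [h995, h996, h997, h998, h999, h1000]
  ring

omit hΩ in
lemma comb_out {x : Fin 3 → ℝ} (S : ℝ) (hx : x ∉ Ω) : comb hs x₀ S x = 0 := by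
  simp [comb, IsAffineMaximal.fieldI, Set.indicator_of_notMem hx]

/-- The constant in the estimate. -/
noncomputable def cEst : ℝ :=
  (((15872591754 * (1 + 45368) + ((17/50000) / 2) * 45368 ^ 4) * (5001 / 5 : ℝ) ^ (3 + ((1 : ℝ) / 10))) / ((17/50000) / 2)) * (2 ^ 1000 * 2 ^ (2 * ((1 : ℝ) / 10)))

omit hs hΩ in
lemma cEst_pos : 0 < cEst := by
  unfold cEst
  have h1 : (0 : ℝ) < (5001 / 5 : ℝ) ^ (3 + ((1 : ℝ) / 10)) := Real.rpow_pos_of_pos (by norm_num) _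
  have h2 : (0 : ℝ) < (2 : ℝ) ^ (2 * ((1 : ℝ) / 10)) := Real.rpow_pos_of_pos (by norm_num) _
  positivity

/-- The integral estimate with the exponent `3 + 1/10`. -/
theorem estimate (hc : Convex ℝ Ω) (hx₀ : x₀ ∈ Ω)
    (hcpt : ∀ s, IsCompact (subLevelC Ω (uBar u x₀) s)) {S₀ S : ℝ} (hS : 0 < S) (hS₀ : 2 * S₀ ≤ S) :
    ∫ x in subLevel Ω (uBar u x₀) S₀, (hess u x).det ^ (1 : ℝ) * aT u x ^ (3 + ((1 : ℝ) / 10)) ≤
      cEst / S ^ (3 + ((1 : ℝ) / 10)) * ∫ x in subLevel Ω (uBar u x₀) S, (hess u x).det ^ (1 : ℝ) := by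
  have h1 : (0 : ℝ) < (5001 / 5 : ℝ) ^ (3 + ((1 : ℝ) / 10)) := Real.rpow_pos_of_pos (by norm_num) _
  have h := hs.estimate_of_combR hΩ (1 : ℝ) (3 + ((1 : ℝ) / 10)) (2 * ((1 : ℝ) / 10)) ((1 : ℝ) / 10) (by norm_num) 1000 997
    (by norm_num) (c₃ := ((17/50000) / 2)) (C' := ((15872591754 * (1 + 45368) + ((17/50000) / 2) * 45368 ^ 4) * (5001 / 5 : ℝ) ^ (3 + ((1 : ℝ) / 10)))) (by norm_num) (by positivity) (by norm_num)
    (fun S => comb hs x₀ S) (fun S hS h => comb_integral hs hΩ hc hx₀ S hS h)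
    (fun S hS x hx hη => comb_lower_pos hs hΩ hc hx₀ hx S hS hη)
    (fun S _ x h => by
      rcases h with h | h
      · exact comb_out hs S h
      · exact comb_zero hs S h) hcpt hc hx₀ hS hS₀
  exact estimate_to_form (N₀ := 1000) (M₀ := 997) (by norm_num) (by norm_num) hS h

/-- The Liouville theorem under the growth condition on the sublevel masses. -/
theorem det_const (hc : Convex ℝ Ω) (hx₀ : x₀ ∈ Ω)
    (hcpt : ∀ s, IsCompact (subLevelC Ω (uBar u x₀) s))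
    (hM : ∀ ε : ℝ, 0 < ε → ∀ S₁ : ℝ, ∃ S : ℝ, S₁ ≤ S ∧
      ∫ x in subLevel Ω (uBar u x₀) S, (hess u x).det ^ (1 : ℝ) ≤ ε * S ^ ((31 : ℝ) / 10))
    {x y : Fin 3 → ℝ} (hx : x ∈ Ω) (hy : y ∈ Ω) : (hess u x).det = (hess u y).det := by
  have e : (3 : ℝ) + ((1 : ℝ) / 10) = 31 / 10 := by norm_num
  refine hs.det_const_of_estimateR hΩ (1 : ℝ) (3 + ((1 : ℝ) / 10)) (by norm_num) cEst_pos
    (fun _ _ hS hS₀ => estimate hs hΩ hc hx₀ hcpt hS hS₀) hc hcpt ?_ hx hy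
  rw [e]
  exact hM

end CombR

end Vale.Agent.Lib.P252
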