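import Vale.Agent.Lib.P252.Defs

/-!
Euclidean completeness of a graph over an open subset of `Fin n → ℝ`.
-/

open scoped ContDiff Topology

namespace Vale.Agent.Lib.P252

variable {n : ℕ}

/-- The graph of `u` over `Ω` is Euclidean complete: every `C¹` curve `γ : [0,1) → Ω` of finite
length for the induced metric `g = δ + du ⊗ du`, the length being
`∫ √(∑ |γᵢ'|² + |(u ∘ γ)'|²) dt`, has a limit in `Ω`.  This is the usual curve form of the
completeness of the Riemannian metric `g` on `Ω`. -/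
def IsEuclideanComplete (Ω : Set (Fin n → ℝ)) (u : (Fin n → ℝ) → ℝ) : Prop :=
  ∀ γ : ℝ → Fin n → ℝ, ContDiffOn ℝ 1 γ (Set.Ico 0 1) → (∀ t ∈ Set.Ico (0 : ℝ) 1, γ t ∈ Ω) →
    MeasureTheory.IntegrableOn
      (fun t => Real.sqrt (∑ i, deriv (fun s => γ s i) t ^ 2 + deriv (fun s => u (γ s)) t ^ 2))
      (Set.Ioo 0 1) →
    ∃ x ∈ Ω, Filter.Tendsto γ (𝓝[<] 1) (𝓝 x)

end Vale.Agent.Lib.P252
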