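import Vale.Agent.Lib.P252.Beta
import Vale.Agent.Lib.P252.DefsC

open scoped ContDiff Topology
open MeasureTheory Set Filter

namespace Vale.Agent.Lib.P252

variable {n : ℕ} {Ω : Set (Fin n → ℝ)} {u : (Fin n → ℝ) → ℝ} {x₀ : Fin n → ℝ}

section Convexity

lemma hasDerivAt_g1 (hΩ : IsOpen Ω) (hu : ContDiffOn ℝ ∞ u Ω) {x θ : Fin n → ℝ} {t : ℝ}
    (h : x + t • θ ∈ Ω) :
    HasDerivAt (fun t : ℝ => ∑ i, θ i * pd i (uBar u x₀) (x + t • θ))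
      (Qv (hess u (x + t • θ)) θ θ) t := by
  have hb := contDiffOn_uBar (x₀ := x₀) hu
  have h1 : ∀ i ∈ Finset.univ, HasDerivAt (fun t => θ i * pd i (uBar u x₀) (x + t • θ))
      (θ i * ∑ j, θ j * pd j (pd i (uBar u x₀)) (x + t • θ)) t := by
    intro i _
    exact (hasDerivAt_line (diffAt hΩ (contDiffOn_pd hΩ hb i) h)).const_mul _
  have h2 := HasDerivAt.fun_sum h1
  have e : Qv (hess u (x + t • θ)) θ θ =
      ∑ i, θ i * ∑ j, θ j * pd j (pd i (uBar u x₀)) (x + t • θ) := by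
    simp only [Qv, Finset.mul_sum]
    rw [Finset.sum_comm]
    refine Finset.sum_congr rfl fun i _ => Finset.sum_congr rfl fun j _ => ?_
    rw [pd2_uBar hΩ hu h]
    change hess u _ j i * θ j * θ i = θ i * (θ j * hess u _ j i)
    ring
  rw [e]
  exact h2

lemma line_mem (hc : Convex ℝ Ω) {x θ : Fin n → ℝ} {a b t : ℝ} (ha : x + a • θ ∈ Ω)
    (hb : x + b • θ ∈ Ω) (h1 : a ≤ t) (h2 : t ≤ b) : x + t • θ ∈ Ω := by
  have hJ : Convex ℝ {t : ℝ | x + t • θ ∈ Ω} := by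
    intro s hs r hr p q hp hq hpq
    have e : x + (p • s + q • r) • θ = p • (x + s • θ) + q • (x + r • θ) := by
      have : x = p • x + q • x := by rw [← add_smul, hpq, one_smul]
      conv_lhs => rw [this]
      simp only [smul_eq_mul, add_smul, smul_add, mul_smul]
      abel
    show x + (p • s + q • r) • θ ∈ Ω
    rw [e]
    exact hc hs hr hp hq hpq
  exact hJ.ordConnected.out ha hb ⟨h1, h2⟩

/-- The slope of `ū` along a line is strictly increasing. -/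
lemma slope_strict (hΩ : IsOpen Ω) (hc : Convex ℝ Ω) (hu : ContDiffOn ℝ ∞ u Ω)
    (hpos : ∀ x ∈ Ω, (hess u x).PosDef) {x θ : Fin n → ℝ} (hθ : θ ≠ 0) {a b : ℝ}
    (ha : x + a • θ ∈ Ω) (hb : x + b • θ ∈ Ω) (hab : a < b) :
    ∑ i, θ i * pd i (uBar u x₀) (x + a • θ) < ∑ i, θ i * pd i (uBar u x₀) (x + b • θ) := by
  have hmem : ∀ t ∈ Icc a b, x + t • θ ∈ Ω := fun t ht => line_mem hc ha hb ht.1 ht.2
  have hmono : StrictMonoOn (fun t : ℝ => ∑ i, θ i * pd i (uBar u x₀) (x + t • θ)) (Icc a b) := by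
    apply strictMonoOn_of_deriv_pos (convex_Icc a b)
    · exact fun t ht => (hasDerivAt_g1 hΩ hu (hmem t ht)).continuousAt.continuousWithinAt
    · intro t ht
      rw [interior_Icc] at ht
      have hm := hmem t (Ioo_subset_Icc_self ht)
      rw [(hasDerivAt_g1 hΩ hu hm).deriv]
      exact Qv_pos (hpos _ hm) hθ
  exact hmono (left_mem_Icc.2 hab.le) (right_mem_Icc.2 hab.le) hab

/-- The tangent plane of `ū` lies strictly below the graph. -/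
lemma tangent_lt (hΩ : IsOpen Ω) (hc : Convex ℝ Ω) (hu : ContDiffOn ℝ ∞ u Ω)
    (hpos : ∀ x ∈ Ω, (hess u x).PosDef) {x z : Fin n → ℝ} (hx : x ∈ Ω) (hz : z ∈ Ω) (hne : x ≠ z) :
    uBar u x₀ x + fderiv ℝ (uBar u x₀) x (z - x) < uBar u x₀ z := by
  have hθ : z - x ≠ 0 := sub_ne_zero.2 hne.symm
  have h0 : x + (0 : ℝ) • (z - x) ∈ Ω := by simpa using hx
  have h1 : x + (1 : ℝ) • (z - x) ∈ Ω := by simpa using hz
  have hmem : ∀ t ∈ Icc (0 : ℝ) 1, x + t • (z - x) ∈ Ω := fun t ht => line_mem hc h0 h1 ht.1 ht.2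
  have hb := contDiffOn_uBar (x₀ := x₀) hu
  have hd : ∀ t ∈ Icc (0 : ℝ) 1, HasDerivAt (fun t : ℝ => uBar u x₀ (x + t • (z - x)))
      (∑ i, (z - x) i * pd i (uBar u x₀) (x + t • (z - x))) t :=
    fun t ht => hasDerivAt_line (diffAt hΩ hb (hmem t ht))
  obtain ⟨c, hc01, hcd⟩ := exists_hasDerivAt_eq_slope (fun t : ℝ => uBar u x₀ (x + t • (z - x)))
    (fun t => ∑ i, (z - x) i * pd i (uBar u x₀) (x + t • (z - x))) zero_lt_one
    (fun t ht => (hd t ht).continuousAt.continuousWithinAt)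
    (fun t ht => hd t (Ioo_subset_Icc_self ht))
  have hs := slope_strict (x₀ := x₀) hΩ hc hu hpos hθ h0 (hmem c (Ioo_subset_Icc_self hc01)) hc01.1
  rw [hcd] at hs
  simp only [zero_smul, add_zero, one_smul, add_sub_cancel, sub_zero, div_one] at hs
  rw [fderiv_eq_sum]
  linarith

lemma tangent_le (hΩ : IsOpen Ω) (hc : Convex ℝ Ω) (hu : ContDiffOn ℝ ∞ u Ω)
    (hpos : ∀ x ∈ Ω, (hess u x).PosDef) {x z : Fin n → ℝ} (hx : x ∈ Ω) (hz : z ∈ Ω) :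
    uBar u x₀ x + fderiv ℝ (uBar u x₀) x (z - x) ≤ uBar u x₀ z := by
  by_cases hne : x = z
  · subst hne
    simp
  · exact (tangent_lt hΩ hc hu hpos hx hz hne).le

lemma fderiv_uBar_self (hΩ : IsOpen Ω) (hu : ContDiffOn ℝ ∞ u Ω) (hx₀ : x₀ ∈ Ω) (θ : Fin n → ℝ) :
    fderiv ℝ (uBar u x₀) x₀ θ = 0 := by
  rw [fderiv_eq_sum]
  refine Finset.sum_eq_zero fun i _ => ?_
  rw [pd_uBar_self hΩ hu hx₀]
  simp

lemma uBar_pos (hΩ : IsOpen Ω) (hc : Convex ℝ Ω) (hu : ContDiffOn ℝ ∞ u Ω)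
    (hpos : ∀ x ∈ Ω, (hess u x).PosDef) (hx₀ : x₀ ∈ Ω) {z : Fin n → ℝ} (hz : z ∈ Ω) (hne : z ≠ x₀) :
    0 < uBar u x₀ z := by
  have := tangent_lt (x₀ := x₀) hΩ hc hu hpos hx₀ hz hne.symm
  rw [uBar_self, fderiv_uBar_self hΩ hu hx₀] at this
  simpa using this

lemma uBar_nonneg (hΩ : IsOpen Ω) (hc : Convex ℝ Ω) (hu : ContDiffOn ℝ ∞ u Ω)
    (hpos : ∀ x ∈ Ω, (hess u x).PosDef) (hx₀ : x₀ ∈ Ω) {z : Fin n → ℝ} (hz : z ∈ Ω) :
    0 ≤ uBar u x₀ z := by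
  by_cases hne : z = x₀
  · subst hne
    rw [uBar_self]
  · exact (uBar_pos hΩ hc hu hpos hx₀ hz hne).le

/-- Radial growth: `t ū(z) ≤ ū(x₀ + t (z - x₀))` for `t ≥ 1`. -/
lemma uBar_ray (hΩ : IsOpen Ω) (hc : Convex ℝ Ω) (hu : ContDiffOn ℝ ∞ u Ω)
    (hpos : ∀ x ∈ Ω, (hess u x).PosDef) (hx₀ : x₀ ∈ Ω) {z : Fin n → ℝ} (hz : z ∈ Ω) {t : ℝ}
    (ht : 1 ≤ t) (hzt : x₀ + t • (z - x₀) ∈ Ω) :
    t * uBar u x₀ z ≤ uBar u x₀ (x₀ + t • (z - x₀)) := by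
  have h1 := tangent_le (x₀ := x₀) hΩ hc hu hpos hz hx₀
  have h2 := tangent_le (x₀ := x₀) hΩ hc hu hpos hz hzt
  rw [uBar_self] at h1
  have e1 : x₀ - z = (-1 : ℝ) • (z - x₀) := by simp
  have e2 : x₀ + t • (z - x₀) - z = (t - 1) • (z - x₀) := by
    rw [sub_smul, one_smul]
    abel
  rw [e1, map_smul, smul_eq_mul] at h1
  rw [e2, map_smul, smul_eq_mul] at h2
  nlinarith

end Convexity

end Vale.Agent.Lib.P252
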