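import Vale.Agent.Lib.P252.Cutoff

open scoped ContDiff Matrix
open MeasureTheory

namespace Vale.Agent.Lib.P252

variable {n : ℕ} {Ω : Set (Fin n → ℝ)} {u : (Fin n → ℝ) → ℝ}

/-- The sublevel set of an exhaustion function. -/
def subLevel (Ω : Set (Fin n → ℝ)) (f : (Fin n → ℝ) → ℝ) (s : ℝ) : Set (Fin n → ℝ) :=
  {x | x ∈ Ω ∧ f x < s}

/-- The closed sublevel set of an exhaustion function. -/
def subLevelC (Ω : Set (Fin n → ℝ)) (f : (Fin n → ℝ) → ℝ) (s : ℝ) : Set (Fin n → ℝ) :=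
  {x | x ∈ Ω ∧ f x ≤ s}

/-- The composition of a cut-off with the exhaustion, extended by zero. -/
noncomputable def testOf (Ω : Set (Fin n → ℝ)) (f : (Fin n → ℝ) → ℝ) (g : ℝ → ℝ) :
    (Fin n → ℝ) → ℝ := fun x => Set.indicator Ω (fun y => g (f y)) x

section Exhaustion

variable {f : (Fin n → ℝ) → ℝ}

lemma testOf_eq_of_mem {g : ℝ → ℝ} {x : Fin n → ℝ} (hx : x ∈ Ω) : testOf Ω f g x = g (f x) := by
  simp [testOf, hx]

lemma testOf_eq_of_notMem {g : ℝ → ℝ} {x : Fin n → ℝ} (hx : x ∉ Ω) : testOf Ω f g x = 0 := by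
  simp [testOf, hx]

lemma isTest_testOf (hΩ : IsOpen Ω) (hf : ContDiffOn ℝ ∞ f Ω) {s₁ : ℝ}
    (hcpt : IsCompact (subLevelC Ω f s₁)) {g : ℝ → ℝ} (hg : ContDiff ℝ ∞ g)
    (h0 : ∀ s, s₁ ≤ s → g s = 0) : IsTest Ω (testOf Ω f g) := by
  have hzero : ∀ x, x ∉ subLevelC Ω f s₁ → testOf Ω f g x = 0 := by
    intro x hx
    by_cases hxΩ : x ∈ Ω
    · rw [testOf_eq_of_mem hxΩ]
      apply h0
      by_contra h
      exact hx ⟨hxΩ, le_of_lt (not_le.1 h)⟩
    · exact testOf_eq_of_notMem hxΩ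
  have hts : tsupport (testOf Ω f g) ⊆ subLevelC Ω f s₁ := by
    apply closure_minimal _ hcpt.isClosed
    intro x hx
    by_contra hx'
    exact hx (hzero x hx')
  refine ⟨?_, HasCompactSupport.intro hcpt hzero, hts.trans fun x hx => hx.1⟩
  rw [contDiff_iff_contDiffAt]
  intro x
  by_cases hx : x ∈ Ω
  · have hev : testOf Ω f g =ᶠ[nhds x] fun y => g (f y) := by
      filter_upwards [hΩ.mem_nhds hx] with y hy using testOf_eq_of_mem hy
    have : ContDiffAt ℝ ∞ (fun y => g (f y)) x :=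
      hg.contDiffAt.comp x (contDiffAt_of hΩ hf hx)
    exact this.congr_of_eventuallyEq hev
  · have hx' : x ∉ subLevelC Ω f s₁ := fun h => hx h.1
    have hopen : (subLevelC Ω f s₁)ᶜ ∈ nhds x := hcpt.isClosed.isOpen_compl.mem_nhds hx'
    have hev : testOf Ω f g =ᶠ[nhds x] fun _ => 0 := by
      filter_upwards [hopen] with y hy using hzero y hy
    exact contDiffAt_const.congr_of_eventuallyEq hev

lemma gr_testOf (hΩ : IsOpen Ω) (hf : ContDiffOn ℝ ∞ f Ω) {g : ℝ → ℝ} {g' : ℝ} {x : Fin n → ℝ}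
    (hx : x ∈ Ω) (hg : HasDerivAt g g' (f x)) : gr (testOf Ω f g) x = g' • gr f x := by
  have hev : testOf Ω f g =ᶠ[nhds x] fun y => g (f y) := by
    filter_upwards [hΩ.mem_nhds hx] with y hy using testOf_eq_of_mem hy
  rw [gr_congr hev]
  exact gr_comp hg (diffAt hΩ hf hx)

end Exhaustion

namespace IsAffineMaximal

variable (hs : IsAffineMaximal Ω u) {f ρ : (Fin n → ℝ) → ℝ} {q C : ℝ}
include hs

/-- The sublevel mass. -/
noncomputable def mass (Ω : Set (Fin n → ℝ)) (f ρ : (Fin n → ℝ) → ℝ) (s : ℝ) : ℝ :=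
  ∫ x in subLevel Ω f s, ρ x

omit hs in
lemma isOpen_subLevel (hΩ : IsOpen Ω) (hf : ContDiffOn ℝ ∞ f Ω) (s : ℝ) :
    IsOpen (subLevel Ω f s) := by
  have := hf.continuousOn.isOpen_inter_preimage hΩ (isOpen_Iio (a := s))
  simpa [subLevel, Set.inter_def] using this

omit hs in
lemma subLevel_subset (s : ℝ) : subLevel Ω f s ⊆ subLevelC Ω f s := fun _ hx => ⟨hx.1, le_of_lt hx.2⟩

omit hs in
lemma integrableOn_subLevel (hρ : ContinuousOn ρ Ω) {s : ℝ} (hcpt : IsCompact (subLevelC Ω f s)) :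
    IntegrableOn ρ (subLevel Ω f s) :=
  ((hρ.mono fun _ hx => hx.1).integrableOn_compact hcpt).mono_set (subLevel_subset s)

/-- The energy of the cut-off built from `a` is controlled by the sublevel masses. -/
lemma energy_bound (hΩ : IsOpen Ω) (hf : ContDiffOn ℝ ∞ f Ω)
    (hcpt : ∀ s, IsCompact (subLevelC Ω f s)) (hρ : ContinuousOn ρ Ω)
    (hρ0 : ∀ x ∈ Ω, 0 ≤ ρ x) (hC : 0 ≤ C)
    (hE : ∀ t : ℝ, ∫ x, - (weightW u x ^ q * formQ u (testOf Ω f fun s => stepΓ (s - t)) f x)
      ≤ C * ∫ x, testOf Ω f (fun s => stepΓ (s - t)) x * ρ x)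
    {a : ℕ → ℝ} {K : ℕ} {t₀ : ℝ} (ha : ∑ k ∈ Finset.range K, a k = 1) :
    ∫ x, weightW u x ^ q * formQ u (testOf Ω f (cutH a K t₀)) (testOf Ω f (cutH a K t₀)) x ≤
      C * stepC * ∑ k ∈ Finset.range K, a k ^ 2 * mass Ω f ρ (t₀ + k + 1) := by
  classical
  set η := testOf Ω f (cutH a K t₀) with hηdef
  have hη : IsTest Ω η := isTest_testOf hΩ hf (hcpt (t₀ + K)) (cutH_contDiff a K t₀)
    (fun s hs => cutH_zero ha hs)
  -- the test functions for the annuli
  let φ : ℕ → (Fin n → ℝ) → ℝ := fun k => testOf Ω f fun s => stepΓ (s - (t₀ + k))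
  have hΓs : ∀ k : ℕ, ContDiff ℝ ∞ (fun s => stepΓ (s - (t₀ + k))) := fun k =>
    stepΓ_contDiff.comp (contDiff_id.sub contDiff_const)
  have hφ : ∀ k, IsTest Ω (φ k) := fun k =>
    isTest_testOf hΩ hf (hcpt (t₀ + k + 1)) (hΓs k) (fun s hs => stepΓ_zero (by linarith))
  have hWp := hs.contDiffOn_W_rpow hΩ q
  -- pointwise identity
  have hpt : ∀ x, weightW u x ^ q * formQ u η η x =
      ∑ k ∈ Finset.range K, a k ^ 2 * (- (weightW u x ^ q * formQ u (φ k) f x)) := by
    intro x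
    by_cases hx : x ∈ Ω
    · have h1 : gr η x = (- ∑ k ∈ Finset.range K, a k * stepψ (f x - (t₀ + k))) • gr f x :=
        gr_testOf hΩ hf hx (cutH_hasDerivAt a K t₀ (f x))
      have h2 : ∀ k, gr (φ k) x = (- stepγ (f x - (t₀ + k))) • gr f x := by
        intro k
        have hd : HasDerivAt (fun s => stepΓ (s - (t₀ + k))) (- stepγ (f x - (t₀ + k))) (f x) := by
          have := (stepΓ_hasDerivAt (f x - (t₀ + k))).comp (f x)
            ((hasDerivAt_id (f x)).sub_const (t₀ + k))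
          simpa [Function.comp_def] using this
        exact gr_testOf hΩ hf hx hd
      simp only [formQ_eq, h2, h1, Qv_smul_left, Qv_smul_right]
      have h3 := cutH_deriv_sq a K t₀ (f x)
      set Q0 := Qv (hess u x).adjugate (gr f x) (gr f x) with hQ0
      calc weightW u x ^ q * ((- ∑ k ∈ Finset.range K, a k * stepψ (f x - (t₀ + k))) *
              ((- ∑ k ∈ Finset.range K, a k * stepψ (f x - (t₀ + k))) * Q0))
          = weightW u x ^ q * Q0 * (- ∑ k ∈ Finset.range K, a k * stepψ (f x - (t₀ + k))) ^ 2 := by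
            ring
        _ = _ := by
            rw [h3, Finset.mul_sum]
            refine Finset.sum_congr rfl fun k _ => ?_
            ring
    · have hx1 : x ∉ tsupport η := fun h => hx (hη.sub h)
      have hx2 : ∀ k, x ∉ tsupport (φ k) := fun k h => hx ((hφ k).sub h)
      simp [formQ_eq_zero_of_test hx1, formQ_eq_zero_of_test (hx2 _)]
  -- integrability
  have hint : ∀ k, Integrable (fun x => - (weightW u x ^ q * formQ u (φ k) f x)) := by
    intro k
    refine (integrable_of_support (hφ k).cpt (hφ k).sub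
      (hWp.continuousOn.mul (contOn_formQ hΩ hs.smooth (hφ k).contDiffOn hf))
      (fun x hx => by simp [formQ_eq_zero_of_test hx])).neg
  -- estimate on each annulus
  have hann : ∀ k : ℕ, ∫ x, - (weightW u x ^ q * formQ u (φ k) f x) ≤
      C * stepC * mass Ω f ρ (t₀ + k + 1) := by
    intro k
    refine (hE (t₀ + k)).trans ?_
    rw [mul_assoc]
    refine mul_le_mul_of_nonneg_left ?_ hC
    -- compare with the sublevel integral
    have hS := isOpen_subLevel hΩ hf (t₀ + k + 1)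
    have hρS : IntegrableOn ρ (subLevel Ω f (t₀ + k + 1)) :=
      integrableOn_subLevel hρ (hcpt _)
    have hφρ : Integrable (fun x => φ k x * ρ x) :=
      integrable_of_support (hφ k).cpt (hφ k).sub ((hφ k).contDiffOn.continuousOn.mul hρ)
        (fun x hx => by simp [IsTest.eq_zero hx])
    have hout : ∀ x, x ∉ subLevel Ω f (t₀ + k + 1) → φ k x * ρ x = 0 := by
      intro x hx
      by_cases hxΩ : x ∈ Ω
      · have hfx : t₀ + k + 1 ≤ f x := by
          by_contra h
          exact hx ⟨hxΩ, not_le.1 h⟩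
        have : φ k x = 0 := by
          simp only [φ]
          rw [testOf_eq_of_mem hxΩ]
          exact stepΓ_zero (by linarith)
        simp [this]
      · have : φ k x = 0 := testOf_eq_of_notMem hxΩ
        simp [this]
    have e1 : ∫ x, φ k x * ρ x = ∫ x in subLevel Ω f (t₀ + k + 1), φ k x * ρ x :=
      (setIntegral_eq_integral_of_forall_compl_eq_zero hout).symm
    change ∫ x, φ k x * ρ x ≤ _
    rw [e1]
    have e2 : ∫ x in subLevel Ω f (t₀ + k + 1), φ k x * ρ x ≤
        ∫ x in subLevel Ω f (t₀ + k + 1), stepC * ρ x := by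
      refine setIntegral_mono_on hφρ.integrableOn (hρS.const_mul _) hS.measurableSet ?_
      intro x hx
      have : φ k x ≤ stepC := by
        simp only [φ]
        rw [testOf_eq_of_mem hx.1]
        exact stepΓ_le _
      exact mul_le_mul_of_nonneg_right this (hρ0 x hx.1)
    refine e2.trans (le_of_eq ?_)
    rw [integral_const_mul]
    rfl
  -- conclusion
  rw [show (fun x => weightW u x ^ q * formQ u η η x) = fun x =>
    ∑ k ∈ Finset.range K, a k ^ 2 * (- (weightW u x ^ q * formQ u (φ k) f x)) from funext hpt]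
  rw [integral_finsetSum _ fun k _ => (hint k).const_mul _]
  rw [Finset.mul_sum]
  refine Finset.sum_le_sum fun k _ => ?_
  rw [integral_const_mul]
  have := mul_le_mul_of_nonneg_left (hann k) (sq_nonneg (a k))
  calc a k ^ 2 * ∫ x, - (weightW u x ^ q * formQ u (φ k) f x)
      ≤ a k ^ 2 * (C * stepC * mass Ω f ρ (t₀ + k + 1)) := this
    _ = _ := by ring

/-- The core Liouville statement: a capacity estimate forces the gradient of `w` to vanish. -/
lemma gr_W_eq_zero (hΩ : IsOpen Ω) (hf : ContDiffOn ℝ ∞ f Ω)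
    (hcpt : ∀ s, IsCompact (subLevelC Ω f s)) (hρ : ContinuousOn ρ Ω)
    (hρ0 : ∀ x ∈ Ω, 0 ≤ ρ x) (hC : 0 ≤ C) (hq : q ≠ 1)
    (hE : ∀ t : ℝ, ∫ x, - (weightW u x ^ q * formQ u (testOf Ω f fun s => stepΓ (s - t)) f x)
      ≤ C * ∫ x, testOf Ω f (fun s => stepΓ (s - t)) x * ρ x)
    (hVpos : ∀ s : ℝ, 1 ≤ s → 0 < mass Ω f ρ s)
    (hns : ¬ Summable fun k : ℕ => (mass Ω f ρ ((k : ℝ) + 1))⁻¹)
    {x : Fin n → ℝ} (hx : x ∈ Ω) : gr (weightW u) x = 0 := by
  classical
  set W := weightW u with hW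
  have hWs : ContDiffOn ℝ ∞ W Ω := hs.contDiffOn_W hΩ
  -- the level
  obtain ⟨t₀, ht₀⟩ := exists_nat_gt (max (f x) 1)
  have ht1 : f x < t₀ := lt_of_le_of_lt (le_max_left _ _) ht₀
  have ht2 : (1 : ℝ) < t₀ := lt_of_le_of_lt (le_max_right _ _) ht₀
  set V := mass Ω f ρ with hV
  -- the shifted partial sums diverge
  let b : ℕ → ℝ := fun k => (V ((t₀ : ℝ) + k + 1))⁻¹
  have hb0 : ∀ k, 0 < b k := fun k => inv_pos.2 (hVpos _ (by
    have : (0 : ℝ) ≤ k := Nat.cast_nonneg k
    linarith))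
  have hbns : ¬ Summable b := by
    intro hsum
    apply hns
    rw [← summable_nat_add_iff t₀]
    refine hsum.congr fun k => ?_
    simp only [b]
    congr 2
    push_cast
    ring
  have hdiv : Filter.Tendsto (fun K => ∑ k ∈ Finset.range K, b k) Filter.atTop Filter.atTop :=
    (not_summable_iff_tendsto_nat_atTop_of_nonneg fun k => (hb0 k).le).1 hbns
  -- the function to integrate
  let Y : (Fin n → ℝ) → ℝ := fun y => W y ^ (q - 2) * formQ u W W y
  have hYc : ContinuousOn Y Ω :=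
    (hs.contDiffOn_W_rpow hΩ _).continuousOn.mul (contOn_formQ hΩ hs.smooth hWs hWs)
  have hY0 : ∀ y ∈ Ω, 0 ≤ Y y := fun y hy =>
    mul_nonneg (Real.rpow_nonneg (hs.W_pos hy).le _) (hs.formQ_nonneg hy W)
  set S₀ := subLevel Ω f t₀ with hS₀
  have hS₀o : IsOpen S₀ := isOpen_subLevel hΩ hf _
  have hYi : IntegrableOn Y S₀ := integrableOn_subLevel hYc (hcpt _)
  have hS₀Ω : S₀ ⊆ Ω := fun y hy => hy.1
  set κ : ℝ := (q - 1) / 2 with hκ
  have hκ2 : 0 < κ ^ 2 := by
    have : κ ≠ 0 := by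
      rw [hκ]
      intro h
      apply hq
      linarith
    positivity
  -- main estimate
  have hmain : ∀ K : ℕ, 0 < ∑ k ∈ Finset.range K, b k →
      κ ^ 2 * ∫ y in S₀, Y y ≤ C * stepC / ∑ k ∈ Finset.range K, b k := by
    intro K hI
    set I := ∑ k ∈ Finset.range K, b k with hIdef
    let a : ℕ → ℝ := fun k => b k / I
    have ha : ∑ k ∈ Finset.range K, a k = 1 := by
      simp only [a]
      rw [← Finset.sum_div, div_self hI.ne']
    set η := testOf Ω f (cutH a K t₀) with hηdef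
    have hη : IsTest Ω η := isTest_testOf hΩ hf (hcpt (t₀ + K)) (cutH_contDiff a K t₀)
      (fun s hs => cutH_zero ha hs)
    have hen := hs.energy_bound (q := q) (C := C) hΩ hf hcpt hρ hρ0 hC hE (t₀ := t₀) ha
    have hca := hs.caccioppoli hΩ hη q
    -- the sum
    have hsum : ∑ k ∈ Finset.range K, a k ^ 2 * V ((t₀ : ℝ) + k + 1) = 1 / I := by
      have : ∀ k ∈ Finset.range K, a k ^ 2 * V ((t₀ : ℝ) + k + 1) = b k / I ^ 2 := by
        intro k _
        have hVk : V ((t₀ : ℝ) + k + 1) ≠ 0 := by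
          have : 0 < b k := hb0 k
          simp only [b] at this
          exact (inv_pos.1 this).ne'
        simp only [a, b]
        field_simp
      rw [Finset.sum_congr rfl this, ← Finset.sum_div, ← hIdef]
      field_simp
    rw [hsum] at hen
    -- comparison of the two integrals
    have hZint : Integrable (fun y => η y ^ 2 * Y y) :=
      integrable_of_support hη.cpt hη.sub ((hη.contDiffOn.continuousOn.pow 2).mul hYc)
        (fun y hy => by simp [IsTest.eq_zero hy])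
    have hle : ∫ y in S₀, Y y ≤ ∫ y, η y ^ 2 * Y y := by
      have h1 : ∫ y in S₀, Y y = ∫ y in S₀, η y ^ 2 * Y y := by
        refine setIntegral_congr_fun hS₀o.measurableSet fun y hy => ?_
        have : η y = 1 := by
          rw [hηdef, testOf_eq_of_mem hy.1]
          exact cutH_one a K (le_of_lt hy.2)
        simp [this]
      rw [h1]
      refine setIntegral_le_integral hZint (Filter.Eventually.of_forall fun y => ?_)
      by_cases hy : y ∈ Ω
      · exact mul_nonneg (sq_nonneg _) (hY0 y hy)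
      · have : η y = 0 := testOf_eq_of_notMem hy
        simp [this]
    have h3 : κ ^ 2 * ∫ y in S₀, Y y ≤ κ ^ 2 * ∫ y, η y ^ 2 * Y y :=
      mul_le_mul_of_nonneg_left hle hκ2.le
    have h4 : κ ^ 2 * ∫ y, η y ^ 2 * Y y ≤ ∫ y, W y ^ q * formQ u η η y := hca
    calc κ ^ 2 * ∫ y in S₀, Y y ≤ ∫ y, W y ^ q * formQ u η η y := h3.trans h4
      _ ≤ C * stepC * (1 / I) := hen
      _ = C * stepC / I := by ring
  -- pass to the limit
  have hint0 : 0 ≤ ∫ y in S₀, Y y :=
    setIntegral_nonneg hS₀o.measurableSet fun y hy => hY0 y hy.1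
  have hzero : ∫ y in S₀, Y y = 0 := by
    by_contra hne
    have hpos : 0 < κ ^ 2 * ∫ y in S₀, Y y :=
      mul_pos hκ2 (lt_of_le_of_ne hint0 (Ne.symm hne))
    have hCC : 0 ≤ C * stepC := mul_nonneg hC stepC_nonneg
    obtain ⟨K, hK⟩ := ((Filter.tendsto_atTop.1 hdiv)
      (max 1 ((C * stepC + 1) / (κ ^ 2 * ∫ y in S₀, Y y) + 1))).exists
    have hK1 : 1 ≤ ∑ k ∈ Finset.range K, b k := (le_max_left _ _).trans hK
    have hK2 : (C * stepC + 1) / (κ ^ 2 * ∫ y in S₀, Y y) + 1 ≤ ∑ k ∈ Finset.range K, b k :=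
      (le_max_right _ _).trans hK
    have hI : 0 < ∑ k ∈ Finset.range K, b k := by linarith
    have h5 := hmain K hI
    rw [le_div_iff₀ hI] at h5
    have h6 : (C * stepC + 1) / (κ ^ 2 * ∫ y in S₀, Y y) ≤ ∑ k ∈ Finset.range K, b k := by
      linarith
    rw [div_le_iff₀ hpos] at h6
    nlinarith
  -- the integrand vanishes
  have hae : Y =ᵐ[volume.restrict S₀] 0 := by
    refine (setIntegral_eq_zero_iff_of_nonneg_ae ?_ hYi).1 hzero
    filter_upwards [ae_restrict_mem hS₀o.measurableSet] with y hy using hY0 y hy.1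
  have hon : Set.EqOn Y 0 S₀ :=
    Measure.eqOn_open_of_ae_eq hae hS₀o (hYc.mono hS₀Ω) continuousOn_const
  have hxS : x ∈ S₀ := ⟨hx, ht1⟩
  have hYx : Y x = 0 := hon hxS
  have hWp : 0 < W x ^ (q - 2) := Real.rpow_pos_of_pos (hs.W_pos hx) _
  have hQ : formQ u W W x = 0 := by
    have := mul_eq_zero.1 hYx
    rcases this with h | h
    · exact absurd h hWp.ne'
    · exact h
  by_contra hne
  have := Qv_pos (hs.adj_posDef hx) hne
  rw [← formQ_eq] at this
  exact this.ne' hQ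

end IsAffineMaximal

end Vale.Agent.Lib.P252
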