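import Vale.Agent.Lib.P252.Form

open scoped ContDiff Matrix
open MeasureTheory

namespace Vale.Agent.Lib.P252

/-! ### One variable cut-off functions -/

/-- The smooth step function. -/
noncomputable def stepΨ : ℝ → ℝ := Real.smoothTransition

lemma stepΨ_contDiff : ContDiff ℝ ∞ stepΨ := Real.smoothTransition.contDiff

lemma stepΨ_zero {t : ℝ} (ht : t ≤ 0) : stepΨ t = 0 := Real.smoothTransition.zero_of_nonpos ht

lemma stepΨ_one {t : ℝ} (ht : 1 ≤ t) : stepΨ t = 1 := Real.smoothTransition.one_of_one_le ht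

/-- The derivative of the step. -/
noncomputable def stepψ : ℝ → ℝ := deriv stepΨ

lemma stepψ_contDiff : ContDiff ℝ ∞ stepψ := (contDiff_infty_iff_deriv.1 stepΨ_contDiff).2

lemma stepΨ_hasDerivAt (t : ℝ) : HasDerivAt stepΨ (stepψ t) t :=
  ((contDiff_infty_iff_deriv.1 stepΨ_contDiff).1 t).hasDerivAt

lemma stepψ_zero_left {t : ℝ} (ht : t ≤ 0) : stepψ t = 0 := by
  have hc : Continuous stepψ := stepψ_contDiff.continuous
  have hcl : IsClosed {t | stepψ t = 0} := isClosed_eq hc continuous_const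
  have hsub : Set.Iio (0 : ℝ) ⊆ {t | stepψ t = 0} := by
    intro s hs
    have hev : stepΨ =ᶠ[nhds s] fun _ => 0 := by
      filter_upwards [Iio_mem_nhds hs] with r hr
      exact stepΨ_zero (le_of_lt hr)
    change deriv stepΨ s = 0
    rw [hev.deriv_eq]
    simp
  have := hcl.closure_subset_iff.2 hsub
  rw [closure_Iio] at this
  exact this ht

lemma stepψ_zero_right {t : ℝ} (ht : 1 ≤ t) : stepψ t = 0 := by
  have hc : Continuous stepψ := stepψ_contDiff.continuous
  have hcl : IsClosed {t | stepψ t = 0} := isClosed_eq hc continuous_const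
  have hsub : Set.Ioi (1 : ℝ) ⊆ {t | stepψ t = 0} := by
    intro s hs
    have hev : stepΨ =ᶠ[nhds s] fun _ => 1 := by
      filter_upwards [Ioi_mem_nhds hs] with r hr
      exact stepΨ_one (le_of_lt hr)
    change deriv stepΨ s = 0
    rw [hev.deriv_eq]
    simp
  have := hcl.closure_subset_iff.2 hsub
  rw [closure_Ioi] at this
  exact this ht

/-- The square of the derivative of the step. -/
noncomputable def stepγ (t : ℝ) : ℝ := stepψ t ^ 2

lemma stepγ_nonneg (t : ℝ) : 0 ≤ stepγ t := sq_nonneg _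

lemma stepγ_contDiff : ContDiff ℝ ∞ stepγ := stepψ_contDiff.pow 2

lemma stepγ_zero_left {t : ℝ} (ht : t ≤ 0) : stepγ t = 0 := by
  simp [stepγ, stepψ_zero_left ht]

lemma stepγ_zero_right {t : ℝ} (ht : 1 ≤ t) : stepγ t = 0 := by
  simp [stepγ, stepψ_zero_right ht]

/-- The primitive of `stepγ`, normalised to vanish at `+∞`. -/
noncomputable def stepΓ (t : ℝ) : ℝ := ∫ τ in t..1, stepγ τ

lemma stepΓ_hasDerivAt (t : ℝ) : HasDerivAt stepΓ (- stepγ t) t := by
  have hc : Continuous stepγ := stepγ_contDiff.continuous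
  exact intervalIntegral.integral_hasDerivAt_left (hc.intervalIntegrable _ _)
    (hc.stronglyMeasurableAtFilter _ _) hc.continuousAt

lemma stepΓ_contDiff : ContDiff ℝ ∞ stepΓ := by
  rw [contDiff_infty_iff_deriv]
  refine ⟨fun t => (stepΓ_hasDerivAt t).differentiableAt, ?_⟩
  have : deriv stepΓ = fun t => - stepγ t := funext fun t => (stepΓ_hasDerivAt t).deriv
  rw [this]
  exact stepγ_contDiff.neg

lemma stepΓ_zero {t : ℝ} (ht : 1 ≤ t) : stepΓ t = 0 := by
  simp only [stepΓ]
  rw [intervalIntegral.integral_symm]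
  have : ∫ τ in (1 : ℝ)..t, stepγ τ = ∫ τ in (1 : ℝ)..t, (0 : ℝ) := by
    apply intervalIntegral.integral_congr
    intro τ hτ
    rw [Set.uIcc_of_le ht] at hτ
    exact stepγ_zero_right hτ.1
  rw [this]
  simp

lemma stepΓ_nonneg (t : ℝ) : 0 ≤ stepΓ t := by
  by_cases ht : t ≤ 1
  · exact intervalIntegral.integral_nonneg ht fun τ _ => stepγ_nonneg τ
  · rw [stepΓ_zero (le_of_not_ge ht)]

/-- The maximum of `stepΓ`. -/
noncomputable def stepC : ℝ := stepΓ 0

lemma stepΓ_le (t : ℝ) : stepΓ t ≤ stepC := by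
  have hc : Continuous stepγ := stepγ_contDiff.continuous
  by_cases h0 : t ≤ 0
  · have h1 : stepΓ t = (∫ τ in t..0, stepγ τ) + stepΓ 0 := by
      simp only [stepΓ]
      rw [intervalIntegral.integral_add_adjacent_intervals (hc.intervalIntegrable _ _)
        (hc.intervalIntegrable _ _)]
    have h2 : ∫ τ in t..0, stepγ τ = ∫ τ in t..0, (0 : ℝ) := by
      apply intervalIntegral.integral_congr
      intro τ hτ
      rw [Set.uIcc_of_le h0] at hτ
      exact stepγ_zero_left hτ.2
    rw [h1, h2]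
    simp [stepC]
  · have h0' : 0 ≤ t := le_of_lt (not_le.1 h0)
    have h1 : stepΓ 0 = (∫ τ in (0 : ℝ)..t, stepγ τ) + stepΓ t := by
      simp only [stepΓ]
      rw [intervalIntegral.integral_add_adjacent_intervals (hc.intervalIntegrable _ _)
        (hc.intervalIntegrable _ _)]
    have h2 : 0 ≤ ∫ τ in (0 : ℝ)..t, stepγ τ :=
      intervalIntegral.integral_nonneg h0' fun τ _ => stepγ_nonneg τ
    simp only [stepC]
    linarith

lemma stepC_nonneg : 0 ≤ stepC := stepΓ_nonneg 0

/-- If at most one term is nonzero, the square of the sum is the sum of squares. -/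
lemma sq_sum_of_disjoint {ι : Type*} (s : Finset ι) (b : ι → ℝ)
    (h : ∀ k ∈ s, ∀ l ∈ s, k ≠ l → b k * b l = 0) :
    (∑ k ∈ s, b k) ^ 2 = ∑ k ∈ s, b k ^ 2 := by
  classical
  induction s using Finset.induction_on with
  | empty => simp
  | insert a s ha ih =>
    have h1 : b a * ∑ k ∈ s, b k = 0 := by
      rw [Finset.mul_sum]
      refine Finset.sum_eq_zero fun k hk => ?_
      exact h a (by simp) k (by simp [hk]) (fun e => ha (e ▸ hk))
    rw [Finset.sum_insert ha, Finset.sum_insert ha, add_sq,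
      ih fun k hk l hl hkl => h k (by simp [hk]) l (by simp [hl]) hkl]
    nlinarith

/-- The cut-off function: equal to `1` below `t₀` and to `0` above `t₀ + K`. -/
noncomputable def cutH (a : ℕ → ℝ) (K : ℕ) (t₀ : ℝ) (s : ℝ) : ℝ :=
  1 - ∑ k ∈ Finset.range K, a k * stepΨ (s - (t₀ + k))

lemma cutH_contDiff (a : ℕ → ℝ) (K : ℕ) (t₀ : ℝ) : ContDiff ℝ ∞ (cutH a K t₀) := by
  unfold cutH
  refine contDiff_const.sub (ContDiff.sum fun k _ => contDiff_const.mul ?_)
  exact stepΨ_contDiff.comp (contDiff_id.sub contDiff_const)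

lemma cutH_one (a : ℕ → ℝ) (K : ℕ) {t₀ s : ℝ} (hs : s ≤ t₀) : cutH a K t₀ s = 1 := by
  unfold cutH
  have : ∀ k ∈ Finset.range K, a k * stepΨ (s - (t₀ + k)) = 0 := by
    intro k _
    have hk : (0 : ℝ) ≤ k := Nat.cast_nonneg k
    rw [stepΨ_zero (by linarith)]
    simp
  rw [Finset.sum_eq_zero this]
  simp

lemma cutH_zero {a : ℕ → ℝ} {K : ℕ} (ha : ∑ k ∈ Finset.range K, a k = 1) {t₀ s : ℝ}
    (hs : t₀ + K ≤ s) : cutH a K t₀ s = 0 := by
  unfold cutH
  have : ∀ k ∈ Finset.range K, a k * stepΨ (s - (t₀ + k)) = a k := by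
    intro k hk
    have hk' : ((k : ℝ) + 1) ≤ K := by exact_mod_cast Finset.mem_range.1 hk
    rw [stepΨ_one (by linarith)]
    simp
  rw [Finset.sum_congr rfl this, ha]
  simp

lemma cutH_hasDerivAt (a : ℕ → ℝ) (K : ℕ) (t₀ s : ℝ) :
    HasDerivAt (cutH a K t₀) (- ∑ k ∈ Finset.range K, a k * stepψ (s - (t₀ + k))) s := by
  unfold cutH
  have h : ∀ k ∈ Finset.range K, HasDerivAt (fun s => a k * stepΨ (s - (t₀ + k)))
      (a k * stepψ (s - (t₀ + k))) s := by
    intro k _
    have h1 : HasDerivAt (fun s : ℝ => s - (t₀ + k)) 1 s := (hasDerivAt_id s).sub_const _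
    have h2 := (stepΨ_hasDerivAt (s - (t₀ + k))).comp s h1
    simpa using h2.const_mul (a k)
  have h3 := HasDerivAt.fun_sum h
  exact (h3.const_sub 1)

lemma cutH_deriv_sq (a : ℕ → ℝ) (K : ℕ) (t₀ s : ℝ) :
    (- ∑ k ∈ Finset.range K, a k * stepψ (s - (t₀ + k))) ^ 2 =
      ∑ k ∈ Finset.range K, a k ^ 2 * stepγ (s - (t₀ + k)) := by
  rw [neg_sq, sq_sum_of_disjoint]
  · refine Finset.sum_congr rfl fun k _ => ?_
    simp [stepγ, mul_pow]
  · intro k _ l _ hkl
    -- the supports of the two bumps are disjoint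
    wlog hlt : k < l generalizing k l
    · have := this l (by assumption) k (by assumption) hkl.symm
        (lt_of_le_of_ne (le_of_not_gt hlt) hkl.symm)
      linarith
    have hl : ((k : ℝ) + 1) ≤ l := by exact_mod_cast hlt
    by_cases hs : s - (t₀ + k) ≤ 1
    · have : s - (t₀ + l) ≤ 0 := by linarith
      rw [stepψ_zero_left this]
      simp
    · rw [stepψ_zero_right (le_of_lt (not_le.1 hs))]
      simp

end Vale.Agent.Lib.P252
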