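import Mathlib

/-!
Definitions for the affine maximal equation on an open subset of `Fin n → ℝ`.
-/

open scoped ContDiff

namespace Vale.Agent.Lib.P252

variable {n : ℕ}

/-- The `i`-th partial derivative of `f` at `x`. -/
noncomputable def pd (i : Fin n) (f : (Fin n → ℝ) → ℝ) (x : Fin n → ℝ) : ℝ :=
  fderiv ℝ f x (Pi.single i 1)

/-- The Hessian matrix `D²u(x)`. -/
noncomputable def hess (u : (Fin n → ℝ) → ℝ) (x : Fin n → ℝ) : Matrix (Fin n) (Fin n) ℝ :=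
  Matrix.of fun i j => pd i (pd j u) x

/-- The matrix `U^{ij} = det(D²u) (D²u)^{-1}_{ij}`. -/
noncomputable def cofU (u : (Fin n → ℝ) → ℝ) (x : Fin n → ℝ) : Matrix (Fin n) (Fin n) ℝ :=
  (hess u x).det • (hess u x)⁻¹

/-- The function `w = (det D²u)^{-(n+1)/(n+2)}`. -/
noncomputable def weightW (u : (Fin n → ℝ) → ℝ) (x : Fin n → ℝ) : ℝ :=
  (hess u x).det ^ (-((n : ℝ) + 1) / ((n : ℝ) + 2))

/-- `u` is smooth on `Ω`, has positive definite Hessian at every point of `Ω` and solves the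
affine maximal equation `∑ U^{ij} ∂_i ∂_j w = 0` on `Ω`. -/
structure IsAffineMaximal (Ω : Set (Fin n → ℝ)) (u : (Fin n → ℝ) → ℝ) : Prop where
  smooth : ContDiffOn ℝ ∞ u Ω
  posDef : ∀ x ∈ Ω, (hess u x).PosDef
  eqn : ∀ x ∈ Ω, ∑ i, ∑ j, cofU u x i j * pd i (pd j (weightW u)) x = 0

/-- The normalisation `ū(x) = u(x) - u(x₀) - Du(x₀)(x - x₀)` of `u` at the point `x₀`. -/
noncomputable def uBar (u : (Fin n → ℝ) → ℝ) (x₀ x : Fin n → ℝ) : ℝ :=
  u x - u x₀ - fderiv ℝ u x₀ (x - x₀)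

/-- The Legendre dual potential `v(x) = Dū(x)(x - x₀) - ū(x)` in the coordinates `x`. -/
noncomputable def vDual (u : (Fin n → ℝ) → ℝ) (x₀ x : Fin n → ℝ) : ℝ :=
  fderiv ℝ (uBar u x₀) x (x - x₀) - uBar u x₀ x

end Vale.Agent.Lib.P252
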