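import Vale.Agent.Lib.P252.Comb32
import Vale.Agent.Lib.P252.VolDet

/-!
The Liouville theorem in dimension three under an upper bound for the Hessian determinant.
-/

open scoped ContDiff Topology Matrix
open MeasureTheory Set Filter

namespace Vale.Agent.Lib.P252

variable {Ω : Set (Fin 3 → ℝ)} {u : (Fin 3 → ℝ) → ℝ} {x₀ : Fin 3 → ℝ}

/-- The Liouville theorem when `D ≤ C (1 + ū)^k` with `k < 2/3`. -/
theorem det_const_of_det_bound (hs : IsAffineMaximal Ω u) (hΩ : IsOpen Ω) (hc : Convex ℝ Ω)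
    (hx₀ : x₀ ∈ Ω) (hcpt : ∀ s, IsCompact (subLevelC Ω (uBar u x₀) s)) {C k : ℝ} (hk : k < 2 / 3)
    (hD : ∀ x ∈ Ω, (hess u x).det ≤ C * (1 + uBar u x₀ x) ^ k) {x y : Fin 3 → ℝ}
    (hx : x ∈ Ω) (hy : y ∈ Ω) : (hess u x).det = (hess u y).det := by
  have hu0 : ∀ x ∈ Ω, 0 ≤ uBar u x₀ x := fun x hx =>
    uBar_nonneg hΩ hc hs.smooth hs.posDef hx₀ hx
  have hCpos : 0 < C := by
    have h1 := hD x₀ hx₀
    have h2 := hs.det_pos hx₀
    have h3 : 0 < (1 + uBar u x₀ x₀) ^ k :=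
      Real.rpow_pos_of_pos (by linarith [hu0 x₀ hx₀]) _
    by_contra hcon
    have h4 : C ≤ 0 := not_lt.1 hcon
    nlinarith
  have hD' : ∀ x ∈ Ω, (hess u x).det ≤ C * (1 + uBar u x₀ x) ^ (max k 0) := by
    intro z hz
    refine (hD z hz).trans (mul_le_mul_of_nonneg_left ?_ hCpos.le)
    exact Real.rpow_le_rpow_of_exponent_le (by linarith [hu0 z hz]) (le_max_left _ _)
  have hk2 : max k 0 < 2 / 3 := max_lt hk (by norm_num)
  exact Cert32.det_const hs hΩ hc hx₀ hcpt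
    (mass_small_of_pointwise hs hΩ hc hx₀ hcpt (β := 3 / 2) (by norm_num) (le_max_right _ _)
      (by linarith) hD') hx hy

section Entire

variable {u : (Fin 3 → ℝ) → ℝ} {x₀ : Fin 3 → ℝ}

/-- An entire function with positive definite Hessian grows at least linearly. -/
lemma linear_lower (hu : ContDiffOn ℝ ∞ u Set.univ)
    (hpos : ∀ x ∈ (Set.univ : Set (Fin 3 → ℝ)), (hess u x).PosDef) :
    ∃ m : ℝ, 0 < m ∧ ∀ x, 1 ≤ ‖x - x₀‖ → m * ‖x - x₀‖ ≤ uBar u x₀ x := by
  have hf : ContDiffOn ℝ ∞ (uBar u x₀) Set.univ := contDiffOn_uBar hu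
  have hfc : Continuous (uBar u x₀) :=
    continuousOn_univ.1 hf.continuousOn
  have hcomp : IsCompact (Metric.sphere x₀ (1 : ℝ)) := isCompact_sphere _ _
  have hne : (Metric.sphere x₀ (1 : ℝ)).Nonempty := by
    refine ⟨x₀ + fun _ => 1, ?_⟩
    rw [mem_sphere_iff_norm, add_sub_cancel_left, pi_norm_const]
    simp
  obtain ⟨z₀, hz₀, hmin⟩ := hcomp.exists_isMinOn hne hfc.continuousOn
  have hz₀1 : ‖z₀ - x₀‖ = 1 := by simpa [mem_sphere_iff_norm] using hz₀
  have hne0 : z₀ ≠ x₀ := by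
    intro h
    rw [h] at hz₀1
    simp at hz₀1
  have hm : 0 < uBar u x₀ z₀ := by
    have h1 := tangent_lt (x₀ := x₀) isOpen_univ convex_univ hu hpos (mem_univ x₀) (mem_univ z₀)
      (Ne.symm hne0)
    rw [uBar_self, fderiv_uBar_self isOpen_univ hu (mem_univ x₀)] at h1
    simpa using h1
  refine ⟨uBar u x₀ z₀, hm, fun x hx => ?_⟩
  set d := ‖x - x₀‖ with hd
  have hd0 : 0 < d := by linarith
  set z := x₀ + (1 / d) • (x - x₀) with hz
  have hzn : z ∈ Metric.sphere x₀ (1 : ℝ) := by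
    rw [mem_sphere_iff_norm, hz, add_sub_cancel_left, norm_smul, Real.norm_eq_abs,
      abs_of_pos (by positivity)]
    field_simp
    rw [← hd]
  have hzx : x₀ + d • (z - x₀) = x := by
    rw [hz, add_sub_cancel_left, smul_smul]
    have : d * (1 / d) = 1 := by field_simp
    rw [this, one_smul]
    abel
  have h2 := uBar_ray (x₀ := x₀) isOpen_univ convex_univ hu hpos (mem_univ x₀) (mem_univ z) hx
    (mem_univ _)
  rw [hzx] at h2
  have h3 : uBar u x₀ z₀ ≤ uBar u x₀ z := hmin hzn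
  calc uBar u x₀ z₀ * d ≤ uBar u x₀ z * d := mul_le_mul_of_nonneg_right h3 hd0.le
    _ = d * uBar u x₀ z := mul_comm _ _
    _ ≤ uBar u x₀ x := h2

/-- The Liouville theorem for entire solutions when `D ≤ C (1 + |x - x₀|)^k` with `k < 2/3`. -/
theorem det_const_of_det_bound_entire (hs : IsAffineMaximal Set.univ u) {C k : ℝ} (hk : k < 2 / 3)
    (hD : ∀ x, (hess u x).det ≤ C * (1 + ‖x - x₀‖) ^ k) (x y : Fin 3 → ℝ) :
    (hess u x).det = (hess u y).det := by
  have hcpt : ∀ s, IsCompact (subLevelC Set.univ (uBar u x₀) s) :=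
    isCompact_subLevel_of_complete isOpen_univ convex_univ hs.smooth hs.posDef (mem_univ x₀)
      (isEuclideanComplete_univ u)
  have hu0 : ∀ x, 0 ≤ uBar u x₀ x := fun x =>
    uBar_nonneg isOpen_univ convex_univ hs.smooth hs.posDef (mem_univ x₀) (mem_univ x)
  have hCpos : 0 < C := by
    have h1 := hD x₀
    have h2 := hs.det_pos (mem_univ x₀)
    have h3 : 0 < (1 + ‖x₀ - x₀‖) ^ k := Real.rpow_pos_of_pos (by positivity) _
    by_contra hcon
    have h4 : C ≤ 0 := not_lt.1 hcon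
    nlinarith
  obtain ⟨m, hm, hlow⟩ := linear_lower (x₀ := x₀) hs.smooth hs.posDef
  set K : ℝ := 2 + 1 / m with hK
  have hK0 : 0 < K := by positivity
  have hbd : ∀ x, (1 + ‖x - x₀‖) ≤ K * (1 + uBar u x₀ x) := by
    intro x
    have hm1 : 0 < 1 / m := by positivity
    by_cases h : 1 ≤ ‖x - x₀‖
    · have h2 := hlow x h
      have h3 : ‖x - x₀‖ ≤ 1 / m * uBar u x₀ x := by
        rw [div_mul_eq_mul_div, one_mul, le_div_iff₀ hm]
        linarith
      have := hu0 x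
      rw [hK]
      nlinarith
    · have h2 : ‖x - x₀‖ < 1 := not_le.1 h
      have := hu0 x
      rw [hK]
      nlinarith
  -- replace `k` by a nonnegative exponent
  set k' := max k 0 with hk'
  have hk'0 : 0 ≤ k' := le_max_right _ _
  have hk'2 : k' < 2 / 3 := max_lt hk (by norm_num)
  have hD' : ∀ z ∈ (Set.univ : Set (Fin 3 → ℝ)),
      (hess u z).det ≤ (C * K ^ k') * (1 + uBar u x₀ z) ^ k' := by
    intro z _
    refine (hD z).trans ?_
    have h1 : (1 + ‖z - x₀‖) ^ k ≤ (1 + ‖z - x₀‖) ^ k' :=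
      Real.rpow_le_rpow_of_exponent_le (by linarith [norm_nonneg (z - x₀)]) (le_max_left _ _)
    have h2 : (1 + ‖z - x₀‖) ^ k' ≤ (K * (1 + uBar u x₀ z)) ^ k' :=
      Real.rpow_le_rpow (by positivity) (hbd z) hk'0
    rw [Real.mul_rpow hK0.le (by linarith [hu0 z])] at h2
    calc C * (1 + ‖z - x₀‖) ^ k ≤ C * (K ^ k' * (1 + uBar u x₀ z) ^ k') :=
          mul_le_mul_of_nonneg_left (h1.trans h2) hCpos.le
      _ = C * K ^ k' * (1 + uBar u x₀ z) ^ k' := by ring
  exact det_const_of_det_bound hs isOpen_univ convex_univ (mem_univ x₀) hcpt hk'2 hD' (mem_univ x)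
    (mem_univ y)

end Entire

end Vale.Agent.Lib.P252
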