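import Vale.Agent.Lib.P252.Calc

open scoped ContDiff Matrix

namespace Vale.Agent.Lib.P252

variable {n : ℕ} {Ω : Set (Fin n → ℝ)}

lemma contDiffOn_det {M : (Fin n → ℝ) → Matrix (Fin n) (Fin n) ℝ}
    (hM : ∀ i j, ContDiffOn ℝ ∞ (fun y => M y i j) Ω) :
    ContDiffOn ℝ ∞ (fun y => (M y).det) Ω := by
  simp only [Matrix.det_apply]
  apply ContDiffOn.sum
  intro σ _
  apply ContDiffOn.const_smul
  apply contDiffOn_prod
  intro i _
  exact hM _ _

lemma contDiffOn_adjugate {M : (Fin n → ℝ) → Matrix (Fin n) (Fin n) ℝ}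
    (hM : ∀ i j, ContDiffOn ℝ ∞ (fun y => M y i j) Ω) (a b : Fin n) :
    ContDiffOn ℝ ∞ (fun y => (M y).adjugate a b) Ω := by
  simp only [Matrix.adjugate_apply]
  apply contDiffOn_det
  intro i j
  by_cases h : i = b
  · subst h
    simp only [Matrix.updateRow_self]
    exact contDiffOn_const
  · simp only [Matrix.updateRow_ne h]
    exact hM i j

/-- `det` as a continuous multilinear map of the rows. -/
noncomputable def detCML (n : ℕ) :
    ContinuousMultilinearMap ℝ (fun _ : Fin n => Fin n → ℝ) ℝ where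
  toMultilinearMap := (Matrix.detRowAlternating : (Fin n → ℝ) [⋀^Fin n]→ₗ[ℝ] ℝ).toMultilinearMap
  cont := by
    change Continuous fun m : Fin n → Fin n → ℝ => Matrix.det (Matrix.of m)
    exact Continuous.matrix_det (by exact continuous_id)

lemma det_updateRow_eq_sum (A : Matrix (Fin n) (Fin n) ℝ) (k : Fin n) (r : Fin n → ℝ) :
    (A.updateRow k r).det = ∑ l, A.adjugate l k * r l := by
  have h1 : (A.updateRow k r).det = (Aᵀ.updateCol k r).det := by
    rw [← Matrix.det_transpose, Matrix.updateCol_transpose]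
  rw [h1, ← Matrix.cramer_apply, Matrix.cramer_eq_adjugate_mulVec, ← Matrix.adjugate_transpose]
  simp [Matrix.mulVec, dotProduct]

/-- Jacobi's formula. -/
lemma pd_det {M : (Fin n → ℝ) → Matrix (Fin n) (Fin n) ℝ} {x : Fin n → ℝ}
    (hM : ∀ i j, DifferentiableAt ℝ (fun y => M y i j) x) (i : Fin n) :
    pd i (fun y => (M y).det) x =
      ∑ k, ∑ l, (M x).adjugate l k * pd i (fun y => M y k l) x := by
  have hrow : ∀ k, HasFDerivAt (fun y => M y k)
      (ContinuousLinearMap.pi fun l => fderiv ℝ (fun y => M y k l) x) x := fun k =>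
    hasFDerivAt_pi.2 fun l => (hM k l).hasFDerivAt
  have h := HasFDerivAt.comp x ((detCML n).hasFDerivAt (fun j => M x j)) (hasFDerivAt_pi.2 hrow)
  have hh : HasFDerivAt (fun y => (M y).det) _ x := h
  simp only [pd]
  rw [hh.fderiv]
  simp only [ContinuousLinearMap.comp_apply]
  rw [ContinuousMultilinearMap.linearDeriv_apply]
  apply Finset.sum_congr rfl
  intro k _
  have h2 : (detCML n) (Function.update (fun j => M x j) k
      (ContinuousLinearMap.pi (fun k => ContinuousLinearMap.pi fun l =>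
        fderiv ℝ (fun y => M y k l) x) (Pi.single i 1) k)) =
      ((M x).updateRow k (fun l => fderiv ℝ (fun y => M y k l) x (Pi.single i 1))).det := by
    rfl
  rw [h2, det_updateRow_eq_sum]

section Hess

variable {u : (Fin n → ℝ) → ℝ}

lemma contDiffOn_hess (hΩ : IsOpen Ω) (hu : ContDiffOn ℝ ∞ u Ω) (i j : Fin n) :
    ContDiffOn ℝ ∞ (fun y => hess u y i j) Ω :=
  contDiffOn_pd2 hΩ hu i j

lemma contDiffOn_detHess (hΩ : IsOpen Ω) (hu : ContDiffOn ℝ ∞ u Ω) :
    ContDiffOn ℝ ∞ (fun y => (hess u y).det) Ω :=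
  contDiffOn_det (contDiffOn_hess hΩ hu)

lemma contDiffOn_adjHess (hΩ : IsOpen Ω) (hu : ContDiffOn ℝ ∞ u Ω) (a b : Fin n) :
    ContDiffOn ℝ ∞ (fun y => (hess u y).adjugate a b) Ω :=
  contDiffOn_adjugate (contDiffOn_hess hΩ hu) a b

/-- Third derivatives are symmetric in the first two slots. -/
lemma T_swap12 (hΩ : IsOpen Ω) (hu : ContDiffOn ℝ ∞ u Ω) {x : Fin n → ℝ} (hx : x ∈ Ω)
    (i j k : Fin n) : pd i (pd j (pd k u)) x = pd j (pd i (pd k u)) x :=
  pd_comm hΩ (contDiffOn_pd hΩ hu k) hx i j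

/-- Third derivatives are symmetric in the last two slots. -/
lemma T_swap23 (hΩ : IsOpen Ω) (hu : ContDiffOn ℝ ∞ u Ω) {x : Fin n → ℝ} (hx : x ∈ Ω)
    (i j k : Fin n) : pd i (pd j (pd k u)) x = pd i (pd k (pd j u)) x :=
  pd_congr_on hΩ hx (fun y hy => pd_comm hΩ hu hy j k) i

/-- Derivative of the adjugate of the Hessian. -/
lemma pd_adj (hΩ : IsOpen Ω) (hu : ContDiffOn ℝ ∞ u Ω) {x : Fin n → ℝ} (hx : x ∈ Ω)
    (hdet : (hess u x).det ≠ 0) (i a b : Fin n) :
    pd i (fun y => (hess u y).adjugate a b) x =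
      pd i (fun y => (hess u y).det) x * (hess u x)⁻¹ a b
        - ∑ l, ∑ m, (hess u x).adjugate a l * pd i (pd l (pd m u)) x * (hess u x)⁻¹ m b := by
  classical
  set A := hess u x with hA
  have hAinv : A * A⁻¹ = 1 := Matrix.mul_nonsing_inv A (isUnit_iff_ne_zero.2 hdet)
  -- differentiate `adj A * A = det A • 1`
  have key : ∀ p q : Fin n,
      ∑ l, (pd i (fun y => (hess u y).adjugate p l) x * A l q
          + A.adjugate p l * pd i (pd l (pd q u)) x)
        = pd i (fun y => (hess u y).det) x * (1 : Matrix (Fin n) (Fin n) ℝ) p q := by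
    intro p q
    have h1 : (fun y => ∑ l, (hess u y).adjugate p l * hess u y l q) =
        fun y => (hess u y).det * (1 : Matrix (Fin n) (Fin n) ℝ) p q := by
      funext y
      have := congrFun (congrFun (Matrix.adjugate_mul (hess u y)) p) q
      simpa [Matrix.mul_apply] using this
    have hadj : ∀ l, DifferentiableAt ℝ (fun y => (hess u y).adjugate p l) x := fun l =>
      diffAt hΩ (contDiffOn_adjHess hΩ hu p l) hx
    have hent : ∀ l, DifferentiableAt ℝ (fun y => hess u y l q) x := fun l =>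
      diffAt hΩ (contDiffOn_hess hΩ hu l q) hx
    have h2 := congrArg (fun f => pd i f x) h1
    change pd i (fun y => ∑ l, (hess u y).adjugate p l * hess u y l q) x =
      pd i (fun y => (hess u y).det * (1 : Matrix (Fin n) (Fin n) ℝ) p q) x at h2
    rw [pd_sum Finset.univ (f := fun l y => (hess u y).adjugate p l * hess u y l q)
      (fun l _ => (hadj l).fun_mul (hent l))] at h2
    have h3 : pd i (fun y => (hess u y).det * (1 : Matrix (Fin n) (Fin n) ℝ) p q) x =
        pd i (fun y => (hess u y).det) x * (1 : Matrix (Fin n) (Fin n) ℝ) p q := by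
      rw [pd_mul (diffAt hΩ (contDiffOn_detHess hΩ hu) hx) (differentiableAt_const _)]
      simp [pd_const]
    rw [h3] at h2
    rw [← h2]
    apply Finset.sum_congr rfl
    intro l _
    rw [pd_mul (hadj l) (hent l) i]
    rfl
  -- solve for the derivative of the adjugate
  let dU : Matrix (Fin n) (Fin n) ℝ := Matrix.of fun p q => pd i (fun y => (hess u y).adjugate p q) x
  let Tm : Matrix (Fin n) (Fin n) ℝ := Matrix.of fun p q => pd i (pd p (pd q u)) x
  have hm : dU * A + A.adjugate * Tm =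
      pd i (fun y => (hess u y).det) x • (1 : Matrix (Fin n) (Fin n) ℝ) := by
    ext p q
    have := key p q
    simp only [Matrix.add_apply, Matrix.mul_apply, Matrix.smul_apply, smul_eq_mul]
    rw [← this, ← Finset.sum_add_distrib]
    rfl
  have hm2 : dU = pd i (fun y => (hess u y).det) x • A⁻¹ - A.adjugate * Tm * A⁻¹ := by
    have h5 : dU * A = pd i (fun y => (hess u y).det) x • (1 : Matrix (Fin n) (Fin n) ℝ)
        - A.adjugate * Tm := by rw [← hm]; abel
    calc dU = dU * (A * A⁻¹) := by rw [hAinv, Matrix.mul_one]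
      _ = (dU * A) * A⁻¹ := by rw [Matrix.mul_assoc]
      _ = _ := by
        rw [h5, Matrix.sub_mul, Matrix.smul_mul, Matrix.one_mul]
  have h6 := congrFun (congrFun hm2 a) b
  change pd i (fun y => (hess u y).adjugate a b) x = _ at h6
  rw [h6]
  simp only [Matrix.sub_apply, Matrix.smul_apply, smul_eq_mul, Matrix.mul_apply]
  congr 1
  simp only [Finset.sum_mul]
  rw [Finset.sum_comm]
  rfl

/-- The cofactor matrix of a Hessian is divergence free. -/
lemma div_adj (hΩ : IsOpen Ω) (hu : ContDiffOn ℝ ∞ u Ω) {x : Fin n → ℝ} (hx : x ∈ Ω)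
    (hdet : (hess u x).det ≠ 0) (b : Fin n) :
    ∑ a, pd a (fun y => (hess u y).adjugate a b) x = 0 := by
  classical
  have hD : ∀ a, pd a (fun y => (hess u y).det) x =
      ∑ k, ∑ l, (hess u x).adjugate l k * pd a (pd k (pd l u)) x := by
    intro a
    exact pd_det (fun i j => diffAt hΩ (contDiffOn_hess hΩ hu i j) hx) a
  simp only [pd_adj hΩ hu hx hdet, hD]
  rw [Finset.sum_sub_distrib, sub_eq_zero]
  simp only [Finset.sum_mul]
  -- first sum: a, k, l  ↦  U l k * T a k l * B a b
  -- second sum: a, l, m ↦  U a l * T a l m * B m b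
  calc ∑ a, ∑ k, ∑ l, (hess u x).adjugate l k * pd a (pd k (pd l u)) x * (hess u x)⁻¹ a b
      = ∑ a, ∑ k, ∑ l, (hess u x).adjugate l k * pd l (pd k (pd a u)) x * (hess u x)⁻¹ a b := by
        refine Finset.sum_congr rfl fun a _ => Finset.sum_congr rfl fun k _ =>
          Finset.sum_congr rfl fun l _ => ?_
        congr 2
        rw [T_swap12 hΩ hu hx a k l, T_swap23 hΩ hu hx k a l, T_swap12 hΩ hu hx k l a]
    _ = ∑ k, ∑ a, ∑ l, (hess u x).adjugate l k * pd l (pd k (pd a u)) x * (hess u x)⁻¹ a b :=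
        Finset.sum_comm
    _ = ∑ k, ∑ l, ∑ a, (hess u x).adjugate l k * pd l (pd k (pd a u)) x * (hess u x)⁻¹ a b :=
        Finset.sum_congr rfl fun k _ => Finset.sum_comm
    _ = ∑ l, ∑ k, ∑ a, (hess u x).adjugate l k * pd l (pd k (pd a u)) x * (hess u x)⁻¹ a b :=
        Finset.sum_comm

end Hess

end Vale.Agent.Lib.P252
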