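import Vale.Agent.Lib.P252.IBP

open scoped ContDiff Matrix
open MeasureTheory

namespace Vale.Agent.Lib.P252

variable {n : ℕ} {Ω : Set (Fin n → ℝ)} {u : (Fin n → ℝ) → ℝ}

/-- The gradient vector. -/
noncomputable def gr (f : (Fin n → ℝ) → ℝ) (x : Fin n → ℝ) : Fin n → ℝ := fun i => pd i f x

/-- The bilinear form of a matrix. -/
noncomputable def Qv (U : Matrix (Fin n) (Fin n) ℝ) (a b : Fin n → ℝ) : ℝ :=
  ∑ i, ∑ j, U i j * a i * b j

lemma formQ_eq (f g : (Fin n → ℝ) → ℝ) (x : Fin n → ℝ) :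
    formQ u f g x = Qv (hess u x).adjugate (gr f x) (gr g x) := rfl

lemma Qv_add_left (U : Matrix (Fin n) (Fin n) ℝ) (a a' b : Fin n → ℝ) :
    Qv U (a + a') b = Qv U a b + Qv U a' b := by
  simp only [Qv, Pi.add_apply, ← Finset.sum_add_distrib]
  exact Finset.sum_congr rfl fun i _ => Finset.sum_congr rfl fun j _ => by ring

lemma Qv_smul_left (U : Matrix (Fin n) (Fin n) ℝ) (c : ℝ) (a b : Fin n → ℝ) :
    Qv U (c • a) b = c * Qv U a b := by
  simp only [Qv, Pi.smul_apply, smul_eq_mul, Finset.mul_sum]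
  exact Finset.sum_congr rfl fun i _ => Finset.sum_congr rfl fun j _ => by ring

lemma Qv_add_right (U : Matrix (Fin n) (Fin n) ℝ) (a b b' : Fin n → ℝ) :
    Qv U a (b + b') = Qv U a b + Qv U a b' := by
  simp only [Qv, Pi.add_apply, ← Finset.sum_add_distrib]
  exact Finset.sum_congr rfl fun i _ => Finset.sum_congr rfl fun j _ => by ring

lemma Qv_smul_right (U : Matrix (Fin n) (Fin n) ℝ) (c : ℝ) (a b : Fin n → ℝ) :
    Qv U a (c • b) = c * Qv U a b := by
  simp only [Qv, Pi.smul_apply, smul_eq_mul, Finset.mul_sum]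
  exact Finset.sum_congr rfl fun i _ => Finset.sum_congr rfl fun j _ => by ring

lemma Qv_symm {U : Matrix (Fin n) (Fin n) ℝ} (hU : Uᵀ = U) (a b : Fin n → ℝ) :
    Qv U a b = Qv U b a := by
  simp only [Qv]
  rw [Finset.sum_comm]
  refine Finset.sum_congr rfl fun i _ => Finset.sum_congr rfl fun j _ => ?_
  have : U j i = U i j := congrFun (congrFun hU i) j
  rw [this]
  ring

lemma Qv_eq_dot (U : Matrix (Fin n) (Fin n) ℝ) (a b : Fin n → ℝ) :
    Qv U a b = a ⬝ᵥ U *ᵥ b := by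
  simp only [Qv, dotProduct, Matrix.mulVec, Finset.mul_sum]
  exact Finset.sum_congr rfl fun i _ => Finset.sum_congr rfl fun j _ => by ring

lemma Qv_pos {U : Matrix (Fin n) (Fin n) ℝ} (hU : U.PosDef) {a : Fin n → ℝ} (ha : a ≠ 0) :
    0 < Qv U a a := by
  rw [Qv_eq_dot]
  simpa using hU.dotProduct_mulVec_pos ha

lemma Qv_nonneg {U : Matrix (Fin n) (Fin n) ℝ} (hU : U.PosDef) (a : Fin n → ℝ) :
    0 ≤ Qv U a a := by
  by_cases ha : a = 0
  · subst ha; simp [Qv]
  · exact (Qv_pos hU ha).le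

/-- The gradient of a product. -/
lemma gr_mul {f g : (Fin n → ℝ) → ℝ} {x : Fin n → ℝ} (hf : DifferentiableAt ℝ f x)
    (hg : DifferentiableAt ℝ g x) :
    gr (fun y => f y * g y) x = g x • gr f x + f x • gr g x := by
  funext i
  simp [gr, pd_mul hf hg, mul_comm]

/-- The chain rule for the gradient. -/
lemma gr_comp {g : ℝ → ℝ} {f : (Fin n → ℝ) → ℝ} {x : Fin n → ℝ} {g' : ℝ}
    (hg : HasDerivAt g g' (f x)) (hf : DifferentiableAt ℝ f x) :
    gr (fun y => g (f y)) x = g' • gr f x := by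
  funext i
  simp [gr, pd_comp hg hf]

lemma gr_congr {f g : (Fin n → ℝ) → ℝ} {x : Fin n → ℝ} (h : f =ᶠ[nhds x] g) : gr f x = gr g x := by
  funext i
  exact pd_congr h i

namespace IsAffineMaximal

variable (hs : IsAffineMaximal Ω u)
include hs

lemma det_pos {x : Fin n → ℝ} (hx : x ∈ Ω) : 0 < (hess u x).det :=
  (hs.posDef x hx).det_pos

lemma det_ne {x : Fin n → ℝ} (hx : x ∈ Ω) : (hess u x).det ≠ 0 :=
  (hs.det_pos hx).ne'

lemma cofU_eq {x : Fin n → ℝ} (hx : x ∈ Ω) : cofU u x = (hess u x).adjugate := by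
  have h := hs.det_ne hx
  simp only [cofU, Matrix.inv_def, Ring.inverse_eq_inv', smul_smul, mul_inv_cancel₀ h, one_smul]

lemma adj_posDef {x : Fin n → ℝ} (hx : x ∈ Ω) : (hess u x).adjugate.PosDef := by
  rw [← hs.cofU_eq hx]
  have h := (hs.posDef x hx).inv
  exact h.smul (hs.det_pos hx)

lemma adj_symm {x : Fin n → ℝ} (hx : x ∈ Ω) : ((hess u x).adjugate)ᵀ = (hess u x).adjugate := by
  have h := (hs.adj_posDef hx).isHermitian
  ext i j
  exact congrFun (congrFun h i) j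

lemma formQ_symm {x : Fin n → ℝ} (hx : x ∈ Ω) (f g : (Fin n → ℝ) → ℝ) :
    formQ u f g x = formQ u g f x := by
  simp only [formQ_eq]
  exact Qv_symm (hs.adj_symm hx) _ _

lemma formQ_nonneg {x : Fin n → ℝ} (hx : x ∈ Ω) (f : (Fin n → ℝ) → ℝ) :
    0 ≤ formQ u f f x := by
  rw [formQ_eq]
  exact Qv_nonneg (hs.adj_posDef hx) _

lemma contDiffOn_W (hΩ : IsOpen Ω) : ContDiffOn ℝ ∞ (weightW u) Ω := by
  exact (contDiffOn_detHess hΩ hs.smooth).rpow_const_of_ne fun x hx => hs.det_ne hx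

lemma W_pos {x : Fin n → ℝ} (hx : x ∈ Ω) : 0 < weightW u x :=
  Real.rpow_pos_of_pos (hs.det_pos hx) _

lemma contDiffOn_W_rpow (hΩ : IsOpen Ω) (p : ℝ) : ContDiffOn ℝ ∞ (fun x => weightW u x ^ p) Ω :=
  (hs.contDiffOn_W hΩ).rpow_const_of_ne fun _ hx => (hs.W_pos hx).ne'

lemma opL_W {x : Fin n → ℝ} (hx : x ∈ Ω) : opL u (weightW u) x = 0 := by
  have h := hs.eqn x hx
  rw [hs.cofU_eq hx] at h
  exact h

/-- The weak form of the equation. -/
lemma weak_eq (hΩ : IsOpen Ω) {φ : (Fin n → ℝ) → ℝ} (hφ : IsTest Ω φ) :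
    ∫ x, formQ u φ (weightW u) x = 0 := by
  rw [ibp_master hΩ hs.smooth (fun x hx => hs.det_ne hx) hφ (hs.contDiffOn_W hΩ)]
  have : ∀ x, φ x * opL u (weightW u) x = 0 := by
    intro x
    by_cases hx : x ∈ Ω
    · simp [hs.opL_W hx]
    · have hx' : x ∉ tsupport φ := fun h => hx (hφ.sub h)
      simp [IsTest.eq_zero hx']
  simp [this]

/-- The Caccioppoli inequality with a power weight. -/
lemma caccioppoli (hΩ : IsOpen Ω) {η : (Fin n → ℝ) → ℝ} (hη : IsTest Ω η) (q : ℝ) :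
    ((q - 1) / 2) ^ 2 * ∫ x, η x ^ 2 * (weightW u x ^ (q - 2) * formQ u (weightW u) (weightW u) x)
      ≤ ∫ x, weightW u x ^ q * formQ u η η x := by
  classical
  set W := weightW u with hW
  have hWs : ContDiffOn ℝ ∞ W Ω := hs.contDiffOn_W hΩ
  have hpow : ∀ p : ℝ, ContDiffOn ℝ ∞ (fun x => W x ^ p) Ω := fun p => hs.contDiffOn_W_rpow hΩ p
  have hηs : ContDiffOn ℝ ∞ η Ω := hη.contDiffOn
  -- the test function
  let ψ : (Fin n → ℝ) → ℝ := fun x => η x * W x ^ (q - 1)
  have hψ : IsTest Ω ψ := hη.mul_smoothOn hΩ (hpow _)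
  let φ : (Fin n → ℝ) → ℝ := fun x => η x * ψ x
  have hφ : IsTest Ω φ := hη.mul_smoothOn hΩ hψ.contDiffOn
  have hweak : ∫ x, formQ u φ W x = 0 := hs.weak_eq hΩ hφ
  -- integrands
  let I1 : (Fin n → ℝ) → ℝ := fun x => η x * (W x ^ (q - 1) * formQ u η W x)
  let I2 : (Fin n → ℝ) → ℝ := fun x => η x ^ 2 * (W x ^ (q - 2) * formQ u W W x)
  let I3 : (Fin n → ℝ) → ℝ := fun x => W x ^ q * formQ u η η x
  have hK : IsCompact (tsupport η) := hη.cpt
  have hx_off : ∀ x, x ∉ tsupport η → η x = 0 ∧ formQ u η W x = 0 ∧ formQ u η η x = 0 := by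
    intro x hx
    exact ⟨IsTest.eq_zero hx, formQ_eq_zero_of_test hx, formQ_eq_zero_of_test hx⟩
  have hI1 : Integrable I1 := integrable_of_support hK hη.sub
    (hηs.continuousOn.mul ((hpow _).continuousOn.mul (contOn_formQ hΩ hs.smooth hηs hWs)))
    (fun x hx => by simp [I1, (hx_off x hx).1])
  have hI2 : Integrable I2 := integrable_of_support hK hη.sub
    ((hηs.continuousOn.pow 2).mul ((hpow _).continuousOn.mul (contOn_formQ hΩ hs.smooth hWs hWs)))
    (fun x hx => by simp [I2, (hx_off x hx).1])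
  have hI3 : Integrable I3 := integrable_of_support hK hη.sub
    ((hpow _).continuousOn.mul (contOn_formQ hΩ hs.smooth hηs hηs))
    (fun x hx => by simp [I3, (hx_off x hx).2.2])
  -- pointwise identity for the weak form
  have hid : ∀ x, formQ u φ W x = 2 * I1 x + (q - 1) * I2 x := by
    intro x
    by_cases hx : x ∈ Ω
    · have hηd : DifferentiableAt ℝ η x := diffAt hΩ hηs hx
      have hWd : DifferentiableAt ℝ W x := diffAt hΩ hWs hx
      have hWp : 0 < W x := hs.W_pos hx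
      have hpd : DifferentiableAt ℝ (fun y => W y ^ (q - 1)) x := diffAt hΩ (hpow _) hx
      have hψd : DifferentiableAt ℝ ψ x := diffAt hΩ hψ.contDiffOn hx
      have hd1 : HasDerivAt (fun t : ℝ => t ^ (q - 1)) ((q - 1) * W x ^ (q - 1 - 1)) (W x) :=
        Real.hasDerivAt_rpow_const (Or.inl hWp.ne')
      have g1 : gr (fun y => W y ^ (q - 1)) x = ((q - 1) * W x ^ (q - 1 - 1)) • gr W x :=
        gr_comp hd1 hWd
      have g2 : gr ψ x = W x ^ (q - 1) • gr η x + η x • gr (fun y => W y ^ (q - 1)) x :=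
        gr_mul hηd hpd
      have g3 : gr φ x = ψ x • gr η x + η x • gr ψ x := gr_mul hηd hψd
      have e1 : q - 1 - 1 = q - 2 := by ring
      rw [formQ_eq, g3, g2, g1, e1]
      simp only [Qv_add_left, Qv_smul_left, I1, I2, formQ_eq, ψ]
      ring
    · have hx' : x ∉ tsupport η := fun h => hx (hη.sub h)
      have hx2 : x ∉ tsupport φ := fun h => hx (hφ.sub h)
      rw [formQ_eq_zero_of_test hx2]
      simp [I1, I2, (hx_off x hx').1]
  have hrel : 2 * ∫ x, I1 x = - ((q - 1) * ∫ x, I2 x) := by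
    have : ∫ x, (2 * I1 x + (q - 1) * I2 x) = 0 := by
      rw [← hweak]; exact integral_congr_ae (Filter.Eventually.of_forall fun x => (hid x).symm)
    rw [integral_add (hI1.const_mul 2) (hI2.const_mul _), integral_const_mul,
      integral_const_mul] at this
    linarith
  -- pointwise positivity
  set κ : ℝ := (q - 1) / 2 with hκ
  have hposi : ∀ x, 0 ≤ I3 x + κ * (2 * I1 x) + κ ^ 2 * I2 x := by
    intro x
    by_cases hx : x ∈ Ω
    · have hWp : 0 < W x := hs.W_pos hx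
      have hq := Qv_nonneg (hs.adj_posDef hx) (gr η x + (κ * η x / W x) • gr W x)
      simp only [Qv_add_left, Qv_add_right, Qv_smul_left, Qv_smul_right] at hq
      have hsy : Qv (hess u x).adjugate (gr W x) (gr η x) =
          Qv (hess u x).adjugate (gr η x) (gr W x) := Qv_symm (hs.adj_symm hx) _ _
      rw [hsy] at hq
      have e1 : W x ^ (q - 1) = W x ^ q / W x := Real.rpow_sub_one hWp.ne' q
      have e2 : W x ^ (q - 2) = W x ^ q / W x ^ 2 := by
        rw [Real.rpow_sub hWp, Real.rpow_two]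
      have hWq : 0 < W x ^ q := Real.rpow_pos_of_pos hWp q
      have := mul_nonneg hWq.le hq
      simp only [I1, I2, I3, formQ_eq, e1, e2]
      refine le_of_le_of_eq this ?_
      field_simp
      ring
    · have hx' : x ∉ tsupport η := fun h => hx (hη.sub h)
      simp [I1, I2, I3, (hx_off x hx').1, (hx_off x hx').2.1, (hx_off x hx').2.2]
  have hint : 0 ≤ ∫ x, (I3 x + κ * (2 * I1 x) + κ ^ 2 * I2 x) := integral_nonneg hposi
  have h1' : Integrable (fun x => κ * (2 * I1 x)) := (hI1.const_mul 2).const_mul κ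
  have h2' : Integrable (fun x => κ ^ 2 * I2 x) := hI2.const_mul _
  have h3' : Integrable (fun x => I3 x + κ * (2 * I1 x)) := hI3.add h1'
  rw [integral_add h3' h2', integral_add hI3 h1', integral_const_mul, integral_const_mul,
    integral_const_mul] at hint
  have h2κ : q - 1 = 2 * κ := by rw [hκ]; ring
  rw [h2κ] at hrel
  have : κ * (2 * ∫ x, I1 x) = - (2 * κ ^ 2 * ∫ x, I2 x) := by
    rw [hrel]; ring
  have hfinal : κ ^ 2 * ∫ x, I2 x ≤ ∫ x, I3 x := by nlinarith
  exact hfinal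

end IsAffineMaximal

end Vale.Agent.Lib.P252
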