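import Vale.Agent.Lib.P252.Complete

open scoped ContDiff Topology
open MeasureTheory Set Filter

namespace Vale.Agent.Lib.P252

variable {n : ℕ} {Ω : Set (Fin n → ℝ)} {u : (Fin n → ℝ) → ℝ} {x₀ : Fin n → ℝ}

/-- Sublevel sets of `ū` on an open convex set are bounded. -/
lemma bounded_subLevel (hΩ : IsOpen Ω) (hc : Convex ℝ Ω) (hu : ContDiffOn ℝ ∞ u Ω)
    (hpos : ∀ x ∈ Ω, (hess u x).PosDef) (hx₀ : x₀ ∈ Ω) (s : ℝ) :
    ∃ R : ℝ, ∀ x ∈ Ω, uBar u x₀ x ≤ s → ‖x - x₀‖ ≤ R := by
  classical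
  obtain ⟨r, hr, hball⟩ := Metric.nhds_basis_closedBall.mem_iff.1 (hΩ.mem_nhds hx₀)
  have hb := contDiffOn_uBar (x₀ := x₀) hu
  -- points of the sphere
  have hsph : ∀ x ∈ Ω, r < ‖x - x₀‖ →
      (x₀ + (r / ‖x - x₀‖) • (x - x₀) ∈ Metric.sphere x₀ r) := by
    intro x _ hd
    have hd0 : 0 < ‖x - x₀‖ := lt_trans hr hd
    rw [mem_sphere_iff_norm, add_sub_cancel_left, norm_smul, Real.norm_eq_abs,
      abs_of_pos (div_pos hr hd0)]
    field_simp
  by_cases hne : (Metric.sphere x₀ r).Nonempty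
  · have hsub : Metric.sphere x₀ r ⊆ Ω := Metric.sphere_subset_closedBall.trans hball
    have hcont : ContinuousOn (uBar u x₀) (Metric.sphere x₀ r) := hb.continuousOn.mono hsub
    obtain ⟨z₀, hz₀, hmin⟩ := (isCompact_sphere x₀ r).exists_isMinOn hne hcont
    have hz₀ne : z₀ ≠ x₀ := by
      intro h
      subst h
      simp only [mem_sphere_iff_norm, sub_self, norm_zero] at hz₀
      exact hr.ne hz₀
    have hcpos : 0 < uBar u x₀ z₀ := uBar_pos hΩ hc hu hpos hx₀ (hsub hz₀) hz₀ne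
    refine ⟨max r (s * r / uBar u x₀ z₀), fun x hx hxs => ?_⟩
    by_contra hfar
    have hfar' := not_le.1 hfar
    have hd : r < ‖x - x₀‖ := lt_of_le_of_lt (le_max_left _ _) hfar'
    have hd2 : s * r / uBar u x₀ z₀ < ‖x - x₀‖ := lt_of_le_of_lt (le_max_right _ _) hfar'
    have hd0 : 0 < ‖x - x₀‖ := lt_trans hr hd
    set d := ‖x - x₀‖ with hd_def
    set z := x₀ + (r / d) • (x - x₀) with hz_def
    have hzs : z ∈ Metric.sphere x₀ r := hsph x hx hd
    have hzx : x₀ + (d / r) • (z - x₀) = x := by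
      rw [hz_def, add_sub_cancel_left, smul_smul]
      have : d / r * (r / d) = 1 := by field_simp
      rw [this, one_smul]
      abel
    have hdr : 1 ≤ d / r := (one_le_div hr).2 hd.le
    have h1 := uBar_ray (x₀ := x₀) hΩ hc hu hpos hx₀ (hsub hzs) hdr (by rw [hzx]; exact hx)
    rw [hzx] at h1
    have h2 : uBar u x₀ z₀ ≤ uBar u x₀ z := hmin hzs
    have h3 : d / r * uBar u x₀ z₀ ≤ d / r * uBar u x₀ z :=
      mul_le_mul_of_nonneg_left h2 (by positivity)
    have h4 : s < d / r * uBar u x₀ z₀ := by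
      rw [div_lt_iff₀ hcpos] at hd2
      rw [div_mul_eq_mul_div, lt_div_iff₀ hr]
      exact hd2
    linarith
  · refine ⟨r, fun x hx _ => ?_⟩
    by_contra hfar
    exact hne ⟨_, hsph x hx (not_le.1 hfar)⟩

/-- Completeness excludes a finite boundary point of a sublevel set. -/
lemma closure_subLevel_subset (hΩ : IsOpen Ω) (hc : Convex ℝ Ω) (hu : ContDiffOn ℝ ∞ u Ω)
    (hpos : ∀ x ∈ Ω, (hess u x).PosDef) (hx₀ : x₀ ∈ Ω) (hE : IsEuclideanComplete Ω u) (s : ℝ) :
    closure {x | x ∈ Ω ∧ uBar u x₀ x ≤ s} ⊆ Ω := by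
  classical
  intro xb hxb
  by_contra hxbΩ
  obtain ⟨seq, hseq, hlim⟩ := mem_closure_iff_seq_limit.1 hxb
  have hxbc : xb ∈ closure Ω := closure_mono (fun x hx => hx.1) hxb
  have hb := contDiffOn_uBar (x₀ := x₀) hu
  set θ : Fin n → ℝ := xb - x₀ with hθ
  set γ : ℝ → Fin n → ℝ := fun t => x₀ + t • θ with hγ
  have hγΩ : ∀ t ∈ Ico (0 : ℝ) 1, γ t ∈ Ω := by
    intro t ht
    have h1 := hc.combo_interior_closure_mem_interior (x := x₀) (y := xb)
      (by rw [hΩ.interior_eq]; exact hx₀) hxbc (a := 1 - t) (b := t) (by linarith [ht.2]) ht.1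
      (by ring)
    rw [hΩ.interior_eq] at h1
    have e : (1 - t) • x₀ + t • xb = γ t := by
      simp only [hγ, hθ, smul_sub, sub_smul, one_smul]
      abel
    rwa [e] at h1
  -- the bound on `ū ∘ γ`
  have hφ : ∀ t ∈ Ico (0 : ℝ) 1, uBar u x₀ (γ t) ≤ t * s := by
    intro t ht
    rcases eq_or_lt_of_le ht.1 with h0 | h0
    · subst h0
      simp [hγ, uBar_self]
    · have hlim' : Tendsto (fun k => x₀ + t • (seq k - x₀)) atTop (𝓝 (γ t)) :=
        tendsto_const_nhds.add ((hlim.sub_const x₀).const_smul t)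
      have hmem : ∀ k, x₀ + t • (seq k - x₀) ∈ Ω := by
        intro k
        have e : x₀ + t • (seq k - x₀) = (1 - t) • x₀ + t • seq k := by
          simp only [smul_sub, sub_smul, one_smul]
          abel
        rw [e]
        exact hc hx₀ (hseq k).1 (by linarith [ht.2]) ht.1 (by ring)
      have hcontAt : ContinuousAt (uBar u x₀) (γ t) := (diffAt hΩ hb (hγΩ t ht)).continuousAt
      have hlim2 := hcontAt.tendsto.comp hlim'
      refine le_of_tendsto' hlim2 fun k => ?_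
      have hone : 1 ≤ t⁻¹ := (one_le_inv₀ h0).2 ht.2.le
      have e : x₀ + t⁻¹ • (x₀ + t • (seq k - x₀) - x₀) = seq k := by
        rw [add_sub_cancel_left, smul_smul, inv_mul_cancel₀ h0.ne', one_smul]
        abel
      have h1 := uBar_ray (x₀ := x₀) hΩ hc hu hpos hx₀ (hmem k) hone (by rw [e]; exact (hseq k).1)
      rw [e] at h1
      have h2 := (hseq k).2
      have h3 : t⁻¹ * uBar u x₀ (x₀ + t • (seq k - x₀)) ≤ s := h1.trans h2
      simp only [Function.comp]
      rw [inv_mul_le_iff₀ h0] at h3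
      exact h3
  -- the slope along the segment
  set g1 : ℝ → ℝ := fun t => ∑ i, θ i * pd i (uBar u x₀) (γ t) with hg1
  have hd : ∀ t ∈ Ico (0 : ℝ) 1, HasDerivAt (fun t : ℝ => uBar u x₀ (γ t)) (g1 t) t :=
    fun t ht => hasDerivAt_line (diffAt hΩ hb (hγΩ t ht))
  have hd1 : ∀ t ∈ Ico (0 : ℝ) 1, ContinuousAt g1 t :=
    fun t ht => (hasDerivAt_g1 hΩ hu (hγΩ t ht)).continuousAt
  have hγ0 : γ 0 = x₀ := by simp [hγ]
  have hg0 : g1 0 = 0 := by
    simp only [hg1, hγ0]
    refine Finset.sum_eq_zero fun i _ => ?_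
    rw [pd_uBar_self hΩ hu hx₀]
    simp
  have hθ0 : θ ≠ 0 := by
    intro h
    apply hxbΩ
    have : xb = x₀ := sub_eq_zero.1 h
    rw [this]
    exact hx₀
  have hg1nn : ∀ t ∈ Ico (0 : ℝ) 1, 0 ≤ g1 t := by
    intro t ht
    rcases eq_or_lt_of_le ht.1 with h0 | h0
    · subst h0
      exact hg0.ge
    · have h1 := slope_strict (x₀ := x₀) hΩ hc hu hpos (x := x₀) hθ0
        (by simpa using hx₀ : x₀ + (0 : ℝ) • θ ∈ Ω) (hγΩ t ht) h0
      have e : x₀ + (0 : ℝ) • θ = γ 0 := rfl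
      rw [e] at h1
      exact hg0 ▸ h1.le
  -- integrability of the slope
  have hintervalInt : ∀ T ∈ Ico (0 : ℝ) 1, IntegrableOn g1 (Ioc 0 T) := by
    intro T hT
    have : ContinuousOn g1 (Icc 0 T) := fun t ht =>
      (hd1 t ⟨ht.1, lt_of_le_of_lt ht.2 hT.2⟩).continuousWithinAt
    exact this.integrableOn_compact isCompact_Icc |>.mono_set Ioc_subset_Icc_self
  have hg1int : IntegrableOn g1 (Ioc 0 1) := by
    refine integrableOn_Ioc_of_intervalIntegral_norm_bounded_right (I := |s|) (l := atTop)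
      (b := fun k : ℕ => 1 - 1 / ((k : ℝ) + 2)) ?_ ?_ ?_
    · intro k
      have h2 : (0 : ℝ) < (k : ℝ) + 2 := by positivity
      have h3 : 1 / ((k : ℝ) + 2) ≤ 1 / 2 := by
        apply one_div_le_one_div_of_le (by norm_num)
        linarith [(Nat.cast_nonneg k : (0 : ℝ) ≤ k)]
      refine hintervalInt _ ⟨by linarith, ?_⟩
      have : 0 < 1 / ((k : ℝ) + 2) := by positivity
      linarith
    · have h1 : Tendsto (fun k : ℕ => 1 / ((k : ℝ) + 2)) atTop (𝓝 0) := by
        have := tendsto_one_div_add_atTop_nhds_zero_nat (𝕜 := ℝ)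
        have h2 := (tendsto_add_atTop_iff_nat 1).2 this
        refine h2.congr fun k => ?_
        push_cast
        ring_nf
      have h2 : Tendsto (fun k : ℕ => (1 : ℝ) - 1 / ((k : ℝ) + 2)) atTop (𝓝 (1 - 0)) :=
        tendsto_const_nhds.sub h1
      simpa using h2
    · refine Eventually.of_forall fun k => ?_
      set T : ℝ := 1 - 1 / ((k : ℝ) + 2) with hT
      have h2 : (0 : ℝ) < (k : ℝ) + 2 := by positivity
      have h3 : 1 / ((k : ℝ) + 2) ≤ 1 / 2 := by
        apply one_div_le_one_div_of_le (by norm_num)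
        linarith [(Nat.cast_nonneg k : (0 : ℝ) ≤ k)]
      have hT0 : 0 ≤ T := by linarith
      have hT1 : T < 1 := by
        have : 0 < 1 / ((k : ℝ) + 2) := by positivity
        linarith
      have hsub : Ioc 0 T ⊆ Ico (0 : ℝ) 1 := fun t ht => ⟨ht.1.le, lt_of_le_of_lt ht.2 hT1⟩
      have e1 : ∫ t in Ioc 0 T, ‖g1 t‖ = ∫ t in Ioc 0 T, g1 t :=
        setIntegral_congr_fun measurableSet_Ioc fun t ht => by
          simp only [Real.norm_eq_abs]
          exact abs_of_nonneg (hg1nn t (hsub ht))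
      rw [e1, ← intervalIntegral.integral_of_le hT0]
      have hTset : ∀ t ∈ uIcc 0 T, t ∈ Ico (0 : ℝ) 1 := by
        intro t ht
        rw [uIcc_of_le hT0] at ht
        exact ⟨ht.1, lt_of_le_of_lt ht.2 hT1⟩
      rw [intervalIntegral.integral_eq_sub_of_hasDerivAt (fun t ht => hd t (hTset t ht))
        ((intervalIntegrable_iff_integrableOn_Ioc_of_le hT0).2 (hintervalInt T ⟨hT0, hT1⟩))]
      simp only [hγ0, uBar_self, sub_zero]
      have h5 := hφ T ⟨hT0, hT1⟩
      have h6 : T * s ≤ |s| := by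
        calc T * s ≤ T * |s| := mul_le_mul_of_nonneg_left (le_abs_self s) hT0
          _ ≤ 1 * |s| := mul_le_mul_of_nonneg_right hT1.le (abs_nonneg s)
          _ = |s| := one_mul _
      linarith
  have hg1Ioo : IntegrableOn g1 (Ioo 0 1) := hg1int.mono_set Ioo_subset_Ioc_self
  -- the length integrand
  set b₀ : ℝ := fderiv ℝ u x₀ θ with hb₀
  set A : ℝ := ∑ i, θ i ^ 2 with hA
  have hderiv1 : ∀ t i, deriv (fun s => γ s i) t = θ i := by
    intro t i
    have h1 : HasDerivAt (fun s : ℝ => γ s i) (θ i) t := by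
      have : HasDerivAt (fun s : ℝ => s * θ i) (1 * θ i) t := (hasDerivAt_id t).mul_const (θ i)
      have h2 := this.const_add (x₀ i)
      simpa [hγ] using h2
    exact h1.deriv
  have hderiv2 : ∀ t ∈ Ico (0 : ℝ) 1, deriv (fun s => u (γ s)) t = g1 t + b₀ := by
    intro t ht
    have h1 : HasDerivAt (fun s : ℝ => u (γ s)) (∑ i, θ i * pd i u (γ t)) t :=
      hasDerivAt_line (diffAt hΩ hu (hγΩ t ht))
    rw [h1.deriv]
    simp only [hg1, hb₀]
    rw [fderiv_eq_sum, ← Finset.sum_add_distrib]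
    refine Finset.sum_congr rfl fun i _ => ?_
    rw [pd_uBar hΩ hu (hγΩ t ht)]
    simp only [pd]
    ring
  have hlen : IntegrableOn (fun t => Real.sqrt (∑ i, deriv (fun s => γ s i) t ^ 2 +
      deriv (fun s => u (γ s)) t ^ 2)) (Ioo 0 1) := by
    have hsimp : EqOn (fun t => Real.sqrt (A + (g1 t + b₀) ^ 2))
        (fun t => Real.sqrt (∑ i, deriv (fun s => γ s i) t ^ 2 +
          deriv (fun s => u (γ s)) t ^ 2)) (Ioo 0 1) := by
      intro t ht
      simp only [hderiv1, hderiv2 t (Ioo_subset_Ico_self ht), hA]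
    refine IntegrableOn.congr_fun ?_ hsimp measurableSet_Ioo
    have hbound : IntegrableOn (fun t => Real.sqrt A + |b₀| + g1 t) (Ioo 0 1) :=
      (integrableOn_const (by simp)).add hg1Ioo
    refine Integrable.mono' hbound ?_ ?_
    · have hcont : ContinuousOn (fun t => Real.sqrt (A + (g1 t + b₀) ^ 2)) (Ioo 0 1) := by
        apply ContinuousOn.sqrt
        apply ContinuousOn.add continuousOn_const
        apply ContinuousOn.pow
        apply ContinuousOn.add _ continuousOn_const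
        exact fun t ht => (hd1 t (Ioo_subset_Ico_self ht)).continuousWithinAt
      exact hcont.aestronglyMeasurable measurableSet_Ioo
    · refine (ae_restrict_iff' measurableSet_Ioo).2 (Eventually.of_forall fun t ht => ?_)
      have hg := hg1nn t (Ioo_subset_Ico_self ht)
      have hA0 : 0 ≤ A := Finset.sum_nonneg fun i _ => sq_nonneg _
      rw [Real.norm_eq_abs, abs_of_nonneg (Real.sqrt_nonneg _)]
      have hs1 : 0 ≤ Real.sqrt A := Real.sqrt_nonneg _
      have hb1 : 0 ≤ |b₀| := abs_nonneg _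
      have h2 : |g1 t + b₀| ≤ |b₀| + g1 t := by
        have := abs_add_le (g1 t) b₀
        rw [abs_of_nonneg hg] at this
        linarith
      apply Real.sqrt_le_iff.2
      refine ⟨by positivity, ?_⟩
      have h3 : (g1 t + b₀) ^ 2 = |g1 t + b₀| ^ 2 := (sq_abs _).symm
      have h4 : Real.sqrt A ^ 2 = A := Real.sq_sqrt hA0
      have h5 : |g1 t + b₀| ^ 2 ≤ (|b₀| + g1 t) ^ 2 :=
        pow_le_pow_left₀ (abs_nonneg _) h2 2
      nlinarith [mul_nonneg hs1 (add_nonneg hb1 hg)]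
  have hγC : ContDiffOn ℝ 1 γ (Ico 0 1) := by
    have : ContDiff ℝ 1 γ := contDiff_const.add (contDiff_id.smul contDiff_const)
    exact this.contDiffOn
  obtain ⟨x, hx, hlimx⟩ := hE γ hγC hγΩ hlen
  have hγcont : Continuous γ := continuous_const.add (continuous_id.smul continuous_const)
  have hlimγ : Tendsto γ (𝓝[<] 1) (𝓝 (γ 1)) :=
    (hγcont.tendsto 1).mono_left nhdsWithin_le_nhds
  have heq : x = γ 1 := tendsto_nhds_unique hlimx hlimγ
  have e1 : γ 1 = xb := by simp [hγ, hθ]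
  rw [heq, e1] at hx
  exact hxbΩ hx

/-- For a Euclidean complete graph over an open convex set, the sublevel sets of `ū` are compact. -/
theorem isCompact_subLevel_of_complete (hΩ : IsOpen Ω) (hc : Convex ℝ Ω) (hu : ContDiffOn ℝ ∞ u Ω)
    (hpos : ∀ x ∈ Ω, (hess u x).PosDef) (hx₀ : x₀ ∈ Ω) (hE : IsEuclideanComplete Ω u) (s : ℝ) :
    IsCompact {x | x ∈ Ω ∧ uBar u x₀ x ≤ s} := by
  have hb := contDiffOn_uBar (x₀ := x₀) hu
  have hclosed : IsClosed {x | x ∈ Ω ∧ uBar u x₀ x ≤ s} := by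
    apply isClosed_of_closure_subset
    intro xb hxb
    have hxbΩ := closure_subLevel_subset hΩ hc hu hpos hx₀ hE s hxb
    refine ⟨hxbΩ, ?_⟩
    obtain ⟨seq, hseq, hlim⟩ := mem_closure_iff_seq_limit.1 hxb
    have hcontAt : ContinuousAt (uBar u x₀) xb := (diffAt hΩ hb hxbΩ).continuousAt
    exact le_of_tendsto' (hcontAt.tendsto.comp hlim) fun k => (hseq k).2
  obtain ⟨R, hR⟩ := bounded_subLevel (x₀ := x₀) hΩ hc hu hpos hx₀ s
  refine (isCompact_closedBall x₀ R).of_isClosed_subset hclosed ?_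
  rintro x ⟨hx, hxs⟩
  rw [Metric.mem_closedBall, dist_eq_norm]
  exact hR x hx hxs

end Vale.Agent.Lib.P252
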