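import Vale.Agent.Lib.P252.Comb21
import Vale.Agent.Lib.P252.Growth

/-!
Consequences of the estimate with the weight `D`: the Liouville theorem under `|Du(K_S)| = o(S³)`,
under a bound for the gradient on the sublevel sets, and under a two sided growth condition.
-/

open scoped ContDiff Topology Matrix
open MeasureTheory Set Filter

namespace Vale.Agent.Lib.P252

variable {Ω : Set (Fin 3 → ℝ)} {u : (Fin 3 → ℝ) → ℝ} {x₀ : Fin 3 → ℝ}

/-- The Liouville theorem when the volume of the gradient image of the sublevel sets is `o(S³)` along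
a sequence. -/
theorem det_const_of_gradVolume (hs : IsAffineMaximal Ω u) (hΩ : IsOpen Ω) (hc : Convex ℝ Ω)
    (hx₀ : x₀ ∈ Ω) (hcpt : ∀ s, IsCompact (subLevelC Ω (uBar u x₀) s))
    (hM : ∀ ε : ℝ, 0 < ε → ∀ S₁ : ℝ, ∃ S : ℝ, S₁ ≤ S ∧
      ∫ x in subLevel Ω (uBar u x₀) S, (hess u x).det ≤ ε * S ^ 3) {x y : Fin 3 → ℝ}
    (hx : x ∈ Ω) (hy : y ∈ Ω) : (hess u x).det = (hess u y).det := by
  refine Cert21.det_const hs hΩ hc hx₀ hcpt (fun ε hε S₁ => ?_) hx hy
  obtain ⟨S, h1, h2⟩ := hM ε hε S₁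
  refine ⟨S, h1, ?_⟩
  simpa only [Real.rpow_one] using h2

/-- The Liouville theorem when the gradient of `ū` on the sublevel `ū < S` is `o(S)` along a
sequence. -/
theorem det_const_of_gradient_bound (hs : IsAffineMaximal Ω u) (hΩ : IsOpen Ω) (hc : Convex ℝ Ω)
    (hx₀ : x₀ ∈ Ω) (hcpt : ∀ s, IsCompact (subLevelC Ω (uBar u x₀) s))
    (hG : ∀ ε : ℝ, 0 < ε → ∀ S₁ : ℝ, ∃ S : ℝ, S₁ ≤ S ∧
      ∀ x ∈ Ω, uBar u x₀ x < S → ‖gradMap u x₀ x‖ ≤ ε * S) {x y : Fin 3 → ℝ}
    (hx : x ∈ Ω) (hy : y ∈ Ω) : (hess u x).det = (hess u y).det := by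
  refine det_const_of_gradVolume hs hΩ hc hx₀ hcpt (fun ε hε S₁ => ?_) hx hy
  set δ := min ε 1 / 2 with hδ
  have hδ0 : 0 < δ := by positivity
  obtain ⟨S, h1, h2⟩ := hG δ hδ0 (max S₁ 1)
  have hS : 0 < S := lt_of_lt_of_le one_pos ((le_max_right _ _).trans h1)
  refine ⟨S, (le_max_left _ _).trans h1, ?_⟩
  have hf : ContDiffOn ℝ ∞ (uBar u x₀) Ω := contDiffOn_uBar hs.smooth
  have hsO : IsOpen (subLevel Ω (uBar u x₀) S) := IsAffineMaximal.isOpen_subLevel hΩ hf S
  have himg : gradMap u x₀ '' subLevel Ω (uBar u x₀) S ⊆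
      Metric.closedBall (0 : Fin 3 → ℝ) (δ * S) := by
    rintro _ ⟨z, hz, rfl⟩
    rw [mem_closedBall_zero_iff]
    exact h2 z hz.1 hz.2
  have hY := integral_det_le (x₀ := x₀) hΩ hc hs.smooth hs.posDef hsO.measurableSet
    (fun _ hz => hz.1) (P := δ * S) (by positivity) himg
  refine hY.trans ?_
  have e : (2 * (δ * S)) ^ 3 = (min ε 1) ^ 3 * S ^ 3 := by
    rw [hδ]
    ring
  rw [e]
  have h3 : (min ε 1) ^ 3 ≤ ε := by
    have h4 : min ε 1 ≤ 1 := min_le_right _ _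
    have h5 : min ε 1 ≤ ε := min_le_left _ _
    have h6 : 0 < min ε 1 := by positivity
    have h7 : (min ε 1) ^ 3 ≤ min ε 1 := by
      calc (min ε 1) ^ 3 ≤ (min ε 1) ^ 1 :=
            pow_le_pow_of_le_one h6.le h4 (by norm_num)
        _ = min ε 1 := pow_one _
    linarith
  exact mul_le_mul_of_nonneg_right h3 (by positivity)

section Entire

variable {u : (Fin 3 → ℝ) → ℝ} {x₀ : Fin 3 → ℝ}

/-- The Liouville theorem for entire solutions under a growth condition along a sequence of radii: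
with `m` a lower bound for `ū` on the sphere of radius `R` and `M` an upper bound on the ball of
radius `2R`, the determinant is constant as soon as `M = o(R m)` with `m → ∞`. -/
theorem det_const_of_growth2 (hs : IsAffineMaximal Set.univ u)
    (hG : ∀ ε : ℝ, 0 < ε → ∀ S₁ : ℝ, ∃ R : ℝ, 0 < R ∧ ∃ m : ℝ, S₁ ≤ m ∧ ∃ M : ℝ,
      (∀ x, ‖x - x₀‖ = R → m ≤ uBar u x₀ x) ∧ (∀ x, ‖x - x₀‖ ≤ 2 * R → uBar u x₀ x ≤ M) ∧
      M ≤ ε * (R * m)) (x y : Fin 3 → ℝ) : (hess u x).det = (hess u y).det := by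
  have hcpt : ∀ s, IsCompact (subLevelC Set.univ (uBar u x₀) s) :=
    isCompact_subLevel_of_complete isOpen_univ convex_univ hs.smooth hs.posDef (mem_univ x₀)
      (isEuclideanComplete_univ u)
  refine det_const_of_gradient_bound hs isOpen_univ convex_univ (mem_univ x₀) hcpt
    (fun ε hε S₁ => ?_) (mem_univ x) (mem_univ y)
  obtain ⟨R, hR, m, hm1, M, hsph, hball, hMm⟩ := hG ε hε (max S₁ 1)
  have hm0 : 0 < m := lt_of_lt_of_le one_pos ((le_max_right _ _).trans hm1)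
  refine ⟨m, (le_max_left _ _).trans hm1, ?_⟩
  intro z _ hz
  have hzb : ‖z - x₀‖ < R := subLevel_subset_ball isOpen_univ convex_univ hs.smooth hs.posDef
    (mem_univ x₀) hR hm0.le (fun w _ hw => hsph w hw) (mem_univ z) hz
  have h1 := gradMap_mem_closedBall hs.smooth hs.posDef hR hball hzb
  rw [mem_closedBall_zero_iff] at h1
  refine h1.trans ?_
  rw [div_le_iff₀ hR]
  calc M ≤ ε * (R * m) := hMm
    _ = ε * m * R := by ring

/-- The Liouville theorem for entire solutions with two sided power growth, `b < a + 1`. -/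
theorem det_const_of_power_growth2 (hs : IsAffineMaximal Set.univ u) {a b c C : ℝ} (ha : 0 < a)
    (hb : 0 < b) (hc : 0 < c) (hab : b < a + 1)
    (hlow : ∀ x, c * ‖x - x₀‖ ^ a - C ≤ uBar u x₀ x)
    (hup : ∀ x, uBar u x₀ x ≤ C * ‖x - x₀‖ ^ b + C) (x y : Fin 3 → ℝ) :
    (hess u x).det = (hess u y).det := by
  have hC : 0 ≤ C := by
    have := hup x₀
    rw [uBar_self, sub_self, norm_zero, Real.zero_rpow hb.ne', mul_zero, zero_add] at this
    exact this
  refine det_const_of_growth2 (x₀ := x₀) hs (fun ε hε S₁ => ?_) x y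
  set C₁ : ℝ := C * 2 ^ b + C with hC₁
  have hC₁0 : 0 ≤ C₁ := by positivity
  set δ : ℝ := a + 1 - b with hδ
  have hδ0 : 0 < δ := by rw [hδ]; linarith
  have t1 : Tendsto (fun R : ℝ => R ^ a) atTop atTop := tendsto_rpow_atTop ha
  have t2 : Tendsto (fun R : ℝ => R ^ δ) atTop atTop := tendsto_rpow_atTop hδ0
  have e1 := t1.eventually_ge_atTop ((S₁ + C) / c)
  have e1' := t1.eventually_ge_atTop (2 * C / c)
  have e2 := t2.eventually_ge_atTop (C₁ / (ε * (c / 2)))
  have e3 := eventually_ge_atTop (1 : ℝ)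
  obtain ⟨R, hR1, hR1', hR2, hR3⟩ := (e1.and (e1'.and (e2.and e3))).exists
  have hR0 : 0 < R := lt_of_lt_of_le one_pos hR3
  have hRa : 0 < R ^ a := by positivity
  have hRb : 1 ≤ R ^ b := Real.one_le_rpow hR3 hb.le
  refine ⟨R, hR0, c * R ^ a - C, ?_, C * (2 * R) ^ b + C, ?_, ?_, ?_⟩
  · rw [div_le_iff₀ hc] at hR1
    nlinarith
  · intro z hz
    have := hlow z
    rwa [hz] at this
  · intro z hz
    refine (hup z).trans ?_
    have : ‖z - x₀‖ ^ b ≤ (2 * R) ^ b := Real.rpow_le_rpow (norm_nonneg _) hz hb.le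
    nlinarith [mul_le_mul_of_nonneg_left this hC]
  · have h1 : c / 2 * R ^ a ≤ c * R ^ a - C := by
      rw [div_le_iff₀ hc] at hR1'
      nlinarith
    have hM : C * (2 * R) ^ b + C ≤ C₁ * R ^ b := by
      rw [Real.mul_rpow (by norm_num) hR0.le, hC₁]
      nlinarith [mul_le_mul_of_nonneg_left hRb hC]
    have h4 : C₁ ≤ ε * (c / 2) * R ^ δ := by
      rw [div_le_iff₀ (by positivity)] at hR2
      linarith
    have e : R ^ δ * R ^ b = R * R ^ a := by
      rw [← Real.rpow_add hR0, ← Real.rpow_one_add' hR0.le (by positivity)]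
      congr 1
      rw [hδ]
      ring
    calc C * (2 * R) ^ b + C ≤ C₁ * R ^ b := hM
      _ ≤ (ε * (c / 2) * R ^ δ) * R ^ b := mul_le_mul_of_nonneg_right h4 (by positivity)
      _ = ε * (R * (c / 2 * R ^ a)) := by
          rw [mul_assoc (ε * (c / 2)), e]
          ring
      _ ≤ ε * (R * (c * R ^ a - C)) :=
          mul_le_mul_of_nonneg_left (mul_le_mul_of_nonneg_left h1 hR0.le) hε.le

end Entire

end Vale.Agent.Lib.P252
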