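import Vale.Agent.Lib.P252.CombR
import Vale.Agent.Lib.P252.Growth
import Vale.Agent.Lib.P252.Final

/-!
Consequences of the estimate with the real exponent `31/10`: the Liouville theorem under
`|Du(K_S)| = o(S^{31/10})`, under a bound for the gradient on the sublevel sets, under a two sided
growth condition, and for gradients comparable on the sublevel sets.
-/

open scoped ContDiff Topology Matrix
open MeasureTheory Set Filter

namespace Vale.Agent.Lib.P252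

variable {Ω : Set (Fin 3 → ℝ)} {u : (Fin 3 → ℝ) → ℝ} {x₀ : Fin 3 → ℝ}

/-- The Liouville theorem when the volume of the gradient image of the sublevel sets is
`o(S^{31/10})` along a sequence. -/
theorem det_const_of_gradVolume31 (hs : IsAffineMaximal Ω u) (hΩ : IsOpen Ω) (hc : Convex ℝ Ω)
    (hx₀ : x₀ ∈ Ω) (hcpt : ∀ s, IsCompact (subLevelC Ω (uBar u x₀) s))
    (hM : ∀ ε : ℝ, 0 < ε → ∀ S₁ : ℝ, ∃ S : ℝ, S₁ ≤ S ∧
      ∫ x in subLevel Ω (uBar u x₀) S, (hess u x).det ≤ ε * S ^ ((31 : ℝ) / 10)) {x y : Fin 3 → ℝ}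
    (hx : x ∈ Ω) (hy : y ∈ Ω) : (hess u x).det = (hess u y).det := by
  refine CombR.det_const hs hΩ hc hx₀ hcpt (fun ε hε S₁ => ?_) hx hy
  obtain ⟨S, h1, h2⟩ := hM ε hε S₁
  refine ⟨S, h1, ?_⟩
  simpa only [Real.rpow_one] using h2

/-- The Liouville theorem when the gradient of `ū` on the sublevel `ū < S` is `o(S^{31/30})` along a
sequence. -/
theorem det_const_of_gradient_bound31 (hs : IsAffineMaximal Ω u) (hΩ : IsOpen Ω) (hc : Convex ℝ Ω)
    (hx₀ : x₀ ∈ Ω) (hcpt : ∀ s, IsCompact (subLevelC Ω (uBar u x₀) s))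
    (hG : ∀ ε : ℝ, 0 < ε → ∀ S₁ : ℝ, ∃ S : ℝ, S₁ ≤ S ∧
      ∀ x ∈ Ω, uBar u x₀ x < S → ‖gradMap u x₀ x‖ ≤ ε * S ^ ((31 : ℝ) / 30)) {x y : Fin 3 → ℝ}
    (hx : x ∈ Ω) (hy : y ∈ Ω) : (hess u x).det = (hess u y).det := by
  refine det_const_of_gradVolume31 hs hΩ hc hx₀ hcpt (fun ε hε S₁ => ?_) hx hy
  set δ := min ε 1 / 2 with hδ
  have hδ0 : 0 < δ := by positivity
  obtain ⟨S, h1, h2⟩ := hG δ hδ0 (max S₁ 1)
  have hS : 0 < S := lt_of_lt_of_le one_pos ((le_max_right _ _).trans h1)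
  refine ⟨S, (le_max_left _ _).trans h1, ?_⟩
  have hf : ContDiffOn ℝ ∞ (uBar u x₀) Ω := contDiffOn_uBar hs.smooth
  have hsO : IsOpen (subLevel Ω (uBar u x₀) S) := IsAffineMaximal.isOpen_subLevel hΩ hf S
  have hSp : 0 < S ^ ((31 : ℝ) / 30) := Real.rpow_pos_of_pos hS _
  have himg : gradMap u x₀ '' subLevel Ω (uBar u x₀) S ⊆
      Metric.closedBall (0 : Fin 3 → ℝ) (δ * S ^ ((31 : ℝ) / 30)) := by
    rintro _ ⟨z, hz, rfl⟩
    rw [mem_closedBall_zero_iff]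
    exact h2 z hz.1 hz.2
  have hY := integral_det_le (x₀ := x₀) hΩ hc hs.smooth hs.posDef hsO.measurableSet
    (fun _ hz => hz.1) (P := δ * S ^ ((31 : ℝ) / 30)) (by positivity) himg
  refine hY.trans ?_
  have e0 : (S ^ ((31 : ℝ) / 30)) ^ 3 = S ^ ((31 : ℝ) / 10) := by
    rw [← Real.rpow_natCast, ← Real.rpow_mul hS.le]
    norm_num
  have e : (2 * (δ * S ^ ((31 : ℝ) / 30))) ^ 3 = (min ε 1) ^ 3 * S ^ ((31 : ℝ) / 10) := by
    rw [hδ, ← e0]
    ring
  rw [e]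
  have h3 : (min ε 1) ^ 3 ≤ ε := by
    have h4 : min ε 1 ≤ 1 := min_le_right _ _
    have h5 : min ε 1 ≤ ε := min_le_left _ _
    have h6 : 0 < min ε 1 := by positivity
    have h7 : (min ε 1) ^ 3 ≤ min ε 1 := by
      calc (min ε 1) ^ 3 ≤ (min ε 1) ^ 1 :=
            pow_le_pow_of_le_one h6.le h4 (by norm_num)
        _ = min ε 1 := pow_one _
    linarith
  exact mul_le_mul_of_nonneg_right h3 (Real.rpow_nonneg hS.le _)

/-- One variable descent. -/
lemma one_var_descent {A P lam δ ε : ℝ} (hA0 : 0 < A) (hε : 0 < ε)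
    (hneg : -δ * A ^ (-δ - 1) * P + lam < 0) :
    ∃ t : ℝ, 0 < t ∧ t < ε ∧ (A + t * P) ^ (-δ) + lam * t < A ^ (-δ) := by
  set h : ℝ → ℝ := fun t => (A + t * P) ^ (-δ) + lam * t with hh
  have hd : HasDerivAt h (-δ * A ^ (-δ - 1) * P + lam) 0 := by
    have h1 : HasDerivAt (fun t : ℝ => A + t * P) P 0 := by
      have := ((hasDerivAt_id' (0 : ℝ)).mul_const P).const_add A
      simpa using this
    have h2 := h1.rpow_const (p := -δ) (Or.inl (by simpa using hA0.ne'))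
    have h3 := h2.add ((hasDerivAt_id' (0 : ℝ)).const_mul lam)
    have e0 : A + (0 : ℝ) * P = A := by ring
    rw [e0] at h3
    exact h3.congr_deriv (by ring)
  have hslope := (hasDerivAt_iff_tendsto_slope.1 hd).mono_left (nhdsGT_le_nhdsNE (0 : ℝ))
  have hev := hslope.eventually_lt_const hneg
  have hI : Set.Ioo (0 : ℝ) ε ∈ 𝓝[>] (0 : ℝ) := Ioo_mem_nhdsGT hε
  obtain ⟨t, ht1, ht2⟩ := (hev.and hI).exists
  refine ⟨t, ht2.1, ht2.2, ?_⟩
  have hh0 : h 0 = A ^ (-δ) := by simp [hh]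
  rw [slope_def_field, div_lt_iff₀ (by linarith [ht2.1])] at ht1
  rw [← hh0]
  simp only [sub_zero, zero_mul] at ht1
  linarith

/-- The largest component of the gradient. -/
lemma exists_norm_eq (p : Fin 3 → ℝ) : ∃ i, ‖p‖ = |p i| := by
  obtain ⟨i, -, hi⟩ := Finset.exists_max_image (Finset.univ : Finset (Fin 3))
    (fun i => |p i|) ⟨0, Finset.mem_univ _⟩
  refine ⟨i, le_antisymm ?_ ?_⟩
  · rw [pi_norm_le_iff_of_nonneg (abs_nonneg _)]
    intro j
    rw [Real.norm_eq_abs]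
    exact hi j (Finset.mem_univ _)
  · have := norm_le_pi_norm p i
    rwa [Real.norm_eq_abs] at this

/-- The elementary estimate for the slope. -/
lemma slope_low {c δ U P : ℝ} (hc0 : 0 < c) (hδ : 0 < δ) (hδ1 : δ ≤ 1) (hU : 1 ≤ U)
    (hg : c * U ^ (1 + δ) ≤ P) :
    2 * (δ * c / 8) ≤ δ * (1 + U) ^ (-δ - 1) * P := by
  have hu1 : 0 < U := by linarith
  have hA0 : 0 < 1 + U := by linarith
  have h1 : 1 + U ≤ 2 * U := by linarith
  have h2 : (1 + U) ^ (1 + δ) ≤ 4 * U ^ (1 + δ) := by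
    calc (1 + U) ^ (1 + δ) ≤ (2 * U) ^ (1 + δ) :=
          Real.rpow_le_rpow hA0.le h1 (by linarith)
      _ = 2 ^ (1 + δ) * U ^ (1 + δ) := Real.mul_rpow (by norm_num) hu1.le
      _ ≤ 4 * U ^ (1 + δ) := by
          refine mul_le_mul_of_nonneg_right ?_ (Real.rpow_nonneg hu1.le _)
          calc (2 : ℝ) ^ (1 + δ) ≤ 2 ^ (2 : ℝ) :=
                Real.rpow_le_rpow_of_exponent_le (by norm_num) (by linarith)
            _ = 4 := by norm_num
  have e1 : (1 + U) ^ (-δ - 1) * (1 + U) ^ (1 + δ) = 1 := by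
    rw [← Real.rpow_add hA0]
    have : -δ - 1 + (1 + δ) = 0 := by ring
    rw [this, Real.rpow_zero]
  have hApos : 0 < (1 + U) ^ (-δ - 1) := Real.rpow_pos_of_pos hA0 _
  have h3 : c * (1 + U) ^ (1 + δ) ≤ 4 * P := by
    have := mul_le_mul_of_nonneg_left h2 hc0.le
    linarith
  have h4 : c ≤ 4 * ((1 + U) ^ (-δ - 1) * P) := by
    have := mul_le_mul_of_nonneg_left h3 hApos.le
    have e2 : (1 + U) ^ (-δ - 1) * (c * (1 + U) ^ (1 + δ)) = c := by
      calc (1 + U) ^ (-δ - 1) * (c * (1 + U) ^ (1 + δ))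
          = c * ((1 + U) ^ (-δ - 1) * (1 + U) ^ (1 + δ)) := by ring
        _ = c := by rw [e1, mul_one]
    rw [e2] at this
    linarith
  have := mul_le_mul_of_nonneg_left h4 hδ.le
  linarith

/-- A descent step for `(1 + ū)^{-δ}`. -/
lemma descent_step {Ω : Set (Fin 3 → ℝ)} {u : (Fin 3 → ℝ) → ℝ} {x₀ : Fin 3 → ℝ}
    (hΩ : IsOpen Ω) (hc : Convex ℝ Ω)
    (hu : ContDiffOn ℝ ∞ u Ω) (hpos : ∀ x ∈ Ω, (hess u x).PosDef)
    {c δ ε : ℝ} (hc0 : 0 < c) (hδ : 0 < δ) (hδ1 : δ ≤ 1) (hε : 0 < ε) {y : Fin 3 → ℝ} (hy : y ∈ Ω)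
    (hy1 : 1 ≤ uBar u x₀ y) (hg : c * uBar u x₀ y ^ (1 + δ) ≤ ‖gradMap u x₀ y‖)
    (hball : ∀ w, ‖w - y‖ < ε → w ∈ Ω) :
    ∃ w t, w ∈ Ω ∧ 0 < t ∧ t < ε ∧ ‖w - y‖ ≤ t ∧
      (1 + uBar u x₀ w) ^ (-δ) + (δ * c / 8) * t < (1 + uBar u x₀ y) ^ (-δ) := by
  set lam : ℝ := δ * c / 8 with hlam
  have hlam0 : 0 < lam := by positivity
  obtain ⟨i, hi⟩ := exists_norm_eq (gradMap u x₀ y)
  set P : ℝ := ‖gradMap u x₀ y‖ with hP
  set A : ℝ := 1 + uBar u x₀ y with hA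
  have hA0 : 0 < A := by rw [hA]; linarith
  have hPlow : 2 * lam ≤ δ * A ^ (-δ - 1) * P := slope_low hc0 hδ hδ1 hy1 hg
  have hneg : -δ * A ^ (-δ - 1) * P + lam < 0 := by linarith
  obtain ⟨t, ht0, ht1, hdesc⟩ := one_var_descent hA0 hε hneg
  set σ : ℝ := if 0 ≤ pd i (uBar u x₀) y then 1 else -1 with hσ
  have hσ1 : |σ| = 1 := by
    rw [hσ]
    split_ifs <;> simp
  have hσP : σ * pd i (uBar u x₀) y = P := by
    have hi' : P = |pd i (uBar u x₀) y| := hi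
    rw [hi', hσ]
    split_ifs with h
    · rw [abs_of_nonneg h, one_mul]
    · rw [abs_of_neg (not_le.1 h)]
      ring
  set v : Fin 3 → ℝ := σ • (Pi.single i 1 : Fin 3 → ℝ) with hv
  have hvn : ‖v‖ ≤ 1 := by
    rw [pi_norm_le_iff_of_nonneg zero_le_one]
    intro j
    rw [hv, Pi.smul_apply, Real.norm_eq_abs, smul_eq_mul, abs_mul, hσ1, one_mul]
    by_cases h : j = i
    · subst h; simp
    · simp [Pi.single_eq_of_ne h]
  have hwn : ‖(y + t • v) - y‖ ≤ t := by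
    rw [add_sub_cancel_left, norm_smul, Real.norm_eq_abs, abs_of_pos ht0]
    exact mul_le_of_le_one_right ht0.le hvn
  have hwΩ : y + t • v ∈ Ω := hball _ (lt_of_le_of_lt hwn ht1)
  refine ⟨y + t • v, t, hwΩ, ht0, ht1, hwn, ?_⟩
  have e2 : y + t • v - y = (t * σ) • (Pi.single i 1 : Fin 3 → ℝ) := by
    rw [add_sub_cancel_left, hv, smul_smul]
  have e3 : fderiv ℝ (uBar u x₀) y (Pi.single i 1) = pd i (uBar u x₀) y := rfl
  have e4 : t * σ * pd i (uBar u x₀) y = t * P := by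
    rw [mul_assoc, hσP]
  have htan : uBar u x₀ y + t * P ≤ uBar u x₀ (y + t • v) := by
    have h := tangent_le (x₀ := x₀) hΩ hc hu hpos hy hwΩ
    rwa [e2, map_smul, e3, smul_eq_mul, e4] at h
  have hPnn : 0 ≤ P := norm_nonneg _
  have hAt : 0 < A + t * P := by positivity
  have hmono : (1 + uBar u x₀ (y + t • v)) ^ (-δ) ≤ (A + t * P) ^ (-δ) :=
    Real.rpow_le_rpow_of_nonpos hAt (by rw [hA]; linarith) (by linarith)
  linarith

/-- A point of a high level cannot be far from the complement. -/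
lemma ball_radius_bound {Ω : Set (Fin 3 → ℝ)} {u : (Fin 3 → ℝ) → ℝ} {x₀ : Fin 3 → ℝ}
    (hΩ : IsOpen Ω) (hc : Convex ℝ Ω)
    (hu : ContDiffOn ℝ ∞ u Ω) (hpos : ∀ x ∈ Ω, (hess u x).PosDef) (hx₀ : x₀ ∈ Ω)
    {c δ S₃ r : ℝ} (hc0 : 0 < c) (hδ : 0 < δ) (hδ1 : δ ≤ 1) (hS₃ : 1 ≤ S₃) (hr0 : 0 < r)
    (hlow : ∀ x ∈ Ω, S₃ ≤ uBar u x₀ x → c * uBar u x₀ x ^ (1 + δ) ≤ ‖gradMap u x₀ x‖)
    {x : Fin 3 → ℝ} (hxΩ : x ∈ Ω) (hxS : S₃ ≤ uBar u x₀ x) (hBx : Metric.closedBall x r ⊆ Ω) :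
    (δ * c / 8) * r ≤ (1 + uBar u x₀ x) ^ (-δ) := by
  have hf : ContDiffOn ℝ ∞ (uBar u x₀) Ω := contDiffOn_uBar hu
  set lam : ℝ := δ * c / 8 with hlam
  have hlam0 : 0 < lam := by positivity
  by_contra hcon
  have hcon' : (1 + uBar u x₀ x) ^ (-δ) < lam * r := not_le.1 hcon
  have hcontu : ContinuousOn (uBar u x₀) Ω := hf.continuousOn
  have hu0 : ∀ w ∈ Ω, 0 ≤ uBar u x₀ w := fun w hw => uBar_nonneg hΩ hc hu hpos hx₀ hw
  set φ : (Fin 3 → ℝ) → ℝ := fun y => (1 + uBar u x₀ y) ^ (-δ) + lam * ‖y - x‖ with hφ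
  have hφc : ContinuousOn φ (Metric.closedBall x r) := by
    refine ContinuousOn.add ?_ ?_
    · refine ContinuousOn.rpow_const ?_ ?_
      · exact continuousOn_const.add (hcontu.mono hBx)
      · intro y hy
        left
        have := hu0 y (hBx hy)
        positivity
    · exact (continuousOn_const.mul ((continuous_id.sub continuous_const).norm.continuousOn))
  obtain ⟨y, hy, hmin⟩ := (isCompact_closedBall x r).exists_isMinOn
    ⟨x, Metric.mem_closedBall_self hr0.le⟩ hφc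
  have hyΩ : y ∈ Ω := hBx hy
  have hux0 := hu0 x hxΩ
  have huy0 := hu0 y hyΩ
  have hle : φ y ≤ φ x := hmin (Metric.mem_closedBall_self hr0.le)
  have hφx : φ x = (1 + uBar u x₀ x) ^ (-δ) := by simp [hφ]
  have hφy : φ y = (1 + uBar u x₀ y) ^ (-δ) + lam * ‖y - x‖ := rfl
  rw [hφx, hφy] at hle
  have hnn : 0 ≤ lam * ‖y - x‖ := by positivity
  have hlev : uBar u x₀ x ≤ uBar u x₀ y := by
    by_contra hcon2
    have h1 : uBar u x₀ y < uBar u x₀ x := not_le.1 hcon2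
    have h2 : (1 + uBar u x₀ x) ^ (-δ) < (1 + uBar u x₀ y) ^ (-δ) :=
      Real.rpow_lt_rpow_of_neg (by positivity) (by linarith) (by linarith)
    linarith
  have h2 : 0 ≤ (1 + uBar u x₀ y) ^ (-δ) := Real.rpow_nonneg (by positivity) _
  have hdist : lam * ‖y - x‖ < lam * r := by linarith
  have hyr : ‖y - x‖ < r := lt_of_mul_lt_mul_left hdist hlam0.le
  have hyS₃ : S₃ ≤ uBar u x₀ y := hxS.trans hlev
  have hy1 : 1 ≤ uBar u x₀ y := hS₃.trans hyS₃
  have hgy := hlow y hyΩ hyS₃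
  have hε : 0 < r - ‖y - x‖ := by linarith
  have hsub : ∀ w, ‖w - y‖ < r - ‖y - x‖ → w ∈ Metric.closedBall x r := by
    intro w hw
    rw [mem_closedBall_iff_norm]
    have e : w - x = (w - y) + (y - x) := by abel
    rw [e]
    refine (norm_add_le _ _).trans ?_
    linarith
  obtain ⟨w, t, hwΩ, ht0, ht1, hwy, hdesc⟩ := descent_step (x₀ := x₀) hΩ hc hu hpos hc0 hδ hδ1 hε
    hyΩ hy1 hgy (fun w hw => hBx (hsub w hw))
  rw [← hlam] at hdesc
  have hwb : w ∈ Metric.closedBall x r := hsub w (lt_of_le_of_lt hwy ht1)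
  have hmw : φ y ≤ φ w := hmin hwb
  have hφw : φ w = (1 + uBar u x₀ w) ^ (-δ) + lam * ‖w - x‖ := rfl
  rw [hφy, hφw] at hmw
  have hnorm : ‖w - x‖ ≤ t + ‖y - x‖ := by
    have e : w - x = (w - y) + (y - x) := by abel
    rw [e]
    refine (norm_add_le _ _).trans ?_
    linarith
  have h3 := mul_le_mul_of_nonneg_left hnorm hlam0.le
  rw [mul_add] at h3
  linarith

/-- A gradient lower bound of superlinear type is impossible on an unbounded domain with compact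
sublevels: the function `(1 + ū)^{-δ}` would have a slope bounded below while being positive. -/
lemma no_grad_lower {Ω : Set (Fin 3 → ℝ)} {u : (Fin 3 → ℝ) → ℝ} {x₀ : Fin 3 → ℝ}
    (hΩ : IsOpen Ω) (hc : Convex ℝ Ω)
    (hu : ContDiffOn ℝ ∞ u Ω) (hpos : ∀ x ∈ Ω, (hess u x).PosDef) (hx₀ : x₀ ∈ Ω)
    (hcpt : ∀ s, IsCompact (subLevelC Ω (uBar u x₀) s)) (hunb : ¬ Bornology.IsBounded Ω)
    {c δ S₃ : ℝ} (hc0 : 0 < c) (hδ : 0 < δ) (hδ1 : δ ≤ 1) (hS₃ : 1 ≤ S₃)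
    (hlow : ∀ x ∈ Ω, S₃ ≤ uBar u x₀ x → c * uBar u x₀ x ^ (1 + δ) ≤ ‖gradMap u x₀ x‖) : False := by
  set lam : ℝ := δ * c / 8 with hlam
  have hlam0 : 0 < lam := by positivity
  -- a ball in the domain
  obtain ⟨d, hd0, hdball⟩ := Metric.isOpen_iff.1 hΩ x₀ hx₀
  set r : ℝ := d / 4 with hr
  have hr0 : 0 < r := by positivity
  have hball : Metric.closedBall x₀ (2 * r) ⊆ Ω := by
    refine (Metric.closedBall_subset_ball ?_).trans hdball
    rw [hr]
    linarith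
  -- a level which is high enough
  have ht : Tendsto (fun s : ℝ => (1 + s) ^ (-δ)) atTop (𝓝 0) := by
    have h1 : Tendsto (fun s : ℝ => s ^ (-δ)) atTop (𝓝 0) := tendsto_rpow_neg_atTop hδ
    exact h1.comp (tendsto_atTop_add_const_left _ 1 tendsto_id)
  obtain ⟨S₄, hS₄2, hS₄1⟩ := ((ht.eventually_lt_const (show (0 : ℝ) < lam * r by positivity)).and
    (eventually_ge_atTop S₃)).exists
  have hS₄0 : 1 ≤ S₄ := hS₃.trans hS₄1
  -- a point with a high level and a ball around it in the domain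
  obtain ⟨R, hR⟩ := (hcpt S₄).isBounded.subset_closedBall x₀
  obtain ⟨z, hzΩ, hzfar⟩ : ∃ z ∈ Ω, 2 * max R 0 + 1 < ‖z - x₀‖ := by
    by_contra hcon
    simp only [not_exists, not_and, not_lt] at hcon
    exact hunb ((Metric.isBounded_closedBall (x := x₀)).subset fun w hw => by
      rw [mem_closedBall_iff_norm]
      exact hcon w hw)
  set x := x₀ + (1 / 2 : ℝ) • (z - x₀) with hxdef
  have hxΩ : x ∈ Ω := by
    have := hc.add_smul_sub_mem hx₀ hzΩ (t := 1 / 2) ⟨by norm_num, by norm_num⟩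
    simpa [hxdef] using this
  have hxS : S₄ < uBar u x₀ x := by
    by_contra hcon
    have hm : x ∈ subLevelC Ω (uBar u x₀) S₄ := ⟨hxΩ, not_lt.1 hcon⟩
    have h1 := hR hm
    rw [mem_closedBall_iff_norm] at h1
    have h2 : ‖x - x₀‖ = (1 / 2) * ‖z - x₀‖ := by
      rw [hxdef, add_sub_cancel_left, norm_smul, Real.norm_eq_abs]
      norm_num
    have h3 := le_max_left R 0
    linarith
  have hBx : Metric.closedBall x r ⊆ Ω := by
    intro w hw
    rw [mem_closedBall_iff_norm] at hw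
    -- `w` is the midpoint of `z` and a point of the ball around `x₀`
    set w' := x₀ + (2 : ℝ) • (w - x) with hw'
    have hw'm : w' ∈ Ω := by
      refine hball ?_
      rw [mem_closedBall_iff_norm, hw', add_sub_cancel_left, norm_smul, Real.norm_eq_abs]
      norm_num
      linarith
    have := hc.add_smul_sub_mem hw'm hzΩ (t := 1 / 2) ⟨by norm_num, by norm_num⟩
    have e : w' + (1 / 2 : ℝ) • (z - w') = w := by
      rw [hw', hxdef]
      ext i
      simp only [Pi.add_apply, Pi.smul_apply, Pi.sub_apply, smul_eq_mul]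
      ring
    rwa [e] at this
  have hb := ball_radius_bound (x₀ := x₀) hΩ hc hu hpos hx₀ hc0 hδ hδ1 hS₃ hr0 hlow hxΩ
    (hS₄1.trans hxS.le) hBx
  rw [← hlam] at hb
  have h1 : (1 + uBar u x₀ x) ^ (-δ) ≤ (1 + S₄) ^ (-δ) :=
    Real.rpow_le_rpow_of_nonpos (by linarith) (by linarith) (by linarith)
  linarith

/-- The Liouville theorem for gradients which are comparable on sublevel sets, without any growth
condition. -/
theorem det_const_of_comparable (hs : IsAffineMaximal Ω u) (hΩ : IsOpen Ω) (hc : Convex ℝ Ω)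
    (hx₀ : x₀ ∈ Ω) (hE : IsEuclideanComplete Ω u) {C S₁ : ℝ}
    (hcomp : ∀ x ∈ Ω, ∀ y ∈ Ω, S₁ ≤ uBar u x₀ x → uBar u x₀ y < uBar u x₀ x →
      ‖gradMap u x₀ y‖ ≤ C * ‖gradMap u x₀ x‖) {x y : Fin 3 → ℝ}
    (hx : x ∈ Ω) (hy : y ∈ Ω) : (hess u x).det = (hess u y).det := by
  have hcpt : ∀ s, IsCompact (subLevelC Ω (uBar u x₀) s) :=
    isCompact_subLevel_of_complete hΩ hc hs.smooth hs.posDef hx₀ hE
  have hunb : ¬ Bornology.IsBounded Ω := fun hb =>
    no_bounded (by norm_num) hs hΩ hc hb ⟨x₀, hx₀⟩ hE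
  by_contra hne
  -- the contrapositive of the gradient criterion
  have hnot : ¬ ∀ ε : ℝ, 0 < ε → ∀ S₂ : ℝ, ∃ S : ℝ, S₂ ≤ S ∧
      ∀ x ∈ Ω, uBar u x₀ x < S → ‖gradMap u x₀ x‖ ≤ ε * S ^ ((31 : ℝ) / 30) := fun h =>
    hne (det_const_of_gradient_bound31 hs hΩ hc hx₀ hcpt h hx hy)
  simp only [not_forall, not_exists, not_and, not_le] at hnot
  obtain ⟨ε₀, hε₀, S₂, h₂⟩ := hnot
  simp only [exists_prop] at h₂
  set C' := max C 1 with hC'
  have hC'0 : 0 < C' := lt_of_lt_of_le one_pos (le_max_right _ _)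
  set S₃ := max (max S₁ S₂) 1 with hS₃
  have hS₃1 : 1 ≤ S₃ := le_max_right _ _
  refine no_grad_lower (x₀ := x₀) hΩ hc hs.smooth hs.posDef hx₀ hcpt hunb (c := ε₀ / C')
    (δ := 1 / 30) (S₃ := S₃) (by positivity) (by norm_num) (by norm_num) hS₃1 fun z hz hzS => ?_
  have hz1 : S₁ ≤ uBar u x₀ z := ((le_max_left _ _).trans (le_max_left _ _)).trans hzS
  have hz2 : S₂ ≤ uBar u x₀ z := ((le_max_right _ _).trans (le_max_left _ _)).trans hzS
  obtain ⟨w, hw, hwS, hwg⟩ := h₂ (uBar u x₀ z) hz2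
  have h1 := hcomp z hz w hw hz1 hwS
  have h2 : C * ‖gradMap u x₀ z‖ ≤ C' * ‖gradMap u x₀ z‖ :=
    mul_le_mul_of_nonneg_right (le_max_left _ _) (norm_nonneg _)
  have e : (1 : ℝ) + 1 / 30 = 31 / 30 := by norm_num
  rw [e, div_mul_eq_mul_div, div_le_iff₀ hC'0]
  have e2 : ‖gradMap u x₀ z‖ * C' = C' * ‖gradMap u x₀ z‖ := mul_comm _ _
  rw [e2]
  linarith

/-- From a point of a lower level one reaches a given higher level with a gradient at least as large. -/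
lemma exists_level_point {Ω : Set (Fin 3 → ℝ)} {u : (Fin 3 → ℝ) → ℝ} {x₀ : Fin 3 → ℝ}
    (hΩ : IsOpen Ω) (hc : Convex ℝ Ω)
    (hu : ContDiffOn ℝ ∞ u Ω) (hpos : ∀ x ∈ Ω, (hess u x).PosDef)
    (hcpt : ∀ s, IsCompact (subLevelC Ω (uBar u x₀) s)) {x y : Fin 3 → ℝ} (hx : x ∈ Ω) (hy : y ∈ Ω)
    (hyx : uBar u x₀ y < uBar u x₀ x) :
    ∃ z ∈ Ω, uBar u x₀ z = uBar u x₀ x ∧ ‖gradMap u x₀ y‖ ≤ ‖gradMap u x₀ z‖ := by
  have hf : ContDiffOn ℝ ∞ (uBar u x₀) Ω := contDiffOn_uBar hu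
  obtain ⟨i, hi⟩ := exists_norm_eq (gradMap u x₀ y)
  have hi' : ‖gradMap u x₀ y‖ = |pd i (uBar u x₀) y| := hi
  by_cases h0 : pd i (uBar u x₀) y = 0
  · refine ⟨x, hx, rfl, ?_⟩
    rw [hi', h0, abs_zero]
    exact norm_nonneg _
  set S := uBar u x₀ x with hS
  set P := |pd i (uBar u x₀) y| with hP
  have hP0 : 0 < P := abs_pos.2 h0
  set σ : ℝ := if 0 ≤ pd i (uBar u x₀) y then 1 else -1 with hσ
  have hσP : σ * pd i (uBar u x₀) y = P := by
    rw [hP, hσ]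
    split_ifs with h
    · rw [abs_of_nonneg h, one_mul]
    · rw [abs_of_neg (not_le.1 h)]
      ring
  have hσ2 : σ * σ = 1 := by
    rw [hσ]
    split_ifs <;> norm_num
  set v : Fin 3 → ℝ := σ • (Pi.single i 1 : Fin 3 → ℝ) with hv
  set t₁ : ℝ := (S - uBar u x₀ y) / P with ht₁
  have ht₁0 : 0 < t₁ := div_pos (by linarith) hP0
  -- the tangent inequality along the line
  have htan : ∀ a b : ℝ, y + a • v ∈ Ω → y + b • v ∈ Ω →
      uBar u x₀ (y + a • v) + (b - a) * (σ * pd i (uBar u x₀) (y + a • v)) ≤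
        uBar u x₀ (y + b • v) := by
    intro a b ha hb
    have h := tangent_le (x₀ := x₀) hΩ hc hu hpos ha hb
    have e2 : y + b • v - (y + a • v) = ((b - a) * σ) • (Pi.single i 1 : Fin 3 → ℝ) := by
      rw [hv, smul_smul, smul_smul, add_sub_add_left_eq_sub, ← sub_smul]
      congr 1
      ring
    have e3 : fderiv ℝ (uBar u x₀) (y + a • v) (Pi.single i 1) =
        pd i (uBar u x₀) (y + a • v) := rfl
    rw [e2, map_smul, e3, smul_eq_mul] at h
    calc uBar u x₀ (y + a • v) + (b - a) * (σ * pd i (uBar u x₀) (y + a • v))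
        = uBar u x₀ (y + a • v) + (b - a) * σ * pd i (uBar u x₀) (y + a • v) := by ring
      _ ≤ _ := h
  have hy0 : y + (0 : ℝ) • v = y := by simp
  -- the first time at which the level is reached
  have hline : Continuous fun t : ℝ => y + t • v := by fun_prop
  have hO : IsOpen (subLevel Ω (uBar u x₀) S) := IsAffineMaximal.isOpen_subLevel hΩ hf S
  set B : Set ℝ := Set.Icc 0 t₁ ∩ (fun t : ℝ => y + t • v) ⁻¹' (subLevel Ω (uBar u x₀) S)ᶜ with hB
  have hBc : IsCompact B := by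
    refine isCompact_Icc.inter_right ?_
    exact hO.isClosed_compl.preimage hline
  have hBne : B.Nonempty := by
    refine ⟨t₁, ⟨ht₁0.le, le_rfl⟩, ?_⟩
    intro hmem
    have hm : y + t₁ • v ∈ Ω := hmem.1
    have h1 := htan 0 t₁ (by rw [hy0]; exact hy) hm
    rw [hy0, sub_zero, hσP] at h1
    have h2 : t₁ * P = S - uBar u x₀ y := by
      rw [ht₁]
      field_simp
    have h3 := hmem.2
    linarith
  obtain ⟨t, htB, htmin⟩ := hBc.exists_isLeast hBne
  have ht0 : 0 ≤ t := htB.1.1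
  have htne : t ≠ 0 := by
    rintro rfl
    apply htB.2
    show y + (0 : ℝ) • v ∈ subLevel Ω (uBar u x₀) S
    rw [hy0]
    exact ⟨hy, hyx⟩
  have htpos : 0 < t := lt_of_le_of_ne ht0 (Ne.symm htne)
  -- before `t` the line stays in the sublevel
  have hbefore : ∀ τ, 0 ≤ τ → τ < t → y + τ • v ∈ subLevel Ω (uBar u x₀) S := by
    intro τ hτ0 hτ
    by_contra hcon
    have : τ ∈ B := ⟨⟨hτ0, hτ.le.trans htB.1.2⟩, hcon⟩
    exact absurd (htmin this) (not_le.2 hτ)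
  have hclosed : y + t • v ∈ subLevelC Ω (uBar u x₀) S := by
    have hcl : IsClosed (subLevelC Ω (uBar u x₀) S) := (hcpt S).isClosed
    have hseq : Filter.Tendsto (fun τ : ℝ => y + τ • v) (𝓝[<] t) (𝓝 (y + t • v)) :=
      (hline.tendsto t).mono_left nhdsWithin_le_nhds
    refine hcl.mem_of_tendsto hseq ?_
    have : Set.Ioo 0 t ∈ 𝓝[<] t := Ioo_mem_nhdsLT htpos
    filter_upwards [this] with τ hτ
    have h := hbefore τ hτ.1.le hτ.2
    exact ⟨h.1, h.2.le⟩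
  have hzΩ : y + t • v ∈ Ω := hclosed.1
  have hzS : uBar u x₀ (y + t • v) = S := by
    refine le_antisymm hclosed.2 ?_
    by_contra hcon
    exact htB.2 ⟨hzΩ, not_le.1 hcon⟩
  refine ⟨y + t • v, hzΩ, hzS, ?_⟩
  -- monotonicity of the derivative along the line
  have h1 := htan 0 t (by rw [hy0]; exact hy) hzΩ
  have h2 := htan t 0 hzΩ (by rw [hy0]; exact hy)
  rw [hy0, sub_zero, hσP] at h1
  rw [hy0, zero_sub] at h2
  have h3 : t * P ≤ t * (σ * pd i (uBar u x₀) (y + t • v)) := by linarith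
  have h4 : P ≤ σ * pd i (uBar u x₀) (y + t • v) := le_of_mul_le_mul_left h3 htpos
  have h5 : |σ| = 1 := by
    rw [hσ]
    split_ifs <;> simp
  have h6 : σ * pd i (uBar u x₀) (y + t • v) ≤ |pd i (uBar u x₀) (y + t • v)| := by
    calc σ * pd i (uBar u x₀) (y + t • v) ≤ |σ * pd i (uBar u x₀) (y + t • v)| := le_abs_self _
      _ = |pd i (uBar u x₀) (y + t • v)| := by rw [abs_mul, h5, one_mul]
  have h7 := norm_le_pi_norm (gradMap u x₀ (y + t • v)) i
  rw [Real.norm_eq_abs] at h7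
  rw [hi']
  exact h4.trans (h6.trans h7)

/-- The Liouville theorem for gradients which are comparable on the level sets. -/
theorem det_const_of_comparable_levels (hs : IsAffineMaximal Ω u) (hΩ : IsOpen Ω) (hc : Convex ℝ Ω)
    (hx₀ : x₀ ∈ Ω) (hE : IsEuclideanComplete Ω u) {C S₁ : ℝ}
    (hcomp : ∀ x ∈ Ω, ∀ y ∈ Ω, S₁ ≤ uBar u x₀ x → uBar u x₀ y = uBar u x₀ x →
      ‖gradMap u x₀ y‖ ≤ C * ‖gradMap u x₀ x‖) {x y : Fin 3 → ℝ}
    (hx : x ∈ Ω) (hy : y ∈ Ω) : (hess u x).det = (hess u y).det := by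
  have hcpt : ∀ s, IsCompact (subLevelC Ω (uBar u x₀) s) :=
    isCompact_subLevel_of_complete hΩ hc hs.smooth hs.posDef hx₀ hE
  refine det_const_of_comparable hs hΩ hc hx₀ hE (C := C) (S₁ := S₁) (fun a ha b hb hS hba => ?_) hx hy
  obtain ⟨z, hz, hzS, hg⟩ := exists_level_point hΩ hc hs.smooth hs.posDef hcpt ha hb hba
  exact hg.trans (hcomp a ha z hz hS hzS)

/-- The Liouville theorem when the sublevels `K_S` and `K_{2S}` stay at a distance much larger than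
`S^{-1/30}` along a sequence. -/
theorem det_const_of_gap (hs : IsAffineMaximal Ω u) (hΩ : IsOpen Ω) (hc : Convex ℝ Ω)
    (hx₀ : x₀ ∈ Ω) (hcpt : ∀ s, IsCompact (subLevelC Ω (uBar u x₀) s))
    (hGap : ∀ ε : ℝ, 0 < ε → ∀ S₁ : ℝ, ∃ S ρ : ℝ, S₁ ≤ S ∧ 0 < ρ ∧ S ≤ ε * (ρ * S ^ ((31 : ℝ) / 30)) ∧
      ∀ x ∈ Ω, uBar u x₀ x < S → ∀ z, ‖z - x‖ ≤ ρ → z ∈ Ω ∧ uBar u x₀ z ≤ 2 * S) {x y : Fin 3 → ℝ}
    (hx : x ∈ Ω) (hy : y ∈ Ω) : (hess u x).det = (hess u y).det := by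
  refine det_const_of_gradient_bound31 hs hΩ hc hx₀ hcpt (fun ε hε S₁ => ?_) hx hy
  obtain ⟨S, ρ, hS₁, hρ, hSρ, hz⟩ := hGap (ε / 2) (by positivity) S₁
  refine ⟨S, hS₁, fun w hw hwS => ?_⟩
  have hu0 := uBar_nonneg hΩ hc hs.smooth hs.posDef hx₀ hw
  rw [pi_norm_le_iff_of_nonneg]
  · intro i
    have key : ∀ t : ℝ, |t| = ρ → t * pd i (uBar u x₀) w ≤ 2 * S := by
      intro t ht
      set z := w + t • (Pi.single i 1 : Fin 3 → ℝ) with hzdef
      have hzn : ‖z - w‖ ≤ ρ := by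
        rw [hzdef, add_sub_cancel_left, norm_smul, Real.norm_eq_abs, ht]
        refine mul_le_of_le_one_right hρ.le ?_
        rw [pi_norm_le_iff_of_nonneg zero_le_one]
        intro j
        by_cases h : j = i
        · subst h; simp
        · simp [Pi.single_eq_of_ne h]
      obtain ⟨hzΩ, hzS⟩ := hz w hw hwS z hzn
      have h1 := tangent_le (x₀ := x₀) hΩ hc hs.smooth hs.posDef hw hzΩ
      have e2 : z - w = t • (Pi.single i 1 : Fin 3 → ℝ) := by rw [hzdef]; abel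
      rw [e2, map_smul] at h1
      have e3 : fderiv ℝ (uBar u x₀) w (Pi.single i 1) = pd i (uBar u x₀) w := rfl
      rw [e3, smul_eq_mul] at h1
      linarith
    have h1 := key ρ (abs_of_pos hρ)
    have h2 := key (-ρ) (by rw [abs_neg, abs_of_pos hρ])
    have h3 : ρ * |pd i (uBar u x₀) w| ≤ 2 * S := by
      rcases abs_cases (pd i (uBar u x₀) w) with ⟨h, _⟩ | ⟨h, _⟩ <;> rw [h] <;> linarith
    change ‖pd i (uBar u x₀) w‖ ≤ _
    rw [Real.norm_eq_abs]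
    have h4 : ρ * |pd i (uBar u x₀) w| ≤ ρ * (ε * S ^ ((31 : ℝ) / 30)) := by
      calc ρ * |pd i (uBar u x₀) w| ≤ 2 * S := h3
        _ ≤ 2 * ((ε / 2) * (ρ * S ^ ((31 : ℝ) / 30))) := by linarith
        _ = ρ * (ε * S ^ ((31 : ℝ) / 30)) := by ring
    exact le_of_mul_le_mul_left h4 hρ
  · have hS0 : 0 ≤ S := hu0.trans hwS.le
    exact mul_nonneg hε.le (Real.rpow_nonneg hS0 _)

section Entire

variable {u : (Fin 3 → ℝ) → ℝ} {x₀ : Fin 3 → ℝ}

/-- The Liouville theorem for entire solutions under a growth condition along a sequence of radii: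
with `m` a lower bound for `ū` on the sphere of radius `R` and `M` an upper bound on the ball of
radius `2R`, the determinant is constant as soon as `M = o(R m^{31/30})` with `m → ∞`. -/
theorem det_const_of_growth31 (hs : IsAffineMaximal Set.univ u)
    (hG : ∀ ε : ℝ, 0 < ε → ∀ S₁ : ℝ, ∃ R : ℝ, 0 < R ∧ ∃ m : ℝ, S₁ ≤ m ∧ ∃ M : ℝ,
      (∀ x, ‖x - x₀‖ = R → m ≤ uBar u x₀ x) ∧ (∀ x, ‖x - x₀‖ ≤ 2 * R → uBar u x₀ x ≤ M) ∧
      M ≤ ε * (R * m ^ ((31 : ℝ) / 30))) (x y : Fin 3 → ℝ) : (hess u x).det = (hess u y).det := by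
  have hcpt : ∀ s, IsCompact (subLevelC Set.univ (uBar u x₀) s) :=
    isCompact_subLevel_of_complete isOpen_univ convex_univ hs.smooth hs.posDef (mem_univ x₀)
      (isEuclideanComplete_univ u)
  refine det_const_of_gradient_bound31 hs isOpen_univ convex_univ (mem_univ x₀) hcpt
    (fun ε hε S₁ => ?_) (mem_univ x) (mem_univ y)
  obtain ⟨R, hR, m, hm1, M, hsph, hball, hMm⟩ := hG ε hε (max S₁ 1)
  have hm0 : 0 < m := lt_of_lt_of_le one_pos ((le_max_right _ _).trans hm1)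
  refine ⟨m, (le_max_left _ _).trans hm1, ?_⟩
  intro z _ hz
  have hzb : ‖z - x₀‖ < R := subLevel_subset_ball isOpen_univ convex_univ hs.smooth hs.posDef
    (mem_univ x₀) hR hm0.le (fun w _ hw => hsph w hw) (mem_univ z) hz
  have h1 := gradMap_mem_closedBall hs.smooth hs.posDef hR hball hzb
  rw [mem_closedBall_zero_iff] at h1
  refine h1.trans ?_
  rw [div_le_iff₀ hR]
  calc M ≤ ε * (R * m ^ ((31 : ℝ) / 30)) := hMm
    _ = ε * m ^ ((31 : ℝ) / 30) * R := by ring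

/-- The Liouville theorem for entire solutions with two sided power growth, `b < 1 + (31/30) a`. -/
theorem det_const_of_power_growth31 (hs : IsAffineMaximal Set.univ u) {a b c C : ℝ} (ha : 0 < a)
    (hb : 0 < b) (hc : 0 < c) (hab : b < 1 + 31 / 30 * a)
    (hlow : ∀ x, c * ‖x - x₀‖ ^ a - C ≤ uBar u x₀ x)
    (hup : ∀ x, uBar u x₀ x ≤ C * ‖x - x₀‖ ^ b + C) (x y : Fin 3 → ℝ) :
    (hess u x).det = (hess u y).det := by
  have hC : 0 ≤ C := by
    have := hup x₀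
    rw [uBar_self, sub_self, norm_zero, Real.zero_rpow hb.ne', mul_zero, zero_add] at this
    exact this
  refine det_const_of_growth31 (x₀ := x₀) hs (fun ε hε S₁ => ?_) x y
  set C₁ : ℝ := C * 2 ^ b + C with hC₁
  have hC₁0 : 0 ≤ C₁ := by positivity
  set δ : ℝ := 1 + 31 / 30 * a - b with hδ
  have hδ0 : 0 < δ := by rw [hδ]; linarith
  set c₂ : ℝ := (c / 2) ^ ((31 : ℝ) / 30) with hc₂
  have hc₂0 : 0 < c₂ := Real.rpow_pos_of_pos (by positivity) _
  have t1 : Tendsto (fun R : ℝ => R ^ a) atTop atTop := tendsto_rpow_atTop ha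
  have t2 : Tendsto (fun R : ℝ => R ^ δ) atTop atTop := tendsto_rpow_atTop hδ0
  have e1 := t1.eventually_ge_atTop ((S₁ + C) / c)
  have e1' := t1.eventually_ge_atTop (2 * C / c)
  have e2 := t2.eventually_ge_atTop (C₁ / (ε * c₂))
  have e3 := eventually_ge_atTop (1 : ℝ)
  obtain ⟨R, hR1, hR1', hR2, hR3⟩ := (e1.and (e1'.and (e2.and e3))).exists
  have hR0 : 0 < R := lt_of_lt_of_le one_pos hR3
  have hRa : 0 < R ^ a := by positivity
  have hRb : 1 ≤ R ^ b := Real.one_le_rpow hR3 hb.le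
  refine ⟨R, hR0, c * R ^ a - C, ?_, C * (2 * R) ^ b + C, ?_, ?_, ?_⟩
  · rw [div_le_iff₀ hc] at hR1
    nlinarith
  · intro z hz
    have := hlow z
    rwa [hz] at this
  · intro z hz
    refine (hup z).trans ?_
    have : ‖z - x₀‖ ^ b ≤ (2 * R) ^ b := Real.rpow_le_rpow (norm_nonneg _) hz hb.le
    nlinarith [mul_le_mul_of_nonneg_left this hC]
  · have h1 : c / 2 * R ^ a ≤ c * R ^ a - C := by
      rw [div_le_iff₀ hc] at hR1'
      nlinarith
    have hM : C * (2 * R) ^ b + C ≤ C₁ * R ^ b := by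
      rw [Real.mul_rpow (by norm_num) hR0.le, hC₁]
      nlinarith [mul_le_mul_of_nonneg_left hRb hC]
    have h4 : C₁ ≤ ε * c₂ * R ^ δ := by
      rw [div_le_iff₀ (by positivity)] at hR2
      linarith
    have h5 : c₂ * R ^ (31 / 30 * a) ≤ (c * R ^ a - C) ^ ((31 : ℝ) / 30) := by
      have h6 : (c / 2 * R ^ a) ^ ((31 : ℝ) / 30) ≤ (c * R ^ a - C) ^ ((31 : ℝ) / 30) :=
        Real.rpow_le_rpow (by positivity) h1 (by norm_num)
      refine le_trans (le_of_eq ?_) h6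
      rw [Real.mul_rpow (by positivity) hRa.le, ← Real.rpow_mul hR0.le]
      congr 2
      ring
    have e : R ^ δ * R ^ b = R * R ^ (31 / 30 * a) := by
      rw [← Real.rpow_add hR0]
      have e' : δ + b = 1 + 31 / 30 * a := by rw [hδ]; ring
      rw [e', Real.rpow_add hR0, Real.rpow_one]
    have hRb0 : 0 ≤ R ^ b := by positivity
    calc C * (2 * R) ^ b + C ≤ C₁ * R ^ b := hM
      _ ≤ (ε * c₂ * R ^ δ) * R ^ b := mul_le_mul_of_nonneg_right h4 hRb0
      _ = ε * (R * (c₂ * R ^ (31 / 30 * a))) := by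
          calc ε * c₂ * R ^ δ * R ^ b = ε * c₂ * (R ^ δ * R ^ b) := by ring
            _ = ε * c₂ * (R * R ^ (31 / 30 * a)) := by rw [e]
            _ = _ := by ring
      _ ≤ ε * (R * (c * R ^ a - C) ^ ((31 : ℝ) / 30)) := by
          refine mul_le_mul_of_nonneg_left ?_ hε.le
          exact mul_le_mul_of_nonneg_left h5 hR0.le

end Entire

end Vale.Agent.Lib.P252
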