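import Vale.Agent.Lib.P252.Final

/-!
Hessian-metric calculus for the affine maximal equation: inverse Hessian, third derivatives, the
function `p = log det D²u`, and the equation in the form `u^{ij} p_{ij} = c u^{ij} p_i p_j`.
-/

open scoped ContDiff Matrix
open MeasureTheory

namespace Vale.Agent.Lib.P252

variable {n : ℕ} {Ω : Set (Fin n → ℝ)} {u : (Fin n → ℝ) → ℝ}

/-- The inverse Hessian `u^{ij}`. -/
noncomputable def Ui (u : (Fin n → ℝ) → ℝ) (y : Fin n → ℝ) (i j : Fin n) : ℝ := (hess u y)⁻¹ i j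

/-- The third derivatives `u_{ijk}`. -/
noncomputable def A3 (u : (Fin n → ℝ) → ℝ) (y : Fin n → ℝ) (i j k : Fin n) : ℝ :=
  pd k (pd i (pd j u)) y

/-- The function `p = log det D²u`. -/
noncomputable def logD (u : (Fin n → ℝ) → ℝ) (y : Fin n → ℝ) : ℝ := Real.log (hess u y).det

namespace IsAffineMaximal

variable (hs : IsAffineMaximal Ω u) (hΩ : IsOpen Ω)
include hs

lemma Ui_symm {x : Fin n → ℝ} (hx : x ∈ Ω) (i j : Fin n) : Ui u x i j = Ui u x j i := by
  have h := (hs.posDef x hx).inv.isHermitian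
  have := congrFun (congrFun h i) j
  simpa [Matrix.conjTranspose_apply, Ui] using this.symm

lemma Ui_mul {x : Fin n → ℝ} (hx : x ∈ Ω) (i k : Fin n) :
    ∑ j, Ui u x i j * hess u x j k = (1 : Matrix (Fin n) (Fin n) ℝ) i k := by
  have h1 : (hess u x)⁻¹ * hess u x = 1 :=
    Matrix.nonsing_inv_mul _ (isUnit_iff_ne_zero.2 (hs.det_ne hx))
  have := congrFun (congrFun h1 i) k
  simpa [Matrix.mul_apply, Ui] using this

lemma mul_Ui {x : Fin n → ℝ} (hx : x ∈ Ω) (i k : Fin n) :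
    ∑ j, hess u x i j * Ui u x j k = (1 : Matrix (Fin n) (Fin n) ℝ) i k := by
  have h1 : hess u x * (hess u x)⁻¹ = 1 :=
    Matrix.mul_nonsing_inv _ (isUnit_iff_ne_zero.2 (hs.det_ne hx))
  have := congrFun (congrFun h1 i) k
  simpa [Matrix.mul_apply, Ui] using this

lemma Ui_eq {y : Fin n → ℝ} (hy : y ∈ Ω) (i j : Fin n) :
    Ui u y i j = ((hess u y).det)⁻¹ * (hess u y).adjugate i j := by
  simp only [Ui, Matrix.inv_def, Ring.inverse_eq_inv', Matrix.smul_apply, smul_eq_mul]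

lemma adj_eq {y : Fin n → ℝ} (hy : y ∈ Ω) (i j : Fin n) :
    (hess u y).adjugate i j = (hess u y).det * Ui u y i j := by
  rw [hs.Ui_eq hy, ← mul_assoc, mul_inv_cancel₀ (hs.det_ne hy), one_mul]

include hΩ

lemma contDiffOn_Ui (i j : Fin n) : ContDiffOn ℝ ∞ (fun y => Ui u y i j) Ω := by
  have h1 : ContDiffOn ℝ ∞ (fun y => ((hess u y).det)⁻¹ * (hess u y).adjugate i j) Ω :=
    ((contDiffOn_detHess hΩ hs.smooth).inv fun y hy => hs.det_ne hy).mul
      (contDiffOn_adjHess hΩ hs.smooth i j)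
  exact h1.congr fun y hy => hs.Ui_eq hy i j

lemma contDiffOn_A3 (i j k : Fin n) : ContDiffOn ℝ ∞ (fun y => A3 u y i j k) Ω :=
  contDiffOn_pd hΩ (contDiffOn_pd2 hΩ hs.smooth i j) k

lemma contDiffOn_logD : ContDiffOn ℝ ∞ (logD u) Ω :=
  (contDiffOn_detHess hΩ hs.smooth).log fun y hy => hs.det_ne hy

lemma A3_swap12 {x : Fin n → ℝ} (hx : x ∈ Ω) (i j k : Fin n) : A3 u x i j k = A3 u x j i k :=
  pd_congr_on hΩ hx (fun y hy => pd_comm hΩ hs.smooth hy i j) k

lemma A3_swap23 {x : Fin n → ℝ} (hx : x ∈ Ω) (i j k : Fin n) : A3 u x i j k = A3 u x i k j := by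
  unfold A3
  rw [pd_comm hΩ (contDiffOn_pd hΩ hs.smooth j) hx k i]
  rw [pd_congr_on hΩ hx (fun y hy => pd_comm hΩ hs.smooth hy k j) i]
  exact (pd_comm hΩ (contDiffOn_pd hΩ hs.smooth k) hx i j).trans
    (pd_comm hΩ (contDiffOn_pd hΩ hs.smooth k) hx j i) |>.trans
    (pd_comm hΩ (contDiffOn_pd hΩ hs.smooth k) hx i j)

/-- Derivative of the inverse Hessian. -/
lemma pd_Ui {x : Fin n → ℝ} (hx : x ∈ Ω) (k i j : Fin n) :
    pd k (fun y => Ui u y i j) x = - ∑ l, ∑ m, Ui u x i l * A3 u x l m k * Ui u x m j := by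
  have hD := hs.det_ne hx
  have hDd : DifferentiableAt ℝ (fun y => (hess u y).det) x :=
    diffAt hΩ (contDiffOn_detHess hΩ hs.smooth) hx
  have hDi : DifferentiableAt ℝ (fun y => ((hess u y).det)⁻¹) x := hDd.inv hD
  have hadj : DifferentiableAt ℝ (fun y => (hess u y).adjugate i j) x :=
    diffAt hΩ (contDiffOn_adjHess hΩ hs.smooth i j) hx
  have h1 : pd k (fun y => Ui u y i j) x =
      pd k (fun y => ((hess u y).det)⁻¹ * (hess u y).adjugate i j) x :=
    pd_congr_on hΩ hx (fun y hy => hs.Ui_eq hy i j) k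
  rw [h1, pd_mul hDi hadj, pd_adj hΩ hs.smooth hx hD]
  have h2 : pd k (fun y => ((hess u y).det)⁻¹) x =
      - (((hess u x).det)⁻¹ ^ 2 * pd k (fun y => (hess u y).det) x) := by
    have := pd_comp (g := fun t : ℝ => t⁻¹) (g' := -(((hess u x).det)⁻¹ ^ 2))
      (f := fun y => (hess u y).det) (x := x) (by
        have := hasDerivAt_inv hD
        simpa [inv_pow] using this) hDd k
    simpa [neg_mul] using this
  rw [h2]
  have h3 : ∑ l, ∑ m, (hess u x).adjugate i l * pd k (pd l (pd m u)) x * (hess u x)⁻¹ m j =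
      (hess u x).det * ∑ l, ∑ m, Ui u x i l * A3 u x l m k * Ui u x m j := by
    rw [Finset.mul_sum]
    refine Finset.sum_congr rfl fun l _ => ?_
    rw [Finset.mul_sum]
    refine Finset.sum_congr rfl fun m _ => ?_
    rw [hs.adj_eq hx i l]
    have : pd k (pd l (pd m u)) x = A3 u x l m k := rfl
    rw [this]
    simp only [Ui]
    ring
  rw [h3, hs.adj_eq hx i j]
  have h4 : (hess u x)⁻¹ i j = Ui u x i j := rfl
  rw [h4]
  set D := (hess u x).det
  set dD := pd k (fun y => (hess u y).det) x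
  set S := ∑ l, ∑ m, Ui u x i l * A3 u x l m k * Ui u x m j
  field_simp
  ring

/-- Jacobi's formula for `p = log det D²u`. -/
lemma pd_logD {x : Fin n → ℝ} (hx : x ∈ Ω) (k : Fin n) :
    pd k (logD u) x = ∑ i, ∑ j, Ui u x i j * A3 u x i j k := by
  have hD := hs.det_ne hx
  have hDd : DifferentiableAt ℝ (fun y => (hess u y).det) x :=
    diffAt hΩ (contDiffOn_detHess hΩ hs.smooth) hx
  have h1 := pd_comp (g := Real.log) (g' := ((hess u x).det)⁻¹) (f := fun y => (hess u y).det)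
    (x := x) (Real.hasDerivAt_log hD) hDd k
  have h2 : pd k (fun y => (hess u y).det) x =
      ∑ i, ∑ l, (hess u x).adjugate l i * pd k (fun y => hess u y i l) x :=
    pd_det (fun i j => diffAt hΩ (contDiffOn_hess hΩ hs.smooth i j) hx) k
  change pd k (fun y => Real.log (hess u y).det) x = _
  rw [h1, h2, Finset.mul_sum]
  refine Finset.sum_congr rfl fun i _ => ?_
  rw [Finset.mul_sum]
  refine Finset.sum_congr rfl fun j _ => ?_
  rw [hs.adj_eq hx j i, hs.Ui_symm hx j i]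
  have : pd k (fun y => hess u y i j) x = A3 u x i j k := rfl
  rw [this]
  field_simp

end IsAffineMaximal

end Vale.Agent.Lib.P252
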