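import Vale.Agent.Lib.P252.Hess9

/-!
The main integral estimate in dimension three:
`∫_{ū < S₀} D^{3/5} T² ≤ C S⁻² ∫_{ū < S} D^{3/5}` for `S ≥ 2 S₀`, and its Liouville consequence.
-/

open scoped ContDiff Matrix Topology
open MeasureTheory

namespace Vale.Agent.Lib.P252

variable {Ω : Set (Fin 3 → ℝ)} {u : (Fin 3 → ℝ) → ℝ} {x₀ : Fin 3 → ℝ}

lemma zero_add_aux {f g : (Fin 3 → ℝ) → ℝ} (hf : Integrable f ∧ ∫ x, f x = 0)
    (hg : Integrable g ∧ ∫ x, g x = 0) :
    Integrable (fun x => f x + g x) ∧ ∫ x, (f x + g x) = 0 :=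
  ⟨hf.1.add hg.1, by rw [integral_add hf.1 hg.1, hf.2, hg.2, add_zero]⟩

lemma zero_mul_aux {f : (Fin 3 → ℝ) → ℝ} (c : ℝ) (hf : Integrable f ∧ ∫ x, f x = 0) :
    Integrable (fun x => c * f x) ∧ ∫ x, c * f x = 0 :=
  ⟨hf.1.const_mul c, by rw [integral_const_mul, hf.2, mul_zero]⟩

/-- The constant in the main estimate. -/
noncomputable def cMass : ℝ := 49000000000000 * 2 ^ 1000

lemma cMass_pos : 0 < cMass := by
  unfold cMass
  positivity

lemma alg_aux (a b c K I M : ℝ) (ha : 0 < a) (hb : 0 < b) (hc : 0 < c)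
    (h : a * b / c * I ≤ K * (a * M)) : I ≤ K * c / b * M := by
  have h2 : a * (b * I) ≤ a * (K * c * M) := by
    have e : a * b / c * I = a * (b * I) / c := by ring
    rw [e, div_le_iff₀ hc] at h
    calc a * (b * I) ≤ K * (a * M) * c := h
      _ = a * (K * c * M) := by ring
  have h3 := le_of_mul_le_mul_left h2 ha
  rw [div_mul_eq_mul_div, le_div_iff₀ hb]
  linarith

lemma mass_alg (S I M : ℝ) (hS : 0 < S) (h : (S / 2) ^ 1000 * I ≤ 49000000000000 * (S ^ 998 * M)) :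
    I ≤ cMass / S ^ 2 * M := by
  have e : (S / 2) ^ 1000 = S ^ 998 * S ^ 2 / 2 ^ 1000 := by
    rw [div_pow, ← pow_add]
  rw [e] at h
  exact alg_aux _ _ _ _ _ _ (by positivity) (by positivity) (by positivity) h

/-- The first mass function. -/
noncomputable def massA (Ω : Set (Fin 3 → ℝ)) (u : (Fin 3 → ℝ) → ℝ) (x₀ : Fin 3 → ℝ) (S : ℝ) :
    (Fin 3 → ℝ) → ℝ :=
  Set.indicator Ω fun y => (hess u y).det ^ (3/5 : ℝ) * (powP 1000 (S - uBar u x₀ y) * aT u y ^ 2)

/-- The second mass function. -/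
noncomputable def massB (Ω : Set (Fin 3 → ℝ)) (u : (Fin 3 → ℝ) → ℝ) (x₀ : Fin 3 → ℝ) (S : ℝ) :
    (Fin 3 → ℝ) → ℝ :=
  Set.indicator Ω fun y => (hess u y).det ^ (3/5 : ℝ) * powP 998 (S - uBar u x₀ y)

lemma powP_eq_zero_of_nonpos {N : ℕ} (hN : N ≠ 0) {t : ℝ} (ht : t ≤ 0) : powP N t = 0 := by
  simp [powP, max_eq_right ht, hN]

lemma powP_of_pos (N : ℕ) {t : ℝ} (ht : 0 < t) : powP N t = t ^ N := by
  simp [powP, max_eq_left ht.le]

namespace IsAffineMaximal

variable (hs : IsAffineMaximal Ω u) (hΩ : IsOpen Ω)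
include hs hΩ

lemma combI_integral (S : ℝ) (hcpt : IsCompact (subLevelC Ω (uBar u x₀) S)) :
    Integrable (hs.combI x₀ S) ∧ ∫ x, hs.combI x₀ S x = 0 := by
  have hq : ∀ j, ContDiffOn ℝ ∞ (qF u j) Ω := hs.contDiffOn_qF hΩ
  have hX : ∀ j, ContDiffOn ℝ ∞ (XF u x₀ j) Ω := hs.contDiffOn_XF hΩ
  have hT : ContDiffOn ℝ ∞ (aT u) Ω := hs.contDiffOn_aT hΩ
  have hH : ContDiffOn ℝ ∞ (aH u x₀) Ω := hs.contDiffOn_aH hΩ
  have hG : ContDiffOn ℝ ∞ (aG u x₀) Ω := hs.contDiffOn_aG hΩ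
  have i1 := hs.fieldI_integral hΩ (V := fun j y => aT u y * qF u j y)
    (fun j => hT.mul (hq j)) (3/5) S (N := 1000) (by norm_num) hcpt
  have i2 := hs.fieldI_integral hΩ (V := fun j y => aH u x₀ y * qF u j y)
    (fun j => hH.mul (hq j)) (3/5) S (N := 999) (by norm_num) hcpt
  have i3 := hs.fieldI_integral hΩ (V := fun j y => aG u x₀ y * qF u j y)
    (fun j => hG.mul (hq j)) (3/5) S (N := 998) (by norm_num) hcpt
  have i4 := hs.fieldI_integral hΩ (V := fun j y => aT u y * XF u x₀ j y)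
    (fun j => hT.mul (hX j)) (3/5) S (N := 999) (by norm_num) hcpt
  have i5 := hs.fieldI_integral hΩ (V := fun j y => aH u x₀ y * XF u x₀ j y)
    (fun j => hH.mul (hX j)) (3/5) S (N := 998) (by norm_num) hcpt
  have i6 := hs.fieldI_integral hΩ (V := fun j y => aG u x₀ y * XF u x₀ j y)
    (fun j => hG.mul (hX j)) (3/5) S (N := 997) (by norm_num) hcpt
  have i7 := hs.fieldI_integral hΩ (V := Ah u (qF u) (qF u))
    (hs.contDiffOn_Ah hΩ hq hq) (3/5) S (N := 1000) (by norm_num) hcpt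
  have i8 := hs.fieldI_integral hΩ (V := Ah u (qF u) (XF u x₀))
    (hs.contDiffOn_Ah hΩ hq hX) (3/5) S (N := 999) (by norm_num) hcpt
  have i9 := hs.fieldI_integral hΩ (V := Ah u (XF u x₀) (XF u x₀))
    (hs.contDiffOn_Ah hΩ hX hX) (3/5) S (N := 998) (by norm_num) hcpt
  have i10 := hs.fieldI_integral hΩ (V := ph u (qF u))
    (hs.contDiffOn_ph hΩ hq) (3/5) S (N := 1000) (by norm_num) hcpt
  have i11 := hs.fieldI_integral hΩ (V := ph u (XF u x₀))
    (hs.contDiffOn_ph hΩ hX) (3/5) S (N := 999) (by norm_num) hcpt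
  exact zero_add_aux (zero_add_aux (zero_add_aux (zero_add_aux (zero_add_aux (zero_add_aux
    (zero_add_aux (zero_add_aux (zero_add_aux (zero_add_aux
      (zero_mul_aux _ i1) (zero_mul_aux _ i2)) (zero_mul_aux _ i3)) (zero_mul_aux _ i4))
      (zero_mul_aux _ i5)) (zero_mul_aux _ i6)) (zero_mul_aux _ i7)) (zero_mul_aux _ i8))
      (zero_mul_aux _ i9)) (zero_mul_aux _ i10)) (zero_mul_aux _ i11)

/-- The pointwise lower bound for the combination of the identities. -/
lemma combI_lower (S : ℝ) (x : Fin 3 → ℝ) :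
    (1/1000) * massA Ω u x₀ S x - 49000000000 * massB Ω u x₀ S x ≤ hs.combI x₀ S x := by
  by_cases hx : x ∈ Ω
  · simp only [massA, massB, Set.indicator_of_mem hx]
    by_cases hη : 0 < S - uBar u x₀ x
    · rw [powP_of_pos _ hη, powP_of_pos _ hη]
      exact hs.combI_lower_pos hΩ hx S hη
    · have hη' := not_lt.1 hη
      rw [powP_eq_zero_of_nonpos (by norm_num) hη', powP_eq_zero_of_nonpos (by norm_num) hη',
        hs.combI_eq_zero_of_nonpos hΩ S hη']
      simp
  · have h0 : hs.combI x₀ S x = 0 := by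
      simp [combI, fieldI, Set.indicator_of_notMem hx]
    simp [massA, massB, Set.indicator_of_notMem hx, h0]

omit hs hΩ in
lemma continuous_powP_comp {f : (Fin 3 → ℝ) → ℝ} (hf : ContinuousOn f Ω) (N : ℕ) (S : ℝ) :
    ContinuousOn (fun y => powP N (S - f y)) Ω := by
  have h : Continuous (fun t : ℝ => (max t 0) ^ N) := (continuous_id.max continuous_const).pow N
  exact h.comp_continuousOn (continuousOn_const.sub hf)

lemma integrable_massA (S : ℝ) (hcpt : IsCompact (subLevelC Ω (uBar u x₀) S)) :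
    Integrable (massA Ω u x₀ S) := by
  refine integrable_of_support hcpt (fun _ hx => hx.1) ?_ ?_
  · have hcont : ContinuousOn (fun y => (hess u y).det ^ (3/5 : ℝ) *
        (powP 1000 (S - uBar u x₀ y) * aT u y ^ 2)) Ω :=
      (hs.contDiffOn_detpow hΩ _).continuousOn.mul
        ((continuous_powP_comp (contDiffOn_uBar hs.smooth).continuousOn _ _).mul
          ((hs.contDiffOn_aT hΩ).continuousOn.pow 2))
    exact hcont.congr fun y hy => by simp [massA, Set.indicator_of_mem hy]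
  · intro y hy
    by_cases hyΩ : y ∈ Ω
    · have hlt : S < uBar u x₀ y := by
        by_contra h
        exact hy ⟨hyΩ, not_lt.1 h⟩
      simp only [massA, Set.indicator_of_mem hyΩ]
      rw [powP_eq_zero_of_nonpos (by norm_num) (by linarith)]
      simp
    · simp [massA, Set.indicator_of_notMem hyΩ]

lemma integrable_massB (S : ℝ) (hcpt : IsCompact (subLevelC Ω (uBar u x₀) S)) :
    Integrable (massB Ω u x₀ S) := by
  refine integrable_of_support hcpt (fun _ hx => hx.1) ?_ ?_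
  · have hcont : ContinuousOn (fun y => (hess u y).det ^ (3/5 : ℝ) *
        powP 998 (S - uBar u x₀ y)) Ω :=
      (hs.contDiffOn_detpow hΩ _).continuousOn.mul
        (continuous_powP_comp (contDiffOn_uBar hs.smooth).continuousOn _ _)
    exact hcont.congr fun y hy => by simp [massB, Set.indicator_of_mem hy]
  · intro y hy
    by_cases hyΩ : y ∈ Ω
    · have hlt : S < uBar u x₀ y := by
        by_contra h
        exact hy ⟨hyΩ, not_lt.1 h⟩
      simp only [massB, Set.indicator_of_mem hyΩ]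
      rw [powP_eq_zero_of_nonpos (by norm_num) (by linarith)]
      simp
    · simp [massB, Set.indicator_of_notMem hyΩ]

/-- The main integral inequality with cut-off. -/
lemma massA_le (S : ℝ) (hcpt : IsCompact (subLevelC Ω (uBar u x₀) S)) :
    ∫ x, massA Ω u x₀ S x ≤ 49000000000000 * ∫ x, massB Ω u x₀ S x := by
  have hA := hs.integrable_massA hΩ S hcpt
  have hB := hs.integrable_massB hΩ S hcpt
  have hC := hs.combI_integral hΩ S hcpt
  have hle : ∫ x, ((1/1000) * massA Ω u x₀ S x - 49000000000 * massB Ω u x₀ S x) ≤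
      ∫ x, hs.combI x₀ S x :=
    integral_mono ((hA.const_mul _).sub (hB.const_mul _)) hC.1 (hs.combI_lower hΩ S)
  rw [hC.2, integral_sub (hA.const_mul _) (hB.const_mul _), integral_const_mul,
    integral_const_mul] at hle
  linarith

/-- Lower bound for the integral of the first mass function. -/
lemma mass_lower (hcpt : ∀ s, IsCompact (subLevelC Ω (uBar u x₀) s)) {S₀ S : ℝ} (hS : 0 < S)
    (hS₀ : 2 * S₀ ≤ S) :
    (S / 2) ^ 1000 * ∫ x in subLevel Ω (uBar u x₀) S₀,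
      (hess u x).det ^ (3/5 : ℝ) * aT u x ^ 2 ≤ ∫ x, massA Ω u x₀ S x := by
  have hf : ContDiffOn ℝ ∞ (uBar u x₀) Ω := contDiffOn_uBar hs.smooth
  have hρ : ContinuousOn (fun x => (hess u x).det ^ (3/5 : ℝ)) Ω :=
    (hs.contDiffOn_detpow hΩ _).continuousOn
  have hY : ContinuousOn (fun x => (hess u x).det ^ (3/5 : ℝ) * aT u x ^ 2) Ω :=
    hρ.mul ((hs.contDiffOn_aT hΩ).continuousOn.pow 2)
  have hopen : ∀ s, MeasurableSet (subLevel Ω (uBar u x₀) s) := fun s =>
    (isOpen_subLevel hΩ hf s).measurableSet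
  have hρ0 : ∀ x ∈ Ω, 0 < (hess u x).det ^ (3/5 : ℝ) := fun x hx =>
    Real.rpow_pos_of_pos (hs.det_pos hx) _
  have hA := hs.integrable_massA hΩ S (hcpt S)
  have hSpos : 0 < S / 2 := by positivity
  have hT0 : ∀ x, 0 ≤ aT u x ^ 2 := fun x => sq_nonneg _
  have hAnn : ∀ x, 0 ≤ massA Ω u x₀ S x := by
    intro x
    by_cases hx : x ∈ Ω
    · simp only [massA, Set.indicator_of_mem hx]
      have : 0 ≤ powP 1000 (S - uBar u x₀ x) := by
        unfold powP
        exact pow_nonneg (le_max_right _ _) _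
      exact mul_nonneg (hρ0 x hx).le (mul_nonneg this (hT0 x))
    · simp [massA, Set.indicator_of_notMem hx]
  have hY0 : IntegrableOn (fun x => (hess u x).det ^ (3/5 : ℝ) * aT u x ^ 2)
      (subLevel Ω (uBar u x₀) S₀) := integrableOn_subLevel hY (hcpt S₀)
  rw [← integral_const_mul]
  have h2 : ∫ x in subLevel Ω (uBar u x₀) S₀, (S / 2) ^ 1000 *
      ((hess u x).det ^ (3/5 : ℝ) * aT u x ^ 2) ≤
      ∫ x in subLevel Ω (uBar u x₀) S₀, massA Ω u x₀ S x := by
    refine setIntegral_mono_on (hY0.const_mul _) hA.integrableOn (hopen S₀) fun x hx => ?_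
    have hxΩ : x ∈ Ω := hx.1
    have hη : S / 2 ≤ S - uBar u x₀ x := by
      have := hx.2
      linarith
    simp only [massA, Set.indicator_of_mem hxΩ]
    rw [powP_of_pos _ (lt_of_lt_of_le hSpos hη)]
    have hp : (S / 2) ^ 1000 ≤ (S - uBar u x₀ x) ^ 1000 :=
      pow_le_pow_left₀ hSpos.le hη _
    have hnn : 0 ≤ (hess u x).det ^ (3/5 : ℝ) * aT u x ^ 2 :=
      mul_nonneg (hρ0 x hxΩ).le (hT0 x)
    calc (S / 2) ^ 1000 * ((hess u x).det ^ (3/5 : ℝ) * aT u x ^ 2)
        ≤ (S - uBar u x₀ x) ^ 1000 * ((hess u x).det ^ (3/5 : ℝ) * aT u x ^ 2) :=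
          mul_le_mul_of_nonneg_right hp hnn
      _ = (hess u x).det ^ (3/5 : ℝ) * ((S - uBar u x₀ x) ^ 1000 * aT u x ^ 2) := by
          generalize (S - uBar u x₀ x) ^ 1000 = P
          ring
  exact h2.trans (setIntegral_le_integral hA (Filter.Eventually.of_forall hAnn))

/-- Upper bound for the integral of the second mass function. -/
lemma mass_upper (hc : Convex ℝ Ω) (hx₀ : x₀ ∈ Ω)
    (hcpt : ∀ s, IsCompact (subLevelC Ω (uBar u x₀) s)) {S : ℝ} :
    ∫ x, massB Ω u x₀ S x ≤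
      S ^ 998 * ∫ x in subLevel Ω (uBar u x₀) S, (hess u x).det ^ (3/5 : ℝ) := by
  have hf : ContDiffOn ℝ ∞ (uBar u x₀) Ω := contDiffOn_uBar hs.smooth
  have hρ : ContinuousOn (fun x => (hess u x).det ^ (3/5 : ℝ)) Ω :=
    (hs.contDiffOn_detpow hΩ _).continuousOn
  have hopen : ∀ s, MeasurableSet (subLevel Ω (uBar u x₀) s) := fun s =>
    (isOpen_subLevel hΩ hf s).measurableSet
  have hρ0 : ∀ x ∈ Ω, 0 < (hess u x).det ^ (3/5 : ℝ) := fun x hx =>
    Real.rpow_pos_of_pos (hs.det_pos hx) _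
  have hB := hs.integrable_massB hΩ S (hcpt S)
  have hu0 : ∀ x ∈ Ω, 0 ≤ uBar u x₀ x := fun x hx =>
    uBar_nonneg hΩ hc hs.smooth hs.posDef hx₀ hx
  have hρi : IntegrableOn (fun x => (hess u x).det ^ (3/5 : ℝ)) (subLevel Ω (uBar u x₀) S) :=
    integrableOn_subLevel hρ (hcpt S)
  rw [← integral_const_mul, ← integral_indicator (hopen S)]
  refine integral_mono hB ((integrable_indicator_iff (hopen S)).2 (hρi.const_mul _)) fun x => ?_
  show massB Ω u x₀ S x ≤ _
  by_cases hx : x ∈ Ω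
  · by_cases hxS : uBar u x₀ x < S
    · have hmem : x ∈ subLevel Ω (uBar u x₀) S := ⟨hx, hxS⟩
      simp only [massB, Set.indicator_of_mem hx, Set.indicator_of_mem hmem]
      have hη : 0 < S - uBar u x₀ x := by linarith
      rw [powP_of_pos _ hη]
      have hp : (S - uBar u x₀ x) ^ 998 ≤ S ^ 998 :=
        pow_le_pow_left₀ hη.le (by linarith [hu0 x hx]) _
      calc (hess u x).det ^ (3/5 : ℝ) * (S - uBar u x₀ x) ^ 998
          ≤ (hess u x).det ^ (3/5 : ℝ) * S ^ 998 :=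
            mul_le_mul_of_nonneg_left hp (hρ0 x hx).le
        _ = S ^ 998 * (hess u x).det ^ (3/5 : ℝ) := mul_comm _ _
    · have hnot : x ∉ subLevel Ω (uBar u x₀) S := fun h => hxS h.2
      simp only [massB, Set.indicator_of_mem hx, Set.indicator_of_notMem hnot]
      rw [powP_eq_zero_of_nonpos (by norm_num) (by linarith [not_lt.1 hxS])]
      simp
  · have hnot : x ∉ subLevel Ω (uBar u x₀) S := fun h => hx h.1
    simp [massB, Set.indicator_of_notMem hx, Set.indicator_of_notMem hnot]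

/-- The main estimate in the form involving the sublevel masses. -/
theorem mass_estimate (hc : Convex ℝ Ω) (hx₀ : x₀ ∈ Ω)
    (hcpt : ∀ s, IsCompact (subLevelC Ω (uBar u x₀) s)) {S₀ S : ℝ} (hS : 0 < S) (hS₀ : 2 * S₀ ≤ S) :
    ∫ x in subLevel Ω (uBar u x₀) S₀, (hess u x).det ^ (3/5 : ℝ) * aT u x ^ 2 ≤
      cMass / S ^ 2 * ∫ x in subLevel Ω (uBar u x₀) S, (hess u x).det ^ (3/5 : ℝ) := by
  refine mass_alg _ _ _ hS ?_
  refine (hs.mass_lower hΩ hcpt hS hS₀).trans ?_
  refine (hs.massA_le hΩ S (hcpt S)).trans ?_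
  exact mul_le_mul_of_nonneg_left (hs.mass_upper hΩ hc hx₀ hcpt) (by norm_num)

omit hΩ in
/-- If `T` vanishes then the gradient of `log D` vanishes. -/
lemma gr_logD_eq_zero {x : Fin 3 → ℝ} (hx : x ∈ Ω) (hT : aT u x = 0) : gr (logD u) x = 0 := by
  by_contra hne
  have h := Qv_pos (hs.posDef x hx).inv hne
  have e : Qv (hess u x)⁻¹ (gr (logD u) x) (gr (logD u) x) = aT u x := by
    unfold Qv aT pa ra qF gr
    refine Finset.sum_congr rfl fun i _ => ?_
    rw [Finset.mul_sum]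
    refine Finset.sum_congr rfl fun j _ => ?_
    simp only [Ui]
    ring
  rw [e, hT] at h
  exact lt_irrefl _ h

/-- The Liouville theorem in dimension three under a growth condition on the sublevel masses of
`D^{3/5}`. -/
theorem det_const_of_mass (hc : Convex ℝ Ω) (hx₀ : x₀ ∈ Ω)
    (hcpt : ∀ s, IsCompact (subLevelC Ω (uBar u x₀) s))
    (hM : ∀ ε : ℝ, 0 < ε → ∀ S₁ : ℝ, ∃ S : ℝ, S₁ ≤ S ∧
      ∫ x in subLevel Ω (uBar u x₀) S, (hess u x).det ^ (3/5 : ℝ) ≤ ε * S ^ 2) {x y : Fin 3 → ℝ}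
    (hx : x ∈ Ω) (hy : y ∈ Ω) : (hess u x).det = (hess u y).det := by
  have hf : ContDiffOn ℝ ∞ (uBar u x₀) Ω := contDiffOn_uBar hs.smooth
  have hρ : ContinuousOn (fun x => (hess u x).det ^ (3/5 : ℝ)) Ω :=
    (hs.contDiffOn_detpow hΩ _).continuousOn
  have hY : ContinuousOn (fun x => (hess u x).det ^ (3/5 : ℝ) * aT u x ^ 2) Ω :=
    hρ.mul ((hs.contDiffOn_aT hΩ).continuousOn.pow 2)
  have hρ0 : ∀ x ∈ Ω, 0 < (hess u x).det ^ (3/5 : ℝ) := fun x hx =>
    Real.rpow_pos_of_pos (hs.det_pos hx) _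
  -- the integrals over sublevels vanish
  have hzero : ∀ S₀ : ℝ, ∫ x in subLevel Ω (uBar u x₀) S₀,
      (hess u x).det ^ (3/5 : ℝ) * aT u x ^ 2 = 0 := by
    intro S₀
    set I₀ := ∫ x in subLevel Ω (uBar u x₀) S₀, (hess u x).det ^ (3/5 : ℝ) * aT u x ^ 2 with hI₀
    have hI0 : 0 ≤ I₀ := by
      refine setIntegral_nonneg (isOpen_subLevel hΩ hf S₀).measurableSet fun z hz => ?_
      exact mul_nonneg (hρ0 z hz.1).le (sq_nonneg _)
    by_contra hne
    have hIpos : 0 < I₀ := lt_of_le_of_ne hI0 (Ne.symm hne)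
    have hC := cMass_pos
    obtain ⟨S, hS1, hS2⟩ := hM (I₀ / (2 * cMass)) (by positivity)
      (max 1 (2 * S₀))
    have hS : 0 < S := lt_of_lt_of_le one_pos ((le_max_left _ _).trans hS1)
    have hS₀ : 2 * S₀ ≤ S := (le_max_right _ _).trans hS1
    have h1 := hs.mass_estimate hΩ hc hx₀ hcpt hS hS₀
    have h2 : cMass / S ^ 2 * ∫ x in subLevel Ω (uBar u x₀) S,
        (hess u x).det ^ (3/5 : ℝ) ≤ I₀ / 2 := by
      rw [div_mul_eq_mul_div, div_le_iff₀ (by positivity)]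
      have h3 := mul_le_mul_of_nonneg_left hS2 hC.le
      refine h3.trans (le_of_eq ?_)
      field_simp
    linarith
  -- the integrand vanishes
  have hTzero : ∀ z ∈ Ω, aT u z = 0 := by
    intro z hz
    set S₀ := uBar u x₀ z + 1 with hS₀
    have hO := isOpen_subLevel hΩ hf S₀
    have hae : (fun x => (hess u x).det ^ (3/5 : ℝ) * aT u x ^ 2) =ᵐ[volume.restrict
        (subLevel Ω (uBar u x₀) S₀)] 0 := by
      refine (setIntegral_eq_zero_iff_of_nonneg_ae ?_ (integrableOn_subLevel hY (hcpt S₀))).1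
        (hzero S₀)
      filter_upwards [ae_restrict_mem hO.measurableSet] with w hw
      exact mul_nonneg (hρ0 w hw.1).le (sq_nonneg _)
    have hon : Set.EqOn (fun x => (hess u x).det ^ (3/5 : ℝ) * aT u x ^ 2) 0
        (subLevel Ω (uBar u x₀) S₀) :=
      Measure.eqOn_open_of_ae_eq hae hO (hY.mono fun _ hw => hw.1) continuousOn_const
    have hzs : z ∈ subLevel Ω (uBar u x₀) S₀ := ⟨hz, by rw [hS₀]; linarith⟩
    have h := hon hzs
    simp only [Pi.zero_apply] at h
    have h' := (mul_eq_zero.1 h).resolve_left (hρ0 z hz).ne'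
    exact pow_eq_zero_iff (two_ne_zero) |>.1 h'
  -- conclusion
  have hlog : logD u x = logD u y :=
    hΩ.is_const_of_fderiv_eq_zero (𝕜 := ℝ) hc.isPreconnected
      ((hs.contDiffOn_logD hΩ).differentiableOn (by simp))
      (fun z hz => fderiv_eq_zero_of_gr (hs.gr_logD_eq_zero hz (hTzero z hz))) hx hy
  have h1 := Real.exp_log (hs.det_pos hx)
  have h2 := Real.exp_log (hs.det_pos hy)
  have h3 : Real.log (hess u x).det = Real.log (hess u y).det := hlog
  rw [← h1, ← h2, h3]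

end IsAffineMaximal

end Vale.Agent.Lib.P252
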