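import Vale.Agent.Lib.P252.Hess12

/-!
The table of the eleven base fields (divergence and pairings), and the integrands of the
fields obtained by multiplying them with `T`, `G`, `T²`, `T G`, `G²`.
-/

open scoped ContDiff Matrix Topology
open MeasureTheory

namespace Vale.Agent.Lib.P252

variable {Ω : Set (Fin 3 → ℝ)} {u : (Fin 3 → ℝ) → ℝ} {x₀ : Fin 3 → ℝ}

/-- The values attached to a field at a point. -/
structure FieldVal (u : (Fin 3 → ℝ) → ℝ) (x₀ x : Fin 3 → ℝ) (V : Fin 3 → (Fin 3 → ℝ) → ℝ)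
    (d a b c1 c2 c3 : ℝ) : Prop where
  dv_eq : dv u V x = d
  pq_eq : pa u (qF u) V x = a
  pX_eq : pa u (XF u x₀) V x = b
  pB_eq : pa u (ph u (qF u)) V x = c1
  pC1_eq : pa u (Ah u (qF u) (qF u)) V x = c2
  pC3_eq : pa u (Ah u (XF u x₀) (XF u x₀)) V x = c3

namespace IsAffineMaximal

variable (hs : IsAffineMaximal Ω u) (hΩ : IsOpen Ω)
include hs hΩ

/-- `∇T·V`. -/
lemma grad_T' (V : Fin 3 → (Fin 3 → ℝ) → ℝ) {x : Fin 3 → ℝ} (hx : x ∈ Ω) :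
    ∑ k, pd k (aT u) x * ra u V k x =
      2 * pa u (ph u (qF u)) V x - pa u (Ah u (qF u) (qF u)) V x := by
  rw [hs.grad_T hΩ V hx, hs.pa_symm (ph u (qF u)) V hx, hs.pa_symm (Ah u (qF u) (qF u)) V hx,
    hs.pa_ph hΩ V (qF u) hx, hs.pa_Ah hΩ V (qF u) (qF u) hx,
    Bl_symm_of (hs.Hp_symm hΩ hx) (qF u) V, Bl_symm_of (hs.Ma_symm hΩ (qF u) hx) (qF u) V]

/-- `∇G·V`. -/
lemma grad_G' (V : Fin 3 → (Fin 3 → ℝ) → ℝ) {x : Fin 3 → ℝ} (hx : x ∈ Ω) :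
    ∑ k, pd k (aG u x₀) x * ra u V k x =
      2 * pa u (XF u x₀) V x - pa u (Ah u (XF u x₀) (XF u x₀)) V x := by
  rw [hs.grad_G hΩ V hx, hs.pa_symm (XF u x₀) V hx, hs.pa_symm (Ah u (XF u x₀) (XF u x₀)) V hx,
    hs.pa_Ah hΩ V (XF u x₀) (XF u x₀) hx, hs.Bl_Ma_swap' hΩ (XF u x₀) (XF u x₀) V hx]

/-- The general form of the integrand on the set where the cut-off is positive. -/
lemma fieldI_mul_pos {f : (Fin 3 → ℝ) → ℝ} (hf : ContDiffOn ℝ ∞ f Ω)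
    {V : Fin 3 → (Fin 3 → ℝ) → ℝ} (hV : ∀ j, ContDiffOn ℝ ∞ (V j) Ω) (β S : ℝ) (M : ℕ)
    {x : Fin 3 → ℝ} (hx : x ∈ Ω) (hη : 0 < S - uBar u x₀ x) :
    hs.fieldI x₀ β S (M + 1) (fun j y => f y * V j y) x = (hess u x).det ^ β *
      ((S - uBar u x₀ x) ^ (M + 1) * ((∑ k, pd k f x * ra u V k x) +
          f x * (dv u V x + (β - 1) * pa u (qF u) V x)) -
        ((M : ℝ) + 1) * (S - uBar u x₀ x) ^ M * (f x * pa u (XF u x₀) V x)) := by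
  rw [hs.fieldI_pos x₀ β S M _ hx hη,
    dv_smul_aux (hs := hs) (diffAt hΩ hf hx) (fun j => diffAt hΩ (hV j) hx),
    pa_f_mul hs hΩ, pa_f_mul hs hΩ]
  ring

lemma pd_mul_contr {f g : (Fin 3 → ℝ) → ℝ} (hf : ContDiffOn ℝ ∞ f Ω) (hg : ContDiffOn ℝ ∞ g Ω)
    (V : Fin 3 → (Fin 3 → ℝ) → ℝ) {x : Fin 3 → ℝ} (hx : x ∈ Ω) :
    ∑ k, pd k (fun y => f y * g y) x * ra u V k x =
      g x * ∑ k, pd k f x * ra u V k x + f x * ∑ k, pd k g x * ra u V k x := by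
  rw [Finset.mul_sum, Finset.mul_sum, ← Finset.sum_add_distrib]
  refine Finset.sum_congr rfl fun k _ => ?_
  rw [pd_mul (diffAt hΩ hf hx) (diffAt hΩ hg hx)]
  ring

/-- The integrand of `T V`. -/
lemma fI_T {V : Fin 3 → (Fin 3 → ℝ) → ℝ} (hV : ∀ j, ContDiffOn ℝ ∞ (V j) Ω) {d a b c1 c2 c3 : ℝ}
    (β S : ℝ) (M : ℕ) {x : Fin 3 → ℝ} (hx : x ∈ Ω) (hη : 0 < S - uBar u x₀ x)
    (hv : FieldVal u x₀ x V d a b c1 c2 c3) :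
    hs.fieldI x₀ β S (M + 1) (fun j y => aT u y * V j y) x = (hess u x).det ^ β *
      ((S - uBar u x₀ x) ^ (M + 1) * ((2 * c1 - c2) + aT u x * (d + (β - 1) * a)) -
        ((M : ℝ) + 1) * (S - uBar u x₀ x) ^ M * (aT u x * b)) := by
  rw [hs.fieldI_mul_pos hΩ (hs.contDiffOn_aT hΩ) hV β S M hx hη, hs.grad_T' hΩ V hx, hv.dv_eq,
    hv.pq_eq, hv.pX_eq, hv.pB_eq, hv.pC1_eq]

/-- The integrand of `G V`. -/
lemma fI_G {V : Fin 3 → (Fin 3 → ℝ) → ℝ} (hV : ∀ j, ContDiffOn ℝ ∞ (V j) Ω) {d a b c1 c2 c3 : ℝ}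
    (β S : ℝ) (M : ℕ) {x : Fin 3 → ℝ} (hx : x ∈ Ω) (hη : 0 < S - uBar u x₀ x)
    (hv : FieldVal u x₀ x V d a b c1 c2 c3) :
    hs.fieldI x₀ β S (M + 1) (fun j y => aG u x₀ y * V j y) x = (hess u x).det ^ β *
      ((S - uBar u x₀ x) ^ (M + 1) * ((2 * b - c3) + aG u x₀ x * (d + (β - 1) * a)) -
        ((M : ℝ) + 1) * (S - uBar u x₀ x) ^ M * (aG u x₀ x * b)) := by
  rw [hs.fieldI_mul_pos hΩ (hs.contDiffOn_aG hΩ) hV β S M hx hη, hs.grad_G' hΩ V hx, hv.dv_eq,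
    hv.pq_eq, hv.pX_eq, hv.pC3_eq]

/-- The integrand of `T² V`. -/
lemma fI_TT {V : Fin 3 → (Fin 3 → ℝ) → ℝ} (hV : ∀ j, ContDiffOn ℝ ∞ (V j) Ω) {d a b c1 c2 c3 : ℝ}
    (β S : ℝ) (M : ℕ) {x : Fin 3 → ℝ} (hx : x ∈ Ω) (hη : 0 < S - uBar u x₀ x)
    (hv : FieldVal u x₀ x V d a b c1 c2 c3) :
    hs.fieldI x₀ β S (M + 1) (fun j y => aT u y * aT u y * V j y) x = (hess u x).det ^ β *
      ((S - uBar u x₀ x) ^ (M + 1) * (2 * aT u x * (2 * c1 - c2) +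
          aT u x * aT u x * (d + (β - 1) * a)) -
        ((M : ℝ) + 1) * (S - uBar u x₀ x) ^ M * (aT u x * aT u x * b)) := by
  have hT := hs.contDiffOn_aT hΩ
  rw [hs.fieldI_mul_pos hΩ (hT.mul hT) hV β S M hx hη, hs.pd_mul_contr hΩ hT hT V hx,
    hs.grad_T' hΩ V hx, hv.dv_eq, hv.pq_eq, hv.pX_eq, hv.pB_eq, hv.pC1_eq]
  ring

/-- The integrand of `T G V`. -/
lemma fI_TG {V : Fin 3 → (Fin 3 → ℝ) → ℝ} (hV : ∀ j, ContDiffOn ℝ ∞ (V j) Ω) {d a b c1 c2 c3 : ℝ}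
    (β S : ℝ) (M : ℕ) {x : Fin 3 → ℝ} (hx : x ∈ Ω) (hη : 0 < S - uBar u x₀ x)
    (hv : FieldVal u x₀ x V d a b c1 c2 c3) :
    hs.fieldI x₀ β S (M + 1) (fun j y => aT u y * aG u x₀ y * V j y) x = (hess u x).det ^ β *
      ((S - uBar u x₀ x) ^ (M + 1) * (aG u x₀ x * (2 * c1 - c2) + aT u x * (2 * b - c3) +
          aT u x * aG u x₀ x * (d + (β - 1) * a)) -
        ((M : ℝ) + 1) * (S - uBar u x₀ x) ^ M * (aT u x * aG u x₀ x * b)) := by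
  have hT := hs.contDiffOn_aT hΩ
  have hG := hs.contDiffOn_aG hΩ (x₀ := x₀)
  rw [hs.fieldI_mul_pos hΩ (hT.mul hG) hV β S M hx hη, hs.pd_mul_contr hΩ hT hG V hx,
    hs.grad_T' hΩ V hx, hs.grad_G' hΩ V hx, hv.dv_eq, hv.pq_eq, hv.pX_eq, hv.pB_eq, hv.pC1_eq,
    hv.pC3_eq]

/-- The integrand of `G² V`. -/
lemma fI_GG {V : Fin 3 → (Fin 3 → ℝ) → ℝ} (hV : ∀ j, ContDiffOn ℝ ∞ (V j) Ω) {d a b c1 c2 c3 : ℝ}
    (β S : ℝ) (M : ℕ) {x : Fin 3 → ℝ} (hx : x ∈ Ω) (hη : 0 < S - uBar u x₀ x)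
    (hv : FieldVal u x₀ x V d a b c1 c2 c3) :
    hs.fieldI x₀ β S (M + 1) (fun j y => aG u x₀ y * aG u x₀ y * V j y) x = (hess u x).det ^ β *
      ((S - uBar u x₀ x) ^ (M + 1) * (2 * aG u x₀ x * (2 * b - c3) +
          aG u x₀ x * aG u x₀ x * (d + (β - 1) * a)) -
        ((M : ℝ) + 1) * (S - uBar u x₀ x) ^ M * (aG u x₀ x * aG u x₀ x * b)) := by
  have hG := hs.contDiffOn_aG hΩ (x₀ := x₀)
  rw [hs.fieldI_mul_pos hΩ (hG.mul hG) hV β S M hx hη, hs.pd_mul_contr hΩ hG hG V hx,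
    hs.grad_G' hΩ V hx, hv.dv_eq, hv.pq_eq, hv.pX_eq, hv.pC3_eq]
  ring

/-! ### The table of the eleven base fields -/

/-- Pairings of the base covectors. -/
lemma table {x : Fin 3 → ℝ} (hx : x ∈ Ω) :
    let A := atomsAt u x₀ x
    let q := qF u
    let X := XF u x₀
    let B1 := ph u q
    let B2 := ph u X
    let C1 := Ah u q q
    let C2 := Ah u q X
    let C3 := Ah u X X
    pa u q q x = A.T ∧ pa u q X x = A.H ∧ pa u X q x = A.H ∧ pa u X X x = A.G ∧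
    pa u B1 q x = A.pqq ∧ pa u B1 X x = A.pqx ∧ pa u C1 q x = A.Aqqq ∧ pa u C1 X x = A.Aqqx ∧
    pa u C3 q x = A.Aqxx ∧ pa u C3 X x = A.Axxx ∧
    pa u q C1 x = A.Aqqq ∧ pa u X C1 x = A.Aqqx ∧ pa u B1 C1 x = A.bc11 ∧ pa u C1 C1 x = A.c11 ∧
    pa u C3 C1 x = A.c13 ∧
    pa u q C2 x = A.Aqqx ∧ pa u X C2 x = A.Aqxx ∧ pa u B1 C2 x = A.bc12 ∧ pa u C1 C2 x = A.c12 ∧
    pa u C3 C2 x = A.c23 ∧
    pa u q C3 x = A.Aqxx ∧ pa u X C3 x = A.Axxx ∧ pa u B1 C3 x = A.bc13 ∧ pa u C1 C3 x = A.c13 ∧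
    pa u C3 C3 x = A.c33 ∧
    pa u q B1 x = A.pqq ∧ pa u X B1 x = A.pqx ∧ pa u B1 B1 x = A.b11 ∧ pa u C1 B1 x = A.bc11 ∧
    pa u C3 B1 x = A.bc13 ∧
    pa u q B2 x = A.pqx ∧ pa u X B2 x = A.pxx ∧ pa u B1 B2 x = A.b12 ∧ pa u C1 B2 x = A.bc21 ∧
    pa u C3 B2 x = A.bc23 := by
  intro A q X B1 B2 C1 C2 C3
  have hS := fun a b => hs.pa_symm a b hx
  have s1 : pa u q B1 x = A.pqq := hs.pa_ph hΩ q q hx
  have s2 : pa u X B1 x = A.pqx := by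
    rw [hs.pa_ph hΩ X q hx, Bl_symm_of (hs.Hp_symm hΩ hx) X q]; rfl
  have s3 : pa u q B2 x = A.pqx := hs.pa_ph hΩ q X hx
  have s4 : pa u X B2 x = A.pxx := hs.pa_ph hΩ X X hx
  have s5 : pa u q C1 x = A.Aqqq := hs.pa_Ah hΩ q q q hx
  have s6 : pa u X C1 x = A.Aqqx := by
    rw [hs.pa_Ah hΩ X q q hx, hs.Bl_Ma_swap' hΩ X q q hx]; rfl
  have s7 : pa u q C2 x = A.Aqqx := hs.pa_Ah hΩ q q X hx
  have s8 : pa u X C2 x = A.Aqxx := by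
    rw [hs.pa_Ah hΩ X q X hx, hs.Bl_Ma_swap hΩ X q X hx]; rfl
  have s9 : pa u q C3 x = A.Aqxx := by
    rw [hs.pa_Ah hΩ q X X hx, hs.Bl_Ma_swap' hΩ q X X hx]; rfl
  have s10 : pa u X C3 x = A.Axxx := hs.pa_Ah hΩ X X X hx
  refine ⟨rfl, rfl, hS _ _, rfl, (hS _ _).trans s1, (hS _ _).trans s2, (hS _ _).trans s5,
    (hS _ _).trans s6, (hS _ _).trans s9, (hS _ _).trans s10, s5, s6, rfl, rfl, (hS _ _).trans rfl,
    s7, s8, rfl, rfl, (hS _ _).trans rfl, s9, s10, rfl, rfl, rfl, s1, s2, rfl, (hS _ _).trans rfl,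
    (hS _ _).trans rfl, s3, s4, rfl, (hS _ _).trans rfl, (hS _ _).trans rfl⟩

end IsAffineMaximal

end Vale.Agent.Lib.P252
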