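import Vale.Agent.Lib.P252.Hess13

/-!
The passage from a pointwise lower bound for a combination of divergence identities to the integral
estimate `∫_{ū < S₀} D^β T^k ≤ C S^{-k} ∫_{ū < S} D^β`, and its Liouville consequence.
-/

open scoped ContDiff Matrix Topology
open MeasureTheory

namespace Vale.Agent.Lib.P252

variable {Ω : Set (Fin 3 → ℝ)} {u : (Fin 3 → ℝ) → ℝ} {x₀ : Fin 3 → ℝ}

/-- The general first mass function. -/
noncomputable def massAg (Ω : Set (Fin 3 → ℝ)) (u : (Fin 3 → ℝ) → ℝ) (x₀ : Fin 3 → ℝ) (β : ℝ)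
    (k N : ℕ) (S : ℝ) : (Fin 3 → ℝ) → ℝ :=
  Set.indicator Ω fun y => (hess u y).det ^ β * (powP N (S - uBar u x₀ y) * aT u y ^ k)

/-- The general second mass function. -/
noncomputable def massBg (Ω : Set (Fin 3 → ℝ)) (u : (Fin 3 → ℝ) → ℝ) (x₀ : Fin 3 → ℝ) (β : ℝ)
    (M : ℕ) (S : ℝ) : (Fin 3 → ℝ) → ℝ :=
  Set.indicator Ω fun y => (hess u y).det ^ β * powP M (S - uBar u x₀ y)

lemma mass_alg_g (N M k : ℕ) (hN : N = M + k) (c₁ c₂ S I J : ℝ) (hc₁ : 0 < c₁) (hS : 0 < S)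
    (h : c₁ * ((S / 2) ^ N * I) ≤ c₂ * (S ^ M * J)) :
    I ≤ (c₂ / c₁ * 2 ^ N) / S ^ k * J := by
  subst hN
  have hpos : 0 < S ^ M := by positivity
  have h2 : (S / 2) ^ (M + k) = S ^ M * S ^ k / 2 ^ (M + k) := by
    rw [div_pow, pow_add S]
  rw [h2] at h
  have h3 : S ^ M * (c₁ * (S ^ k * I) / 2 ^ (M + k)) ≤ S ^ M * (c₂ * J) := by
    calc S ^ M * (c₁ * (S ^ k * I) / 2 ^ (M + k)) = c₁ * (S ^ M * S ^ k / 2 ^ (M + k) * I) := by ring
      _ ≤ c₂ * (S ^ M * J) := h
      _ = S ^ M * (c₂ * J) := by ring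
  have h4 := le_of_mul_le_mul_left h3 hpos
  rw [div_le_iff₀ (by positivity)] at h4
  have h5 : (c₂ / c₁ * 2 ^ (M + k)) / S ^ k * J = c₂ * J * 2 ^ (M + k) / (c₁ * S ^ k) := by
    field_simp
  rw [h5, le_div_iff₀ (by positivity)]
  linarith

namespace IsAffineMaximal

variable (hs : IsAffineMaximal Ω u) (hΩ : IsOpen Ω)
include hs hΩ

omit hs hΩ in
lemma continuous_powP_comp' {f : (Fin 3 → ℝ) → ℝ} (hf : ContinuousOn f Ω) (N : ℕ) (S : ℝ) :
    ContinuousOn (fun y => powP N (S - f y)) Ω := by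
  have h : Continuous (fun t : ℝ => (max t 0) ^ N) := (continuous_id.max continuous_const).pow N
  exact h.comp_continuousOn (continuousOn_const.sub hf)

lemma integrable_massAg (β : ℝ) (k N : ℕ) (hN : N ≠ 0) (S : ℝ)
    (hcpt : IsCompact (subLevelC Ω (uBar u x₀) S)) :
    Integrable (massAg Ω u x₀ β k N S) := by
  refine integrable_of_support hcpt (fun _ hx => hx.1) ?_ ?_
  · have hcont : ContinuousOn (fun y => (hess u y).det ^ β *
        (powP N (S - uBar u x₀ y) * aT u y ^ k)) Ω :=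
      (hs.contDiffOn_detpow hΩ _).continuousOn.mul
        ((continuous_powP_comp' (contDiffOn_uBar hs.smooth).continuousOn _ _).mul
          ((hs.contDiffOn_aT hΩ).continuousOn.pow k))
    exact hcont.congr fun y hy => by simp [massAg, Set.indicator_of_mem hy]
  · intro y hy
    by_cases hyΩ : y ∈ Ω
    · have hlt : S < uBar u x₀ y := by
        by_contra h
        exact hy ⟨hyΩ, not_lt.1 h⟩
      simp only [massAg, Set.indicator_of_mem hyΩ]
      rw [powP_eq_zero_of_nonpos hN (by linarith)]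
      simp
    · simp [massAg, Set.indicator_of_notMem hyΩ]

lemma integrable_massBg (β : ℝ) (M : ℕ) (hM : M ≠ 0) (S : ℝ)
    (hcpt : IsCompact (subLevelC Ω (uBar u x₀) S)) :
    Integrable (massBg Ω u x₀ β M S) := by
  refine integrable_of_support hcpt (fun _ hx => hx.1) ?_ ?_
  · have hcont : ContinuousOn (fun y => (hess u y).det ^ β * powP M (S - uBar u x₀ y)) Ω :=
      (hs.contDiffOn_detpow hΩ _).continuousOn.mul
        (continuous_powP_comp' (contDiffOn_uBar hs.smooth).continuousOn _ _)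
    exact hcont.congr fun y hy => by simp [massBg, Set.indicator_of_mem hy]
  · intro y hy
    by_cases hyΩ : y ∈ Ω
    · have hlt : S < uBar u x₀ y := by
        by_contra h
        exact hy ⟨hyΩ, not_lt.1 h⟩
      simp only [massBg, Set.indicator_of_mem hyΩ]
      rw [powP_eq_zero_of_nonpos hM (by linarith)]
      simp
    · simp [massBg, Set.indicator_of_notMem hyΩ]

omit hΩ in
lemma aT_nonneg {x : Fin 3 → ℝ} (hx : x ∈ Ω) : 0 ≤ aT u x := hs.pa_self_nonneg _ hx

/-- Lower bound for the integral of the first mass function. -/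
lemma mass_lower_g (β : ℝ) (k N : ℕ) (hN : N ≠ 0)
    (hcpt : ∀ s, IsCompact (subLevelC Ω (uBar u x₀) s)) {S₀ S : ℝ} (hS : 0 < S)
    (hS₀ : 2 * S₀ ≤ S) :
    (S / 2) ^ N * ∫ x in subLevel Ω (uBar u x₀) S₀, (hess u x).det ^ β * aT u x ^ k ≤
      ∫ x, massAg Ω u x₀ β k N S x := by
  have hf : ContDiffOn ℝ ∞ (uBar u x₀) Ω := contDiffOn_uBar hs.smooth
  have hρ : ContinuousOn (fun x => (hess u x).det ^ β) Ω :=
    (hs.contDiffOn_detpow hΩ _).continuousOn
  have hY : ContinuousOn (fun x => (hess u x).det ^ β * aT u x ^ k) Ω :=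
    hρ.mul ((hs.contDiffOn_aT hΩ).continuousOn.pow k)
  have hopen : ∀ s, MeasurableSet (subLevel Ω (uBar u x₀) s) := fun s =>
    (isOpen_subLevel hΩ hf s).measurableSet
  have hρ0 : ∀ x ∈ Ω, 0 < (hess u x).det ^ β := fun x hx =>
    Real.rpow_pos_of_pos (hs.det_pos hx) _
  have hA := hs.integrable_massAg hΩ β k N hN S (hcpt S)
  have hSpos : 0 < S / 2 := by positivity
  have hT0 : ∀ x ∈ Ω, 0 ≤ aT u x ^ k := fun x hx => pow_nonneg (hs.aT_nonneg hx) _
  have hAnn : ∀ x, 0 ≤ massAg Ω u x₀ β k N S x := by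
    intro x
    by_cases hx : x ∈ Ω
    · simp only [massAg, Set.indicator_of_mem hx]
      have : 0 ≤ powP N (S - uBar u x₀ x) := by
        unfold powP
        exact pow_nonneg (le_max_right _ _) _
      exact mul_nonneg (hρ0 x hx).le (mul_nonneg this (hT0 x hx))
    · simp [massAg, Set.indicator_of_notMem hx]
  have hY0 : IntegrableOn (fun x => (hess u x).det ^ β * aT u x ^ k)
      (subLevel Ω (uBar u x₀) S₀) := integrableOn_subLevel hY (hcpt S₀)
  rw [← integral_const_mul]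
  have h2 : ∫ x in subLevel Ω (uBar u x₀) S₀, (S / 2) ^ N *
      ((hess u x).det ^ β * aT u x ^ k) ≤
      ∫ x in subLevel Ω (uBar u x₀) S₀, massAg Ω u x₀ β k N S x := by
    refine setIntegral_mono_on (hY0.const_mul _) hA.integrableOn (hopen S₀) fun x hx => ?_
    have hxΩ : x ∈ Ω := hx.1
    have hη : S / 2 ≤ S - uBar u x₀ x := by
      have := hx.2
      linarith
    simp only [massAg, Set.indicator_of_mem hxΩ]
    rw [powP_of_pos _ (lt_of_lt_of_le hSpos hη)]
    have hp : (S / 2) ^ N ≤ (S - uBar u x₀ x) ^ N :=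
      pow_le_pow_left₀ hSpos.le hη _
    have hnn : 0 ≤ (hess u x).det ^ β * aT u x ^ k :=
      mul_nonneg (hρ0 x hxΩ).le (hT0 x hxΩ)
    calc (S / 2) ^ N * ((hess u x).det ^ β * aT u x ^ k)
        ≤ (S - uBar u x₀ x) ^ N * ((hess u x).det ^ β * aT u x ^ k) :=
          mul_le_mul_of_nonneg_right hp hnn
      _ = (hess u x).det ^ β * ((S - uBar u x₀ x) ^ N * aT u x ^ k) := by
          generalize (S - uBar u x₀ x) ^ N = P
          ring
  exact h2.trans (setIntegral_le_integral hA (Filter.Eventually.of_forall hAnn))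

/-- Upper bound for the integral of the second mass function. -/
lemma mass_upper_g (β : ℝ) (M : ℕ) (hM : M ≠ 0) (hc : Convex ℝ Ω) (hx₀ : x₀ ∈ Ω)
    (hcpt : ∀ s, IsCompact (subLevelC Ω (uBar u x₀) s)) {S : ℝ} :
    ∫ x, massBg Ω u x₀ β M S x ≤ S ^ M * ∫ x in subLevel Ω (uBar u x₀) S, (hess u x).det ^ β := by
  have hf : ContDiffOn ℝ ∞ (uBar u x₀) Ω := contDiffOn_uBar hs.smooth
  have hρ : ContinuousOn (fun x => (hess u x).det ^ β) Ω :=
    (hs.contDiffOn_detpow hΩ _).continuousOn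
  have hopen : ∀ s, MeasurableSet (subLevel Ω (uBar u x₀) s) := fun s =>
    (isOpen_subLevel hΩ hf s).measurableSet
  have hρ0 : ∀ x ∈ Ω, 0 < (hess u x).det ^ β := fun x hx =>
    Real.rpow_pos_of_pos (hs.det_pos hx) _
  have hB := hs.integrable_massBg hΩ β M hM S (hcpt S)
  have hu0 : ∀ x ∈ Ω, 0 ≤ uBar u x₀ x := fun x hx =>
    uBar_nonneg hΩ hc hs.smooth hs.posDef hx₀ hx
  have hρi : IntegrableOn (fun x => (hess u x).det ^ β) (subLevel Ω (uBar u x₀) S) :=
    integrableOn_subLevel hρ (hcpt S)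
  rw [← integral_const_mul, ← integral_indicator (hopen S)]
  refine integral_mono hB ((integrable_indicator_iff (hopen S)).2 (hρi.const_mul _)) fun x => ?_
  show massBg Ω u x₀ β M S x ≤ _
  by_cases hx : x ∈ Ω
  · by_cases hxS : uBar u x₀ x < S
    · have hmem : x ∈ subLevel Ω (uBar u x₀) S := ⟨hx, hxS⟩
      simp only [massBg, Set.indicator_of_mem hx, Set.indicator_of_mem hmem]
      have hη : 0 < S - uBar u x₀ x := by linarith
      rw [powP_of_pos _ hη]
      have hp : (S - uBar u x₀ x) ^ M ≤ S ^ M :=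
        pow_le_pow_left₀ hη.le (by linarith [hu0 x hx]) _
      calc (hess u x).det ^ β * (S - uBar u x₀ x) ^ M
          ≤ (hess u x).det ^ β * S ^ M :=
            mul_le_mul_of_nonneg_left hp (hρ0 x hx).le
        _ = S ^ M * (hess u x).det ^ β := mul_comm _ _
    · have hnot : x ∉ subLevel Ω (uBar u x₀) S := fun h => hxS h.2
      simp only [massBg, Set.indicator_of_mem hx, Set.indicator_of_notMem hnot]
      rw [powP_eq_zero_of_nonpos hM (by linarith [not_lt.1 hxS])]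
      simp
  · have hnot : x ∉ subLevel Ω (uBar u x₀) S := fun h => hx h.1
    simp [massBg, Set.indicator_of_notMem hx, Set.indicator_of_notMem hnot]

/-- The integral estimate obtained from a pointwise lower bound for a combination of divergence
identities. -/
theorem estimate_of_comb (β : ℝ) (k N M : ℕ) (hN : N = M + k) (hM : M ≠ 0) {c₁ c₂ : ℝ}
    (hc₁ : 0 < c₁) (hc₂ : 0 ≤ c₂) (comb : ℝ → (Fin 3 → ℝ) → ℝ)
    (hcomb : ∀ S, IsCompact (subLevelC Ω (uBar u x₀) S) →
      Integrable (comb S) ∧ ∫ x, comb S x = 0)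
    (hlow : ∀ S x, c₁ * massAg Ω u x₀ β k N S x - c₂ * massBg Ω u x₀ β M S x ≤ comb S x)
    (hc : Convex ℝ Ω) (hx₀ : x₀ ∈ Ω)
    (hcpt : ∀ s, IsCompact (subLevelC Ω (uBar u x₀) s)) {S₀ S : ℝ} (hS : 0 < S) (hS₀ : 2 * S₀ ≤ S) :
    ∫ x in subLevel Ω (uBar u x₀) S₀, (hess u x).det ^ β * aT u x ^ k ≤
      (c₂ / c₁ * 2 ^ N) / S ^ k * ∫ x in subLevel Ω (uBar u x₀) S, (hess u x).det ^ β := by
  have hN0 : N ≠ 0 := by omega
  have hA := hs.integrable_massAg hΩ β k N hN0 S (hcpt S)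
  have hB := hs.integrable_massBg hΩ β M hM S (hcpt S)
  have hC := hcomb S (hcpt S)
  have hle : ∫ x, (c₁ * massAg Ω u x₀ β k N S x - c₂ * massBg Ω u x₀ β M S x) ≤ ∫ x, comb S x :=
    integral_mono ((hA.const_mul _).sub (hB.const_mul _)) hC.1 (hlow S)
  rw [hC.2, integral_sub (hA.const_mul _) (hB.const_mul _), integral_const_mul,
    integral_const_mul] at hle
  have h1 := hs.mass_lower_g hΩ β k N hN0 hcpt hS hS₀
  have h2 := hs.mass_upper_g hΩ β M hM hc hx₀ hcpt (S := S)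
  refine mass_alg_g N M k hN c₁ c₂ S _ _ hc₁ hS ?_
  calc c₁ * ((S / 2) ^ N * _) ≤ c₁ * ∫ x, massAg Ω u x₀ β k N S x :=
        mul_le_mul_of_nonneg_left h1 hc₁.le
    _ ≤ c₂ * ∫ x, massBg Ω u x₀ β M S x := by linarith
    _ ≤ c₂ * (S ^ M * _) := mul_le_mul_of_nonneg_left h2 hc₂

/-- The Liouville consequence of the integral estimate. -/
theorem det_const_of_estimate (β : ℝ) (k : ℕ) (hk : k ≠ 0) {C : ℝ} (hC : 0 < C)
    (hest : ∀ S₀ S : ℝ, 0 < S → 2 * S₀ ≤ S →
      ∫ x in subLevel Ω (uBar u x₀) S₀, (hess u x).det ^ β * aT u x ^ k ≤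
        C / S ^ k * ∫ x in subLevel Ω (uBar u x₀) S, (hess u x).det ^ β)
    (hc : Convex ℝ Ω)
    (hcpt : ∀ s, IsCompact (subLevelC Ω (uBar u x₀) s))
    (hM : ∀ ε : ℝ, 0 < ε → ∀ S₁ : ℝ, ∃ S : ℝ, S₁ ≤ S ∧
      ∫ x in subLevel Ω (uBar u x₀) S, (hess u x).det ^ β ≤ ε * S ^ k) {x y : Fin 3 → ℝ}
    (hx : x ∈ Ω) (hy : y ∈ Ω) : (hess u x).det = (hess u y).det := by
  have hf : ContDiffOn ℝ ∞ (uBar u x₀) Ω := contDiffOn_uBar hs.smooth
  have hρ : ContinuousOn (fun x => (hess u x).det ^ β) Ω :=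
    (hs.contDiffOn_detpow hΩ _).continuousOn
  have hY : ContinuousOn (fun x => (hess u x).det ^ β * aT u x ^ k) Ω :=
    hρ.mul ((hs.contDiffOn_aT hΩ).continuousOn.pow k)
  have hρ0 : ∀ x ∈ Ω, 0 < (hess u x).det ^ β := fun x hx =>
    Real.rpow_pos_of_pos (hs.det_pos hx) _
  have hzero : ∀ S₀ : ℝ, ∫ x in subLevel Ω (uBar u x₀) S₀,
      (hess u x).det ^ β * aT u x ^ k = 0 := by
    intro S₀
    set I₀ := ∫ x in subLevel Ω (uBar u x₀) S₀, (hess u x).det ^ β * aT u x ^ k with hI₀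
    have hI0 : 0 ≤ I₀ := by
      refine setIntegral_nonneg (isOpen_subLevel hΩ hf S₀).measurableSet fun z hz => ?_
      exact mul_nonneg (hρ0 z hz.1).le (pow_nonneg (hs.aT_nonneg hz.1) _)
    by_contra hne
    have hIpos : 0 < I₀ := lt_of_le_of_ne hI0 (Ne.symm hne)
    obtain ⟨S, hS1, hS2⟩ := hM (I₀ / (2 * C)) (by positivity) (max 1 (2 * S₀))
    have hS : 0 < S := lt_of_lt_of_le one_pos ((le_max_left _ _).trans hS1)
    have hS₀ : 2 * S₀ ≤ S := (le_max_right _ _).trans hS1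
    have h1 := hest S₀ S hS hS₀
    have h2 : C / S ^ k * ∫ x in subLevel Ω (uBar u x₀) S, (hess u x).det ^ β ≤ I₀ / 2 := by
      rw [div_mul_eq_mul_div, div_le_iff₀ (by positivity)]
      have h3 := mul_le_mul_of_nonneg_left hS2 hC.le
      refine h3.trans (le_of_eq ?_)
      field_simp
    linarith
  have hTzero : ∀ z ∈ Ω, aT u z = 0 := by
    intro z hz
    set S₀ := uBar u x₀ z + 1 with hS₀
    have hO := isOpen_subLevel hΩ hf S₀
    have hae : (fun x => (hess u x).det ^ β * aT u x ^ k) =ᵐ[volume.restrict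
        (subLevel Ω (uBar u x₀) S₀)] 0 := by
      refine (setIntegral_eq_zero_iff_of_nonneg_ae ?_ (integrableOn_subLevel hY (hcpt S₀))).1
        (hzero S₀)
      filter_upwards [ae_restrict_mem hO.measurableSet] with w hw
      exact mul_nonneg (hρ0 w hw.1).le (pow_nonneg (hs.aT_nonneg hw.1) _)
    have hon : Set.EqOn (fun x => (hess u x).det ^ β * aT u x ^ k) 0
        (subLevel Ω (uBar u x₀) S₀) :=
      Measure.eqOn_open_of_ae_eq hae hO (hY.mono fun _ hw => hw.1) continuousOn_const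
    have hzs : z ∈ subLevel Ω (uBar u x₀) S₀ := ⟨hz, by rw [hS₀]; linarith⟩
    have h := hon hzs
    simp only [Pi.zero_apply] at h
    have h' := (mul_eq_zero.1 h).resolve_left (hρ0 z hz).ne'
    exact (pow_eq_zero_iff hk).1 h'
  have hlog : logD u x = logD u y :=
    hΩ.is_const_of_fderiv_eq_zero (𝕜 := ℝ) hc.isPreconnected
      ((hs.contDiffOn_logD hΩ).differentiableOn (by simp))
      (fun z hz => fderiv_eq_zero_of_gr (hs.gr_logD_eq_zero hz (hTzero z hz))) hx hy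
  have h1 := Real.exp_log (hs.det_pos hx)
  have h2 := Real.exp_log (hs.det_pos hy)
  have h3 : Real.log (hess u x).det = Real.log (hess u y).det := hlog
  rw [← h1, ← h2, h3]

end IsAffineMaximal

end Vale.Agent.Lib.P252
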