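import Vale.Agent.Lib.P252.Hess14

/-!
The values of the eleven base fields at a point, expressed through the atoms.
-/

open scoped ContDiff Matrix Topology
open MeasureTheory

namespace Vale.Agent.Lib.P252

variable {Ω : Set (Fin 3 → ℝ)} {u : (Fin 3 → ℝ) → ℝ} {x₀ : Fin 3 → ℝ}

namespace IsAffineMaximal

variable (hs : IsAffineMaximal Ω u) (hΩ : IsOpen Ω)
include hs hΩ

lemma fvV1 {x : Fin 3 → ℝ} (hx : x ∈ Ω) :
    let A := atomsAt u x₀ x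
    FieldVal u x₀ x (fun j y => aT u y * qF u j y)
      (2 * A.pqq - A.Aqqq + (4/5) * A.T ^ 2)
      (A.T * A.T) (A.T * A.H) (A.T * A.pqq) (A.T * A.Aqqq) (A.T * A.Aqxx) := by
  intro A
  obtain ⟨t1, t2, t3, t4, t5, t6, t7, t8, t9, t10, -⟩ := hs.table hΩ (x₀ := x₀) hx
  refine ⟨?_, ?_, ?_, ?_, ?_, ?_⟩
  · have h := hs.dv_V1 hΩ hx
    rw [cN_three] at h
    exact h
  · rw [pa_f_mul hs hΩ, t1]
    rfl
  · rw [pa_f_mul hs hΩ, t3]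
    rfl
  · rw [pa_f_mul hs hΩ, t5]
    rfl
  · rw [pa_f_mul hs hΩ, t7]
    rfl
  · rw [pa_f_mul hs hΩ, t9]
    rfl

lemma fvV2 {x : Fin 3 → ℝ} (hx : x ∈ Ω) :
    let A := atomsAt u x₀ x
    FieldVal u x₀ x (fun j y => aH u x₀ y * qF u j y)
      (A.pqx + A.T - A.Aqqx + (4/5) * (A.H * A.T))
      (A.H * A.T) (A.H * A.H) (A.H * A.pqq) (A.H * A.Aqqq) (A.H * A.Aqxx) := by
  intro A
  obtain ⟨t1, t2, t3, t4, t5, t6, t7, t8, t9, t10, -⟩ := hs.table hΩ (x₀ := x₀) hx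
  refine ⟨?_, ?_, ?_, ?_, ?_, ?_⟩
  · have h := hs.dv_V2 hΩ (x₀ := x₀) hx
    rw [cN_three] at h
    exact h
  · rw [pa_f_mul hs hΩ, t1]
    rfl
  · rw [pa_f_mul hs hΩ, t3]
    rfl
  · rw [pa_f_mul hs hΩ, t5]
    rfl
  · rw [pa_f_mul hs hΩ, t7]
    rfl
  · rw [pa_f_mul hs hΩ, t9]
    rfl

lemma fvV3 {x : Fin 3 → ℝ} (hx : x ∈ Ω) :
    let A := atomsAt u x₀ x
    FieldVal u x₀ x (fun j y => aG u x₀ y * qF u j y)
      (2 * A.H - A.Aqxx + (4/5) * (A.G * A.T))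
      (A.G * A.T) (A.G * A.H) (A.G * A.pqq) (A.G * A.Aqqq) (A.G * A.Aqxx) := by
  intro A
  obtain ⟨t1, t2, t3, t4, t5, t6, t7, t8, t9, t10, -⟩ := hs.table hΩ (x₀ := x₀) hx
  refine ⟨?_, ?_, ?_, ?_, ?_, ?_⟩
  · have h := hs.dv_V3 hΩ (x₀ := x₀) hx
    rw [cN_three] at h
    exact h
  · rw [pa_f_mul hs hΩ, t1]
    rfl
  · rw [pa_f_mul hs hΩ, t3]
    rfl
  · rw [pa_f_mul hs hΩ, t5]
    rfl
  · rw [pa_f_mul hs hΩ, t7]
    rfl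
  · rw [pa_f_mul hs hΩ, t9]
    rfl

lemma fvV4 {x : Fin 3 → ℝ} (hx : x ∈ Ω) :
    let A := atomsAt u x₀ x
    FieldVal u x₀ x (fun j y => aT u y * XF u x₀ j y)
      (2 * A.pqx - A.Aqqx + 3 * A.T)
      (A.T * A.H) (A.T * A.G) (A.T * A.pqx) (A.T * A.Aqqx) (A.T * A.Axxx) := by
  intro A
  obtain ⟨t1, t2, t3, t4, t5, t6, t7, t8, t9, t10, -⟩ := hs.table hΩ (x₀ := x₀) hx
  refine ⟨?_, ?_, ?_, ?_, ?_, ?_⟩
  · have h := hs.dv_V4 hΩ (x₀ := x₀) hx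
    push_cast at h
    exact h
  · rw [pa_f_mul hs hΩ, t2]
    rfl
  · rw [pa_f_mul hs hΩ, t4]
    rfl
  · rw [pa_f_mul hs hΩ, t6]
    rfl
  · rw [pa_f_mul hs hΩ, t8]
    rfl
  · rw [pa_f_mul hs hΩ, t10]
    rfl

lemma fvV5 {x : Fin 3 → ℝ} (hx : x ∈ Ω) :
    let A := atomsAt u x₀ x
    FieldVal u x₀ x (fun j y => aH u x₀ y * XF u x₀ j y)
      (A.pxx + A.H - A.Aqxx + 3 * A.H)
      (A.H * A.H) (A.H * A.G) (A.H * A.pqx) (A.H * A.Aqqx) (A.H * A.Axxx) := by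
  intro A
  obtain ⟨t1, t2, t3, t4, t5, t6, t7, t8, t9, t10, -⟩ := hs.table hΩ (x₀ := x₀) hx
  refine ⟨?_, ?_, ?_, ?_, ?_, ?_⟩
  · have h := hs.dv_V5 hΩ (x₀ := x₀) hx
    push_cast at h
    exact h
  · rw [pa_f_mul hs hΩ, t2]
    rfl
  · rw [pa_f_mul hs hΩ, t4]
    rfl
  · rw [pa_f_mul hs hΩ, t6]
    rfl
  · rw [pa_f_mul hs hΩ, t8]
    rfl
  · rw [pa_f_mul hs hΩ, t10]
    rfl

lemma fvV6 {x : Fin 3 → ℝ} (hx : x ∈ Ω) :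
    let A := atomsAt u x₀ x
    FieldVal u x₀ x (fun j y => aG u x₀ y * XF u x₀ j y)
      (2 * A.G - A.Axxx + 3 * A.G)
      (A.G * A.H) (A.G * A.G) (A.G * A.pqx) (A.G * A.Aqqx) (A.G * A.Axxx) := by
  intro A
  obtain ⟨t1, t2, t3, t4, t5, t6, t7, t8, t9, t10, -⟩ := hs.table hΩ (x₀ := x₀) hx
  refine ⟨?_, ?_, ?_, ?_, ?_, ?_⟩
  · have h := hs.dv_V6 hΩ (x₀ := x₀) hx
    push_cast at h
    exact h
  · rw [pa_f_mul hs hΩ, t2]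
    rfl
  · rw [pa_f_mul hs hΩ, t4]
    rfl
  · rw [pa_f_mul hs hΩ, t6]
    rfl
  · rw [pa_f_mul hs hΩ, t8]
    rfl
  · rw [pa_f_mul hs hΩ, t10]
    rfl

lemma fvV7 {x : Fin 3 → ℝ} (hx : x ∈ Ω) :
    let A := atomsAt u x₀ x
    FieldVal u x₀ x (Ah u (qF u) (qF u))
      (A.pqq - A.MM + 2 * A.HM)
      (A.Aqqq) (A.Aqqx) (A.bc11) (A.c11) (A.c13) := by
  intro A
  obtain ⟨-, -, -, -, -, -, -, -, -, -, r1, r2, r3, r4, r5, r6, r7, r8, r9, r10, r11, r12, r13, r14, r15,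
    r16, r17, r18, r19, r20, r21, r22, r23, r24, r25⟩ := hs.table hΩ (x₀ := x₀) hx
  refine ⟨?_, ?_, ?_, ?_, ?_, ?_⟩
  · have h := hs.dv_V7 hΩ hx
    skip
    exact h
  · exact r1
  · exact r2
  · exact r3
  · exact r4
  · exact r5

lemma fvV8 {x : Fin 3 → ℝ} (hx : x ∈ Ω) :
    let A := atomsAt u x₀ x
    FieldVal u x₀ x (Ah u (qF u) (XF u x₀))
      (A.pqx - A.MN + A.HN + A.T)
      (A.Aqqx) (A.Aqxx) (A.bc12) (A.c12) (A.c23) := by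
  intro A
  obtain ⟨-, -, -, -, -, -, -, -, -, -, r1, r2, r3, r4, r5, r6, r7, r8, r9, r10, r11, r12, r13, r14, r15,
    r16, r17, r18, r19, r20, r21, r22, r23, r24, r25⟩ := hs.table hΩ (x₀ := x₀) hx
  refine ⟨?_, ?_, ?_, ?_, ?_, ?_⟩
  · have h := hs.dv_V8 hΩ (x₀ := x₀) hx
    skip
    exact h
  · exact r6
  · exact r7
  · exact r8
  · exact r9
  · exact r10

lemma fvV9 {x : Fin 3 → ℝ} (hx : x ∈ Ω) :
    let A := atomsAt u x₀ x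
    FieldVal u x₀ x (Ah u (XF u x₀) (XF u x₀))
      (A.pxx - A.NN + 2 * A.H)
      (A.Aqxx) (A.Axxx) (A.bc13) (A.c13) (A.c33) := by
  intro A
  obtain ⟨-, -, -, -, -, -, -, -, -, -, r1, r2, r3, r4, r5, r6, r7, r8, r9, r10, r11, r12, r13, r14, r15,
    r16, r17, r18, r19, r20, r21, r22, r23, r24, r25⟩ := hs.table hΩ (x₀ := x₀) hx
  refine ⟨?_, ?_, ?_, ?_, ?_, ?_⟩
  · have h := hs.dv_V9 hΩ (x₀ := x₀) hx
    skip
    exact h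
  · exact r11
  · exact r12
  · exact r13
  · exact r14
  · exact r15

lemma fvV10 {x : Fin 3 → ℝ} (hx : x ∈ Ω) :
    let A := atomsAt u x₀ x
    FieldVal u x₀ x (ph u (qF u))
      (2 * (4/5) * A.pqq - (4/5) * A.Aqqq + A.HH)
      (A.pqq) (A.pqx) (A.b11) (A.bc11) (A.bc13) := by
  intro A
  obtain ⟨-, -, -, -, -, -, -, -, -, -, r1, r2, r3, r4, r5, r6, r7, r8, r9, r10, r11, r12, r13, r14, r15,
    r16, r17, r18, r19, r20, r21, r22, r23, r24, r25⟩ := hs.table hΩ (x₀ := x₀) hx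
  refine ⟨?_, ?_, ?_, ?_, ?_, ?_⟩
  · have h := hs.dv_V10 hΩ hx
    rw [cN_three] at h
    exact h
  · exact r16
  · exact r17
  · exact r18
  · exact r19
  · exact r20

lemma fvV11 {x : Fin 3 → ℝ} (hx : x ∈ Ω) :
    let A := atomsAt u x₀ x
    FieldVal u x₀ x (ph u (XF u x₀))
      (2 * (4/5) * A.pqx - (4/5) * A.Aqqx + (4/5) * A.T)
      (A.pqx) (A.pxx) (A.b12) (A.bc21) (A.bc23) := by
  intro A
  obtain ⟨-, -, -, -, -, -, -, -, -, -, r1, r2, r3, r4, r5, r6, r7, r8, r9, r10, r11, r12, r13, r14, r15,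
    r16, r17, r18, r19, r20, r21, r22, r23, r24, r25⟩ := hs.table hΩ (x₀ := x₀) hx
  refine ⟨?_, ?_, ?_, ?_, ?_, ?_⟩
  · have h := hs.dv_V11 hΩ (x₀ := x₀) hx
    rw [cN_three] at h
    exact h
  · exact r21
  · exact r22
  · exact r23
  · exact r24
  · exact r25

end IsAffineMaximal

end Vale.Agent.Lib.P252
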