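import Vale.Agent.Lib.P252.Hess15

/-!
The rescaling of the atoms (`X` replaced by `s X`), the elementary term identity, and the integrands
written with the scaling parameter `s = N / η`.
-/

open scoped ContDiff Matrix Topology
open MeasureTheory

namespace Vale.Agent.Lib.P252

/-- The atoms with `X` replaced by `s X`. -/
noncomputable def Atoms.scale (A : Atoms) (s : ℝ) : Atoms where
  T := A.T
  H := s * A.H
  G := s ^ 2 * A.G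
  pqq := A.pqq
  pqx := s * A.pqx
  pxx := s ^ 2 * A.pxx
  Aqqq := A.Aqqq
  Aqqx := s * A.Aqqx
  Aqxx := s ^ 2 * A.Aqxx
  Axxx := s ^ 3 * A.Axxx
  HH := A.HH
  HM := A.HM
  HN := s * A.HN
  MM := A.MM
  MN := s * A.MN
  NN := s ^ 2 * A.NN
  b11 := A.b11
  b12 := s * A.b12
  b22 := s ^ 2 * A.b22
  bc11 := A.bc11
  bc12 := s * A.bc12
  bc13 := s ^ 2 * A.bc13
  bc21 := s * A.bc21
  bc22 := s ^ 2 * A.bc22
  bc23 := s ^ 3 * A.bc23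
  c11 := A.c11
  c12 := s * A.c12
  c13 := s ^ 2 * A.c13
  c22 := s ^ 2 * A.c22
  c23 := s ^ 3 * A.c23
  c33 := s ^ 4 * A.c33

lemma Atoms.fPV_scale (A : Atoms) (s z1 z2 z3 z4 z5 z6 z7 : ℝ) :
    (A.scale s).fPV z1 z2 z3 z4 z5 z6 z7 z1 z2 z3 z4 z5 z6 z7 =
      A.fPV z1 (s * z2) z3 (s * z4) (s ^ 2 * z5) z6 (s * z7)
        z1 (s * z2) z3 (s * z4) (s ^ 2 * z5) z6 (s * z7) := by
  simp only [Atoms.fPV, Atoms.scale]
  ring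

lemma Atoms.fTens_scale (A : Atoms) (s a1 a2 a3 a4 a5 a6 a7 b1 b2 b3 b4 b5 b6 b7
    c1 c2 c3 c4 c5 c6 c7 d1 d2 d3 d4 d5 d6 d7 : ℝ) :
    (A.scale s).fTens a1 a2 a3 a4 a5 a6 a7 b1 b2 b3 b4 b5 b6 b7 c1 c2 c3 c4 c5 c6 c7
        d1 d2 d3 d4 d5 d6 d7 =
      A.fTens a1 a2 (s * a3) a4 (s * a5) (s ^ 2 * a6) a7
        (s * b1) (s * b2) (s ^ 2 * b3) (s * b4) (s ^ 2 * b5) (s ^ 3 * b6) (s * b7)
        c1 c2 (s * c3) c4 (s * c5) (s ^ 2 * c6) c7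
        (s * d1) (s * d2) (s ^ 2 * d3) (s * d4) (s ^ 2 * d5) (s ^ 3 * d6) (s * d7) := by
  simp only [Atoms.fTens, Atoms.fIP, Atoms.fPV, Atoms.scale]
  ring

/-- The elementary identity for one term of a combination. -/
lemma term_gen (N e M : ℕ) (n m1 η Θ Ξ : ℝ) (hN : N = M + 1 + e) (hn : (N : ℝ) = n)
    (hm : (M : ℝ) + 1 = m1) (hη : 0 < η) :
    n ^ e * (η ^ (M + 1) * Θ - ((M : ℝ) + 1) * η ^ M * Ξ) =
      η ^ N * ((n / η) ^ e * Θ - (m1 / n) * (n / η) ^ (e + 1) * Ξ) := by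
  have hn0 : n ≠ 0 := by
    rw [← hn]
    have : N ≠ 0 := by omega
    exact_mod_cast this
  have hη0 : η ≠ 0 := hη.ne'
  rw [hm, hN]
  have e1 : η ^ (M + 1 + e) * (n / η) ^ e = n ^ e * η ^ (M + 1) := by
    rw [div_pow, pow_add]
    field_simp
  have e2 : η ^ (M + 1 + e) * (n / η) ^ (e + 1) = n ^ e * n * η ^ M := by
    rw [div_pow, pow_add, pow_add, pow_add, pow_add]
    field_simp
  have e3 : η ^ (M + 1 + e) * ((m1 / n) * (n / η) ^ (e + 1) * Ξ) = m1 * n ^ e * η ^ M * Ξ := by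
    calc η ^ (M + 1 + e) * ((m1 / n) * (n / η) ^ (e + 1) * Ξ)
        = (m1 / n) * (η ^ (M + 1 + e) * (n / η) ^ (e + 1)) * Ξ := by ring
      _ = (m1 / n) * (n ^ e * n * η ^ M) * Ξ := by rw [e2]
      _ = m1 * n ^ e * η ^ M * Ξ := by field_simp
  rw [mul_sub, mul_sub, ← mul_assoc (η ^ (M + 1 + e)) ((n / η) ^ e), e1, e3]
  ring

/-- The elementary identity for the final lower bound. -/
lemma final_alg (N M k : ℕ) (n D η T c₁ c₂ : ℝ) (hN : N = M + k) (hη : 0 < η) :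
    c₁ * (D * (η ^ N * T ^ k)) - (c₂ * n ^ k) * (D * η ^ M) =
      D * η ^ N * (c₁ * T ^ k - c₂ * (n / η) ^ k) := by
  have h : η ^ N * (n / η) ^ k = n ^ k * η ^ M := by
    rw [hN, div_pow, pow_add]
    have : η ^ k ≠ 0 := (pow_pos hη k).ne'
    field_simp
  linear_combination (c₂ * D) * h

variable {Ω : Set (Fin 3 → ℝ)} {u : (Fin 3 → ℝ) → ℝ} {x₀ : Fin 3 → ℝ}

namespace IsAffineMaximal

variable (hs : IsAffineMaximal Ω u) (hΩ : IsOpen Ω)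
include hs hΩ

/-- The pointwise facts on the rescaled atoms. -/
lemma scale_facts (s : ℝ) {x : Fin 3 → ℝ} (hx : x ∈ Ω) :
    let B := (atomsAt u x₀ x).scale s
    (∀ a1 a2 a3 a4 a5 a6 a7 b1 b2 b3 b4 b5 b6 b7 c1 c2 c3 c4 c5 c6 c7 d1 d2 d3 d4 d5 d6 d7 : ℝ,
      0 ≤ B.fTens a1 a2 a3 a4 a5 a6 a7 b1 b2 b3 b4 b5 b6 b7 c1 c2 c3 c4 c5 c6 c7 d1 d2 d3 d4 d5 d6 d7) ∧
    (∀ z1 z2 z3 z4 z5 z6 z7 : ℝ, 0 ≤ B.fPV z1 z2 z3 z4 z5 z6 z7 z1 z2 z3 z4 z5 z6 z7) ∧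
    0 ≤ B.T ∧ 0 ≤ B.G ∧ B.H ^ 2 ≤ B.T * B.G := by
  intro B
  refine ⟨fun _ _ _ _ _ _ _ _ _ _ _ _ _ _ _ _ _ _ _ _ _ _ _ _ _ _ _ _ => ?_, fun _ _ _ _ _ _ _ => ?_,
    ?_, ?_, ?_⟩
  · rw [Atoms.fTens_scale]
    exact hs.tens_gram hΩ _ _ _ _ _ _ _ _ _ _ _ _ _ _ _ _ _ _ _ _ _ _ _ _ _ _ _ _ hx
  · rw [Atoms.fPV_scale]
    exact hs.vec_gram hΩ _ _ _ _ _ _ _ hx
  · exact hs.aT_nonneg hx
  · have h : 0 ≤ aG u x₀ x := hs.pa_self_nonneg _ hx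
    exact mul_nonneg (sq_nonneg s) h
  · have h : aH u x₀ x ^ 2 ≤ aT u x * aG u x₀ x := hs.pa_sq_le _ _ hx
    show (s * aH u x₀ x) ^ 2 ≤ aT u x * (s ^ 2 * aG u x₀ x)
    nlinarith [mul_le_mul_of_nonneg_left h (sq_nonneg s)]

/-- One term of kind `T V`. -/
lemma term_T {V : Fin 3 → (Fin 3 → ℝ) → ℝ} (hV : ∀ j, ContDiffOn ℝ ∞ (V j) Ω) {d a b c1 c2 c3 : ℝ}
    (β S : ℝ) (N e M : ℕ) (n m1 : ℝ) (hN : N = M + 1 + e) (hn : (N : ℝ) = n)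
    (hm : (M : ℝ) + 1 = m1) {x : Fin 3 → ℝ} (hx : x ∈ Ω) (hη : 0 < S - uBar u x₀ x)
    (hv : FieldVal u x₀ x V d a b c1 c2 c3) :
    n ^ e * hs.fieldI x₀ β S (M + 1) (fun j y => aT u y * V j y) x =
      (hess u x).det ^ β * (S - uBar u x₀ x) ^ N *
      ((n / (S - uBar u x₀ x)) ^ e * ((2 * c1 - c2) + aT u x * (d + (β - 1) * a)) -
        (m1 / n) * (n / (S - uBar u x₀ x)) ^ (e + 1) * (aT u x * b)) := by
  rw [hs.fI_T hΩ hV β S M hx hη hv, mul_left_comm, term_gen N e M n m1 _ _ _ hN hn hm hη]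
  ring

/-- One term of kind `G V`. -/
lemma term_G {V : Fin 3 → (Fin 3 → ℝ) → ℝ} (hV : ∀ j, ContDiffOn ℝ ∞ (V j) Ω) {d a b c1 c2 c3 : ℝ}
    (β S : ℝ) (N e M : ℕ) (n m1 : ℝ) (hN : N = M + 1 + e) (hn : (N : ℝ) = n)
    (hm : (M : ℝ) + 1 = m1) {x : Fin 3 → ℝ} (hx : x ∈ Ω) (hη : 0 < S - uBar u x₀ x)
    (hv : FieldVal u x₀ x V d a b c1 c2 c3) :
    n ^ e * hs.fieldI x₀ β S (M + 1) (fun j y => aG u x₀ y * V j y) x =
      (hess u x).det ^ β * (S - uBar u x₀ x) ^ N *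
      ((n / (S - uBar u x₀ x)) ^ e * ((2 * b - c3) + aG u x₀ x * (d + (β - 1) * a)) -
        (m1 / n) * (n / (S - uBar u x₀ x)) ^ (e + 1) * (aG u x₀ x * b)) := by
  rw [hs.fI_G hΩ hV β S M hx hη hv, mul_left_comm, term_gen N e M n m1 _ _ _ hN hn hm hη]
  ring

/-- One term of kind `T² V`. -/
lemma term_TT {V : Fin 3 → (Fin 3 → ℝ) → ℝ} (hV : ∀ j, ContDiffOn ℝ ∞ (V j) Ω) {d a b c1 c2 c3 : ℝ}
    (β S : ℝ) (N e M : ℕ) (n m1 : ℝ) (hN : N = M + 1 + e) (hn : (N : ℝ) = n)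
    (hm : (M : ℝ) + 1 = m1) {x : Fin 3 → ℝ} (hx : x ∈ Ω) (hη : 0 < S - uBar u x₀ x)
    (hv : FieldVal u x₀ x V d a b c1 c2 c3) :
    n ^ e * hs.fieldI x₀ β S (M + 1) (fun j y => aT u y * aT u y * V j y) x =
      (hess u x).det ^ β * (S - uBar u x₀ x) ^ N *
      ((n / (S - uBar u x₀ x)) ^ e * (2 * aT u x * (2 * c1 - c2) +
          aT u x * aT u x * (d + (β - 1) * a)) -
        (m1 / n) * (n / (S - uBar u x₀ x)) ^ (e + 1) * (aT u x * aT u x * b)) := by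
  rw [hs.fI_TT hΩ hV β S M hx hη hv, mul_left_comm, term_gen N e M n m1 _ _ _ hN hn hm hη]
  ring

/-- One term of kind `T G V`. -/
lemma term_TG {V : Fin 3 → (Fin 3 → ℝ) → ℝ} (hV : ∀ j, ContDiffOn ℝ ∞ (V j) Ω) {d a b c1 c2 c3 : ℝ}
    (β S : ℝ) (N e M : ℕ) (n m1 : ℝ) (hN : N = M + 1 + e) (hn : (N : ℝ) = n)
    (hm : (M : ℝ) + 1 = m1) {x : Fin 3 → ℝ} (hx : x ∈ Ω) (hη : 0 < S - uBar u x₀ x)
    (hv : FieldVal u x₀ x V d a b c1 c2 c3) :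
    n ^ e * hs.fieldI x₀ β S (M + 1) (fun j y => aT u y * aG u x₀ y * V j y) x =
      (hess u x).det ^ β * (S - uBar u x₀ x) ^ N *
      ((n / (S - uBar u x₀ x)) ^ e * (aG u x₀ x * (2 * c1 - c2) + aT u x * (2 * b - c3) +
          aT u x * aG u x₀ x * (d + (β - 1) * a)) -
        (m1 / n) * (n / (S - uBar u x₀ x)) ^ (e + 1) * (aT u x * aG u x₀ x * b)) := by
  rw [hs.fI_TG hΩ hV β S M hx hη hv, mul_left_comm, term_gen N e M n m1 _ _ _ hN hn hm hη]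
  ring

/-- One term of kind `G² V`. -/
lemma term_GG {V : Fin 3 → (Fin 3 → ℝ) → ℝ} (hV : ∀ j, ContDiffOn ℝ ∞ (V j) Ω) {d a b c1 c2 c3 : ℝ}
    (β S : ℝ) (N e M : ℕ) (n m1 : ℝ) (hN : N = M + 1 + e) (hn : (N : ℝ) = n)
    (hm : (M : ℝ) + 1 = m1) {x : Fin 3 → ℝ} (hx : x ∈ Ω) (hη : 0 < S - uBar u x₀ x)
    (hv : FieldVal u x₀ x V d a b c1 c2 c3) :
    n ^ e * hs.fieldI x₀ β S (M + 1) (fun j y => aG u x₀ y * aG u x₀ y * V j y) x =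
      (hess u x).det ^ β * (S - uBar u x₀ x) ^ N *
      ((n / (S - uBar u x₀ x)) ^ e * (2 * aG u x₀ x * (2 * b - c3) +
          aG u x₀ x * aG u x₀ x * (d + (β - 1) * a)) -
        (m1 / n) * (n / (S - uBar u x₀ x)) ^ (e + 1) * (aG u x₀ x * aG u x₀ x * b)) := by
  rw [hs.fI_GG hΩ hV β S M hx hη hv, mul_left_comm, term_gen N e M n m1 _ _ _ hN hn hm hη]
  ring

end IsAffineMaximal

end Vale.Agent.Lib.P252
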