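import Vale.Agent.Lib.P252.Hess16

/-!
Fields with a real power: the function `Z = κ η² + η² T + n² G` for the cut-off `η = S - ū`, its
power `Z^γ`, and the integrands of the fields `Z^γ T V` and `Z^γ G V`.
-/

open scoped ContDiff Matrix Topology
open MeasureTheory

namespace Vale.Agent.Lib.P252

variable {Ω : Set (Fin 3 → ℝ)} {u : (Fin 3 → ℝ) → ℝ} {x₀ : Fin 3 → ℝ}

/-- The function `Z = κ η² + η² T + n² G`, with `η = S - ū`. -/
noncomputable def zFun (u : (Fin 3 → ℝ) → ℝ) (x₀ : Fin 3 → ℝ) (S κ n : ℝ) (y : Fin 3 → ℝ) : ℝ :=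
  κ * (S - uBar u x₀ y) ^ 2 + (S - uBar u x₀ y) ^ 2 * aT u y + n ^ 2 * aG u x₀ y

/-- The elementary identity for the terms with a real power. -/
lemma alg_R (N₀ e M : ℕ) (n κ η s F Θ b DT DG γ m1 ν Zv A T G : ℝ)
    (hN : N₀ = M + 1 + e) (hs : n = s * η) (hν : ν * n = 1)
    (hZ : Zv = κ * η ^ 2 + η ^ 2 * T + n ^ 2 * G) :
    n ^ e * (η ^ (M + 1) * (F * (γ * A * (η ^ 2 * DT + n ^ 2 * DG - 2 * η * (κ + T) * b)) +
        Zv * A * Θ) - m1 * η ^ M * (Zv * A * F * b)) =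
      A * η ^ (N₀ + 2) * ((κ + T + s ^ 2 * G) * (s ^ e * Θ - m1 * ν * s ^ (e + 1) * (F * b)) +
        γ * s ^ e * F * (DT + s ^ 2 * DG) - γ * 2 * ν * s ^ (e + 1) * F * (κ + T) * b) := by
  subst hN hs hZ
  linear_combination ((m1 * (κ + T + s ^ 2 * G) + 2 * γ * (κ + T)) * F * b * A * s ^ e *
    η ^ (M + e + 2)) * hν

namespace IsAffineMaximal

variable (hs : IsAffineMaximal Ω u) (hΩ : IsOpen Ω)
include hs hΩ

lemma contDiffOn_zFun (S κ n : ℝ) : ContDiffOn ℝ ∞ (zFun u x₀ S κ n) Ω := by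
  have hT : ContDiffOn ℝ ∞ (aT u) Ω := hs.contDiffOn_aT hΩ
  have hG : ContDiffOn ℝ ∞ (aG u x₀) Ω := hs.contDiffOn_aG hΩ
  have hη : ContDiffOn ℝ ∞ (fun y => (S - uBar u x₀ y) ^ 2) Ω :=
    (contDiffOn_const.sub (contDiffOn_uBar hs.smooth)).pow 2
  exact (contDiffOn_const.mul hη).add (hη.mul hT) |>.add (contDiffOn_const.mul hG)

omit hs hΩ in
/-- The function `G` does not vanish away from `x₀`. -/
lemma aG_pos_aux (hs : IsAffineMaximal Ω u) (hΩ : IsOpen Ω) (hc : Convex ℝ Ω) (hx₀ : x₀ ∈ Ω)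
    {x : Fin 3 → ℝ} (hx : x ∈ Ω) (hne : x ≠ x₀) : 0 < aG u x₀ x := by
  have h1 := tangent_lt (x₀ := x₀) hΩ hc hs.smooth hs.posDef hx hx₀ hne
  rw [uBar_self] at h1
  have hu0 := uBar_nonneg hΩ hc hs.smooth hs.posDef hx₀ hx
  have hne2 : (fun i => XF u x₀ i x) ≠ 0 := by
    intro h0
    have hpd : ∀ i, pd i (uBar u x₀) x = 0 := fun i => congrFun h0 i
    rw [fderiv_eq_sum] at h1
    simp only [hpd, mul_zero, Finset.sum_const_zero, add_zero] at h1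
    linarith
  have h := Qv_pos (hs.posDef x hx).inv hne2
  have e : Qv (hess u x)⁻¹ (fun i => XF u x₀ i x) (fun i => XF u x₀ i x) = aG u x₀ x := by
    unfold Qv aG pa ra
    refine Finset.sum_congr rfl fun i _ => ?_
    rw [Finset.mul_sum]
    refine Finset.sum_congr rfl fun j _ => ?_
    simp only [Ui]
    ring
  rwa [e] at h

omit hs hΩ in
/-- Positivity of `Z`. -/
lemma zFun_pos (hs : IsAffineMaximal Ω u) (hΩ : IsOpen Ω) (hc : Convex ℝ Ω) (hx₀ : x₀ ∈ Ω) {S κ n : ℝ}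
    (hS : 0 < S) (hκ : 0 < κ) (hn : 0 < n) {x : Fin 3 → ℝ} (hx : x ∈ Ω) :
    0 < zFun u x₀ S κ n x := by
  unfold zFun
  have hT : 0 ≤ aT u x := hs.aT_nonneg hx
  have hG : 0 ≤ aG u x₀ x := hs.pa_self_nonneg _ hx
  by_cases hη : S - uBar u x₀ x = 0
  · have hne : x ≠ x₀ := by
      rintro rfl
      rw [uBar_self] at hη
      linarith
    have hG' := aG_pos_aux hs hΩ hc hx₀ hx hne
    rw [hη]
    have : 0 < n ^ 2 * aG u x₀ x := by positivity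
    simpa using this
  · have h1 : 0 < (S - uBar u x₀ x) ^ 2 := by positivity
    have h2 : 0 < κ * (S - uBar u x₀ x) ^ 2 := by positivity
    have h3 : 0 ≤ (S - uBar u x₀ x) ^ 2 * aT u x := by positivity
    have h4 : 0 ≤ n ^ 2 * aG u x₀ x := by positivity
    linarith

omit hs hΩ in
/-- The derivative of a power of a positive function. -/
lemma pd_rpow_of_pos {f : (Fin 3 → ℝ) → ℝ} {x : Fin 3 → ℝ} (hf : DifferentiableAt ℝ f x)
    (hpos : 0 < f x) (a : ℝ) (k : Fin 3) :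
    pd k (fun y => f y ^ a) x = a * f x ^ (a - 1) * pd k f x := by
  exact pd_comp (g := fun t : ℝ => t ^ a) (g' := a * f x ^ (a - 1)) (f := f)
    (Real.hasDerivAt_rpow_const (Or.inl hpos.ne')) hf k

/-- The derivative of `Z` contracted with a field. -/
lemma grad_Z (S κ n : ℝ) {V : Fin 3 → (Fin 3 → ℝ) → ℝ} {d a b c1 c2 c3 : ℝ} {x : Fin 3 → ℝ}
    (hx : x ∈ Ω) (hv : FieldVal u x₀ x V d a b c1 c2 c3) :
    ∑ k, pd k (zFun u x₀ S κ n) x * ra u V k x =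
      (S - uBar u x₀ x) ^ 2 * (2 * c1 - c2) + n ^ 2 * (2 * b - c3) -
        2 * (S - uBar u x₀ x) * (κ + aT u x) * b := by
  have hT : ContDiffOn ℝ ∞ (aT u) Ω := hs.contDiffOn_aT hΩ
  have hG : ContDiffOn ℝ ∞ (aG u x₀) Ω := hs.contDiffOn_aG hΩ
  have hū : ContDiffOn ℝ ∞ (uBar u x₀) Ω := contDiffOn_uBar hs.smooth
  have dT := diffAt hΩ hT hx
  have dG := diffAt hΩ hG hx
  have dū := diffAt hΩ hū hx
  have dη : DifferentiableAt ℝ (fun y => S - uBar u x₀ y) x := (differentiableAt_const S).sub dū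
  have dη2 : DifferentiableAt ℝ (fun y => (S - uBar u x₀ y) ^ 2) x := dη.pow 2
  have pη : ∀ k, pd k (fun y => (S - uBar u x₀ y) ^ 2) x =
      -(2 * (S - uBar u x₀ x)) * pd k (uBar u x₀) x := by
    intro k
    have := pd_comp (g := fun t : ℝ => (S - t) ^ 2) (g' := -(2 * (S - uBar u x₀ x)))
      (f := uBar u x₀) (by
        have h := ((hasDerivAt_id' (uBar u x₀ x)).const_sub S).fun_pow 2
        exact h.congr_deriv (by norm_num)) dū k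
    exact this
  have pz : ∀ k, pd k (zFun u x₀ S κ n) x =
      -(2 * (S - uBar u x₀ x)) * pd k (uBar u x₀) x * (κ + aT u x) +
        (S - uBar u x₀ x) ^ 2 * pd k (aT u) x + n ^ 2 * pd k (aG u x₀) x := by
    intro k
    have e : zFun u x₀ S κ n = fun y => κ * (S - uBar u x₀ y) ^ 2 +
        (S - uBar u x₀ y) ^ 2 * aT u y + n ^ 2 * aG u x₀ y := rfl
    rw [e]
    have h1 : pd k (fun y => κ * (S - uBar u x₀ y) ^ 2 + (S - uBar u x₀ y) ^ 2 * aT u y +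
        n ^ 2 * aG u x₀ y) x = pd k (fun y => κ * (S - uBar u x₀ y) ^ 2) x +
        pd k (fun y => (S - uBar u x₀ y) ^ 2 * aT u y) x + pd k (fun y => n ^ 2 * aG u x₀ y) x := by
      rw [pd_add (((differentiableAt_const κ).fun_mul dη2).fun_add (dη2.fun_mul dT))
        ((differentiableAt_const _).fun_mul dG),
        pd_add ((differentiableAt_const κ).fun_mul dη2) (dη2.fun_mul dT)]
    rw [h1, pd_const_mul _ dη2, pd_mul dη2 dT, pd_const_mul _ dG, pη k]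
    ring
  simp only [pz, add_mul]
  rw [Finset.sum_add_distrib, Finset.sum_add_distrib]
  have g1 := hs.grad_T' hΩ V hx
  have g2 := hs.grad_G' hΩ (x₀ := x₀) V hx
  rw [hv.pB_eq, hv.pC1_eq] at g1
  rw [hv.pX_eq, hv.pC3_eq] at g2
  have g3 : ∑ k, pd k (uBar u x₀) x * ra u V k x = b := hv.pX_eq
  have e1 : ∑ k, -(2 * (S - uBar u x₀ x)) * pd k (uBar u x₀) x * (κ + aT u x) * ra u V k x =
      -(2 * (S - uBar u x₀ x)) * (κ + aT u x) * ∑ k, pd k (uBar u x₀) x * ra u V k x := by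
    rw [Finset.mul_sum]
    exact Finset.sum_congr rfl fun k _ => by ring
  have e2 : ∑ k, (S - uBar u x₀ x) ^ 2 * pd k (aT u) x * ra u V k x =
      (S - uBar u x₀ x) ^ 2 * ∑ k, pd k (aT u) x * ra u V k x := by
    rw [Finset.mul_sum]
    exact Finset.sum_congr rfl fun k _ => by ring
  have e3 : ∑ k, n ^ 2 * pd k (aG u x₀) x * ra u V k x =
      n ^ 2 * ∑ k, pd k (aG u x₀) x * ra u V k x := by
    rw [Finset.mul_sum]
    exact Finset.sum_congr rfl fun k _ => by ring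
  rw [e1, e2, e3, g1, g2, g3]
  ring

omit hs hΩ in
/-- The integrand of a field `Z^γ f V`, where `f` is a smooth function. -/
lemma fI_Zf (hs : IsAffineMaximal Ω u) (hΩ : IsOpen Ω) (hc : Convex ℝ Ω) (hx₀ : x₀ ∈ Ω)
    {f : (Fin 3 → ℝ) → ℝ} (hf : ContDiffOn ℝ ∞ f Ω)
    {V : Fin 3 → (Fin 3 → ℝ) → ℝ} (hV : ∀ j, ContDiffOn ℝ ∞ (V j) Ω) {d a b c1 c2 c3 : ℝ}
    (β S κ n γ : ℝ) (hS : 0 < S) (hκ : 0 < κ) (hn : 0 < n) (M : ℕ) {x : Fin 3 → ℝ} (hx : x ∈ Ω)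
    (hη : 0 < S - uBar u x₀ x) (hv : FieldVal u x₀ x V d a b c1 c2 c3) :
    hs.fieldI x₀ β S (M + 1) (fun j y => (zFun u x₀ S κ n y ^ γ * f y) * V j y) x =
      (hess u x).det ^ β * ((S - uBar u x₀ x) ^ (M + 1) *
        (f x * (γ * zFun u x₀ S κ n x ^ (γ - 1) *
            ((S - uBar u x₀ x) ^ 2 * (2 * c1 - c2) + n ^ 2 * (2 * b - c3) -
              2 * (S - uBar u x₀ x) * (κ + aT u x) * b)) +
          zFun u x₀ S κ n x * zFun u x₀ S κ n x ^ (γ - 1) *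
            ((∑ k, pd k f x * ra u V k x) + f x * (d + (β - 1) * a))) -
        ((M : ℝ) + 1) * (S - uBar u x₀ x) ^ M *
          (zFun u x₀ S κ n x * zFun u x₀ S κ n x ^ (γ - 1) * f x * b)) := by
  have hZ := hs.contDiffOn_zFun hΩ (x₀ := x₀) S κ n
  have hZpos : ∀ y ∈ Ω, 0 < zFun u x₀ S κ n y := fun y hy => zFun_pos hs hΩ hc hx₀ hS hκ hn hy
  have hZγ : ContDiffOn ℝ ∞ (fun y => zFun u x₀ S κ n y ^ γ) Ω :=
    hZ.rpow_const_of_ne fun y hy => (hZpos y hy).ne'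
  have hZx := hZpos x hx
  have hZe : zFun u x₀ S κ n x ^ γ = zFun u x₀ S κ n x * zFun u x₀ S κ n x ^ (γ - 1) := by
    have h := Real.rpow_add hZx 1 (γ - 1)
    rw [Real.rpow_one] at h
    rw [← h]
    congr 1
    ring
  rw [hs.fieldI_mul_pos hΩ (hZγ.mul hf) hV β S M hx hη, hs.pd_mul_contr hΩ hZγ hf V hx]
  have e1 : ∑ k, pd k (fun y => zFun u x₀ S κ n y ^ γ) x * ra u V k x =
      γ * zFun u x₀ S κ n x ^ (γ - 1) * ∑ k, pd k (zFun u x₀ S κ n) x * ra u V k x := by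
    rw [Finset.mul_sum]
    refine Finset.sum_congr rfl fun k _ => ?_
    rw [pd_rpow_of_pos (diffAt hΩ hZ hx) hZx γ k]
    ring
  rw [e1, hs.grad_Z hΩ S κ n hx hv, hv.dv_eq, hv.pq_eq, hv.pX_eq, hZe]
  ring

omit hs hΩ in
/-- One term of kind `Z^γ T V`. -/
lemma rterm_T (hs : IsAffineMaximal Ω u) (hΩ : IsOpen Ω) (hc : Convex ℝ Ω) (hx₀ : x₀ ∈ Ω)
    {V : Fin 3 → (Fin 3 → ℝ) → ℝ} (hV : ∀ j, ContDiffOn ℝ ∞ (V j) Ω) {d a b c1 c2 c3 : ℝ}
    (β S κ n γ ν : ℝ) (hS : 0 < S) (hκ : 0 < κ) (hn : 0 < n) (N₀ e M : ℕ) (hN : N₀ = M + 1 + e)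
    (hν : ν * n = 1) {x : Fin 3 → ℝ} (hx : x ∈ Ω) (hη : 0 < S - uBar u x₀ x)
    (hv : FieldVal u x₀ x V d a b c1 c2 c3) :
    n ^ e * hs.fieldI x₀ β S (M + 1) (fun j y => (zFun u x₀ S κ n y ^ γ * aT u y) * V j y) x =
      (hess u x).det ^ β * (zFun u x₀ S κ n x ^ (γ - 1) * (S - uBar u x₀ x) ^ (N₀ + 2) *
        ((κ + aT u x + (n / (S - uBar u x₀ x)) ^ 2 * aG u x₀ x) *
            ((n / (S - uBar u x₀ x)) ^ e * ((2 * c1 - c2) + aT u x * (d + (β - 1) * a)) -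
              ((M : ℝ) + 1) * ν * (n / (S - uBar u x₀ x)) ^ (e + 1) * (aT u x * b)) +
          γ * (n / (S - uBar u x₀ x)) ^ e * aT u x *
            ((2 * c1 - c2) + (n / (S - uBar u x₀ x)) ^ 2 * (2 * b - c3)) -
          γ * 2 * ν * (n / (S - uBar u x₀ x)) ^ (e + 1) * aT u x * (κ + aT u x) * b)) := by
  have hG1 := hs.grad_T' hΩ V hx
  rw [hv.pB_eq, hv.pC1_eq] at hG1
  rw [fI_Zf hs hΩ hc hx₀ (hs.contDiffOn_aT hΩ) hV β S κ n γ hS hκ hn M hx hη hv, hG1]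
  have hs' : n = n / (S - uBar u x₀ x) * (S - uBar u x₀ x) := by field_simp
  have h := alg_R N₀ e M n κ (S - uBar u x₀ x) (n / (S - uBar u x₀ x)) (aT u x)
    ((2 * c1 - c2) + aT u x * (d + (β - 1) * a)) b (2 * c1 - c2) (2 * b - c3) γ ((M : ℝ) + 1) ν
    (zFun u x₀ S κ n x) (zFun u x₀ S κ n x ^ (γ - 1)) (aT u x) (aG u x₀ x) hN hs' hν rfl
  rw [mul_left_comm, h]

omit hs hΩ in
/-- One term of kind `Z^γ G V`. -/
lemma rterm_G (hs : IsAffineMaximal Ω u) (hΩ : IsOpen Ω) (hc : Convex ℝ Ω) (hx₀ : x₀ ∈ Ω)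
    {V : Fin 3 → (Fin 3 → ℝ) → ℝ} (hV : ∀ j, ContDiffOn ℝ ∞ (V j) Ω) {d a b c1 c2 c3 : ℝ}
    (β S κ n γ ν : ℝ) (hS : 0 < S) (hκ : 0 < κ) (hn : 0 < n) (N₀ e M : ℕ) (hN : N₀ = M + 1 + e)
    (hν : ν * n = 1) {x : Fin 3 → ℝ} (hx : x ∈ Ω) (hη : 0 < S - uBar u x₀ x)
    (hv : FieldVal u x₀ x V d a b c1 c2 c3) :
    n ^ e * hs.fieldI x₀ β S (M + 1) (fun j y => (zFun u x₀ S κ n y ^ γ * aG u x₀ y) * V j y) x =
      (hess u x).det ^ β * (zFun u x₀ S κ n x ^ (γ - 1) * (S - uBar u x₀ x) ^ (N₀ + 2) *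
        ((κ + aT u x + (n / (S - uBar u x₀ x)) ^ 2 * aG u x₀ x) *
            ((n / (S - uBar u x₀ x)) ^ e * ((2 * b - c3) + aG u x₀ x * (d + (β - 1) * a)) -
              ((M : ℝ) + 1) * ν * (n / (S - uBar u x₀ x)) ^ (e + 1) * (aG u x₀ x * b)) +
          γ * (n / (S - uBar u x₀ x)) ^ e * aG u x₀ x *
            ((2 * c1 - c2) + (n / (S - uBar u x₀ x)) ^ 2 * (2 * b - c3)) -
          γ * 2 * ν * (n / (S - uBar u x₀ x)) ^ (e + 1) * aG u x₀ x * (κ + aT u x) * b)) := by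
  have hG1 := hs.grad_G' hΩ (x₀ := x₀) V hx
  rw [hv.pX_eq, hv.pC3_eq] at hG1
  rw [fI_Zf hs hΩ hc hx₀ (hs.contDiffOn_aG hΩ) hV β S κ n γ hS hκ hn M hx hη hv, hG1]
  have hs' : n = n / (S - uBar u x₀ x) * (S - uBar u x₀ x) := by field_simp
  have h := alg_R N₀ e M n κ (S - uBar u x₀ x) (n / (S - uBar u x₀ x)) (aG u x₀ x)
    ((2 * b - c3) + aG u x₀ x * (d + (β - 1) * a)) b (2 * c1 - c2) (2 * b - c3) γ ((M : ℝ) + 1) ν
    (zFun u x₀ S κ n x) (zFun u x₀ S κ n x ^ (γ - 1)) (aT u x) (aG u x₀ x) hN hs' hν rfl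
  rw [mul_left_comm, h]

end IsAffineMaximal

end Vale.Agent.Lib.P252
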