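import Vale.Agent.Lib.P252.Hess17

/-!
Real powers: the pair identity for the fields `Z^γ T V`, `Z^γ G V`, the pointwise lower bound, and the
integral estimate and the Liouville theorem with a real exponent.
-/

open scoped ContDiff Matrix Topology
open MeasureTheory

namespace Vale.Agent.Lib.P252

/-- The form attached to a base field. -/
noncomputable def Pf (e : ℕ) (ν s T G d' b DT DG α' : ℝ) : ℝ :=
  s ^ e * ((T + s ^ 2 * G) * (d' - (1 - (e : ℝ) * ν) * s * b) +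
    α' * (DT + s ^ 2 * DG + 2 * ν * s ^ 3 * G * b))

/-- The algebra of a pair of terms. -/
lemma alg_pair (e : ℕ) (n γ ν κ s T G d' b DT DG m3 m1 : ℝ) (hν : ν * n = 1)
    (hm3 : m3 = n - 2 * γ - e) (hm1 : m1 = n - 2 * γ - e - 2) :
    ((κ + T + s ^ 2 * G) * (s ^ e * (DT + T * d') - m3 * ν * s ^ (e + 1) * (T * b)) +
        γ * s ^ e * T * (DT + s ^ 2 * DG) - γ * 2 * ν * s ^ (e + 1) * T * (κ + T) * b) +
      ((κ + T + s ^ 2 * G) * (s ^ (e + 2) * (DG + G * d') - m1 * ν * s ^ (e + 2 + 1) * (G * b)) +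
        γ * s ^ (e + 2) * G * (DT + s ^ 2 * DG) - γ * 2 * ν * s ^ (e + 2 + 1) * G * (κ + T) * b) =
      κ * Pf e ν s T G d' b DT DG 1 + (T + s ^ 2 * G) * Pf e ν s T G d' b DT DG (1 + γ) := by
  subst hm3 hm1
  unfold Pf
  linear_combination (-(s ^ (e + 1) * b * (κ + T + s ^ 2 * G) * (T + s ^ 2 * G))) * hν

/-- Young's inequality for the real power. -/
lemma rpow_young_R {c₁ c₂ K κ Y s T γ : ℝ} (hc₁ : 0 < c₁) (hc₂ : 0 ≤ c₂) (hK : 1 ≤ K)
    (hcK : 2 * c₂ ≤ c₁ * K ^ 3) (hκ0 : 0 < κ) (hκ : κ ≤ s) (hT : 0 ≤ T) (hTY : T ≤ Y)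
    (hγ0 : 0 ≤ γ) (hγ1 : γ ≤ 1) :
    (c₁ / 2) * T ^ (3 + γ) - (c₂ * (1 + K) + (c₁ / 2) * K ^ 4) * s ^ (3 + γ) ≤
      (κ + Y) ^ γ * (c₁ * Y ^ 3 - c₂ * s ^ 3) := by
  have hs : 0 < s := lt_of_lt_of_le hκ0 hκ
  have hY : 0 ≤ Y := hT.trans hTY
  have hsp : 0 < s ^ (3 + γ) := Real.rpow_pos_of_pos hs _
  have hsplit : s ^ (3 + γ) = s ^ 3 * s ^ γ := by
    rw [Real.rpow_add hs]
    norm_num
  by_cases hcase : K * s ≤ Y
  · -- the main case
    have h1 : c₂ * s ^ 3 ≤ (c₁ / 2) * Y ^ 3 := by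
      have h2 : (K * s) ^ 3 ≤ Y ^ 3 := pow_le_pow_left₀ (by positivity) hcase 3
      have h3 : (K * s) ^ 3 = K ^ 3 * s ^ 3 := by ring
      have h4 : 0 < s ^ 3 := by positivity
      nlinarith [mul_le_mul_of_nonneg_right hcK h4.le]
    have h5 : 0 ≤ c₁ * Y ^ 3 - c₂ * s ^ 3 - (c₁ / 2) * Y ^ 3 := by linarith
    have h6 : Y ^ γ ≤ (κ + Y) ^ γ := Real.rpow_le_rpow hY (by linarith) hγ0
    have h7 : T ^ (3 + γ) ≤ Y ^ (3 + γ) := Real.rpow_le_rpow hT hTY (by linarith)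
    have hYpos : 0 < Y := lt_of_lt_of_le (by positivity) hcase
    have h8 : Y ^ (3 + γ) = Y ^ 3 * Y ^ γ := by
      rw [Real.rpow_add hYpos]
      norm_num
    have hY3 : 0 ≤ Y ^ 3 := by positivity
    have h9 : (c₁ / 2) * T ^ (3 + γ) ≤ (κ + Y) ^ γ * (c₁ * Y ^ 3 - c₂ * s ^ 3) := by
      have hA : 0 ≤ c₁ * Y ^ 3 - c₂ * s ^ 3 := by nlinarith [mul_nonneg hc₁.le hY3]
      calc (c₁ / 2) * T ^ (3 + γ) ≤ (c₁ / 2) * Y ^ (3 + γ) :=
            mul_le_mul_of_nonneg_left h7 (by positivity)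
        _ = Y ^ γ * ((c₁ / 2) * Y ^ 3) := by rw [h8]; ring
        _ ≤ Y ^ γ * (c₁ * Y ^ 3 - c₂ * s ^ 3) :=
            mul_le_mul_of_nonneg_left (by linarith) (Real.rpow_nonneg hY _)
        _ ≤ (κ + Y) ^ γ * (c₁ * Y ^ 3 - c₂ * s ^ 3) := mul_le_mul_of_nonneg_right h6 hA
    have h10 : 0 ≤ (c₂ * (1 + K) + (c₁ / 2) * K ^ 4) * s ^ (3 + γ) := by positivity
    linarith
  · -- the remainder case
    have hcase' : Y < K * s := not_le.1 hcase
    have hK0 : 0 < K := by linarith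
    have h1 : κ + Y ≤ (1 + K) * s := by nlinarith
    have h2 : (κ + Y) ^ γ ≤ ((1 + K) * s) ^ γ :=
      Real.rpow_le_rpow (by positivity) h1 hγ0
    have h3 : ((1 + K) * s) ^ γ = (1 + K) ^ γ * s ^ γ :=
      Real.mul_rpow (by positivity) hs.le
    have h4 : (1 + K) ^ γ ≤ 1 + K := by
      calc (1 + K) ^ γ ≤ (1 + K) ^ (1 : ℝ) :=
            Real.rpow_le_rpow_of_exponent_le (by linarith) hγ1
        _ = 1 + K := Real.rpow_one _
    have hsγ : 0 < s ^ γ := Real.rpow_pos_of_pos hs _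
    have h5 : (κ + Y) ^ γ ≤ (1 + K) * s ^ γ := by
      rw [h3] at h2
      exact h2.trans (mul_le_mul_of_nonneg_right h4 hsγ.le)
    have h6 : 0 ≤ (κ + Y) ^ γ := Real.rpow_nonneg (by positivity) _
    have h7 : T ^ (3 + γ) ≤ K ^ 4 * s ^ (3 + γ) := by
      have h71 : T ^ (3 + γ) ≤ (K * s) ^ (3 + γ) :=
        Real.rpow_le_rpow hT (hTY.trans hcase'.le) (by linarith)
      have h72 : (K * s) ^ (3 + γ) = K ^ (3 + γ) * s ^ (3 + γ) :=
        Real.mul_rpow hK0.le hs.le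
      have h73 : K ^ (3 + γ) ≤ K ^ (4 : ℝ) :=
        Real.rpow_le_rpow_of_exponent_le hK (by linarith)
      have h74 : K ^ (4 : ℝ) = K ^ 4 := by norm_num
      rw [h72] at h71
      rw [h74] at h73
      exact h71.trans (mul_le_mul_of_nonneg_right h73 hsp.le)
    have hs3 : 0 < s ^ 3 := by positivity
    have hY3 : 0 ≤ c₁ * Y ^ 3 := by positivity
    have h8 : -(c₂ * s ^ 3) ≤ c₁ * Y ^ 3 - c₂ * s ^ 3 := by linarith
    have h9 : (κ + Y) ^ γ * (-(c₂ * s ^ 3)) ≤ (κ + Y) ^ γ * (c₁ * Y ^ 3 - c₂ * s ^ 3) :=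
      mul_le_mul_of_nonneg_left h8 h6
    have h10 : (κ + Y) ^ γ * (c₂ * s ^ 3) ≤ ((1 + K) * s ^ γ) * (c₂ * s ^ 3) :=
      mul_le_mul_of_nonneg_right h5 (by positivity)
    have h11 : (c₁ / 2) * T ^ (3 + γ) ≤ (c₁ / 2) * (K ^ 4 * s ^ (3 + γ)) :=
      mul_le_mul_of_nonneg_left h7 (by positivity)
    have h12 : ((1 + K) * s ^ γ) * (c₂ * s ^ 3) = c₂ * (1 + K) * s ^ (3 + γ) := by
      rw [hsplit]
      ring
    nlinarith

/-- The pointwise lower bound for the combination. -/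
lemma rlower {N₀ M₀ : ℕ} (hN : N₀ = M₀ + 3) {D' η S n κ γ c₁ c₂ K p2 p21 T G Zv : ℝ}
    (hD : 0 ≤ D') (hη : 0 < η) (hηS : η ≤ S) (hn : 0 < n) (hc₁ : 0 < c₁) (hc₂ : 0 ≤ c₂)
    (hK : 1 ≤ K) (hcK : 2 * c₂ ≤ c₁ * K ^ 3) (hκ0 : 0 < κ) (hκ : κ ≤ n / η) (hT : 0 ≤ T)
    (hG : 0 ≤ G) (hγ0 : 0 ≤ γ) (hγ1 : γ ≤ 1)
    (hZ : Zv = κ * η ^ 2 + η ^ 2 * T + n ^ 2 * G)
    (hp2 : c₁ * (T + (n / η) ^ 2 * G) ^ 3 - c₂ * (n / η) ^ 3 ≤ p2)
    (hp21 : c₁ * (T + (n / η) ^ 2 * G) ^ 3 - c₂ * (n / η) ^ 3 ≤ p21) :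
    (c₁ / 2) * (D' * (η ^ N₀ * η ^ (2 * γ) * T ^ (3 + γ))) -
        ((c₂ * (1 + K) + (c₁ / 2) * K ^ 4) * n ^ (3 + γ)) * (S ^ γ * (D' * η ^ M₀)) ≤
      D' * (Zv ^ (γ - 1) * η ^ (N₀ + 2) * (κ * p2 + (T + (n / η) ^ 2 * G) * p21)) := by
  set s := n / η with hs
  have hspos : 0 < s := by positivity
  set Y := T + s ^ 2 * G with hY
  have hY0 : 0 ≤ Y := by positivity
  have hTY : T ≤ Y := by
    have : 0 ≤ s ^ 2 * G := by positivity
    linarith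
  have hZ2 : Zv = η ^ 2 * (κ + Y) := by
    rw [hZ, hY, hs, div_pow]
    field_simp
    ring
  have hκY : 0 < κ + Y := by linarith
  have hA : 0 < Zv := by
    rw [hZ2]
    positivity
  -- the convex combination
  have h1 : (κ + Y) * (c₁ * Y ^ 3 - c₂ * s ^ 3) ≤ κ * p2 + Y * p21 := by
    have := mul_le_mul_of_nonneg_left hp2 hκ0.le
    have := mul_le_mul_of_nonneg_left hp21 hY0
    nlinarith
  have h2 := rpow_young_R hc₁ hc₂ hK hcK hκ0 hκ hT hTY hγ0 hγ1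
  -- splitting the powers
  have hη2 : (0 : ℝ) ≤ η ^ 2 := by positivity
  have e1 : Zv ^ (γ - 1) = (η ^ 2) ^ (γ - 1) * (κ + Y) ^ (γ - 1) := by
    rw [hZ2, Real.mul_rpow hη2 hκY.le]
  have e2 : (η ^ 2) ^ (γ - 1) * η ^ (N₀ + 2) = η ^ N₀ * η ^ (2 * γ) := by
    have e21 : (η ^ 2 : ℝ) ^ (γ - 1) = η ^ (2 * (γ - 1)) := by
      rw [← Real.rpow_natCast η 2, ← Real.rpow_mul hη.le]
      norm_num
    have e22 : η ^ (2 * (γ - 1)) * η ^ (2 : ℕ) = η ^ (2 * γ) := by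
      rw [← Real.rpow_natCast η 2, ← Real.rpow_add hη]
      congr 1
      push_cast
      ring
    rw [e21, pow_add]
    calc η ^ (2 * (γ - 1)) * (η ^ N₀ * η ^ 2) = η ^ N₀ * (η ^ (2 * (γ - 1)) * η ^ 2) := by ring
      _ = _ := by rw [e22]
  have e3 : (κ + Y) ^ (γ - 1) * (κ + Y) = (κ + Y) ^ γ := by
    have h := Real.rpow_add hκY (γ - 1) 1
    rw [Real.rpow_one] at h
    rw [← h]
    congr 1
    ring
  have hBpos : 0 < (κ + Y) ^ (γ - 1) := Real.rpow_pos_of_pos hκY _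
  have hηq : 0 < η ^ (2 * γ) := Real.rpow_pos_of_pos hη _
  have hP : 0 < η ^ N₀ * η ^ (2 * γ) := by positivity
  have h3 : Zv ^ (γ - 1) * η ^ (N₀ + 2) * (κ * p2 + Y * p21) =
      η ^ N₀ * η ^ (2 * γ) * ((κ + Y) ^ (γ - 1) * (κ * p2 + Y * p21)) := by
    rw [e1, ← e2]
    ring
  have h4 : (κ + Y) ^ γ * (c₁ * Y ^ 3 - c₂ * s ^ 3) ≤
      (κ + Y) ^ (γ - 1) * (κ * p2 + Y * p21) := by
    calc (κ + Y) ^ γ * (c₁ * Y ^ 3 - c₂ * s ^ 3)
        = (κ + Y) ^ (γ - 1) * ((κ + Y) * (c₁ * Y ^ 3 - c₂ * s ^ 3)) := by rw [← e3]; ring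
      _ ≤ _ := mul_le_mul_of_nonneg_left h1 hBpos.le
  set C := c₂ * (1 + K) + (c₁ / 2) * K ^ 4 with hC
  have hC0 : 0 ≤ C := by positivity
  have h5 := h2.trans h4
  -- the power of `s`
  have e4 : η ^ N₀ * η ^ (2 * γ) * s ^ (3 + γ) = n ^ (3 + γ) * (η ^ γ * η ^ M₀) := by
    have e41 : s ^ (3 + γ) = n ^ (3 + γ) / η ^ (3 + γ) := Real.div_rpow hn.le hη.le _
    have e42 : η ^ (3 + γ) = η ^ 3 * η ^ γ := by
      rw [Real.rpow_add hη]
      norm_num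
    have e43 : η ^ (2 * γ) = η ^ γ * η ^ γ := by
      rw [← Real.rpow_add hη]
      congr 1
      ring
    have hηγ : 0 < η ^ γ := Real.rpow_pos_of_pos hη _
    rw [e41, e42, hN, pow_add, e43]
    field_simp
  have h6 : η ^ γ ≤ S ^ γ := Real.rpow_le_rpow hη.le hηS hγ0
  have hM : 0 < η ^ M₀ := by positivity
  have hnp : 0 < n ^ (3 + γ) := Real.rpow_pos_of_pos hn _
  rw [h3]
  have h7 := mul_le_mul_of_nonneg_left h5 (mul_nonneg hD hP.le)
  have h8 : C * n ^ (3 + γ) * (η ^ γ * (D' * η ^ M₀)) ≤ C * n ^ (3 + γ) * (S ^ γ * (D' * η ^ M₀)) :=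
    mul_le_mul_of_nonneg_left (mul_le_mul_of_nonneg_right h6 (by positivity)) (by positivity)
  have h9 : D' * (η ^ N₀ * η ^ (2 * γ)) * ((c₁ / 2) * T ^ (3 + γ) - C * s ^ (3 + γ)) =
      (c₁ / 2) * (D' * (η ^ N₀ * η ^ (2 * γ) * T ^ (3 + γ))) -
        C * n ^ (3 + γ) * (η ^ γ * (D' * η ^ M₀)) := by
    have : D' * C * (η ^ N₀ * η ^ (2 * γ) * s ^ (3 + γ)) =
        D' * C * (n ^ (3 + γ) * (η ^ γ * η ^ M₀)) := by rw [e4]
    linear_combination (-1) * this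
  calc (c₁ / 2) * (D' * (η ^ N₀ * η ^ (2 * γ) * T ^ (3 + γ))) -
        (C * n ^ (3 + γ)) * (S ^ γ * (D' * η ^ M₀))
      ≤ (c₁ / 2) * (D' * (η ^ N₀ * η ^ (2 * γ) * T ^ (3 + γ))) -
        C * n ^ (3 + γ) * (η ^ γ * (D' * η ^ M₀)) := by linarith
    _ = D' * (η ^ N₀ * η ^ (2 * γ)) * ((c₁ / 2) * T ^ (3 + γ) - C * s ^ (3 + γ)) := h9.symm
    _ ≤ D' * (η ^ N₀ * η ^ (2 * γ)) * ((κ + Y) ^ (γ - 1) * (κ * p2 + Y * p21)) := h7
    _ = D' * (η ^ N₀ * η ^ (2 * γ) * ((κ + Y) ^ (γ - 1) * (κ * p2 + Y * p21))) := by ring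

/-- The form of the final estimate. -/
lemma estimate_to_form {N₀ M₀ : ℕ} (hN : N₀ = M₀ + 3) {c₃ C' S I₀ I γ : ℝ} (hc₃ : 0 < c₃) (hS : 0 < S)
    (h : c₃ * ((S / 2) ^ N₀ * (S / 2) ^ (2 * γ)) * I₀ ≤ C' * S ^ γ * (S ^ M₀ * I)) :
    I₀ ≤ ((C' / c₃) * (2 ^ N₀ * 2 ^ (2 * γ))) / S ^ (3 + γ) * I := by
  have hSγ : 0 < S ^ γ := Real.rpow_pos_of_pos hS _
  have h2q : 0 < (2 : ℝ) ^ (2 * γ) := Real.rpow_pos_of_pos (by norm_num) _
  have e1 : (S / 2) ^ N₀ = S ^ N₀ / 2 ^ N₀ := div_pow _ _ _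
  have e2 : (S / 2) ^ (2 * γ) = S ^ γ * S ^ γ / 2 ^ (2 * γ) := by
    rw [Real.div_rpow hS.le (by norm_num), two_mul, Real.rpow_add hS]
  have e3 : S ^ (3 + γ) = S ^ 3 * S ^ γ := by
    rw [Real.rpow_add hS]
    norm_num
  have hSM : 0 < S ^ M₀ := by positivity
  have hS3 : 0 < S ^ 3 := by positivity
  rw [e1, e2, hN, pow_add] at h
  rw [e3, hN, div_mul_eq_mul_div, le_div_iff₀ (by positivity)]
  have hP : 0 < S ^ M₀ * S ^ γ := by positivity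
  refine le_of_mul_le_mul_left ?_ hP
  have h3 := mul_le_mul_of_nonneg_right h (by positivity : (0 : ℝ) ≤ 2 ^ (M₀ + 3) * 2 ^ (2 * γ) / c₃)
  have e4 : c₃ * (S ^ M₀ * S ^ 3 / 2 ^ (M₀ + 3) * (S ^ γ * S ^ γ / 2 ^ (2 * γ))) * I₀ *
      (2 ^ (M₀ + 3) * 2 ^ (2 * γ) / c₃) = S ^ M₀ * S ^ γ * (I₀ * (S ^ 3 * S ^ γ)) := by
    field_simp
  have e5 : C' * S ^ γ * (S ^ M₀ * I) * (2 ^ (M₀ + 3) * 2 ^ (2 * γ) / c₃) =
      S ^ M₀ * S ^ γ * (C' / c₃ * (2 ^ (M₀ + 3) * 2 ^ (2 * γ)) * I) := by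
    field_simp
  rw [e4, e5] at h3
  exact h3

variable {Ω : Set (Fin 3 → ℝ)} {u : (Fin 3 → ℝ) → ℝ} {x₀ : Fin 3 → ℝ}

namespace IsAffineMaximal

/-- The smoothness of the power of `Z`. -/
lemma contDiffOn_zrpow (hs : IsAffineMaximal Ω u) (hΩ : IsOpen Ω) (hc : Convex ℝ Ω) (hx₀ : x₀ ∈ Ω)
    {S κ n : ℝ} (hS : 0 < S) (hκ : 0 < κ) (hn : 0 < n) (γ : ℝ) :
    ContDiffOn ℝ ∞ (fun y => zFun u x₀ S κ n y ^ γ) Ω :=
  (hs.contDiffOn_zFun hΩ S κ n).rpow_const_of_ne fun y hy => (zFun_pos hs hΩ hc hx₀ hS hκ hn hy).ne'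

/-- The pair of terms of a base field. -/
lemma rpair (hs : IsAffineMaximal Ω u) (hΩ : IsOpen Ω) (hc : Convex ℝ Ω) (hx₀ : x₀ ∈ Ω)
    {V : Fin 3 → (Fin 3 → ℝ) → ℝ} (hV : ∀ j, ContDiffOn ℝ ∞ (V j) Ω) {d a b c1 c2 c3 : ℝ}
    (β S κ n γ ν : ℝ) (hS : 0 < S) (hκ : 0 < κ) (hn : 0 < n) (N₀ e M : ℕ) (hN : N₀ = M + 3 + e)
    (hnN : n = (N₀ : ℝ) + 2 * γ) (hν : ν * n = 1) {x : Fin 3 → ℝ} (hx : x ∈ Ω)
    (hη : 0 < S - uBar u x₀ x) (hv : FieldVal u x₀ x V d a b c1 c2 c3) :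
    n ^ e * hs.fieldI x₀ β S (M + 3) (fun j y => (zFun u x₀ S κ n y ^ γ * aT u y) * V j y) x +
      n ^ (e + 2) * hs.fieldI x₀ β S (M + 1)
        (fun j y => (zFun u x₀ S κ n y ^ γ * aG u x₀ y) * V j y) x =
      (hess u x).det ^ β * (zFun u x₀ S κ n x ^ (γ - 1) * (S - uBar u x₀ x) ^ (N₀ + 2) *
        (κ * Pf e ν (n / (S - uBar u x₀ x)) (aT u x) (aG u x₀ x) (d + (β - 1) * a) b
            (2 * c1 - c2) (2 * b - c3) 1 +
          (aT u x + (n / (S - uBar u x₀ x)) ^ 2 * aG u x₀ x) *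
            Pf e ν (n / (S - uBar u x₀ x)) (aT u x) (aG u x₀ x) (d + (β - 1) * a) b
              (2 * c1 - c2) (2 * b - c3) (1 + γ))) := by
  have t1 := rterm_T hs hΩ hc hx₀ hV β S κ n γ ν hS hκ hn N₀ e (M + 2) (by omega) hν hx hη hv
  have t2 := rterm_G hs hΩ hc hx₀ hV β S κ n γ ν hS hκ hn N₀ (e + 2) M (by omega) hν hx hη hv
  have hM : (M : ℝ) = n - 2 * γ - e - 3 := by
    rw [hnN, hN]
    push_cast
    ring
  have h := alg_pair e n γ ν κ (n / (S - uBar u x₀ x)) (aT u x) (aG u x₀ x) (d + (β - 1) * a) b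
    (2 * c1 - c2) (2 * b - c3) (((M + 2 : ℕ) : ℝ) + 1) ((M : ℝ) + 1) hν
    (by push_cast; rw [hM]; ring) (by rw [hM]; ring)
  rw [← h]
  have t1' : n ^ e * hs.fieldI x₀ β S (M + 3)
      (fun j y => (zFun u x₀ S κ n y ^ γ * aT u y) * V j y) x = _ := t1
  rw [t1', t2]
  ring

/-- The integral inequality obtained from a combination of divergence identities. -/
theorem estimate_of_combR (hs : IsAffineMaximal Ω u) (hΩ : IsOpen Ω) (β p q r : ℝ) (hp : 0 < p)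
    (N₀ M₀ : ℕ) (hM₀ : M₀ ≠ 0) {c₃ C' : ℝ} (hc₃ : 0 < c₃) (hC' : 0 ≤ C') (hq : 0 ≤ q)
    (comb : ℝ → (Fin 3 → ℝ) → ℝ)
    (hcomb : ∀ S, 0 < S → IsCompact (subLevelC Ω (uBar u x₀) S) →
      Integrable (comb S) ∧ ∫ x, comb S x = 0)
    (hlow : ∀ S, 0 < S → ∀ x ∈ Ω, 0 < S - uBar u x₀ x →
      c₃ * ((hess u x).det ^ β * ((S - uBar u x₀ x) ^ N₀ * (S - uBar u x₀ x) ^ q * aT u x ^ p)) -
        C' * (S ^ r * ((hess u x).det ^ β * (S - uBar u x₀ x) ^ M₀)) ≤ comb S x)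
    (hzero : ∀ S, 0 < S → ∀ x, (x ∉ Ω ∨ S - uBar u x₀ x ≤ 0) → comb S x = 0)
    (hcpt : ∀ s, IsCompact (subLevelC Ω (uBar u x₀) s)) (hc : Convex ℝ Ω) (hx₀ : x₀ ∈ Ω)
    {S₀ S : ℝ} (hS : 0 < S) (hS₀ : 2 * S₀ ≤ S) :
    c₃ * ((S / 2) ^ N₀ * (S / 2) ^ q) *
        ∫ x in subLevel Ω (uBar u x₀) S₀, (hess u x).det ^ β * aT u x ^ p ≤
      C' * S ^ r * (S ^ M₀ * ∫ x in subLevel Ω (uBar u x₀) S, (hess u x).det ^ β) := by
  have hf : ContDiffOn ℝ ∞ (uBar u x₀) Ω := contDiffOn_uBar hs.smooth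
  have hρ : ContinuousOn (fun x => (hess u x).det ^ β) Ω :=
    (hs.contDiffOn_detpow hΩ _).continuousOn
  have hTc : ContinuousOn (aT u) Ω := (hs.contDiffOn_aT hΩ).continuousOn
  have hTp : ContinuousOn (fun x => aT u x ^ p) Ω :=
    hTc.rpow_const fun _ _ => Or.inr hp.le
  have hY : ContinuousOn (fun x => (hess u x).det ^ β * aT u x ^ p) Ω := hρ.mul hTp
  have hopen : ∀ s, MeasurableSet (subLevel Ω (uBar u x₀) s) := fun s =>
    (isOpen_subLevel hΩ hf s).measurableSet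
  have hρ0 : ∀ x ∈ Ω, 0 < (hess u x).det ^ β := fun x hx =>
    Real.rpow_pos_of_pos (hs.det_pos hx) _
  have hY0 : IntegrableOn (fun x => (hess u x).det ^ β * aT u x ^ p)
      (subLevel Ω (uBar u x₀) S₀) := integrableOn_subLevel hY (hcpt S₀)
  have hB := hs.integrable_massBg hΩ β M₀ hM₀ S (hcpt S)
  have hC := hcomb S hS (hcpt S)
  have hSpos : 0 < S / 2 := by positivity
  set κ₁ := c₃ * ((S / 2) ^ N₀ * (S / 2) ^ q) with hκ₁
  have hκ₁0 : 0 ≤ κ₁ := by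
    have : 0 < (S / 2) ^ q := Real.rpow_pos_of_pos hSpos _
    positivity
  have hSr : 0 ≤ S ^ r := Real.rpow_nonneg hS.le _
  have hInd : Integrable (Set.indicator (subLevel Ω (uBar u x₀) S₀)
      (fun x => κ₁ * ((hess u x).det ^ β * aT u x ^ p))) :=
    (integrable_indicator_iff (hopen S₀)).2 (hY0.const_mul _)
  have hle : ∫ x, (Set.indicator (subLevel Ω (uBar u x₀) S₀)
        (fun x => κ₁ * ((hess u x).det ^ β * aT u x ^ p)) x -
        (C' * S ^ r) * massBg Ω u x₀ β M₀ S x) ≤ ∫ x, comb S x := by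
    refine integral_mono (hInd.sub (hB.const_mul _)) hC.1 fun x => ?_
    show Set.indicator (subLevel Ω (uBar u x₀) S₀)
        (fun x => κ₁ * ((hess u x).det ^ β * aT u x ^ p)) x -
        (C' * S ^ r) * massBg Ω u x₀ β M₀ S x ≤ comb S x
    by_cases hx : x ∈ Ω
    · by_cases hη : 0 < S - uBar u x₀ x
      · have hlx := hlow S hS x hx hη
        have hmb : massBg Ω u x₀ β M₀ S x = (hess u x).det ^ β * (S - uBar u x₀ x) ^ M₀ := by
          simp only [massBg, Set.indicator_of_mem hx]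
          rw [powP_of_pos _ hη]
        rw [hmb]
        have hηq : 0 < (S - uBar u x₀ x) ^ q := Real.rpow_pos_of_pos hη _
        have hTp0 : 0 ≤ aT u x ^ p := Real.rpow_nonneg (hs.aT_nonneg hx) _
        have hmain : 0 ≤ (hess u x).det ^ β *
            ((S - uBar u x₀ x) ^ N₀ * (S - uBar u x₀ x) ^ q * aT u x ^ p) :=
          mul_nonneg (hρ0 x hx).le (mul_nonneg (by positivity) hTp0)
        by_cases hxS : x ∈ subLevel Ω (uBar u x₀) S₀
        · rw [Set.indicator_of_mem hxS]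
          have hη2 : S / 2 ≤ S - uBar u x₀ x := by
            have := hxS.2
            linarith
          have h1 : (S / 2) ^ N₀ ≤ (S - uBar u x₀ x) ^ N₀ := pow_le_pow_left₀ hSpos.le hη2 _
          have h2 : (S / 2) ^ q ≤ (S - uBar u x₀ x) ^ q := Real.rpow_le_rpow hSpos.le hη2 hq
          have h3 : (S / 2) ^ N₀ * (S / 2) ^ q ≤
              (S - uBar u x₀ x) ^ N₀ * (S - uBar u x₀ x) ^ q :=
            mul_le_mul h1 h2 (Real.rpow_nonneg hSpos.le _) (by positivity)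
          have h4 : κ₁ * ((hess u x).det ^ β * aT u x ^ p) ≤
              c₃ * ((hess u x).det ^ β *
                ((S - uBar u x₀ x) ^ N₀ * (S - uBar u x₀ x) ^ q * aT u x ^ p)) := by
            rw [hκ₁]
            have h5 := mul_le_mul_of_nonneg_right h3
              (mul_nonneg hc₃.le (mul_nonneg (hρ0 x hx).le hTp0))
            calc c₃ * ((S / 2) ^ N₀ * (S / 2) ^ q) * ((hess u x).det ^ β * aT u x ^ p)
                = (S / 2) ^ N₀ * (S / 2) ^ q * (c₃ * ((hess u x).det ^ β * aT u x ^ p)) := by ring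
              _ ≤ (S - uBar u x₀ x) ^ N₀ * (S - uBar u x₀ x) ^ q *
                  (c₃ * ((hess u x).det ^ β * aT u x ^ p)) := h5
              _ = _ := by ring
          calc κ₁ * ((hess u x).det ^ β * aT u x ^ p) -
                C' * S ^ r * ((hess u x).det ^ β * (S - uBar u x₀ x) ^ M₀)
              ≤ c₃ * ((hess u x).det ^ β *
                  ((S - uBar u x₀ x) ^ N₀ * (S - uBar u x₀ x) ^ q * aT u x ^ p)) -
                C' * (S ^ r * ((hess u x).det ^ β * (S - uBar u x₀ x) ^ M₀)) := by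
                rw [mul_assoc C']
                linarith
            _ ≤ comb S x := hlx
        · rw [Set.indicator_of_notMem hxS]
          have h4 := mul_nonneg hc₃.le hmain
          calc (0 : ℝ) - C' * S ^ r * ((hess u x).det ^ β * (S - uBar u x₀ x) ^ M₀)
              ≤ c₃ * ((hess u x).det ^ β *
                  ((S - uBar u x₀ x) ^ N₀ * (S - uBar u x₀ x) ^ q * aT u x ^ p)) -
                C' * (S ^ r * ((hess u x).det ^ β * (S - uBar u x₀ x) ^ M₀)) := by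
                rw [mul_assoc C']
                linarith
            _ ≤ comb S x := hlx
      · have hη' := not_lt.1 hη
        have hnot : x ∉ subLevel Ω (uBar u x₀) S₀ := by
          intro h
          have := h.2
          linarith
        rw [Set.indicator_of_notMem hnot, hzero S hS x (Or.inr hη')]
        simp only [massBg, Set.indicator_of_mem hx]
        rw [powP_eq_zero_of_nonpos hM₀ hη']
        simp
    · have hnot : x ∉ subLevel Ω (uBar u x₀) S₀ := fun h => hx h.1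
      rw [Set.indicator_of_notMem hnot, hzero S hS x (Or.inl hx)]
      simp [massBg, Set.indicator_of_notMem hx]
  rw [hC.2, integral_sub hInd (hB.const_mul _), integral_const_mul,
    integral_indicator (hopen S₀), integral_const_mul] at hle
  have h2 := hs.mass_upper_g hΩ β M₀ hM₀ hc hx₀ hcpt (S := S)
  have h3 := mul_le_mul_of_nonneg_left h2 (mul_nonneg hC' hSr)
  linarith

/-- The Liouville consequence of an integral estimate with a real power. -/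
theorem det_const_of_estimateR (hs : IsAffineMaximal Ω u) (hΩ : IsOpen Ω) (β p : ℝ) (hp : 0 < p)
    {C : ℝ} (hC : 0 < C)
    (hest : ∀ S₀ S : ℝ, 0 < S → 2 * S₀ ≤ S →
      ∫ x in subLevel Ω (uBar u x₀) S₀, (hess u x).det ^ β * aT u x ^ p ≤
        C / S ^ p * ∫ x in subLevel Ω (uBar u x₀) S, (hess u x).det ^ β)
    (hc : Convex ℝ Ω)
    (hcpt : ∀ s, IsCompact (subLevelC Ω (uBar u x₀) s))
    (hM : ∀ ε : ℝ, 0 < ε → ∀ S₁ : ℝ, ∃ S : ℝ, S₁ ≤ S ∧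
      ∫ x in subLevel Ω (uBar u x₀) S, (hess u x).det ^ β ≤ ε * S ^ p) {x y : Fin 3 → ℝ}
    (hx : x ∈ Ω) (hy : y ∈ Ω) : (hess u x).det = (hess u y).det := by
  have hf : ContDiffOn ℝ ∞ (uBar u x₀) Ω := contDiffOn_uBar hs.smooth
  have hρ : ContinuousOn (fun x => (hess u x).det ^ β) Ω :=
    (hs.contDiffOn_detpow hΩ _).continuousOn
  have hTp : ContinuousOn (fun x => aT u x ^ p) Ω :=
    (hs.contDiffOn_aT hΩ).continuousOn.rpow_const fun _ _ => Or.inr hp.le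
  have hY : ContinuousOn (fun x => (hess u x).det ^ β * aT u x ^ p) Ω := hρ.mul hTp
  have hρ0 : ∀ x ∈ Ω, 0 < (hess u x).det ^ β := fun x hx =>
    Real.rpow_pos_of_pos (hs.det_pos hx) _
  have hzero : ∀ S₀ : ℝ, ∫ x in subLevel Ω (uBar u x₀) S₀,
      (hess u x).det ^ β * aT u x ^ p = 0 := by
    intro S₀
    set I₀ := ∫ x in subLevel Ω (uBar u x₀) S₀, (hess u x).det ^ β * aT u x ^ p with hI₀
    have hI0 : 0 ≤ I₀ := by
      refine setIntegral_nonneg (isOpen_subLevel hΩ hf S₀).measurableSet fun z hz => ?_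
      exact mul_nonneg (hρ0 z hz.1).le (Real.rpow_nonneg (hs.aT_nonneg hz.1) _)
    by_contra hne
    have hIpos : 0 < I₀ := lt_of_le_of_ne hI0 (Ne.symm hne)
    obtain ⟨S, hS1, hS2⟩ := hM (I₀ / (2 * C)) (by positivity) (max 1 (2 * S₀))
    have hS : 0 < S := lt_of_lt_of_le one_pos ((le_max_left _ _).trans hS1)
    have hS₀ : 2 * S₀ ≤ S := (le_max_right _ _).trans hS1
    have h1 := hest S₀ S hS hS₀
    have hSp : 0 < S ^ p := Real.rpow_pos_of_pos hS _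
    have h2 : C / S ^ p * ∫ x in subLevel Ω (uBar u x₀) S, (hess u x).det ^ β ≤ I₀ / 2 := by
      rw [div_mul_eq_mul_div, div_le_iff₀ hSp]
      have h3 := mul_le_mul_of_nonneg_left hS2 hC.le
      refine h3.trans (le_of_eq ?_)
      field_simp
    linarith
  have hTzero : ∀ z ∈ Ω, aT u z = 0 := by
    intro z hz
    set S₀ := uBar u x₀ z + 1 with hS₀
    have hO := isOpen_subLevel hΩ hf S₀
    have hae : (fun x => (hess u x).det ^ β * aT u x ^ p) =ᵐ[volume.restrict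
        (subLevel Ω (uBar u x₀) S₀)] 0 := by
      refine (setIntegral_eq_zero_iff_of_nonneg_ae ?_ (integrableOn_subLevel hY (hcpt S₀))).1
        (hzero S₀)
      filter_upwards [ae_restrict_mem hO.measurableSet] with w hw
      exact mul_nonneg (hρ0 w hw.1).le (Real.rpow_nonneg (hs.aT_nonneg hw.1) _)
    have hon : Set.EqOn (fun x => (hess u x).det ^ β * aT u x ^ p) 0
        (subLevel Ω (uBar u x₀) S₀) :=
      Measure.eqOn_open_of_ae_eq hae hO (hY.mono fun _ hw => hw.1) continuousOn_const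
    have hzs : z ∈ subLevel Ω (uBar u x₀) S₀ := ⟨hz, by rw [hS₀]; linarith⟩
    have h := hon hzs
    simp only [Pi.zero_apply] at h
    have h' := (mul_eq_zero.1 h).resolve_left (hρ0 z hz).ne'
    exact (Real.rpow_eq_zero (hs.aT_nonneg hz) hp.ne').1 h'
  have hlog : logD u x = logD u y :=
    hΩ.is_const_of_fderiv_eq_zero (𝕜 := ℝ) hc.isPreconnected
      ((hs.contDiffOn_logD hΩ).differentiableOn (by simp))
      (fun z hz => fderiv_eq_zero_of_gr (hs.gr_logD_eq_zero hz (hTzero z hz))) hx hy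
  have h1 := Real.exp_log (hs.det_pos hx)
  have h2 := Real.exp_log (hs.det_pos hy)
  have h3 : Real.log (hess u x).det = Real.log (hess u y).det := hlog
  rw [← h1, ← h2, h3]

end IsAffineMaximal

end Vale.Agent.Lib.P252
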