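import Vale.Agent.Lib.P252.Hess1

/-!
The affine maximal equation in terms of `p = log det D²u`, raising of covector fields and
derivative rules.
-/

open scoped ContDiff Matrix
open MeasureTheory

namespace Vale.Agent.Lib.P252

variable {n : ℕ} {Ω : Set (Fin n → ℝ)} {u : (Fin n → ℝ) → ℝ}

/-- The exponent `c = (n+1)/(n+2)`. -/
noncomputable def cN (n : ℕ) : ℝ := ((n : ℝ) + 1) / ((n : ℝ) + 2)

/-- The raised vector field `a^i = u^{ij} a_j`. -/
noncomputable def ra (u : (Fin n → ℝ) → ℝ) (a : Fin n → (Fin n → ℝ) → ℝ) (i : Fin n)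
    (y : Fin n → ℝ) : ℝ := ∑ j, Ui u y i j * a j y

/-- The pairing `⟨a, b⟩ = a_i b^i`. -/
noncomputable def pa (u : (Fin n → ℝ) → ℝ) (a b : Fin n → (Fin n → ℝ) → ℝ)
    (y : Fin n → ℝ) : ℝ := ∑ i, a i y * ra u b i y

/-- The covector field `q_i = ∂_i p`. -/
noncomputable def qF (u : (Fin n → ℝ) → ℝ) : Fin n → (Fin n → ℝ) → ℝ := fun i => pd i (logD u)

/-- The covector field `X_i = ∂_i ū`. -/
noncomputable def XF (u : (Fin n → ℝ) → ℝ) (x₀ : Fin n → ℝ) : Fin n → (Fin n → ℝ) → ℝ :=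
  fun i => pd i (uBar u x₀)

/-- The divergence `u^{ij} ∂_i V_j`. -/
noncomputable def dv (u : (Fin n → ℝ) → ℝ) (V : Fin n → (Fin n → ℝ) → ℝ) (y : Fin n → ℝ) : ℝ :=
  ∑ i, ∑ j, Ui u y i j * pd i (V j) y

namespace IsAffineMaximal

variable (hs : IsAffineMaximal Ω u) (hΩ : IsOpen Ω)
include hs hΩ

/-- The equation written with `p`. -/
lemma eq_p {x : Fin n → ℝ} (hx : x ∈ Ω) :
    ∑ i, ∑ j, Ui u x i j * pd i (pd j (logD u)) x =
      cN n * ∑ i, ∑ j, Ui u x i j * (pd i (logD u) x * pd j (logD u) x) := by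
  classical
  have hn : (0 : ℝ) ≤ n := Nat.cast_nonneg n
  set r : ℝ := -((n : ℝ) + 1) / ((n : ℝ) + 2) with hr
  have hrc : r = - cN n := by
    simp only [hr, cN]
    ring
  have hr0 : r ≠ 0 := by
    rw [hr]
    have h1 : (n : ℝ) + 1 ≠ 0 := by linarith
    have h2 : (n : ℝ) + 2 ≠ 0 := by linarith
    exact div_ne_zero (neg_ne_zero.2 h1) h2
  have hp : ContDiffOn ℝ ∞ (logD u) Ω := hs.contDiffOn_logD hΩ
  have hW : ContDiffOn ℝ ∞ (weightW u) Ω := hs.contDiffOn_W hΩ
  -- first derivative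
  have h1 : ∀ y ∈ Ω, ∀ j, pd j (weightW u) y = weightW u y * (r * pd j (logD u) y) := by
    intro y hy j
    have hDy := hs.det_pos hy
    have hWe : ∀ z ∈ Ω, weightW u z = Real.exp (r * logD u z) := by
      intro z hz
      change (hess u z).det ^ r = _
      rw [Real.rpow_def_of_pos (hs.det_pos hz), mul_comm]
      rfl
    have e : weightW u =ᶠ[nhds y] fun z => Real.exp (r * logD u z) := by
      filter_upwards [hΩ.mem_nhds hy] with z hz using hWe z hz
    rw [pd_congr e]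
    have hd : DifferentiableAt ℝ (fun z => r * logD u z) y :=
      (differentiableAt_const r).mul (diffAt hΩ hp hy)
    rw [pd_comp (g := Real.exp) (g' := Real.exp (r * logD u y)) (f := fun z => r * logD u z)
      (Real.hasDerivAt_exp _) hd j, pd_const_mul r (diffAt hΩ hp hy)]
    rw [hWe y hy]
  -- second derivative
  have h2 : ∀ i j, pd i (pd j (weightW u)) x =
      weightW u x * (r * (r * (pd i (logD u) x * pd j (logD u) x) + pd i (pd j (logD u)) x)) := by
    intro i j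
    have e : pd i (pd j (weightW u)) x =
        pd i (fun y => weightW u y * (r * pd j (logD u) y)) x :=
      pd_congr_on hΩ hx (fun y hy => h1 y hy j) i
    rw [e, pd_mul (diffAt hΩ hW hx) (g := fun y => r * pd j (logD u) y)
      ((differentiableAt_const r).fun_mul (diffAt hΩ (contDiffOn_pd hΩ hp j) hx)),
      pd_const_mul r (diffAt hΩ (contDiffOn_pd hΩ hp j) hx), h1 x hx i]
    ring
  have h3 := hs.eqn x hx
  have h4 : ∀ i j, cofU u x i j = (hess u x).det * Ui u x i j := by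
    intro i j
    simp [cofU, Ui]
  simp only [h2, h4] at h3
  have h5 : ((hess u x).det * weightW u x * r) *
      (∑ i, ∑ j, Ui u x i j * (r * (pd i (logD u) x * pd j (logD u) x) +
        pd i (pd j (logD u)) x)) = 0 := by
    rw [← h3, Finset.mul_sum]
    refine Finset.sum_congr rfl fun i _ => ?_
    rw [Finset.mul_sum]
    refine Finset.sum_congr rfl fun j _ => ?_
    ring
  have h6 : ((hess u x).det * weightW u x * r) ≠ 0 :=
    mul_ne_zero (mul_ne_zero (hs.det_ne hx) (hs.W_pos hx).ne') hr0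
  have h7 := (mul_eq_zero.1 h5).resolve_left h6
  have h8 : ∑ i, ∑ j, Ui u x i j * (r * (pd i (logD u) x * pd j (logD u) x) +
        pd i (pd j (logD u)) x) =
      r * (∑ i, ∑ j, Ui u x i j * (pd i (logD u) x * pd j (logD u) x)) +
        ∑ i, ∑ j, Ui u x i j * pd i (pd j (logD u)) x := by
    rw [Finset.mul_sum, ← Finset.sum_add_distrib]
    refine Finset.sum_congr rfl fun i _ => ?_
    rw [Finset.mul_sum, ← Finset.sum_add_distrib]
    refine Finset.sum_congr rfl fun j _ => ?_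
    ring
  rw [h8] at h7
  rw [hrc] at h7
  linarith

lemma contDiffOn_ra {a : Fin n → (Fin n → ℝ) → ℝ} (ha : ∀ j, ContDiffOn ℝ ∞ (a j) Ω) (i : Fin n) :
    ContDiffOn ℝ ∞ (ra u a i) Ω := by
  unfold ra
  exact ContDiffOn.sum fun j _ => (hs.contDiffOn_Ui hΩ i j).mul (ha j)

lemma diffAt_ra {a : Fin n → (Fin n → ℝ) → ℝ} (ha : ∀ j, ContDiffOn ℝ ∞ (a j) Ω) (i : Fin n)
    {x : Fin n → ℝ} (hx : x ∈ Ω) : DifferentiableAt ℝ (ra u a i) x :=
  diffAt hΩ (hs.contDiffOn_ra hΩ ha i) hx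

/-- Derivative of a raised vector field. -/
lemma pd_ra {a : Fin n → (Fin n → ℝ) → ℝ} (ha : ∀ j, ContDiffOn ℝ ∞ (a j) Ω) {x : Fin n → ℝ}
    (hx : x ∈ Ω) (k i : Fin n) :
    pd k (ra u a i) x = ∑ j, Ui u x i j * pd k (a j) x -
      ∑ l, ∑ m, Ui u x i l * A3 u x l m k * ra u a m x := by
  classical
  unfold ra
  rw [pd_sum Finset.univ (f := fun j y => Ui u y i j * a j y)
    (fun j _ => (diffAt hΩ (hs.contDiffOn_Ui hΩ i j) hx).fun_mul (diffAt hΩ (ha j) hx))]
  have h1 : ∀ j, pd k (fun y => Ui u y i j * a j y) x =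
      Ui u x i j * pd k (a j) x + pd k (fun y => Ui u y i j) x * a j x := by
    intro j
    rw [pd_mul (diffAt hΩ (hs.contDiffOn_Ui hΩ i j) hx) (diffAt hΩ (ha j) hx)]
    ring
  simp only [h1, hs.pd_Ui hΩ hx]
  rw [Finset.sum_add_distrib, sub_eq_add_neg]
  congr 1
  simp only [neg_mul, Finset.sum_neg_distrib, neg_inj, Finset.sum_mul, Finset.mul_sum]
  calc ∑ j, ∑ l, ∑ m, Ui u x i l * A3 u x l m k * Ui u x m j * a j x
      = ∑ l, ∑ j, ∑ m, Ui u x i l * A3 u x l m k * Ui u x m j * a j x := Finset.sum_comm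
    _ = ∑ l, ∑ m, ∑ j, Ui u x i l * A3 u x l m k * Ui u x m j * a j x :=
        Finset.sum_congr rfl fun l _ => Finset.sum_comm
    _ = _ := by
        refine Finset.sum_congr rfl fun l _ => Finset.sum_congr rfl fun m _ =>
          Finset.sum_congr rfl fun j _ => ?_
        ring

omit hΩ in
/-- Symmetry of the pairing. -/
lemma pa_symm (a b : Fin n → (Fin n → ℝ) → ℝ) {x : Fin n → ℝ} (hx : x ∈ Ω) :
    pa u a b x = pa u b a x := by
  unfold pa ra
  simp only [Finset.mul_sum]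
  rw [Finset.sum_comm]
  refine Finset.sum_congr rfl fun i _ => Finset.sum_congr rfl fun j _ => ?_
  rw [hs.Ui_symm hx j i]
  ring

/-- Derivative of the pairing. -/
lemma pd_pa {a b : Fin n → (Fin n → ℝ) → ℝ} (ha : ∀ j, ContDiffOn ℝ ∞ (a j) Ω)
    (hb : ∀ j, ContDiffOn ℝ ∞ (b j) Ω) {x : Fin n → ℝ} (hx : x ∈ Ω) (k : Fin n) :
    pd k (pa u a b) x = ∑ i, pd k (a i) x * ra u b i x + ∑ j, ra u a j x * pd k (b j) x -
      ∑ l, ∑ m, A3 u x l m k * ra u a l x * ra u b m x := by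
  classical
  unfold pa
  rw [pd_sum Finset.univ (f := fun i y => a i y * ra u b i y)
    (fun i _ => (diffAt hΩ (ha i) hx).fun_mul (hs.diffAt_ra hΩ hb i hx))]
  have h1 : ∀ i, pd k (fun y => a i y * ra u b i y) x =
      pd k (a i) x * ra u b i x + a i x * pd k (ra u b i) x :=
    fun i => pd_mul (diffAt hΩ (ha i) hx) (hs.diffAt_ra hΩ hb i hx) k
  simp only [h1, hs.pd_ra hΩ hb hx]
  rw [Finset.sum_add_distrib, add_sub_assoc]
  congr 1
  have h2 : ∀ i, a i x * (∑ j, Ui u x i j * pd k (b j) x -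
      ∑ l, ∑ m, Ui u x i l * A3 u x l m k * ra u b m x) =
      ∑ j, a i x * Ui u x i j * pd k (b j) x -
        ∑ l, ∑ m, a i x * Ui u x i l * (A3 u x l m k * ra u b m x) := by
    intro i
    rw [mul_sub, Finset.mul_sum, Finset.mul_sum]
    congr 1
    · exact Finset.sum_congr rfl fun j _ => by ring
    · refine Finset.sum_congr rfl fun l _ => ?_
      rw [Finset.mul_sum]
      exact Finset.sum_congr rfl fun m _ => by ring
  simp only [h2]
  rw [Finset.sum_sub_distrib]
  have hra : ∀ j, ∑ i, a i x * Ui u x i j = ra u a j x := by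
    intro j
    unfold ra
    refine Finset.sum_congr rfl fun i _ => ?_
    rw [hs.Ui_symm hx j i]
    ring
  congr 1
  · rw [Finset.sum_comm]
    refine Finset.sum_congr rfl fun j _ => ?_
    rw [← Finset.sum_mul, hra]
  · rw [Finset.sum_comm]
    refine Finset.sum_congr rfl fun l _ => ?_
    rw [Finset.sum_comm]
    refine Finset.sum_congr rfl fun m _ => ?_
    rw [← Finset.sum_mul, hra]
    ring

end IsAffineMaximal

end Vale.Agent.Lib.P252
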