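import Vale.Agent.Lib.P252.Hess2

/-!
Contractions with the metric; divergence of `A(a,b)` and of `p(a)`.
-/

open scoped ContDiff Matrix
open MeasureTheory

namespace Vale.Agent.Lib.P252

variable {n : ℕ} {Ω : Set (Fin n → ℝ)} {u : (Fin n → ℝ) → ℝ}

/-- The covector field `u_{jkl} a^k b^l`. -/
noncomputable def Ah (u : (Fin n → ℝ) → ℝ) (a b : Fin n → (Fin n → ℝ) → ℝ) (j : Fin n)
    (y : Fin n → ℝ) : ℝ := ∑ k, ∑ l, A3 u y j k l * ra u a k y * ra u b l y

/-- The covector field `p_{jk} a^k`. -/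
noncomputable def ph (u : (Fin n → ℝ) → ℝ) (a : Fin n → (Fin n → ℝ) → ℝ) (j : Fin n)
    (y : Fin n → ℝ) : ℝ := ∑ k, pd j (pd k (logD u)) y * ra u a k y

/-- The matrix `u_{jkl} a^l`. -/
noncomputable def Ma (u : (Fin n → ℝ) → ℝ) (a : Fin n → (Fin n → ℝ) → ℝ) (x : Fin n → ℝ)
    (j k : Fin n) : ℝ := ∑ l, A3 u x j k l * ra u a l x

/-- The matrix `p_{jk}`. -/
noncomputable def Hp (u : (Fin n → ℝ) → ℝ) (x : Fin n → ℝ) (j k : Fin n) : ℝ :=
  pd j (pd k (logD u)) x

/-- The inner product `u^{ik} u^{jl} Z_{ij} W_{kl}`. -/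
noncomputable def IP (u : (Fin n → ℝ) → ℝ) (x : Fin n → ℝ) (Z W : Fin n → Fin n → ℝ) : ℝ :=
  ∑ i, ∑ j, ∑ k, ∑ l, Ui u x i k * Ui u x j l * Z i j * W k l

/-- The bilinear expression `Z_{kl} a^k b^l`. -/
noncomputable def Bl (u : (Fin n → ℝ) → ℝ) (a b : Fin n → (Fin n → ℝ) → ℝ) (x : Fin n → ℝ)
    (Z : Fin n → Fin n → ℝ) : ℝ := ∑ k, ∑ l, Z k l * ra u a k x * ra u b l x

lemma sum4_swap {f : Fin n → Fin n → Fin n → Fin n → ℝ} :
    ∑ i, ∑ j, ∑ k, ∑ l, f i j k l = ∑ k, ∑ l, ∑ i, ∑ j, f i j k l := by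
  calc ∑ i, ∑ j, ∑ k, ∑ l, f i j k l = ∑ i, ∑ k, ∑ j, ∑ l, f i j k l :=
        Finset.sum_congr rfl fun i _ => Finset.sum_comm
    _ = ∑ k, ∑ i, ∑ j, ∑ l, f i j k l := Finset.sum_comm
    _ = ∑ k, ∑ i, ∑ l, ∑ j, f i j k l :=
        Finset.sum_congr rfl fun k _ => Finset.sum_congr rfl fun i _ => Finset.sum_comm
    _ = ∑ k, ∑ l, ∑ i, ∑ j, f i j k l := Finset.sum_congr rfl fun k _ => Finset.sum_comm

lemma IP_sub_right (x : Fin n → ℝ) (Z W W' : Fin n → Fin n → ℝ) :
    IP u x Z (fun i j => W i j - W' i j) = IP u x Z W - IP u x Z W' := by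
  unfold IP
  simp only [mul_sub, Finset.sum_sub_distrib]

lemma IP_comm_of {x : Fin n → ℝ} (hU : ∀ i j, Ui u x i j = Ui u x j i) (Z W : Fin n → Fin n → ℝ) :
    IP u x Z W = IP u x W Z := by
  unfold IP
  rw [sum4_swap]
  refine Finset.sum_congr rfl fun k _ => Finset.sum_congr rfl fun l _ =>
    Finset.sum_congr rfl fun i _ => Finset.sum_congr rfl fun j _ => ?_
  rw [hU i k, hU j l]
  ring

lemma sum5_pull {f : Fin n → Fin n → Fin n → Fin n → Fin n → ℝ} :
    ∑ i, ∑ j, ∑ r, ∑ s, ∑ k, f i j r s k = ∑ k, ∑ i, ∑ j, ∑ r, ∑ s, f i j r s k := by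
  calc ∑ i, ∑ j, ∑ r, ∑ s, ∑ k, f i j r s k = ∑ i, ∑ j, ∑ r, ∑ k, ∑ s, f i j r s k :=
        Finset.sum_congr rfl fun i _ => Finset.sum_congr rfl fun j _ =>
          Finset.sum_congr rfl fun r _ => Finset.sum_comm
    _ = ∑ i, ∑ j, ∑ k, ∑ r, ∑ s, f i j r s k :=
        Finset.sum_congr rfl fun i _ => Finset.sum_congr rfl fun j _ => Finset.sum_comm
    _ = ∑ i, ∑ k, ∑ j, ∑ r, ∑ s, f i j r s k :=
        Finset.sum_congr rfl fun i _ => Finset.sum_comm
    _ = ∑ k, ∑ i, ∑ j, ∑ r, ∑ s, f i j r s k := Finset.sum_comm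

lemma IP_sum_left (x : Fin n → ℝ) (c : Fin n → ℝ) (Z : Fin n → Fin n → Fin n → ℝ)
    (W : Fin n → Fin n → ℝ) :
    IP u x (fun i j => ∑ k, Z k i j * c k) W = ∑ k, c k * IP u x (Z k) W := by
  unfold IP
  simp only [Finset.mul_sum, Finset.sum_mul]
  rw [sum5_pull]
  refine Finset.sum_congr rfl fun k _ => Finset.sum_congr rfl fun i _ =>
    Finset.sum_congr rfl fun j _ => Finset.sum_congr rfl fun r _ =>
    Finset.sum_congr rfl fun s _ => ?_
  ring

lemma IP_sum_right (x : Fin n → ℝ) (c : Fin n → ℝ) (Z : Fin n → Fin n → ℝ)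
    (W : Fin n → Fin n → Fin n → ℝ) :
    IP u x Z (fun i j => ∑ k, W k i j * c k) = ∑ k, c k * IP u x Z (W k) := by
  unfold IP
  simp only [Finset.mul_sum, Finset.sum_mul]
  rw [sum5_pull]
  refine Finset.sum_congr rfl fun k _ => Finset.sum_congr rfl fun i _ =>
    Finset.sum_congr rfl fun j _ => Finset.sum_congr rfl fun r _ =>
    Finset.sum_congr rfl fun s _ => ?_
  ring

namespace IsAffineMaximal

variable (hs : IsAffineMaximal Ω u) (hΩ : IsOpen Ω)
include hs hΩ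

lemma Ma_symm (a : Fin n → (Fin n → ℝ) → ℝ) {x : Fin n → ℝ} (hx : x ∈ Ω) (j k : Fin n) :
    Ma u a x j k = Ma u a x k j := by
  unfold Ma
  refine Finset.sum_congr rfl fun l _ => ?_
  rw [hs.A3_swap12 hΩ hx j k l]

/-- A rewriting of the derivative of a raised vector. -/
lemma pd_ra' {a : Fin n → (Fin n → ℝ) → ℝ} (ha : ∀ j, ContDiffOn ℝ ∞ (a j) Ω) {x : Fin n → ℝ}
    (hx : x ∈ Ω) (i k : Fin n) :
    pd i (ra u a k) x = ∑ m, Ui u x k m * (pd i (a m) x - Ma u a x i m) := by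
  rw [hs.pd_ra hΩ ha hx]
  simp only [mul_sub, Finset.sum_sub_distrib]
  congr 1
  refine Finset.sum_congr rfl fun m _ => ?_
  unfold Ma
  rw [Finset.mul_sum]
  refine Finset.sum_congr rfl fun l _ => ?_
  have : A3 u x m l i = A3 u x i m l := by
    rw [hs.A3_swap23 hΩ hx m l i, hs.A3_swap12 hΩ hx m i l]
  rw [this]
  ring

omit hΩ in
/-- A contraction formula for `IP`. -/
lemma IP_alt {x : Fin n → ℝ} (hx : x ∈ Ω) (M W : Fin n → Fin n → ℝ) :
    ∑ i, ∑ j, ∑ k, Ui u x i j * M j k * ∑ m, Ui u x k m * W i m = IP u x M W := by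
  unfold IP
  calc ∑ i, ∑ j, ∑ k, Ui u x i j * M j k * ∑ m, Ui u x k m * W i m
      = ∑ i, ∑ j, ∑ k, ∑ m, Ui u x j i * Ui u x k m * M j k * W i m := by
        refine Finset.sum_congr rfl fun i _ => Finset.sum_congr rfl fun j _ =>
          Finset.sum_congr rfl fun k _ => ?_
        rw [Finset.mul_sum]
        refine Finset.sum_congr rfl fun m _ => ?_
        rw [hs.Ui_symm hx i j]
        ring
    _ = ∑ j, ∑ i, ∑ k, ∑ m, Ui u x j i * Ui u x k m * M j k * W i m := Finset.sum_comm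
    _ = ∑ j, ∑ k, ∑ i, ∑ m, Ui u x j i * Ui u x k m * M j k * W i m :=
        Finset.sum_congr rfl fun j _ => Finset.sum_comm

/-- The contraction of a matrix with the derivative of a raised vector. -/
lemma contr_pd_ra {a : Fin n → (Fin n → ℝ) → ℝ} (ha : ∀ j, ContDiffOn ℝ ∞ (a j) Ω) {x : Fin n → ℝ}
    (hx : x ∈ Ω) (M : Fin n → Fin n → ℝ) :
    ∑ i, ∑ j, ∑ k, Ui u x i j * M j k * pd i (ra u a k) x =
      IP u x M (fun i m => pd i (a m) x) - IP u x M (Ma u a x) := by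
  simp only [hs.pd_ra' hΩ ha hx]
  rw [hs.IP_alt hx M (fun i m => pd i (a m) x - Ma u a x i m), IP_sub_right]

/-- Symmetry of fourth derivatives. -/
lemma A3_deriv_symm {x : Fin n → ℝ} (hx : x ∈ Ω) (i j k l : Fin n) :
    pd l (fun y => A3 u y i j k) x = pd i (fun y => A3 u y j k l) x := by
  have h1 : pd l (fun y => A3 u y i j k) x = pd l (fun y => A3 u y j k i) x := by
    apply pd_congr_on hΩ hx
    intro y hy
    rw [hs.A3_swap23 hΩ hy i j k, hs.A3_swap12 hΩ hy i k j, hs.A3_swap23 hΩ hy k i j,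
      hs.A3_swap12 hΩ hy k j i, hs.A3_swap23 hΩ hy j k i]
  rw [h1]
  exact pd_comm hΩ (contDiffOn_pd hΩ (contDiffOn_pd hΩ hs.smooth k) j) hx l i

/-- The trace of the fourth derivative tensor. -/
lemma trace_fourth {x : Fin n → ℝ} (hx : x ∈ Ω) (k l : Fin n) :
    ∑ i, ∑ j, Ui u x i j * pd i (fun y => A3 u y j k l) x =
      Hp u x l k + IP u x (fun i j => A3 u x i j k) (fun r s => A3 u x r s l) := by
  classical
  have h1 : Hp u x l k = pd l (fun y => ∑ i, ∑ j, Ui u y i j * A3 u y i j k) x := by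
    unfold Hp
    apply pd_congr_on hΩ hx
    intro y hy
    exact hs.pd_logD hΩ hy k
  have hdU : ∀ i j, DifferentiableAt ℝ (fun y => Ui u y i j) x :=
    fun i j => diffAt hΩ (hs.contDiffOn_Ui hΩ i j) hx
  have hdA : ∀ i j, DifferentiableAt ℝ (fun y => A3 u y i j k) x :=
    fun i j => diffAt hΩ (hs.contDiffOn_A3 hΩ i j k) hx
  have hdUA : ∀ i j, DifferentiableAt ℝ (fun y => Ui u y i j * A3 u y i j k) x :=
    fun i j => (hdU i j).fun_mul (hdA i j)
  have h2 : pd l (fun y => ∑ i, ∑ j, Ui u y i j * A3 u y i j k) x =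
      ∑ i, ∑ j, (pd l (fun y => Ui u y i j) x * A3 u x i j k +
        Ui u x i j * pd l (fun y => A3 u y i j k) x) := by
    rw [pd_sum Finset.univ (f := fun i y => ∑ j, Ui u y i j * A3 u y i j k)
      (fun i _ => DifferentiableAt.fun_sum fun j _ => hdUA i j)]
    refine Finset.sum_congr rfl fun i _ => ?_
    rw [pd_sum Finset.univ (f := fun j y => Ui u y i j * A3 u y i j k)
      (fun j _ => hdUA i j)]
    exact Finset.sum_congr rfl fun j _ => pd_mul (hdU i j) (hdA i j) l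
  have h3 : ∑ i, ∑ j, pd l (fun y => Ui u y i j) x * A3 u x i j k =
      - IP u x (fun i j => A3 u x i j k) (fun r s => A3 u x r s l) := by
    have e : ∀ i j, pd l (fun y => Ui u y i j) x * A3 u x i j k =
        - ∑ r, ∑ s, Ui u x i r * Ui u x j s * A3 u x i j k * A3 u x r s l := by
      intro i j
      rw [hs.pd_Ui hΩ hx, neg_mul, Finset.sum_mul]
      refine neg_inj.2 (Finset.sum_congr rfl fun r _ => ?_)
      rw [Finset.sum_mul]
      refine Finset.sum_congr rfl fun s _ => ?_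
      rw [hs.Ui_symm hx s j]
      ring
    simp only [e, Finset.sum_neg_distrib]
    rfl
  have h4 : ∑ i, ∑ j, Ui u x i j * pd l (fun y => A3 u y i j k) x =
      ∑ i, ∑ j, Ui u x i j * pd i (fun y => A3 u y j k l) x := by
    refine Finset.sum_congr rfl fun i _ => Finset.sum_congr rfl fun j _ => ?_
    rw [hs.A3_deriv_symm hΩ hx i j k l]
  rw [h1, h2]
  simp only [Finset.sum_add_distrib]
  rw [h3, h4]
  ring

/-- Differentiation of `Ah`. -/
lemma pd_Ah {a b : Fin n → (Fin n → ℝ) → ℝ} (ha : ∀ j, ContDiffOn ℝ ∞ (a j) Ω)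
    (hb : ∀ j, ContDiffOn ℝ ∞ (b j) Ω) {x : Fin n → ℝ} (hx : x ∈ Ω) (i j : Fin n) :
    pd i (Ah u a b j) x = ∑ k, ∑ l, (pd i (fun y => A3 u y j k l) x * ra u a k x * ra u b l x +
      A3 u x j k l * pd i (ra u a k) x * ra u b l x +
      A3 u x j k l * ra u a k x * pd i (ra u b l) x) := by
  classical
  have hdA := fun j k l => diffAt hΩ (hs.contDiffOn_A3 hΩ j k l) hx
  have hda := fun k => hs.diffAt_ra hΩ ha k hx
  have hdb := fun l => hs.diffAt_ra hΩ hb l hx
  unfold Ah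
  rw [pd_sum Finset.univ (f := fun k y => ∑ l, A3 u y j k l * ra u a k y * ra u b l y)
    (fun k _ => DifferentiableAt.fun_sum fun l _ =>
      ((hdA j k l).fun_mul (hda k)).fun_mul (hdb l))]
  refine Finset.sum_congr rfl fun k _ => ?_
  rw [pd_sum Finset.univ (f := fun l y => A3 u y j k l * ra u a k y * ra u b l y)
    (fun l _ => ((hdA j k l).fun_mul (hda k)).fun_mul (hdb l))]
  refine Finset.sum_congr rfl fun l _ => ?_
  rw [pd_mul ((hdA j k l).fun_mul (hda k)) (hdb l), pd_mul (hdA j k l) (hda k)]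
  ring

/-- The divergence of `A(a,b)`. -/
lemma dv_Ah {a b : Fin n → (Fin n → ℝ) → ℝ} (ha : ∀ j, ContDiffOn ℝ ∞ (a j) Ω)
    (hb : ∀ j, ContDiffOn ℝ ∞ (b j) Ω) {x : Fin n → ℝ} (hx : x ∈ Ω) :
    dv u (Ah u a b) x = Bl u a b x (Hp u x) - IP u x (Ma u a x) (Ma u b x) +
      IP u x (Ma u b x) (fun i m => pd i (a m) x) + IP u x (Ma u a x) (fun i m => pd i (b m) x) := by
  classical
  unfold dv
  simp only [hs.pd_Ah hΩ ha hb hx]
  -- split into three sums
  have hsplit : ∀ i j, Ui u x i j * ∑ k, ∑ l, (pd i (fun y => A3 u y j k l) x * ra u a k x * ra u b l x +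
      A3 u x j k l * pd i (ra u a k) x * ra u b l x +
      A3 u x j k l * ra u a k x * pd i (ra u b l) x) =
      ∑ k, ∑ l, Ui u x i j * pd i (fun y => A3 u y j k l) x * (ra u a k x * ra u b l x) +
      ∑ k, Ui u x i j * Ma u b x j k * pd i (ra u a k) x +
      ∑ l, Ui u x i j * Ma u a x j l * pd i (ra u b l) x := by
    intro i j
    have e2 : ∀ k, Ui u x i j * Ma u b x j k * pd i (ra u a k) x =
        ∑ l, Ui u x i j * (A3 u x j k l * pd i (ra u a k) x * ra u b l x) := by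
      intro k
      unfold Ma
      rw [Finset.mul_sum, Finset.sum_mul]
      exact Finset.sum_congr rfl fun l _ => by ring
    have e3 : ∀ l, Ui u x i j * Ma u a x j l * pd i (ra u b l) x =
        ∑ k, Ui u x i j * (A3 u x j k l * ra u a k x * pd i (ra u b l) x) := by
      intro l
      unfold Ma
      rw [Finset.mul_sum, Finset.sum_mul]
      refine Finset.sum_congr rfl fun k _ => ?_
      rw [hs.A3_swap23 hΩ hx j l k]
      ring
    simp only [e2, e3]
    rw [Finset.sum_comm (f := fun l k => Ui u x i j * (A3 u x j k l * ra u a k x * pd i (ra u b l) x))]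
    rw [Finset.mul_sum]
    rw [← Finset.sum_add_distrib, ← Finset.sum_add_distrib]
    refine Finset.sum_congr rfl fun k _ => ?_
    rw [Finset.mul_sum, ← Finset.sum_add_distrib, ← Finset.sum_add_distrib]
    refine Finset.sum_congr rfl fun l _ => ?_
    ring
  rw [Finset.sum_congr rfl (fun i _ => Finset.sum_congr rfl (fun j _ => hsplit i j))]
  simp only [Finset.sum_add_distrib]
  rw [hs.contr_pd_ra hΩ ha hx (Ma u b x), hs.contr_pd_ra hΩ hb hx (Ma u a x)]
  have hfirst : ∑ i, ∑ j, ∑ k, ∑ l, Ui u x i j * pd i (fun y => A3 u y j k l) x *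
      (ra u a k x * ra u b l x) =
      Bl u a b x (Hp u x) + IP u x (Ma u a x) (Ma u b x) := by
    rw [sum4_swap]
    have h1 : ∀ k l, ∑ i, ∑ j, Ui u x i j * pd i (fun y => A3 u y j k l) x *
        (ra u a k x * ra u b l x) =
        (Hp u x l k + IP u x (fun i j => A3 u x i j k) (fun r s => A3 u x r s l)) *
          (ra u a k x * ra u b l x) := by
      intro k l
      rw [← hs.trace_fourth hΩ hx k l, Finset.sum_mul]
      refine Finset.sum_congr rfl fun i _ => ?_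
      rw [Finset.sum_mul]
    simp only [h1, add_mul, Finset.sum_add_distrib]
    congr 1
    · unfold Bl
      refine Finset.sum_congr rfl fun k _ => Finset.sum_congr rfl fun l _ => ?_
      have : Hp u x l k = Hp u x k l := by
        unfold Hp
        exact pd_comm hΩ (hs.contDiffOn_logD hΩ) hx l k
      rw [this]
      ring
    · have e1 : Ma u a x = fun i j => ∑ k, (fun k i j => A3 u x i j k) k i j * ra u a k x := rfl
      have e2 : Ma u b x = fun r s => ∑ l, (fun l r s => A3 u x r s l) l r s * ra u b l x := rfl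
      rw [e1, IP_sum_left, e2]
      refine Finset.sum_congr rfl fun k _ => ?_
      rw [IP_sum_right, Finset.mul_sum]
      refine Finset.sum_congr rfl fun l _ => ?_
      ring
  rw [hfirst, IP_comm_of (fun i j => hs.Ui_symm hx i j) (Ma u b x) (Ma u a x)]
  ring

end IsAffineMaximal

end Vale.Agent.Lib.P252
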