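import Vale.Agent.Lib.P252.Hess3

/-!
Divergence of `p(a)`, of scalar multiples, and the gradients of `T`, `H`, `G`.
-/

open scoped ContDiff Matrix
open MeasureTheory

namespace Vale.Agent.Lib.P252

variable {n : ℕ} {Ω : Set (Fin n → ℝ)} {u : (Fin n → ℝ) → ℝ} {x₀ : Fin n → ℝ}

lemma pa_qq_eq (y : Fin n → ℝ) :
    pa u (qF u) (qF u) y = ∑ i, ∑ j, Ui u y i j * (pd i (logD u) y * pd j (logD u) y) := by
  unfold pa ra qF
  refine Finset.sum_congr rfl fun i _ => ?_
  rw [Finset.mul_sum]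
  exact Finset.sum_congr rfl fun j _ => by ring

namespace IsAffineMaximal

variable (hs : IsAffineMaximal Ω u) (hΩ : IsOpen Ω)
include hs hΩ

lemma contDiffOn_qF (j : Fin n) : ContDiffOn ℝ ∞ (qF u j) Ω :=
  contDiffOn_pd hΩ (hs.contDiffOn_logD hΩ) j

omit hΩ in
lemma contDiffOn_uBar' : ContDiffOn ℝ ∞ (uBar u x₀) Ω := contDiffOn_uBar hs.smooth

lemma contDiffOn_XF (j : Fin n) : ContDiffOn ℝ ∞ (XF u x₀ j) Ω :=
  contDiffOn_pd hΩ hs.contDiffOn_uBar' j

lemma contDiffOn_Hp (j k : Fin n) :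
    ContDiffOn ℝ ∞ (fun y => pd j (pd k (logD u)) y) Ω :=
  contDiffOn_pd2 hΩ (hs.contDiffOn_logD hΩ) j k

lemma contDiffOn_pa {a b : Fin n → (Fin n → ℝ) → ℝ} (ha : ∀ j, ContDiffOn ℝ ∞ (a j) Ω)
    (hb : ∀ j, ContDiffOn ℝ ∞ (b j) Ω) : ContDiffOn ℝ ∞ (pa u a b) Ω := by
  unfold pa
  exact ContDiffOn.sum fun i _ => (ha i).mul (hs.contDiffOn_ra hΩ hb i)

lemma contDiffOn_Ah {a b : Fin n → (Fin n → ℝ) → ℝ} (ha : ∀ j, ContDiffOn ℝ ∞ (a j) Ω)
    (hb : ∀ j, ContDiffOn ℝ ∞ (b j) Ω) (j : Fin n) : ContDiffOn ℝ ∞ (Ah u a b j) Ω := by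
  unfold Ah
  exact ContDiffOn.sum fun k _ => ContDiffOn.sum fun l _ =>
    ((hs.contDiffOn_A3 hΩ j k l).mul (hs.contDiffOn_ra hΩ ha k)).mul (hs.contDiffOn_ra hΩ hb l)

lemma contDiffOn_ph {a : Fin n → (Fin n → ℝ) → ℝ} (ha : ∀ j, ContDiffOn ℝ ∞ (a j) Ω) (j : Fin n) :
    ContDiffOn ℝ ∞ (ph u a j) Ω := by
  unfold ph
  exact ContDiffOn.sum fun k _ => (hs.contDiffOn_Hp hΩ j k).mul (hs.contDiffOn_ra hΩ ha k)

lemma Hp_symm {x : Fin n → ℝ} (hx : x ∈ Ω) (j k : Fin n) : Hp u x j k = Hp u x k j :=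
  pd_comm hΩ (hs.contDiffOn_logD hΩ) hx j k

/-- The equation in the form `tr p = c T`. -/
lemma trace_Hp {x : Fin n → ℝ} (hx : x ∈ Ω) :
    ∑ i, ∑ j, Ui u x i j * Hp u x i j = cN n * pa u (qF u) (qF u) x := by
  rw [pa_qq_eq]
  exact hs.eq_p hΩ hx

/-- Differentiated equation. -/
lemma trace_dHp {x : Fin n → ℝ} (hx : x ∈ Ω) (k : Fin n) :
    ∑ i, ∑ j, Ui u x i j * pd k (fun y => pd i (pd j (logD u)) y) x =
      cN n * pd k (pa u (qF u) (qF u)) x + IP u x (Hp u x) (fun r s => A3 u x r s k) := by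
  classical
  have hpqq : ContDiffOn ℝ ∞ (pa u (qF u) (qF u)) Ω :=
    hs.contDiffOn_pa hΩ (hs.contDiffOn_qF hΩ) (hs.contDiffOn_qF hΩ)
  have hdU : ∀ i j, DifferentiableAt ℝ (fun y => Ui u y i j) x :=
    fun i j => diffAt hΩ (hs.contDiffOn_Ui hΩ i j) hx
  have hdH : ∀ i j, DifferentiableAt ℝ (fun y => pd i (pd j (logD u)) y) x :=
    fun i j => diffAt hΩ (hs.contDiffOn_Hp hΩ i j) hx
  have hdUH : ∀ i j, DifferentiableAt ℝ (fun y => Ui u y i j * pd i (pd j (logD u)) y) x :=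
    fun i j => (hdU i j).fun_mul (hdH i j)
  have h1 : pd k (fun y => ∑ i, ∑ j, Ui u y i j * pd i (pd j (logD u)) y) x =
      cN n * pd k (pa u (qF u) (qF u)) x := by
    have e : pd k (fun y => ∑ i, ∑ j, Ui u y i j * pd i (pd j (logD u)) y) x =
        pd k (fun y => cN n * pa u (qF u) (qF u) y) x :=
      pd_congr_on hΩ hx (fun y hy => hs.trace_Hp hΩ hy) k
    rw [e, pd_const_mul _ (diffAt hΩ hpqq hx)]
  have h2 : pd k (fun y => ∑ i, ∑ j, Ui u y i j * pd i (pd j (logD u)) y) x =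
      ∑ i, ∑ j, (pd k (fun y => Ui u y i j) x * Hp u x i j +
        Ui u x i j * pd k (fun y => pd i (pd j (logD u)) y) x) := by
    rw [pd_sum Finset.univ (f := fun i y => ∑ j, Ui u y i j * pd i (pd j (logD u)) y)
      (fun i _ => DifferentiableAt.fun_sum fun j _ => hdUH i j)]
    refine Finset.sum_congr rfl fun i _ => ?_
    rw [pd_sum Finset.univ (f := fun j y => Ui u y i j * pd i (pd j (logD u)) y)
      (fun j _ => hdUH i j)]
    exact Finset.sum_congr rfl fun j _ => pd_mul (hdU i j) (hdH i j) k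
  have h3 : ∑ i, ∑ j, pd k (fun y => Ui u y i j) x * Hp u x i j =
      - IP u x (Hp u x) (fun r s => A3 u x r s k) := by
    have e : ∀ i j, pd k (fun y => Ui u y i j) x * Hp u x i j =
        - ∑ r, ∑ s, Ui u x i r * Ui u x j s * Hp u x i j * A3 u x r s k := by
      intro i j
      rw [hs.pd_Ui hΩ hx, neg_mul, Finset.sum_mul]
      refine neg_inj.2 (Finset.sum_congr rfl fun r _ => ?_)
      rw [Finset.sum_mul]
      refine Finset.sum_congr rfl fun s _ => ?_
      rw [hs.Ui_symm hx s j]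
      ring
    simp only [e, Finset.sum_neg_distrib]
    rfl
  rw [h2] at h1
  simp only [Finset.sum_add_distrib] at h1
  rw [h3] at h1
  linarith

/-- Divergence of `p(a)`. -/
lemma dv_ph {a : Fin n → (Fin n → ℝ) → ℝ} (ha : ∀ j, ContDiffOn ℝ ∞ (a j) Ω) {x : Fin n → ℝ}
    (hx : x ∈ Ω) :
    dv u (ph u a) x = cN n * (∑ k, pd k (pa u (qF u) (qF u)) x * ra u a k x) +
      IP u x (Hp u x) (fun i m => pd i (a m) x) := by
  classical
  have hdH : ∀ j k, DifferentiableAt ℝ (fun y => pd j (pd k (logD u)) y) x :=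
    fun j k => diffAt hΩ (hs.contDiffOn_Hp hΩ j k) hx
  have hda := fun k => hs.diffAt_ra hΩ ha k hx
  have h1 : ∀ i j, pd i (ph u a j) x = ∑ k, (pd i (fun y => pd j (pd k (logD u)) y) x * ra u a k x +
      Hp u x j k * pd i (ra u a k) x) := by
    intro i j
    unfold ph
    rw [pd_sum Finset.univ (f := fun k y => pd j (pd k (logD u)) y * ra u a k y)
      (fun k _ => (hdH j k).fun_mul (hda k))]
    exact Finset.sum_congr rfl fun k _ => pd_mul (hdH j k) (hda k) i
  have h5 : dv u (ph u a) x =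
      ∑ i, ∑ j, ∑ k, Ui u x i j * (pd i (fun y => pd j (pd k (logD u)) y) x * ra u a k x) +
      ∑ i, ∑ j, ∑ k, Ui u x i j * (Hp u x j k * pd i (ra u a k) x) := by
    unfold dv
    simp only [h1, Finset.mul_sum, mul_add, Finset.sum_add_distrib]
  have h2 : ∑ i, ∑ j, ∑ k, Ui u x i j * (Hp u x j k * pd i (ra u a k) x) =
      IP u x (Hp u x) (fun i m => pd i (a m) x) - IP u x (Hp u x) (Ma u a x) := by
    rw [← hs.contr_pd_ra hΩ ha hx (Hp u x)]
    refine Finset.sum_congr rfl fun i _ => Finset.sum_congr rfl fun j _ =>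
      Finset.sum_congr rfl fun k _ => ?_
    ring
  have h3 : ∀ i j k, pd i (fun y => pd j (pd k (logD u)) y) x =
      pd k (fun y => pd i (pd j (logD u)) y) x := by
    intro i j k
    have e : pd i (fun y => pd j (pd k (logD u)) y) x = pd i (fun y => pd k (pd j (logD u)) y) x :=
      pd_congr_on hΩ hx (fun y hy => pd_comm hΩ (hs.contDiffOn_logD hΩ) hy j k) i
    rw [e]
    exact pd_comm hΩ (contDiffOn_pd hΩ (hs.contDiffOn_logD hΩ) j) hx i k
  have h4 : ∑ i, ∑ j, ∑ k, Ui u x i j * (pd i (fun y => pd j (pd k (logD u)) y) x * ra u a k x) =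
      cN n * (∑ k, pd k (pa u (qF u) (qF u)) x * ra u a k x) + IP u x (Hp u x) (Ma u a x) := by
    have e1 : ∑ i, ∑ j, ∑ k, Ui u x i j * (pd i (fun y => pd j (pd k (logD u)) y) x * ra u a k x) =
        ∑ k, (∑ i, ∑ j, Ui u x i j * pd k (fun y => pd i (pd j (logD u)) y) x) * ra u a k x := by
      calc ∑ i, ∑ j, ∑ k, Ui u x i j * (pd i (fun y => pd j (pd k (logD u)) y) x * ra u a k x)
          = ∑ i, ∑ k, ∑ j, Ui u x i j * (pd i (fun y => pd j (pd k (logD u)) y) x * ra u a k x) :=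
            Finset.sum_congr rfl fun i _ => Finset.sum_comm
        _ = ∑ k, ∑ i, ∑ j, Ui u x i j * (pd i (fun y => pd j (pd k (logD u)) y) x * ra u a k x) :=
            Finset.sum_comm
        _ = _ := by
            refine Finset.sum_congr rfl fun k _ => ?_
            rw [Finset.sum_mul]
            refine Finset.sum_congr rfl fun i _ => ?_
            rw [Finset.sum_mul]
            refine Finset.sum_congr rfl fun j _ => ?_
            rw [h3]
            ring
    rw [e1]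
    simp only [hs.trace_dHp hΩ hx, add_mul, Finset.sum_add_distrib, mul_assoc, ← Finset.mul_sum]
    congr 1
    have e2 : Ma u a x = fun i j => ∑ k, (fun k r s => A3 u x r s k) k i j * ra u a k x := rfl
    rw [e2, IP_sum_right]
    exact Finset.sum_congr rfl fun k _ => mul_comm _ _
  rw [h5, h4, h2]
  ring

omit hΩ in
/-- Leibniz rule for `dv`. -/
lemma dv_smul_aux {f : (Fin n → ℝ) → ℝ} {V : Fin n → (Fin n → ℝ) → ℝ} {x : Fin n → ℝ}
    (hf : DifferentiableAt ℝ f x) (hV : ∀ j, DifferentiableAt ℝ (V j) x) :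
    dv u (fun j y => f y * V j y) x = ∑ k, pd k f x * ra u V k x + f x * dv u V x := by
  unfold dv ra
  have h1 : ∀ i j, pd i (fun y => f y * V j y) x = pd i f x * V j x + f x * pd i (V j) x :=
    fun i j => pd_mul hf (hV j) i
  simp only [h1, mul_add, Finset.sum_add_distrib, Finset.mul_sum]
  congr 1
  · refine Finset.sum_congr rfl fun i _ => Finset.sum_congr rfl fun j _ => ?_
    ring
  · refine Finset.sum_congr rfl fun i _ => Finset.sum_congr rfl fun j _ => ?_
    ring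

/-- Gradient of the pairing contracted with a vector. -/
lemma grad_pa_contract {a b : Fin n → (Fin n → ℝ) → ℝ} (ha : ∀ j, ContDiffOn ℝ ∞ (a j) Ω)
    (hb : ∀ j, ContDiffOn ℝ ∞ (b j) Ω) (c : Fin n → (Fin n → ℝ) → ℝ) {x : Fin n → ℝ} (hx : x ∈ Ω) :
    ∑ k, pd k (pa u a b) x * ra u c k x =
      (∑ k, ∑ i, pd k (a i) x * ra u c k x * ra u b i x) +
      (∑ k, ∑ j, ra u c k x * ra u a j x * pd k (b j) x) -
      Bl u a b x (Ma u c x) := by
  simp only [hs.pd_pa hΩ ha hb hx, add_sub_assoc, add_mul, sub_mul]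
  simp only [Finset.sum_add_distrib, Finset.sum_sub_distrib, Finset.sum_mul]
  congr 1
  · refine Finset.sum_congr rfl fun k _ => Finset.sum_congr rfl fun i _ => ?_
    ring
  congr 1
  · refine Finset.sum_congr rfl fun k _ => Finset.sum_congr rfl fun i _ => ?_
    ring
  · unfold Bl Ma
    simp only [Finset.sum_mul]
    calc ∑ k, ∑ l, ∑ m, A3 u x l m k * ra u a l x * ra u b m x * ra u c k x
        = ∑ l, ∑ k, ∑ m, A3 u x l m k * ra u a l x * ra u b m x * ra u c k x := Finset.sum_comm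
      _ = ∑ l, ∑ m, ∑ k, A3 u x l m k * ra u a l x * ra u b m x * ra u c k x :=
          Finset.sum_congr rfl fun l _ => Finset.sum_comm
      _ = _ := by
          refine Finset.sum_congr rfl fun l _ => Finset.sum_congr rfl fun m _ =>
            Finset.sum_congr rfl fun k _ => ?_
          ring

end IsAffineMaximal

end Vale.Agent.Lib.P252
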