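import Vale.Agent.Lib.P252.Hess4

/-!
The table of divergences of the eleven vector fields.
-/

open scoped ContDiff Matrix
open MeasureTheory

namespace Vale.Agent.Lib.P252

variable {n : ℕ} {Ω : Set (Fin n → ℝ)} {u : (Fin n → ℝ) → ℝ} {x₀ : Fin n → ℝ}

/-- `T = |q|²`. -/
noncomputable def aT (u : (Fin n → ℝ) → ℝ) (x : Fin n → ℝ) : ℝ := pa u (qF u) (qF u) x
/-- `H = ⟨q, X⟩`. -/
noncomputable def aH (u : (Fin n → ℝ) → ℝ) (x₀ x : Fin n → ℝ) : ℝ := pa u (qF u) (XF u x₀) x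
/-- `G = |X|²`. -/
noncomputable def aG (u : (Fin n → ℝ) → ℝ) (x₀ x : Fin n → ℝ) : ℝ := pa u (XF u x₀) (XF u x₀) x
/-- `p(q,q)`. -/
noncomputable def apqq (u : (Fin n → ℝ) → ℝ) (x : Fin n → ℝ) : ℝ := Bl u (qF u) (qF u) x (Hp u x)
/-- `p(q,X)`. -/
noncomputable def apqx (u : (Fin n → ℝ) → ℝ) (x₀ x : Fin n → ℝ) : ℝ :=
  Bl u (qF u) (XF u x₀) x (Hp u x)
/-- `p(X,X)`. -/
noncomputable def apxx (u : (Fin n → ℝ) → ℝ) (x₀ x : Fin n → ℝ) : ℝ :=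
  Bl u (XF u x₀) (XF u x₀) x (Hp u x)
/-- `A(q,q,q)`. -/
noncomputable def aAqqq (u : (Fin n → ℝ) → ℝ) (x : Fin n → ℝ) : ℝ :=
  Bl u (qF u) (qF u) x (Ma u (qF u) x)
/-- `A(q,q,X)`. -/
noncomputable def aAqqx (u : (Fin n → ℝ) → ℝ) (x₀ x : Fin n → ℝ) : ℝ :=
  Bl u (qF u) (qF u) x (Ma u (XF u x₀) x)
/-- `A(q,X,X)`. -/
noncomputable def aAqxx (u : (Fin n → ℝ) → ℝ) (x₀ x : Fin n → ℝ) : ℝ :=
  Bl u (XF u x₀) (XF u x₀) x (Ma u (qF u) x)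
/-- `A(X,X,X)`. -/
noncomputable def aAxxx (u : (Fin n → ℝ) → ℝ) (x₀ x : Fin n → ℝ) : ℝ :=
  Bl u (XF u x₀) (XF u x₀) x (Ma u (XF u x₀) x)
/-- `⟨p,p⟩`. -/
noncomputable def aHH (u : (Fin n → ℝ) → ℝ) (x : Fin n → ℝ) : ℝ := IP u x (Hp u x) (Hp u x)
/-- `⟨p,A(q)⟩`. -/
noncomputable def aHM (u : (Fin n → ℝ) → ℝ) (x : Fin n → ℝ) : ℝ := IP u x (Hp u x) (Ma u (qF u) x)
/-- `⟨p,A(X)⟩`. -/
noncomputable def aHN (u : (Fin n → ℝ) → ℝ) (x₀ x : Fin n → ℝ) : ℝ :=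
  IP u x (Hp u x) (Ma u (XF u x₀) x)
/-- `⟨A(q),A(q)⟩`. -/
noncomputable def aMM (u : (Fin n → ℝ) → ℝ) (x : Fin n → ℝ) : ℝ :=
  IP u x (Ma u (qF u) x) (Ma u (qF u) x)
/-- `⟨A(q),A(X)⟩`. -/
noncomputable def aMN (u : (Fin n → ℝ) → ℝ) (x₀ x : Fin n → ℝ) : ℝ :=
  IP u x (Ma u (qF u) x) (Ma u (XF u x₀) x)
/-- `⟨A(X),A(X)⟩`. -/
noncomputable def aNN (u : (Fin n → ℝ) → ℝ) (x₀ x : Fin n → ℝ) : ℝ :=
  IP u x (Ma u (XF u x₀) x) (Ma u (XF u x₀) x)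

namespace IsAffineMaximal

variable (hs : IsAffineMaximal Ω u) (hΩ : IsOpen Ω)
include hs hΩ

omit hs hΩ in
lemma da_q (x : Fin n → ℝ) : (fun i m => pd i (qF u m) x) = Hp u x := rfl

lemma da_X {x : Fin n → ℝ} (hx : x ∈ Ω) : (fun i m => pd i (XF u x₀ m) x) = hess u x := by
  funext i m
  exact pd2_uBar hΩ hs.smooth hx i m

omit hΩ in
/-- Contracting the metric with two raised vectors. -/
lemma Bl_hess (a b : Fin n → (Fin n → ℝ) → ℝ) {x : Fin n → ℝ} (hx : x ∈ Ω) :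
    Bl u a b x (hess u x) = pa u a b x := by
  classical
  unfold Bl pa
  have h1 : ∀ l, ∑ k, hess u x k l * ra u a k x = a l x := by
    intro l
    unfold ra
    simp only [Finset.mul_sum]
    rw [Finset.sum_comm]
    have e : ∀ j, ∑ k, hess u x k l * (Ui u x k j * a j x) =
        (∑ k, Ui u x j k * hess u x k l) * a j x := by
      intro j
      rw [Finset.sum_mul]
      refine Finset.sum_congr rfl fun k _ => ?_
      rw [hs.Ui_symm hx k j]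
      ring
    simp only [e, hs.Ui_mul hx]
    simp [Matrix.one_apply]
  rw [Finset.sum_comm]
  refine Finset.sum_congr rfl fun l _ => ?_
  rw [← h1 l, Finset.sum_mul]

omit hΩ in
lemma hess_symm {x : Fin n → ℝ} (hx : x ∈ Ω) (k l : Fin n) : hess u x k l = hess u x l k := by
  have h := (hs.posDef x hx).isHermitian
  have := congrFun (congrFun h l) k
  simpa [Matrix.conjTranspose_apply] using this

omit hΩ in
/-- Contracting with the metric computes the trace. -/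
lemma IP_hess (Z : Fin n → Fin n → ℝ) {x : Fin n → ℝ} (hx : x ∈ Ω) :
    IP u x Z (hess u x) = ∑ i, ∑ j, Ui u x i j * Z i j := by
  classical
  unfold IP
  refine Finset.sum_congr rfl fun i _ => Finset.sum_congr rfl fun j _ => ?_
  have h1 : ∀ k, ∑ l, Ui u x i k * Ui u x j l * Z i j * hess u x k l =
      Ui u x i k * Z i j * (∑ l, Ui u x j l * hess u x l k) := by
    intro k
    rw [Finset.mul_sum]
    refine Finset.sum_congr rfl fun l _ => ?_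
    rw [hs.hess_symm hx k l]
    ring
  simp only [h1, hs.Ui_mul hx]
  simp [Matrix.one_apply]

omit hs hΩ in
lemma Bl_symm_of {Z : Fin n → Fin n → ℝ} (hZ : ∀ i j, Z i j = Z j i)
    (a b : Fin n → (Fin n → ℝ) → ℝ) (x : Fin n → ℝ) : Bl u a b x Z = Bl u b a x Z := by
  unfold Bl
  rw [Finset.sum_comm]
  refine Finset.sum_congr rfl fun i _ => Finset.sum_congr rfl fun j _ => ?_
  rw [hZ j i]
  ring

lemma Bl_Ma_swap (a b c : Fin n → (Fin n → ℝ) → ℝ) {x : Fin n → ℝ} (hx : x ∈ Ω) :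
    Bl u a b x (Ma u c x) = Bl u a c x (Ma u b x) := by
  unfold Bl Ma
  refine Finset.sum_congr rfl fun i _ => ?_
  simp only [Finset.sum_mul]
  rw [Finset.sum_comm]
  refine Finset.sum_congr rfl fun j _ => Finset.sum_congr rfl fun k _ => ?_
  rw [hs.A3_swap23 hΩ hx i j k]
  ring

lemma Bl_Ma_swap' (a b c : Fin n → (Fin n → ℝ) → ℝ) {x : Fin n → ℝ} (hx : x ∈ Ω) :
    Bl u a b x (Ma u c x) = Bl u c b x (Ma u a x) := by
  rw [Bl_symm_of (hs.Ma_symm hΩ c hx) a b, hs.Bl_Ma_swap hΩ b a c hx,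
    Bl_symm_of (hs.Ma_symm hΩ a hx) b c]

/-- Trace of `A(a)`. -/
lemma trace_Ma (a : Fin n → (Fin n → ℝ) → ℝ) {x : Fin n → ℝ} (hx : x ∈ Ω) :
    ∑ i, ∑ j, Ui u x i j * Ma u a x i j = pa u (qF u) a x := by
  classical
  unfold pa Ma qF
  simp only [hs.pd_logD hΩ hx, Finset.mul_sum, Finset.sum_mul]
  calc ∑ i, ∑ j, ∑ l, Ui u x i j * (A3 u x i j l * ra u a l x)
      = ∑ i, ∑ l, ∑ j, Ui u x i j * (A3 u x i j l * ra u a l x) :=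
        Finset.sum_congr rfl fun i _ => Finset.sum_comm
    _ = ∑ l, ∑ i, ∑ j, Ui u x i j * (A3 u x i j l * ra u a l x) := Finset.sum_comm
    _ = _ := by
        refine Finset.sum_congr rfl fun l _ => Finset.sum_congr rfl fun i _ =>
          Finset.sum_congr rfl fun j _ => ?_
        ring

/-- Gradient of the pairing contracted with a vector, in terms of `Bl`. -/
lemma grad_pa {a b : Fin n → (Fin n → ℝ) → ℝ} (ha : ∀ j, ContDiffOn ℝ ∞ (a j) Ω)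
    (hb : ∀ j, ContDiffOn ℝ ∞ (b j) Ω) (c : Fin n → (Fin n → ℝ) → ℝ) {x : Fin n → ℝ} (hx : x ∈ Ω) :
    ∑ k, pd k (pa u a b) x * ra u c k x =
      Bl u c b x (fun i m => pd i (a m) x) + Bl u c a x (fun i m => pd i (b m) x) -
      Bl u a b x (Ma u c x) := by
  rw [hs.grad_pa_contract hΩ ha hb c hx]
  unfold Bl
  congr 2
  refine Finset.sum_congr rfl fun k _ => Finset.sum_congr rfl fun i _ => ?_
  ring

lemma Hp_symm' {x : Fin n → ℝ} (hx : x ∈ Ω) :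
    ∀ j k, (fun i m => pd i (qF u m) x) j k = (fun i m => pd i (qF u m) x) k j :=
  fun j k => hs.Hp_symm hΩ hx j k

/-- `∇T·c`. -/
lemma grad_T (c : Fin n → (Fin n → ℝ) → ℝ) {x : Fin n → ℝ} (hx : x ∈ Ω) :
    ∑ k, pd k (aT u) x * ra u c k x =
      2 * Bl u (qF u) c x (Hp u x) - Bl u (qF u) c x (Ma u (qF u) x) := by
  have h := hs.grad_pa hΩ (hs.contDiffOn_qF hΩ) (hs.contDiffOn_qF hΩ) c hx
  rw [da_q] at h
  rw [Bl_symm_of (hs.Hp_symm hΩ hx) c (qF u), hs.Bl_Ma_swap hΩ (qF u) (qF u) c hx] at h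
  change ∑ k, pd k (aT u) x * ra u c k x = _ at h
  rw [h]
  ring

/-- `∇H·c`. -/
lemma grad_H (c : Fin n → (Fin n → ℝ) → ℝ) {x : Fin n → ℝ} (hx : x ∈ Ω) :
    ∑ k, pd k (aH u x₀) x * ra u c k x =
      Bl u c (XF u x₀) x (Hp u x) + pa u c (qF u) x - Bl u (qF u) c x (Ma u (XF u x₀) x) := by
  have h := hs.grad_pa hΩ (hs.contDiffOn_qF hΩ) (hs.contDiffOn_XF hΩ (x₀ := x₀)) c hx
  rw [da_q, hs.da_X hΩ hx, hs.Bl_hess _ _ hx, hs.Bl_Ma_swap hΩ (qF u) (XF u x₀) c hx] at h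
  exact h

/-- `∇G·c`. -/
lemma grad_G (c : Fin n → (Fin n → ℝ) → ℝ) {x : Fin n → ℝ} (hx : x ∈ Ω) :
    ∑ k, pd k (aG u x₀) x * ra u c k x =
      2 * pa u c (XF u x₀) x - Bl u (XF u x₀) (XF u x₀) x (Ma u c x) := by
  have h := hs.grad_pa hΩ (hs.contDiffOn_XF hΩ (x₀ := x₀)) (hs.contDiffOn_XF hΩ (x₀ := x₀)) c hx
  rw [hs.da_X hΩ hx, hs.Bl_hess _ _ hx] at h
  change ∑ k, pd k (aG u x₀) x * ra u c k x = _ at h
  rw [h]
  ring

lemma contDiffOn_aT : ContDiffOn ℝ ∞ (aT u) Ω :=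
  hs.contDiffOn_pa hΩ (hs.contDiffOn_qF hΩ) (hs.contDiffOn_qF hΩ)

lemma contDiffOn_aH : ContDiffOn ℝ ∞ (aH u x₀) Ω :=
  hs.contDiffOn_pa hΩ (hs.contDiffOn_qF hΩ) (hs.contDiffOn_XF hΩ)

lemma contDiffOn_aG : ContDiffOn ℝ ∞ (aG u x₀) Ω :=
  hs.contDiffOn_pa hΩ (hs.contDiffOn_XF hΩ) (hs.contDiffOn_XF hΩ)

/-- `dv q = c T`. -/
lemma dv_q {x : Fin n → ℝ} (hx : x ∈ Ω) : dv u (qF u) x = cN n * aT u x :=
  hs.trace_Hp hΩ hx

/-- `dv X = n`. -/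
lemma dv_X {x : Fin n → ℝ} (hx : x ∈ Ω) : dv u (XF u x₀) x = n := by
  classical
  unfold dv
  have h1 : ∀ i j, pd i (XF u x₀ j) x = hess u x j i := by
    intro i j
    rw [hs.hess_symm hx]
    exact pd2_uBar hΩ hs.smooth hx i j
  simp only [h1, hs.Ui_mul hx]
  simp [Matrix.one_apply]

/-- Leibniz rule for the scalar multiples of `q`. -/
lemma dv_f_q {f : (Fin n → ℝ) → ℝ} (hf : ContDiffOn ℝ ∞ f Ω) {x : Fin n → ℝ} (hx : x ∈ Ω) :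
    dv u (fun j y => f y * qF u j y) x =
      ∑ k, pd k f x * ra u (qF u) k x + f x * (cN n * aT u x) := by
  rw [dv_smul_aux (hs := hs) (diffAt hΩ hf hx) (fun j => diffAt hΩ (hs.contDiffOn_qF hΩ j) hx),
    hs.dv_q hΩ hx]

/-- Leibniz rule for the scalar multiples of `X`. -/
lemma dv_f_X {f : (Fin n → ℝ) → ℝ} (hf : ContDiffOn ℝ ∞ f Ω) {x : Fin n → ℝ} (hx : x ∈ Ω) :
    dv u (fun j y => f y * XF u x₀ j y) x =
      ∑ k, pd k f x * ra u (XF u x₀) k x + f x * n := by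
  rw [dv_smul_aux (hs := hs) (diffAt hΩ hf hx) (fun j => diffAt hΩ (hs.contDiffOn_XF hΩ j) hx),
    hs.dv_X hΩ hx]

/-! ### The table of divergences -/

lemma dv_V1 {x : Fin n → ℝ} (hx : x ∈ Ω) :
    dv u (fun j y => aT u y * qF u j y) x =
      2 * apqq u x - aAqqq u x + cN n * aT u x ^ 2 := by
  rw [hs.dv_f_q hΩ (hs.contDiffOn_aT hΩ) hx, hs.grad_T hΩ (qF u) hx]
  simp only [apqq, aAqqq]
  ring

lemma dv_V2 {x : Fin n → ℝ} (hx : x ∈ Ω) :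
    dv u (fun j y => aH u x₀ y * qF u j y) x =
      apqx u x₀ x + aT u x - aAqqx u x₀ x + cN n * (aH u x₀ x * aT u x) := by
  rw [hs.dv_f_q hΩ (hs.contDiffOn_aH hΩ) hx, hs.grad_H hΩ (qF u) hx]
  simp only [apqx, aAqqx, aT]
  ring

lemma dv_V3 {x : Fin n → ℝ} (hx : x ∈ Ω) :
    dv u (fun j y => aG u x₀ y * qF u j y) x =
      2 * aH u x₀ x - aAqxx u x₀ x + cN n * (aG u x₀ x * aT u x) := by
  rw [hs.dv_f_q hΩ (hs.contDiffOn_aG hΩ) hx, hs.grad_G hΩ (qF u) hx]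
  simp only [aH, aAqxx]
  ring

lemma dv_V4 {x : Fin n → ℝ} (hx : x ∈ Ω) :
    dv u (fun j y => aT u y * XF u x₀ j y) x =
      2 * apqx u x₀ x - aAqqx u x₀ x + n * aT u x := by
  rw [hs.dv_f_X hΩ (hs.contDiffOn_aT hΩ) hx, hs.grad_T hΩ (XF u x₀) hx,
    hs.Bl_Ma_swap hΩ (qF u) (XF u x₀) (qF u) hx]
  simp only [apqx, aAqqx]
  ring

lemma dv_V5 {x : Fin n → ℝ} (hx : x ∈ Ω) :
    dv u (fun j y => aH u x₀ y * XF u x₀ j y) x =
      apxx u x₀ x + aH u x₀ x - aAqxx u x₀ x + n * aH u x₀ x := by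
  rw [hs.dv_f_X hΩ (hs.contDiffOn_aH hΩ) hx, hs.grad_H hΩ (XF u x₀) hx,
    hs.pa_symm (XF u x₀) (qF u) hx, hs.Bl_Ma_swap' hΩ (qF u) (XF u x₀) (XF u x₀) hx]
  simp only [apxx, aH, aAqxx]
  ring

lemma dv_V6 {x : Fin n → ℝ} (hx : x ∈ Ω) :
    dv u (fun j y => aG u x₀ y * XF u x₀ j y) x =
      2 * aG u x₀ x - aAxxx u x₀ x + n * aG u x₀ x := by
  rw [hs.dv_f_X hΩ (hs.contDiffOn_aG hΩ) hx, hs.grad_G hΩ (XF u x₀) hx]
  simp only [aG, aAxxx]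
  ring

lemma dv_V7 {x : Fin n → ℝ} (hx : x ∈ Ω) :
    dv u (Ah u (qF u) (qF u)) x = apqq u x - aMM u x + 2 * aHM u x := by
  rw [hs.dv_Ah hΩ (hs.contDiffOn_qF hΩ) (hs.contDiffOn_qF hΩ) hx, da_q,
    IP_comm_of (fun i j => hs.Ui_symm hx i j) (Ma u (qF u) x) (Hp u x)]
  simp only [apqq, aMM, aHM]
  ring

lemma dv_V8 {x : Fin n → ℝ} (hx : x ∈ Ω) :
    dv u (Ah u (qF u) (XF u x₀)) x = apqx u x₀ x - aMN u x₀ x + aHN u x₀ x + aT u x := by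
  rw [hs.dv_Ah hΩ (hs.contDiffOn_qF hΩ) (hs.contDiffOn_XF hΩ) hx, da_q, hs.da_X hΩ hx,
    IP_comm_of (fun i j => hs.Ui_symm hx i j) (Ma u (XF u x₀) x) (Hp u x),
    hs.IP_hess _ hx, hs.trace_Ma hΩ _ hx]
  simp only [apqx, aMN, aHN, aT]

lemma dv_V9 {x : Fin n → ℝ} (hx : x ∈ Ω) :
    dv u (Ah u (XF u x₀) (XF u x₀)) x = apxx u x₀ x - aNN u x₀ x + 2 * aH u x₀ x := by
  rw [hs.dv_Ah hΩ (hs.contDiffOn_XF hΩ) (hs.contDiffOn_XF hΩ) hx, hs.da_X hΩ hx,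
    hs.IP_hess _ hx, hs.trace_Ma hΩ _ hx]
  simp only [apxx, aNN, aH]
  ring

lemma dv_V10 {x : Fin n → ℝ} (hx : x ∈ Ω) :
    dv u (ph u (qF u)) x = 2 * cN n * apqq u x - cN n * aAqqq u x + aHH u x := by
  rw [hs.dv_ph hΩ (hs.contDiffOn_qF hΩ) hx]
  have h := hs.grad_T hΩ (qF u) hx
  change ∑ k, pd k (pa u (qF u) (qF u)) x * ra u (qF u) k x = _ at h
  rw [h, da_q]
  simp only [apqq, aAqqq, aHH]
  ring

lemma dv_V11 {x : Fin n → ℝ} (hx : x ∈ Ω) :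
    dv u (ph u (XF u x₀)) x =
      2 * cN n * apqx u x₀ x - cN n * aAqqx u x₀ x + cN n * aT u x := by
  rw [hs.dv_ph hΩ (hs.contDiffOn_XF hΩ) hx]
  have h := hs.grad_T hΩ (XF u x₀) hx
  change ∑ k, pd k (pa u (qF u) (qF u)) x * ra u (XF u x₀) k x = _ at h
  rw [h, hs.da_X hΩ hx, hs.IP_hess _ hx, hs.Bl_Ma_swap hΩ (qF u) (XF u x₀) (qF u) hx]
  have h2 := hs.trace_Hp hΩ hx
  rw [h2]
  simp only [apqx, aAqqx, aT]
  ring

end IsAffineMaximal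

end Vale.Agent.Lib.P252
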