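import Vale.Agent.Lib.P252.Hess5

/-!
Pairings of the eleven vector fields with `q` and `X`, and positivity of the inner product on
matrices together with the Gram table.
-/

open scoped ContDiff Matrix Kronecker
open MeasureTheory

namespace Vale.Agent.Lib.P252

variable {n : ℕ} {Ω : Set (Fin n → ℝ)} {u : (Fin n → ℝ) → ℝ} {x₀ : Fin n → ℝ}

lemma IP_add_left (x : Fin n → ℝ) (Z Z' W : Fin n → Fin n → ℝ) :
    IP u x (fun i j => Z i j + Z' i j) W = IP u x Z W + IP u x Z' W := by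
  unfold IP
  simp only [mul_add, add_mul, Finset.sum_add_distrib]

lemma IP_add_right (x : Fin n → ℝ) (Z W W' : Fin n → Fin n → ℝ) :
    IP u x Z (fun i j => W i j + W' i j) = IP u x Z W + IP u x Z W' := by
  unfold IP
  simp only [mul_add, Finset.sum_add_distrib]

lemma IP_smul_left (x : Fin n → ℝ) (c : ℝ) (Z W : Fin n → Fin n → ℝ) :
    IP u x (fun i j => c * Z i j) W = c * IP u x Z W := by
  unfold IP
  simp only [Finset.mul_sum]
  refine Finset.sum_congr rfl fun i _ => Finset.sum_congr rfl fun j _ =>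
    Finset.sum_congr rfl fun k _ => Finset.sum_congr rfl fun l _ => ?_
  ring

lemma IP_smul_right (x : Fin n → ℝ) (c : ℝ) (Z W : Fin n → Fin n → ℝ) :
    IP u x Z (fun i j => c * W i j) = c * IP u x Z W := by
  unfold IP
  simp only [Finset.mul_sum]
  refine Finset.sum_congr rfl fun i _ => Finset.sum_congr rfl fun j _ =>
    Finset.sum_congr rfl fun k _ => Finset.sum_congr rfl fun l _ => ?_
  ring

/-- Contraction with a decomposable tensor. -/
lemma IP_tensor (x : Fin n → ℝ) (Z : Fin n → Fin n → ℝ) (a b : Fin n → (Fin n → ℝ) → ℝ) :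
    IP u x Z (fun k l => a k x * b l x) = Bl u a b x Z := by
  unfold IP Bl ra
  refine Finset.sum_congr rfl fun i _ => Finset.sum_congr rfl fun j _ => ?_
  have h1 : ∀ k, ∑ l, Ui u x i k * Ui u x j l * Z i j * (a k x * b l x) =
      Z i j * (Ui u x i k * a k x) * ∑ l, Ui u x j l * b l x := by
    intro k
    rw [Finset.mul_sum]
    refine Finset.sum_congr rfl fun l _ => ?_
    ring
  simp only [h1]
  rw [← Finset.sum_mul, ← Finset.mul_sum]

lemma Bl_tensor (x : Fin n → ℝ) (a b c d : Fin n → (Fin n → ℝ) → ℝ) :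
    Bl u a b x (fun k l => c k x * d l x) = pa u c a x * pa u d b x := by
  unfold Bl pa
  rw [Finset.sum_mul]
  refine Finset.sum_congr rfl fun k _ => ?_
  rw [Finset.mul_sum]
  refine Finset.sum_congr rfl fun l _ => ?_
  ring

namespace IsAffineMaximal

variable (hs : IsAffineMaximal Ω u) (hΩ : IsOpen Ω)
include hs

/-- Positivity of the inner product on matrices. -/
lemma IP_self_nonneg {x : Fin n → ℝ} (hx : x ∈ Ω) (Z : Fin n → Fin n → ℝ) : 0 ≤ IP u x Z Z := by
  classical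
  have hU : ((hess u x)⁻¹).PosSemidef := (hs.posDef x hx).inv.posSemidef
  have hK := hU.kronecker hU
  have h := hK.dotProduct_mulVec_nonneg (fun p : Fin n × Fin n => Z p.1 p.2)
  have e : star (fun p : Fin n × Fin n => Z p.1 p.2) ⬝ᵥ
      (((hess u x)⁻¹ ⊗ₖ (hess u x)⁻¹) *ᵥ fun p : Fin n × Fin n => Z p.1 p.2) = IP u x Z Z := by
    simp only [dotProduct, Matrix.mulVec, Fintype.sum_prod_type, Matrix.kroneckerMap_apply,
      Pi.star_apply, star_trivial, IP, Ui, Finset.mul_sum]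
    refine Finset.sum_congr rfl fun i _ => Finset.sum_congr rfl fun j _ =>
      Finset.sum_congr rfl fun k _ => Finset.sum_congr rfl fun l _ => ?_
    ring
  rwa [e] at h

include hΩ

lemma pa_f_mul (c V : Fin n → (Fin n → ℝ) → ℝ) (f : (Fin n → ℝ) → ℝ) (x : Fin n → ℝ) :
    pa u c (fun j y => f y * V j y) x = f x * pa u c V x := by
  unfold pa ra
  rw [Finset.mul_sum]
  refine Finset.sum_congr rfl fun i _ => ?_
  rw [Finset.mul_sum, Finset.mul_sum, Finset.mul_sum]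
  refine Finset.sum_congr rfl fun j _ => ?_
  ring

/-- Pairing with `A(a,b)`. -/
lemma pa_Ah (c a b : Fin n → (Fin n → ℝ) → ℝ) {x : Fin n → ℝ} (hx : x ∈ Ω) :
    pa u c (Ah u a b) x = Bl u c a x (Ma u b x) := by
  rw [hs.pa_symm c (Ah u a b) hx]
  unfold pa Ah Bl Ma
  refine Finset.sum_congr rfl fun i _ => ?_
  rw [Finset.sum_mul]
  refine Finset.sum_congr rfl fun k _ => ?_
  rw [Finset.sum_mul, Finset.sum_mul, Finset.sum_mul]
  refine Finset.sum_congr rfl fun l _ => ?_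
  ring

/-- Pairing with `p(a)`. -/
lemma pa_ph (c a : Fin n → (Fin n → ℝ) → ℝ) {x : Fin n → ℝ} (hx : x ∈ Ω) :
    pa u c (ph u a) x = Bl u c a x (Hp u x) := by
  rw [hs.pa_symm c (ph u a) hx]
  unfold pa ph Bl Hp
  refine Finset.sum_congr rfl fun i _ => ?_
  rw [Finset.sum_mul]
  refine Finset.sum_congr rfl fun k _ => ?_
  ring

omit hs hΩ in
/-- Expansion of the inner product of a linear combination of seven matrices. -/
lemma IP_lin7 (x : Fin n → ℝ) (hsym : ∀ Z W : Fin n → Fin n → ℝ, IP u x Z W = IP u x W Z)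
    (A1 A2 A3 A4 A5 A6 A7 : Fin n → Fin n → ℝ) (z1 z2 z3 z4 z5 z6 z7 : ℝ) :
    IP u x (fun i j => z1 * A1 i j + z2 * A2 i j + z3 * A3 i j + z4 * A4 i j + z5 * A5 i j +
        z6 * A6 i j + z7 * A7 i j)
      (fun i j => z1 * A1 i j + z2 * A2 i j + z3 * A3 i j + z4 * A4 i j + z5 * A5 i j +
        z6 * A6 i j + z7 * A7 i j) =
    z1 ^ 2 * IP u x A1 A1 + z2 ^ 2 * IP u x A2 A2 + z3 ^ 2 * IP u x A3 A3 + z4 ^ 2 * IP u x A4 A4 +
    z5 ^ 2 * IP u x A5 A5 + z6 ^ 2 * IP u x A6 A6 + z7 ^ 2 * IP u x A7 A7 +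
    2 * z1 * z2 * IP u x A1 A2 + 2 * z1 * z3 * IP u x A1 A3 + 2 * z1 * z4 * IP u x A1 A4 +
    2 * z1 * z5 * IP u x A1 A5 + 2 * z1 * z6 * IP u x A1 A6 + 2 * z1 * z7 * IP u x A1 A7 +
    2 * z2 * z3 * IP u x A2 A3 + 2 * z2 * z4 * IP u x A2 A4 + 2 * z2 * z5 * IP u x A2 A5 +
    2 * z2 * z6 * IP u x A2 A6 + 2 * z2 * z7 * IP u x A2 A7 +
    2 * z3 * z4 * IP u x A3 A4 + 2 * z3 * z5 * IP u x A3 A5 + 2 * z3 * z6 * IP u x A3 A6 +
    2 * z3 * z7 * IP u x A3 A7 +
    2 * z4 * z5 * IP u x A4 A5 + 2 * z4 * z6 * IP u x A4 A6 + 2 * z4 * z7 * IP u x A4 A7 +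
    2 * z5 * z6 * IP u x A5 A6 + 2 * z5 * z7 * IP u x A5 A7 +
    2 * z6 * z7 * IP u x A6 A7 := by
  simp only [IP_add_left, IP_add_right, IP_smul_left, IP_smul_right]
  rw [hsym A2 A1, hsym A3 A1, hsym A3 A2, hsym A4 A1, hsym A4 A2, hsym A4 A3,
    hsym A5 A1, hsym A5 A2, hsym A5 A3, hsym A5 A4, hsym A6 A1, hsym A6 A2, hsym A6 A3, hsym A6 A4,
    hsym A6 A5, hsym A7 A1, hsym A7 A2, hsym A7 A3, hsym A7 A4, hsym A7 A5, hsym A7 A6]
  ring

/-- The Gram inequality: positivity of the inner product on the span of the seven tensors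
`p`, `A(q)`, `A(X)`, `q⊗q`, `q⊙X`, `X⊗X` and the metric. -/
lemma gram_nonneg {x : Fin n → ℝ} (hx : x ∈ Ω) (z1 z2 z3 z4 z5 z6 z7 : ℝ) :
    0 ≤ z1 ^ 2 * aHH u x + z2 ^ 2 * aMM u x + z3 ^ 2 * aNN u x₀ x + z4 ^ 2 * aT u x ^ 2 +
      z5 ^ 2 * ((aT u x * aG u x₀ x + aH u x₀ x ^ 2) / 2) + z6 ^ 2 * aG u x₀ x ^ 2 + z7 ^ 2 * n +
      2 * z1 * z2 * aHM u x + 2 * z1 * z3 * aHN u x₀ x + 2 * z1 * z4 * apqq u x +
      2 * z1 * z5 * apqx u x₀ x + 2 * z1 * z6 * apxx u x₀ x + 2 * z1 * z7 * (cN n * aT u x) +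
      2 * z2 * z3 * aMN u x₀ x + 2 * z2 * z4 * aAqqq u x + 2 * z2 * z5 * aAqqx u x₀ x +
      2 * z2 * z6 * aAqxx u x₀ x + 2 * z2 * z7 * aT u x +
      2 * z3 * z4 * aAqqx u x₀ x + 2 * z3 * z5 * aAqxx u x₀ x + 2 * z3 * z6 * aAxxx u x₀ x +
      2 * z3 * z7 * aH u x₀ x +
      2 * z4 * z5 * (aT u x * aH u x₀ x) + 2 * z4 * z6 * aH u x₀ x ^ 2 + 2 * z4 * z7 * aT u x +
      2 * z5 * z6 * (aH u x₀ x * aG u x₀ x) + 2 * z5 * z7 * aH u x₀ x +
      2 * z6 * z7 * aG u x₀ x := by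
  classical
  have hsym : ∀ Z W : Fin n → Fin n → ℝ, IP u x Z W = IP u x W Z :=
    fun Z W => IP_comm_of (fun i j => hs.Ui_symm hx i j) Z W
  set q := qF u with hq
  set X := XF u x₀ with hX
  let A4 : Fin n → Fin n → ℝ := fun k l => q k x * q l x
  let BB : Fin n → Fin n → ℝ := fun k l => q k x * X l x
  let BB' : Fin n → Fin n → ℝ := fun k l => X k x * q l x
  let A5 : Fin n → Fin n → ℝ := fun k l => (1 / 2 : ℝ) * BB k l + (1 / 2 : ℝ) * BB' k l
  let A6 : Fin n → Fin n → ℝ := fun k l => X k x * X l x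
  let A7 : Fin n → Fin n → ℝ := fun k l => hess u x k l
  have key : ∀ Z : Fin n → Fin n → ℝ, IP u x Z A7 = ∑ i, ∑ j, Ui u x i j * Z i j :=
    fun Z => hs.IP_hess Z hx
  have h := hs.IP_self_nonneg hx (fun i j => z1 * Hp u x i j + z2 * Ma u q x i j +
    z3 * Ma u X x i j + z4 * A4 i j + z5 * A5 i j + z6 * A6 i j + z7 * A7 i j)
  rw [IP_lin7 x hsym (Hp u x) (Ma u q x) (Ma u X x) A4 A5 A6 A7 z1 z2 z3 z4 z5 z6 z7] at h
  have hTq : pa u q q x = aT u x := rfl
  have hHq : pa u q X x = aH u x₀ x := rfl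
  have hHq' : pa u X q x = aH u x₀ x := hs.pa_symm X q hx
  have hGq : pa u X X x = aG u x₀ x := rfl
  -- symmetry of the matrices
  have sHp : ∀ i j, Hp u x i j = Hp u x j i := hs.Hp_symm hΩ hx
  have sM : ∀ i j, Ma u q x i j = Ma u q x j i := hs.Ma_symm hΩ q hx
  have sN : ∀ i j, Ma u X x i j = Ma u X x j i := hs.Ma_symm hΩ X hx
  -- contraction with the tensor `A5`
  have h5 : ∀ Z : Fin n → Fin n → ℝ, (∀ i j, Z i j = Z j i) → IP u x Z A5 = Bl u q X x Z := by
    intro Z hZ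
    change IP u x Z (fun k l => (1 / 2 : ℝ) * BB k l + (1 / 2 : ℝ) * BB' k l) = _
    rw [IP_add_right, IP_smul_right, IP_smul_right]
    have e1 : IP u x Z BB = Bl u q X x Z := IP_tensor x Z q X
    have e2 : IP u x Z BB' = Bl u X q x Z := IP_tensor x Z X q
    rw [e1, e2, Bl_symm_of hZ X q]
    ring
  have hA4 : ∀ Z, IP u x Z A4 = Bl u q q x Z := fun Z => IP_tensor x Z q q
  have hA6 : ∀ Z, IP u x Z A6 = Bl u X X x Z := fun Z => IP_tensor x Z X X
  have sA4 : ∀ i j, A4 i j = A4 j i := fun i j => mul_comm _ _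
  have sA6 : ∀ i j, A6 i j = A6 j i := fun i j => mul_comm _ _
  have sA5 : ∀ i j, A5 i j = A5 j i := by
    intro i j
    simp only [A5, BB, BB']
    ring
  -- values of the contractions of the decomposable tensors
  have b44 : Bl u q q x A4 = aT u x ^ 2 := by
    rw [show A4 = fun k l => q k x * q l x from rfl, Bl_tensor, hTq]; ring
  have b4x : Bl u q X x A4 = aT u x * aH u x₀ x := by
    rw [show A4 = fun k l => q k x * q l x from rfl, Bl_tensor, hTq, hHq]
  have b46 : Bl u X X x A4 = aH u x₀ x ^ 2 := by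
    rw [show A4 = fun k l => q k x * q l x from rfl, Bl_tensor, hHq]; ring
  have b55 : Bl u q X x A5 = (aT u x * aG u x₀ x + aH u x₀ x ^ 2) / 2 := by
    have e : A5 = fun k l => (1 / 2 : ℝ) * (q k x * X l x) + (1 / 2 : ℝ) * (X k x * q l x) := rfl
    have e1 : Bl u q X x (fun k l => q k x * X l x) = aT u x * aG u x₀ x := by
      rw [Bl_tensor, hTq, hGq]
    have e2 : Bl u q X x (fun k l => X k x * q l x) = aH u x₀ x ^ 2 := by
      rw [Bl_tensor, hHq, hHq']; ring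
    have e3 : Bl u q X x A5 = (1 / 2 : ℝ) * Bl u q X x (fun k l => q k x * X l x) +
        (1 / 2 : ℝ) * Bl u q X x (fun k l => X k x * q l x) := by
      rw [e]
      unfold Bl
      simp only [Finset.mul_sum, ← Finset.sum_add_distrib]
      refine Finset.sum_congr rfl fun k _ => Finset.sum_congr rfl fun l _ => ?_
      ring
    rw [e3, e1, e2]
    ring
  have b56 : Bl u X X x A5 = aH u x₀ x * aG u x₀ x := by
    have e : A5 = fun k l => (1 / 2 : ℝ) * (q k x * X l x) + (1 / 2 : ℝ) * (X k x * q l x) := rfl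
    have e1 : Bl u X X x (fun k l => q k x * X l x) = aH u x₀ x * aG u x₀ x := by
      rw [Bl_tensor, hHq, hGq]
    have e2 : Bl u X X x (fun k l => X k x * q l x) = aH u x₀ x * aG u x₀ x := by
      rw [Bl_tensor, hHq, hGq]; ring
    have e3 : Bl u X X x A5 = (1 / 2 : ℝ) * Bl u X X x (fun k l => q k x * X l x) +
        (1 / 2 : ℝ) * Bl u X X x (fun k l => X k x * q l x) := by
      rw [e]
      unfold Bl
      simp only [Finset.mul_sum, ← Finset.sum_add_distrib]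
      refine Finset.sum_congr rfl fun k _ => Finset.sum_congr rfl fun l _ => ?_
      ring
    rw [e3, e1, e2]
    ring
  have b66 : Bl u X X x A6 = aG u x₀ x ^ 2 := by
    rw [show A6 = fun k l => X k x * X l x from rfl, Bl_tensor, hGq]; ring
  -- traces
  have tr4 : IP u x A4 A7 = aT u x := by
    rw [key]
    simp only [A4]
    exact (pa_qq_eq x).symm
  have tr6 : IP u x A6 A7 = aG u x₀ x := by
    rw [key]
    change _ = pa u X X x
    unfold pa ra
    refine Finset.sum_congr rfl fun i _ => ?_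
    rw [Finset.mul_sum]
    refine Finset.sum_congr rfl fun j _ => ?_
    simp only [A6]
    ring
  have trB : IP u x BB A7 = aH u x₀ x := by
    rw [key]
    change _ = pa u q X x
    unfold pa ra
    refine Finset.sum_congr rfl fun i _ => ?_
    rw [Finset.mul_sum]
    refine Finset.sum_congr rfl fun j _ => ?_
    simp only [BB]
    ring
  have trB' : IP u x BB' A7 = aH u x₀ x := by
    rw [hsym, ← hHq']
    rw [hsym, key]
    unfold pa ra
    refine Finset.sum_congr rfl fun i _ => ?_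
    rw [Finset.mul_sum]
    refine Finset.sum_congr rfl fun j _ => ?_
    simp only [BB']
    ring
  have tr5 : IP u x A5 A7 = aH u x₀ x := by
    change IP u x (fun k l => (1 / 2 : ℝ) * BB k l + (1 / 2 : ℝ) * BB' k l) A7 = _
    rw [IP_add_left, IP_smul_left, IP_smul_left, trB, trB']
    ring
  have trn : IP u x A7 A7 = n := by
    rw [key]
    have e : ∀ i, ∑ j, Ui u x i j * A7 i j = 1 := by
      intro i
      have h := hs.Ui_mul hx i i
      rw [Matrix.one_apply_eq] at h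
      rw [← h]
      refine Finset.sum_congr rfl fun j _ => ?_
      simp only [A7]
      rw [hs.hess_symm hx i j]
    simp [e]
  have trH : IP u x (Hp u x) A7 = cN n * aT u x := by
    rw [key]
    exact hs.trace_Hp hΩ hx
  have trM : IP u x (Ma u q x) A7 = aT u x := by
    rw [key]
    exact hs.trace_Ma hΩ q hx
  have trN : IP u x (Ma u X x) A7 = aH u x₀ x := by
    rw [key]
    exact hs.trace_Ma hΩ X hx
  -- assemble
  have i11 : IP u x (Hp u x) (Hp u x) = aHH u x := rfl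
  have i22 : IP u x (Ma u q x) (Ma u q x) = aMM u x := rfl
  have i33 : IP u x (Ma u X x) (Ma u X x) = aNN u x₀ x := rfl
  have i44 : IP u x A4 A4 = aT u x ^ 2 := by rw [hA4, b44]
  have i55 : IP u x A5 A5 = (aT u x * aG u x₀ x + aH u x₀ x ^ 2) / 2 := by rw [h5 A5 sA5, b55]
  have i66 : IP u x A6 A6 = aG u x₀ x ^ 2 := by rw [hA6, b66]
  have i12 : IP u x (Hp u x) (Ma u q x) = aHM u x := rfl
  have i13 : IP u x (Hp u x) (Ma u X x) = aHN u x₀ x := rfl
  have i14 : IP u x (Hp u x) A4 = apqq u x := hA4 _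
  have i15 : IP u x (Hp u x) A5 = apqx u x₀ x := h5 _ sHp
  have i16 : IP u x (Hp u x) A6 = apxx u x₀ x := hA6 _
  have i23 : IP u x (Ma u q x) (Ma u X x) = aMN u x₀ x := rfl
  have i24 : IP u x (Ma u q x) A4 = aAqqq u x := hA4 _
  have i25 : IP u x (Ma u q x) A5 = aAqqx u x₀ x := by
    rw [h5 _ sM]
    exact hs.Bl_Ma_swap hΩ q X q hx
  have i26 : IP u x (Ma u q x) A6 = aAqxx u x₀ x := hA6 _
  have i34 : IP u x (Ma u X x) A4 = aAqqx u x₀ x := hA4 _
  have i35 : IP u x (Ma u X x) A5 = aAqxx u x₀ x := by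
    rw [h5 _ sN]
    exact hs.Bl_Ma_swap' hΩ q X X hx
  have i36 : IP u x (Ma u X x) A6 = aAxxx u x₀ x := hA6 _
  have i45 : IP u x A4 A5 = aT u x * aH u x₀ x := by rw [h5 _ sA4, b4x]
  have i46 : IP u x A4 A6 = aH u x₀ x ^ 2 := by rw [hA6, b46]
  have i56 : IP u x A5 A6 = aH u x₀ x * aG u x₀ x := by rw [hA6, b56]
  rw [i11, i22, i33, i44, i55, i66, trn, i12, i13, i14, i15, i16, trH, i23, i24, i25, i26, trM,
    i34, i35, i36, trN, i45, i46, tr4, i56, tr5, tr6] at h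
  exact h

end IsAffineMaximal

end Vale.Agent.Lib.P252
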