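import Vale.Agent.Lib.P252.Hess6

/-!
`C¹` cut-offs `(S - ū)₊^N` and the integrated divergence identity for a covector field.
-/

open scoped ContDiff Matrix Topology
open MeasureTheory

namespace Vale.Agent.Lib.P252

variable {n : ℕ} {Ω : Set (Fin n → ℝ)} {u : (Fin n → ℝ) → ℝ} {x₀ : Fin n → ℝ}

/-- The truncated power `t₊^N`. -/
noncomputable def powP (N : ℕ) (t : ℝ) : ℝ := (max t 0) ^ N

lemma powP_hasDerivAt {N : ℕ} (hN : 2 ≤ N) (t : ℝ) :
    HasDerivAt (powP N) (N * (max t 0) ^ (N - 1)) t := by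
  rcases lt_trichotomy t 0 with h | h | h
  · have hev : powP N =ᶠ[𝓝 t] fun _ => 0 := by
      filter_upwards [Iio_mem_nhds h] with s hs
      have hs' : s < 0 := hs
      have hN0 : N ≠ 0 := by omega
      simp [powP, max_eq_right hs'.le, hN0]
    have h0 : (N : ℝ) * (max t 0) ^ (N - 1) = 0 := by
      have hN1 : N - 1 ≠ 0 := by omega
      simp [max_eq_right h.le, hN1]
    rw [h0]
    exact (hasDerivAt_const t (0 : ℝ)).congr_of_eventuallyEq hev
  · subst h
    have h0 : (N : ℝ) * (max (0 : ℝ) 0) ^ (N - 1) = 0 := by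
      have hN1 : N - 1 ≠ 0 := by omega
      simp [hN1]
    rw [h0, hasDerivAt_iff_isLittleO_nhds_zero]
    rw [Asymptotics.isLittleO_iff]
    intro c hc
    have hpos : 0 < min 1 c := lt_min one_pos hc
    filter_upwards [Metric.ball_mem_nhds (0 : ℝ) hpos] with h hh
    have hh' : |h| < min 1 c := by simpa [Real.dist_eq] using hh
    have h1 : |h| < 1 := lt_of_lt_of_le hh' (min_le_left _ _)
    have h2 : |h| < c := lt_of_lt_of_le hh' (min_le_right _ _)
    have hN0 : N ≠ 0 := by omega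
    have e : powP N (0 + h) - powP N 0 - h • (0 : ℝ) = (max h 0) ^ N := by
      simp [powP, hN0]
    rw [e, Real.norm_eq_abs, Real.norm_eq_abs, abs_pow]
    have hmx : |max h 0| ≤ |h| := by
      rcases le_total h 0 with h' | h'
      · simp [max_eq_right h']
      · simp [max_eq_left h']
    have hab : 0 ≤ |max h 0| := abs_nonneg _
    calc |max h 0| ^ N ≤ |h| ^ N := pow_le_pow_left₀ hab hmx N
      _ ≤ |h| ^ 2 := pow_le_pow_of_le_one (abs_nonneg _) h1.le hN
      _ = |h| * |h| := by ring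
      _ ≤ c * |h| := mul_le_mul_of_nonneg_right h2.le (abs_nonneg _)
  · have hev : powP N =ᶠ[𝓝 t] fun s => s ^ N := by
      filter_upwards [Ioi_mem_nhds h] with s hs
      have hs' : 0 < s := hs
      simp [powP, max_eq_left hs'.le]
    have h1 : HasDerivAt (fun s : ℝ => s ^ N) (N * t ^ (N - 1)) t := hasDerivAt_pow N t
    have h2 : max t 0 = t := max_eq_left h.le
    rw [h2]
    exact h1.congr_of_eventuallyEq hev

lemma powP_contDiff {N : ℕ} (hN : 2 ≤ N) : ContDiff ℝ 1 (powP N) := by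
  rw [contDiff_one_iff_deriv]
  refine ⟨fun t => (powP_hasDerivAt hN t).differentiableAt, ?_⟩
  have e : deriv (powP N) = fun t => (N : ℝ) * (max t 0) ^ (N - 1) := by
    funext t
    exact (powP_hasDerivAt hN t).deriv
  rw [e]
  fun_prop

/-- The cut-off field: `(S - f)₊^N W`, extended by zero outside `Ω`. -/
noncomputable def cutF (Ω : Set (Fin n → ℝ)) (f : (Fin n → ℝ) → ℝ) (S : ℝ) (N : ℕ)
    (W : (Fin n → ℝ) → ℝ) : (Fin n → ℝ) → ℝ :=
  Set.indicator Ω (fun y => powP N (S - f y) * W y)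

section Cut

variable {f W : (Fin n → ℝ) → ℝ} {S : ℝ} {N : ℕ}

lemma cutF_zero (hN : 2 ≤ N) {x : Fin n → ℝ} (hx : x ∉ subLevelC Ω f S) : cutF Ω f S N W x = 0 := by
  by_cases hxΩ : x ∈ Ω
  · have h1 : S < f x := by
      by_contra h
      exact hx ⟨hxΩ, not_lt.1 h⟩
    have hN0 : N ≠ 0 := by omega
    simp [cutF, hxΩ, powP, max_eq_right (sub_nonpos.2 h1.le), hN0]
  · simp [cutF, hxΩ]

lemma cutF_contDiff (hΩ : IsOpen Ω) (hf : ContDiffOn ℝ ∞ f Ω) (hcpt : IsCompact (subLevelC Ω f S))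
    (hN : 2 ≤ N) (hW : ContDiffOn ℝ ∞ W Ω) : ContDiff ℝ 1 (cutF Ω f S N W) := by
  rw [contDiff_iff_contDiffAt]
  intro x
  by_cases hx : x ∈ Ω
  · have hev : cutF Ω f S N W =ᶠ[𝓝 x] fun y => powP N (S - f y) * W y := by
      filter_upwards [hΩ.mem_nhds hx] with y hy
      simp [cutF, hy]
    refine ContDiffAt.congr_of_eventuallyEq ?_ hev
    have h1 : ContDiffAt ℝ 1 (fun y => S - f y) x :=
      (contDiffAt_const.sub (contDiffAt_of hΩ hf hx)).of_le (by simp)
    have h2 : ContDiffAt ℝ 1 (fun y => powP N (S - f y)) x :=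
      (powP_contDiff hN).contDiffAt.comp x h1
    exact h2.mul ((contDiffAt_of hΩ hW hx).of_le (by simp))
  · have hx' : x ∉ subLevelC Ω f S := fun h => hx h.1
    have hopen : (subLevelC Ω f S)ᶜ ∈ 𝓝 x := hcpt.isClosed.isOpen_compl.mem_nhds hx'
    have hev : cutF Ω f S N W =ᶠ[𝓝 x] fun _ => 0 := by
      filter_upwards [hopen] with y hy using cutF_zero hN hy
    exact contDiffAt_const.congr_of_eventuallyEq hev

lemma cutF_compact (hcpt : IsCompact (subLevelC Ω f S)) (hN : 2 ≤ N) :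
    HasCompactSupport (cutF Ω f S N W) :=
  HasCompactSupport.intro hcpt fun _ hx => cutF_zero hN hx

lemma pd_cutF (hΩ : IsOpen Ω) (hf : ContDiffOn ℝ ∞ f Ω) (hN : 2 ≤ N) (hW : ContDiffOn ℝ ∞ W Ω)
    {x : Fin n → ℝ} (hx : x ∈ Ω) (i : Fin n) :
    pd i (cutF Ω f S N W) x =
      (N * (max (S - f x) 0) ^ (N - 1)) * (- pd i f x) * W x + powP N (S - f x) * pd i W x := by
  have hev : cutF Ω f S N W =ᶠ[𝓝 x] fun y => powP N (S - f y) * W y := by
    filter_upwards [hΩ.mem_nhds hx] with y hy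
    simp [cutF, hy]
  rw [pd_congr hev]
  have hdf := diffAt hΩ hf hx
  have h1 : DifferentiableAt ℝ (fun y => S - f y) x := (differentiableAt_const S).sub hdf
  have hder := powP_hasDerivAt hN (S - f x)
  have h2 : pd i (fun y => powP N (S - f y)) x =
      (N * (max (S - f x) 0) ^ (N - 1)) * (- pd i f x) := by
    rw [pd_comp hder h1 i, pd_sub (differentiableAt_const S) hdf, pd_const]
    ring
  have h3 : DifferentiableAt ℝ (fun y => powP N (S - f y)) x :=
    DifferentiableAt.comp (g := powP N) (f := fun y => S - f y) x hder.differentiableAt h1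
  rw [pd_mul h3 (diffAt hΩ hW hx), h2]

lemma pd_cutF_of_notMem (hcpt : IsCompact (subLevelC Ω f S)) (hN : 2 ≤ N) {x : Fin n → ℝ}
    (hx : x ∉ Ω) (i : Fin n) : pd i (cutF Ω f S N W) x = 0 := by
  have hx' : x ∉ subLevelC Ω f S := fun h => hx h.1
  have hopen : (subLevelC Ω f S)ᶜ ∈ 𝓝 x := hcpt.isClosed.isOpen_compl.mem_nhds hx'
  have hev : cutF Ω f S N W =ᶠ[𝓝 x] fun _ => 0 := by
    filter_upwards [hopen] with y hy using cutF_zero hN hy
  rw [pd_congr hev, pd_const]

end Cut

/-- The integral of a partial derivative of a compactly supported `C¹` function vanishes. -/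
lemma integral_pd_C1 {F : (Fin n → ℝ) → ℝ} (hF : ContDiff ℝ 1 F) (hc : HasCompactSupport F)
    (i : Fin n) : Integrable (pd i F) ∧ ∫ x, pd i F x = 0 := by
  have hF1 : Continuous F := hF.continuous
  have hdF : Continuous (pd i F) := by
    have h : Continuous (fderiv ℝ F) := hF.continuous_fderiv (by simp)
    exact h.clm_apply continuous_const
  have hcd : HasCompactSupport (pd i F) := by
    have h := hc.fderiv (𝕜 := ℝ)
    exact h.comp_left (g := fun L : (Fin n → ℝ) →L[ℝ] ℝ => L (Pi.single i 1)) (by simp)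
  have hint : Integrable (pd i F) := hdF.integrable_of_hasCompactSupport hcd
  refine ⟨hint, ?_⟩
  have h := integral_mul_fderiv_eq_neg_fderiv_mul_of_integrable (μ := (volume : Measure (Fin n → ℝ)))
    (f := fun _ : Fin n → ℝ => (1 : ℝ)) (g := F) (v := Pi.single i 1)
    (by simp) (by simp only [one_mul]; exact hint)
    (by simpa using hF1.integrable_of_hasCompactSupport hc)
    (fun _ _ => differentiableAt_const _)
    (fun x _ => (hF.differentiable (by simp)) x)
  simpa [pd] using h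

namespace IsAffineMaximal

variable (hs : IsAffineMaximal Ω u) (hΩ : IsOpen Ω)
include hs hΩ

/-- The divergence of a raised field. -/
lemma div_ra {V : Fin n → (Fin n → ℝ) → ℝ} (hV : ∀ j, ContDiffOn ℝ ∞ (V j) Ω) {x : Fin n → ℝ}
    (hx : x ∈ Ω) : ∑ i, pd i (ra u V i) x = dv u V x - pa u (qF u) V x := by
  classical
  simp only [hs.pd_ra hΩ hV hx, Finset.sum_sub_distrib]
  congr 1
  unfold pa qF
  simp only [hs.pd_logD hΩ hx, Finset.sum_mul]
  calc ∑ i, ∑ l, ∑ m, Ui u x i l * A3 u x l m i * ra u V m x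
      = ∑ i, ∑ m, ∑ l, Ui u x i l * A3 u x l m i * ra u V m x :=
        Finset.sum_congr rfl fun i _ => Finset.sum_comm
    _ = ∑ m, ∑ i, ∑ l, Ui u x i l * A3 u x l m i * ra u V m x := Finset.sum_comm
    _ = _ := by
        refine Finset.sum_congr rfl fun m _ => Finset.sum_congr rfl fun i _ =>
          Finset.sum_congr rfl fun l _ => ?_
        have : A3 u x l m i = A3 u x i l m := by
          rw [hs.A3_swap23 hΩ hx l m i, hs.A3_swap12 hΩ hx l i m]
        rw [this]

lemma contDiffOn_detpow (β : ℝ) : ContDiffOn ℝ ∞ (fun y => (hess u y).det ^ β) Ω :=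
  (contDiffOn_detHess hΩ hs.smooth).rpow_const_of_ne fun y hy => hs.det_ne hy

lemma pd_detpow (β : ℝ) {x : Fin n → ℝ} (hx : x ∈ Ω) (i : Fin n) :
    pd i (fun y => (hess u y).det ^ β) x = β * (hess u x).det ^ β * pd i (logD u) x := by
  have hev : (fun y => (hess u y).det ^ β) =ᶠ[𝓝 x] fun y => Real.exp (β * logD u y) := by
    filter_upwards [hΩ.mem_nhds hx] with y hy
    rw [Real.rpow_def_of_pos (hs.det_pos hy), mul_comm]
    rfl
  rw [pd_congr hev]
  have hp := diffAt hΩ (hs.contDiffOn_logD hΩ) hx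
  have hd : DifferentiableAt ℝ (fun z => β * logD u z) x := (differentiableAt_const β).mul hp
  rw [pd_comp (g := Real.exp) (g' := Real.exp (β * logD u x)) (f := fun z => β * logD u z)
    (Real.hasDerivAt_exp _) hd i, pd_const_mul β hp]
  have : Real.exp (β * logD u x) = (hess u x).det ^ β := by
    rw [Real.rpow_def_of_pos (hs.det_pos hx), mul_comm]
    rfl
  rw [this]
  ring

/-- The integrand of the divergence identity for the covector field `V`. -/
noncomputable def fieldI (_hs : IsAffineMaximal Ω u) (x₀ : Fin n → ℝ) (β S : ℝ) (N : ℕ)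
    (V : Fin n → (Fin n → ℝ) → ℝ) : (Fin n → ℝ) → ℝ :=
  Set.indicator Ω fun y => (hess u y).det ^ β *
    (powP N (S - uBar u x₀ y) * (dv u V y + (β - 1) * pa u (qF u) V y) -
      (N * (max (S - uBar u x₀ y) 0) ^ (N - 1)) * pa u (XF u x₀) V y)

/-- The integrand is a divergence. -/
lemma fieldI_eq {V : Fin n → (Fin n → ℝ) → ℝ} (hV : ∀ j, ContDiffOn ℝ ∞ (V j) Ω) (β S : ℝ) {N : ℕ}
    (hN : 2 ≤ N) (hcpt : IsCompact (subLevelC Ω (uBar u x₀) S)) (x : Fin n → ℝ) :
    hs.fieldI x₀ β S N V x =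
      ∑ i, pd i (cutF Ω (uBar u x₀) S N (fun y => (hess u y).det ^ β * ra u V i y)) x := by
  classical
  by_cases hx : x ∈ Ω
  · have hf : ContDiffOn ℝ ∞ (uBar u x₀) Ω := hs.contDiffOn_uBar'
    have hWi : ∀ i, ContDiffOn ℝ ∞ (fun y => (hess u y).det ^ β * ra u V i y) Ω := fun i =>
      (hs.contDiffOn_detpow hΩ β).mul (hs.contDiffOn_ra hΩ hV i)
    simp only [pd_cutF hΩ hf hN (hWi _) hx]
    have h1 : ∀ i, pd i (fun y => (hess u y).det ^ β * ra u V i y) x =
        β * (hess u x).det ^ β * pd i (logD u) x * ra u V i x +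
          (hess u x).det ^ β * pd i (ra u V i) x := by
      intro i
      rw [pd_mul (diffAt hΩ (hs.contDiffOn_detpow hΩ β) hx) (hs.diffAt_ra hΩ hV i hx),
        hs.pd_detpow hΩ β hx]
    simp only [h1]
    have h2 : ∑ i, pd i (logD u) x * ra u V i x = pa u (qF u) V x := rfl
    have h3 : ∑ i, pd i (uBar u x₀) x * ra u V i x = pa u (XF u x₀) V x := rfl
    have h4 := hs.div_ra hΩ hV hx
    simp only [fieldI, Set.indicator_of_mem hx]
    rw [Finset.sum_add_distrib]
    have e1 : ∑ i, ((N : ℝ) * (max (S - uBar u x₀ x) 0) ^ (N - 1)) * (- pd i (uBar u x₀) x) *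
        ((hess u x).det ^ β * ra u V i x) =
        - ((N * (max (S - uBar u x₀ x) 0) ^ (N - 1)) * (hess u x).det ^ β *
          ∑ i, pd i (uBar u x₀) x * ra u V i x) := by
      rw [Finset.mul_sum, ← Finset.sum_neg_distrib]
      exact Finset.sum_congr rfl fun i _ => by ring
    have e2 : ∑ i, powP N (S - uBar u x₀ x) * (β * (hess u x).det ^ β * pd i (logD u) x *
        ra u V i x + (hess u x).det ^ β * pd i (ra u V i) x) =
        powP N (S - uBar u x₀ x) * (hess u x).det ^ β * (β * ∑ i, pd i (logD u) x * ra u V i x +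
          ∑ i, pd i (ra u V i) x) := by
      calc ∑ i, powP N (S - uBar u x₀ x) * (β * (hess u x).det ^ β * pd i (logD u) x *
            ra u V i x + (hess u x).det ^ β * pd i (ra u V i) x)
          = ∑ i, (powP N (S - uBar u x₀ x) * (hess u x).det ^ β * β *
              (pd i (logD u) x * ra u V i x) + powP N (S - uBar u x₀ x) * (hess u x).det ^ β *
              pd i (ra u V i) x) := Finset.sum_congr rfl fun i _ => by ring
        _ = powP N (S - uBar u x₀ x) * (hess u x).det ^ β * β *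
              ∑ i, pd i (logD u) x * ra u V i x + powP N (S - uBar u x₀ x) * (hess u x).det ^ β *
              ∑ i, pd i (ra u V i) x := by
            rw [Finset.sum_add_distrib, Finset.mul_sum, Finset.mul_sum]
        _ = _ := by ring
    rw [e1, e2, h2, h3, h4]
    ring
  · have hc : IsCompact (subLevelC Ω (uBar u x₀) S) := hcpt
    simp only [fieldI, Set.indicator_of_notMem hx, pd_cutF_of_notMem hc hN hx]
    simp

/-- The integrated divergence identity. -/
lemma fieldI_integral {V : Fin n → (Fin n → ℝ) → ℝ} (hV : ∀ j, ContDiffOn ℝ ∞ (V j) Ω) (β S : ℝ)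
    {N : ℕ} (hN : 2 ≤ N) (hcpt : IsCompact (subLevelC Ω (uBar u x₀) S)) :
    Integrable (hs.fieldI x₀ β S N V) ∧ ∫ x, hs.fieldI x₀ β S N V x = 0 := by
  classical
  have hf : ContDiffOn ℝ ∞ (uBar u x₀) Ω := hs.contDiffOn_uBar'
  have hWi : ∀ i, ContDiffOn ℝ ∞ (fun y => (hess u y).det ^ β * ra u V i y) Ω := fun i =>
    (hs.contDiffOn_detpow hΩ β).mul (hs.contDiffOn_ra hΩ hV i)
  have hpd : ∀ i, Integrable (pd i (cutF Ω (uBar u x₀) S N
      (fun y => (hess u y).det ^ β * ra u V i y))) ∧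
      ∫ x, pd i (cutF Ω (uBar u x₀) S N (fun y => (hess u y).det ^ β * ra u V i y)) x = 0 :=
    fun i => integral_pd_C1 (cutF_contDiff hΩ hf hcpt hN (hWi i)) (cutF_compact hcpt hN) i
  have e : hs.fieldI x₀ β S N V = fun x => ∑ i, pd i (cutF Ω (uBar u x₀) S N
      (fun y => (hess u y).det ^ β * ra u V i y)) x := by
    funext x
    exact hs.fieldI_eq hΩ hV β S hN hcpt x
  rw [e]
  refine ⟨integrable_finset_sum _ fun i _ => (hpd i).1, ?_⟩
  rw [integral_finset_sum _ fun i _ => (hpd i).1]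
  exact Finset.sum_eq_zero fun i _ => (hpd i).2

end IsAffineMaximal

end Vale.Agent.Lib.P252
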