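import Mathlib

/-!
The algebraic certificate (dimension three, exponent `β = 3/5`, cut-off exponent `m = 1000`):
the combination of the eleven divergence identities is bounded below by three squares of
tensors, plus a positive quadratic form in `(T, s H, s² G)`.
-/

namespace Vale.Agent.Lib.P252

/-- The top order part of the combination, as a polynomial in the atoms. -/
noncomputable def certTop (T H G pqq pqx pxx Aqqq Aqqx Aqxx Axxx HH HM HN MM MN NN s : ℝ) : ℝ :=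
    (6/25)*(2*pqq-Aqqq+(4/5)*T^2+(-2/5)*T^2-s*(T*H))
    + (-33/25)*(s*pqx-s*Aqqx+(2/5)*(s*H)*T-(999/1000)*(s*H)^2)
    + (59/25)*(-(s^2*Aqxx)+(2/5)*(s^2*G)*T-(499/500)*(s^2*G)*(s*H))
    + (-7/25)*(2*(s*pqx)-s*Aqqx+(-2/5)*T*(s*H)-(999/1000)*T*(s^2*G))
    + (42/25)*(s^2*pxx-s^2*Aqxx+(-2/5)*(s*H)^2-(499/500)*(s*H)*(s^2*G))
    + (-52/25)*(-(s^3*Axxx)+(-2/5)*(s^2*G)*(s*H)-(997/1000)*(s^2*G)^2)
    + (-37/50)*(pqq-MM+2*HM+(-2/5)*Aqqq-s*Aqqx)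
    + (36/25)*(s*pqx-s*MN+s*HN+(-2/5)*(s*Aqqx)-(999/1000)*(s^2*Aqxx))
    + (-59/25)*(s^2*pxx-s^2*NN+(-2/5)*(s^2*Aqxx)-(499/500)*(s^3*Axxx))
    + (1)*((8/5)*pqq-(4/5)*Aqqq+HH+(-2/5)*pqq-s*pqx)
    + (-14/25)*((8/5)*(s*pqx)-(4/5)*(s*Aqqx)+(-2/5)*(s*pqx)-(999/1000)*(s^2*pxx))

/-- The certificate: the Gram inequalities imply a lower bound for the top order part. -/
lemma cert_top (T H G pqq pqx pxx Aqqq Aqqx Aqxx Axxx HH HM HN MM MN NN s : ℝ)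
    (hgram : ∀ z1 z2 z3 z4 z5 z6 z7 : ℝ, 0 ≤ z1^2*HH+z2^2*MM+z3^2*NN+z4^2*T^2+z5^2*((T*G+H^2)/2)+z6^2*G^2+z7^2*3+2*z1*z2*HM+2*z1*z3*HN+2*z1*z4*pqq+2*z1*z5*pqx+2*z1*z6*pxx+2*z1*z7*((4/5)*T)+2*z2*z3*MN+2*z2*z4*Aqqq+2*z2*z5*Aqqx+2*z2*z6*Aqxx+2*z2*z7*T+2*z3*z4*Aqqx+2*z3*z5*Aqxx+2*z3*z6*Axxx+2*z3*z7*H+2*z4*z5*(T*H)+2*z4*z6*H^2+2*z4*z7*T+2*z5*z6*(H*G)+2*z5*z7*H+2*z6*z7*G) :
    (1/500) * (T + s^2*G)^2 ≤ certTop T H G pqq pqx pxx Aqqq Aqqx Aqxx Axxx HH HM HN MM MN NN s := by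
  have h1 := hgram (1) (-37/50) ((18/25)*s) (47/100) ((-132/125)*s) ((-1507/25000)*s^2) ((-9/50)*T+(1/10)*(s*H)+(1/25)*(s^2*G))
  have h2 := hgram (0) (1) ((-36/37)*s) (-121/962) ((807/2405)*s) ((-514859/240500)*s^2) ((-108/481)*T+(110/481)*(s*H)+(274/481)*(s^2*G))
  have h3 := hgram (0) (0) ((1)*s) (-943/15350) ((-9961/15350)*s) ((344153/307000)*s^2) ((51/3070)*T+(-313/3070)*(s*H)+(-557/1535)*(s^2*G))
  have h4 : 0 ≤ (582663/99775000)*(T+(279446/582663)*(s*H)+(-2364301/1165326)*(s^2*G))^2 + (11424805711321/290676004125000)*((s*H)+(198321162710/11424805711321)*(s^2*G))^2 + (60913217790862822973927/1139909989847052775000000)*(s^2*G)^2 := by positivity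
  unfold certTop
  linarith [mul_le_mul_of_nonneg_left h1 (show (0:ℝ) ≤ (1) by norm_num), mul_le_mul_of_nonneg_left h2 (show (0:ℝ) ≤ (481/2500) by norm_num), mul_le_mul_of_nonneg_left h3 (show (0:ℝ) ≤ (307/185) by norm_num), h4]

/-- Absorbing the lower order terms. -/
lemma cert_scalar (T Gt Ht s Y F0 : ℝ) (hT : 0 ≤ T) (hG : 0 ≤ Gt) (hH : Ht^2 ≤ T*Gt) (hs : 0 ≤ s)
    (hY : Y = T + Gt) (h0 : (1/500) * Y^2 ≤ F0) :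
    (1/1000) * T^2 - 49000 * s^2 ≤ F0 + s * ((-146/125) * T + (168/25) * Ht + (-52/5) * Gt) := by
  have hY0 : 0 ≤ Y := by rw [hY]; positivity
  have hHa : |Ht| ≤ Y/2 := by
    apply abs_le_of_sq_le_sq _ (by positivity)
    rw [hY]
    nlinarith [sq_nonneg (T - Gt)]
  have h1 := abs_le.1 hHa
  have hb : -(14 * Y) ≤ (-146/125) * T + (168/25) * Ht + (-52/5) * Gt := by
    rw [hY] at h1 ⊢
    nlinarith [h1.1, h1.2]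
  have hb2 : s * (-(14 * Y)) ≤ s * ((-146/125) * T + (168/25) * Ht + (-52/5) * Gt) :=
    mul_le_mul_of_nonneg_left hb hs
  have hT2 : T^2 ≤ Y^2 := by
    rw [hY]
    nlinarith
  nlinarith [sq_nonneg (Y - 7000 * s)]

/-- The certificate including the lower order terms. -/
lemma cert_full (T H G pqq pqx pxx Aqqq Aqqx Aqxx Axxx HH HM HN MM MN NN s : ℝ)
    (hgram : ∀ z1 z2 z3 z4 z5 z6 z7 : ℝ, 0 ≤ z1^2*HH+z2^2*MM+z3^2*NN+z4^2*T^2+z5^2*((T*G+H^2)/2)+z6^2*G^2+z7^2*3+2*z1*z2*HM+2*z1*z3*HN+2*z1*z4*pqq+2*z1*z5*pqx+2*z1*z6*pxx+2*z1*z7*((4/5)*T)+2*z2*z3*MN+2*z2*z4*Aqqq+2*z2*z5*Aqqx+2*z2*z6*Aqxx+2*z2*z7*T+2*z3*z4*Aqqx+2*z3*z5*Aqxx+2*z3*z6*Axxx+2*z3*z7*H+2*z4*z5*(T*H)+2*z4*z6*H^2+2*z4*z7*T+2*z5*z6*(H*G)+2*z5*z7*H+2*z6*z7*G)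
    (hT : 0 ≤ T) (hG : 0 ≤ G) (hHG : H^2 ≤ T*G) (hs : 0 ≤ s) :
    (1/1000) * T^2 - 49000 * s^2 ≤ certTop T H G pqq pqx pxx Aqqq Aqqx Aqxx Axxx HH HM HN MM MN NN s +
      s * ((-146/125) * T + (168/25) * (s * H) + (-52/5) * (s^2 * G)) := by
  refine cert_scalar T (s^2*G) (s*H) s (T + s^2*G) _ hT (by positivity) ?_ hs rfl
    (cert_top T H G pqq pqx pxx Aqqq Aqqx Aqxx Axxx HH HM HN MM MN NN s hgram)
  calc (s*H)^2 = s^2 * H^2 := by ring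
    _ ≤ s^2 * (T*G) := mul_le_mul_of_nonneg_left hHG (sq_nonneg s)
    _ = T * (s^2*G) := by ring

end Vale.Agent.Lib.P252
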