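import Vale.Agent.Lib.P252.Hess7
import Vale.Agent.Lib.P252.Hess8

/-!
The pointwise inequality for the combination of the eleven divergence identities in dimension three.
-/

open scoped ContDiff Matrix Topology
open MeasureTheory

namespace Vale.Agent.Lib.P252

variable {Ω : Set (Fin 3 → ℝ)} {u : (Fin 3 → ℝ) → ℝ} {x₀ : Fin 3 → ℝ}

lemma cN_three : cN 3 = 4/5 := by norm_num [cN]

lemma term0 (η Θ Ξ : ℝ) (hη : 0 < η) :
    η^1000*Θ - 1000*η^999*Ξ = η^1000*(Θ - (1000/η)*Ξ) := by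
  have e : η^1000 = η^999*η := by ring
  rw [e]
  field_simp

lemma term1 (η Θ Ξ : ℝ) (hη : 0 < η) :
    1000*(η^999*Θ - 999*η^998*Ξ) = η^1000*((1000/η)*Θ - (999/1000)*(1000/η)^2*Ξ) := by
  have e : η^1000 = η^998*η^2 := by ring
  have e2 : η^999 = η^998*η := by ring
  rw [e, e2]
  field_simp

lemma term2 (η Θ Ξ : ℝ) (hη : 0 < η) :
    1000000*(η^998*Θ - 998*η^997*Ξ) = η^1000*((1000/η)^2*Θ - (499/500)*(1000/η)^3*Ξ) := by
  have e : η^1000 = η^997*η^3 := by ring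
  have e2 : η^998 = η^997*η := by ring
  rw [e, e2]
  field_simp
  ring

lemma term3 (η Θ Ξ : ℝ) (hη : 0 < η) :
    1000000000*(η^997*Θ - 997*η^996*Ξ) = η^1000*((1000/η)^3*Θ - (997/1000)*(1000/η)^4*Ξ) := by
  have e : η^1000 = η^996*η^4 := by ring
  have e2 : η^997 = η^996*η := by ring
  rw [e, e2]
  field_simp
  ring

/-- The algebraic form of the combination of the eleven identities. -/
lemma comb_alg (T H G pqq pqx pxx Aqqq Aqqx Aqxx Axxx HH HM HN MM MN NN η D : ℝ) (hη : 0 < η) :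
    (6/25)*(D*(η^1000*((2*pqq-Aqqq+(4/5)*T^2)+(3/5-1)*(T*T))-1000*η^999*(T*H)))
    +(-33/25*1000)*(D*(η^999*((pqx+T-Aqqx+(4/5)*(H*T))+(3/5-1)*(H*T))-999*η^998*(H*H)))
    +(59/25*1000000)*(D*(η^998*((2*H-Aqxx+(4/5)*(G*T))+(3/5-1)*(G*T))-998*η^997*(G*H)))
    +(-7/25*1000)*(D*(η^999*((2*pqx-Aqqx+3*T)+(3/5-1)*(T*H))-999*η^998*(T*G)))
    +(42/25*1000000)*(D*(η^998*((pxx+H-Aqxx+3*H)+(3/5-1)*(H*H))-998*η^997*(H*G)))
    +(-52/25*1000000000)*(D*(η^997*((2*G-Axxx+3*G)+(3/5-1)*(G*H))-997*η^996*(G*G)))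
    +(-37/50)*(D*(η^1000*((pqq-MM+2*HM)+(3/5-1)*Aqqq)-1000*η^999*Aqqx))
    +(36/25*1000)*(D*(η^999*((pqx-MN+HN+T)+(3/5-1)*Aqqx)-999*η^998*Aqxx))
    +(-59/25*1000000)*(D*(η^998*((pxx-NN+2*H)+(3/5-1)*Aqxx)-998*η^997*Axxx))
    +1*(D*(η^1000*((2*(4/5)*pqq-(4/5)*Aqqq+HH)+(3/5-1)*pqq)-1000*η^999*pqx))
    +(-14/25*1000)*(D*(η^999*((2*(4/5)*pqx-(4/5)*Aqqx+(4/5)*T)+(3/5-1)*pqx)-999*η^998*pxx))
    = D*η^1000*(certTop T H G pqq pqx pxx Aqqq Aqqx Aqxx Axxx HH HM HN MM MN NN (1000/η) +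
        (1000/η)*((-146/125)*T+(168/25)*((1000/η)*H)+(-52/5)*((1000/η)^2*G))) := by
  have t1 := term0 η ((2*pqq-Aqqq+(4/5)*T^2)+(3/5-1)*(T*T)) (T*H) hη
  have t2 := term1 η ((pqx+T-Aqqx+(4/5)*(H*T))+(3/5-1)*(H*T)) (H*H) hη
  have t3 := term2 η ((2*H-Aqxx+(4/5)*(G*T))+(3/5-1)*(G*T)) (G*H) hη
  have t4 := term1 η ((2*pqx-Aqqx+3*T)+(3/5-1)*(T*H)) (T*G) hη
  have t5 := term2 η ((pxx+H-Aqxx+3*H)+(3/5-1)*(H*H)) (H*G) hη
  have t6 := term3 η ((2*G-Axxx+3*G)+(3/5-1)*(G*H)) (G*G) hη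
  have t7 := term0 η ((pqq-MM+2*HM)+(3/5-1)*Aqqq) Aqqx hη
  have t8 := term1 η ((pqx-MN+HN+T)+(3/5-1)*Aqqx) Aqxx hη
  have t9 := term2 η ((pxx-NN+2*H)+(3/5-1)*Aqxx) Axxx hη
  have t10 := term0 η ((2*(4/5)*pqq-(4/5)*Aqqq+HH)+(3/5-1)*pqq) pqx hη
  have t11 := term1 η ((2*(4/5)*pqx-(4/5)*Aqqx+(4/5)*T)+(3/5-1)*pqx) pxx hη
  generalize 1000/η = s at *
  unfold certTop
  linear_combination ((6/25)*D)*t1 + ((-33/25)*D)*t2 + ((59/25)*D)*t3 + ((-7/25)*D)*t4 +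
    ((42/25)*D)*t5 + ((-52/25)*D)*t6 + ((-37/50)*D)*t7 + ((36/25)*D)*t8 + ((-59/25)*D)*t9 +
    D*t10 + ((-14/25)*D)*t11

namespace IsAffineMaximal

variable (hs : IsAffineMaximal Ω u) (hΩ : IsOpen Ω)

/-- The integrand of the identity, on the set where the cut-off is positive. -/
lemma fieldI_pos (x₀ : Fin 3 → ℝ) (β S : ℝ) (N : ℕ) (V : Fin 3 → (Fin 3 → ℝ) → ℝ)
    {x : Fin 3 → ℝ} (hx : x ∈ Ω) (hη : 0 < S - uBar u x₀ x) :
    hs.fieldI x₀ β S (N + 1) V x = (hess u x).det ^ β *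
      ((S - uBar u x₀ x) ^ (N + 1) * (dv u V x + (β - 1) * pa u (qF u) V x) -
        ((N : ℝ) + 1) * (S - uBar u x₀ x) ^ N * pa u (XF u x₀) V x) := by
  simp only [fieldI, Set.indicator_of_mem hx, powP, max_eq_left hη.le, Nat.add_sub_cancel]
  push_cast
  rfl

/-- The integrand vanishes where the cut-off vanishes. -/
lemma fieldI_neg (x₀ : Fin 3 → ℝ) (β S : ℝ) (N : ℕ) (V : Fin 3 → (Fin 3 → ℝ) → ℝ)
    {x : Fin 3 → ℝ} (hη : S - uBar u x₀ x ≤ 0) :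
    hs.fieldI x₀ β S (N + 2) V x = 0 := by
  by_cases hx : x ∈ Ω
  · simp [fieldI, Set.indicator_of_mem hx, powP, max_eq_right hη]
  · simp [fieldI, Set.indicator_of_notMem hx]

/-- The combination of the eleven integrands. -/
noncomputable def combI (x₀ : Fin 3 → ℝ) (S : ℝ) (x : Fin 3 → ℝ) : ℝ :=
  (6/25) * hs.fieldI x₀ (3/5) S 1000 (fun j y => aT u y * qF u j y) x
  + (-33/25*1000) * hs.fieldI x₀ (3/5) S 999 (fun j y => aH u x₀ y * qF u j y) x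
  + (59/25*1000000) * hs.fieldI x₀ (3/5) S 998 (fun j y => aG u x₀ y * qF u j y) x
  + (-7/25*1000) * hs.fieldI x₀ (3/5) S 999 (fun j y => aT u y * XF u x₀ j y) x
  + (42/25*1000000) * hs.fieldI x₀ (3/5) S 998 (fun j y => aH u x₀ y * XF u x₀ j y) x
  + (-52/25*1000000000) * hs.fieldI x₀ (3/5) S 997 (fun j y => aG u x₀ y * XF u x₀ j y) x
  + (-37/50) * hs.fieldI x₀ (3/5) S 1000 (Ah u (qF u) (qF u)) x
  + (36/25*1000) * hs.fieldI x₀ (3/5) S 999 (Ah u (qF u) (XF u x₀)) x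
  + (-59/25*1000000) * hs.fieldI x₀ (3/5) S 998 (Ah u (XF u x₀) (XF u x₀)) x
  + 1 * hs.fieldI x₀ (3/5) S 1000 (ph u (qF u)) x
  + (-14/25*1000) * hs.fieldI x₀ (3/5) S 999 (ph u (XF u x₀)) x

include hs

omit hΩ in
lemma pa_self_nonneg (a : Fin 3 → (Fin 3 → ℝ) → ℝ) {x : Fin 3 → ℝ} (hx : x ∈ Ω) :
    0 ≤ pa u a a x := by
  have h := Qv_nonneg (hs.posDef x hx).inv (fun i => a i x)
  have e : Qv (hess u x)⁻¹ (fun i => a i x) (fun i => a i x) = pa u a a x := by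
    unfold Qv pa ra
    refine Finset.sum_congr rfl fun i _ => ?_
    rw [Finset.mul_sum]
    refine Finset.sum_congr rfl fun j _ => ?_
    simp only [Ui]
    ring
  rwa [e] at h

omit hs hΩ in
lemma ra_add_smul (b c : Fin 3 → (Fin 3 → ℝ) → ℝ) (t : ℝ) (k : Fin 3) (y : Fin 3 → ℝ) :
    ra u (fun i y => b i y + t * c i y) k y = ra u b k y + t * ra u c k y := by
  unfold ra
  rw [Finset.mul_sum, ← Finset.sum_add_distrib]
  exact Finset.sum_congr rfl fun j _ => by ring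

omit hs hΩ in
lemma pa_add_smul_right (a b c : Fin 3 → (Fin 3 → ℝ) → ℝ) (t : ℝ) (x : Fin 3 → ℝ) :
    pa u a (fun i y => b i y + t * c i y) x = pa u a b x + t * pa u a c x := by
  unfold pa
  simp_rw [ra_add_smul]
  rw [Finset.mul_sum, ← Finset.sum_add_distrib]
  exact Finset.sum_congr rfl fun j _ => by ring

omit hs hΩ in
lemma pa_add_smul_left (a b c : Fin 3 → (Fin 3 → ℝ) → ℝ) (t : ℝ) (x : Fin 3 → ℝ) :
    pa u (fun i y => b i y + t * c i y) a x = pa u b a x + t * pa u c a x := by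
  unfold pa
  rw [Finset.mul_sum, ← Finset.sum_add_distrib]
  exact Finset.sum_congr rfl fun j _ => by ring

omit hΩ in
/-- The Cauchy-Schwarz inequality for the pairing. -/
lemma pa_sq_le (a b : Fin 3 → (Fin 3 → ℝ) → ℝ) {x : Fin 3 → ℝ} (hx : x ∈ Ω) :
    pa u a b x ^ 2 ≤ pa u a a x * pa u b b x := by
  have hall : ∀ t : ℝ, 0 ≤ pa u b b x * (t * t) + (2 * pa u a b x) * t + pa u a a x := by
    intro t
    have h := hs.pa_self_nonneg (fun i y => a i y + t * b i y) hx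
    rw [pa_add_smul_left, pa_add_smul_right, pa_add_smul_right, hs.pa_symm b a hx] at h
    nlinarith [h]
  have h := discrim_le_zero hall
  unfold discrim at h
  nlinarith

include hΩ

/-- The value of the first integrand. -/
lemma fI1 {x : Fin 3 → ℝ} (hx : x ∈ Ω) (S : ℝ) (hη : 0 < S - uBar u x₀ x) :
    hs.fieldI x₀ (3/5) S 1000 (fun j y => aT u y * qF u j y) x =
      (hess u x).det ^ (3/5 : ℝ) * ((S - uBar u x₀ x) ^ 1000 *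
        ((2 * apqq u x - aAqqq u x + (4/5) * aT u x ^ 2) + (3/5 - 1) * (aT u x * aT u x)) -
        1000 * (S - uBar u x₀ x) ^ 999 * (aT u x * aH u x₀ x)) := by
  have e1 := hs.fieldI_pos x₀ (3/5) S 999 (fun j y => aT u y * qF u j y) hx hη
  have hHs : pa u (XF u x₀) (qF u) x = aH u x₀ x := hs.pa_symm _ _ hx
  have p1q : pa u (qF u) (fun j y => aT u y * qF u j y) x = aT u x * aT u x := by
    rw [pa_f_mul hs hΩ]; rfl
  have p1x : pa u (XF u x₀) (fun j y => aT u y * qF u j y) x = aT u x * aH u x₀ x := by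
    rw [pa_f_mul hs hΩ, hHs]
  rw [hs.dv_V1 hΩ hx, p1q, p1x, cN_three] at e1
  have n1 : ((999 : ℕ) : ℝ) + 1 = 1000 := by norm_num
  rw [n1] at e1
  exact e1

lemma fI2 {x : Fin 3 → ℝ} (hx : x ∈ Ω) (S : ℝ) (hη : 0 < S - uBar u x₀ x) :
    hs.fieldI x₀ (3/5) S 999 (fun j y => aH u x₀ y * qF u j y) x =
      (hess u x).det ^ (3/5 : ℝ) * ((S - uBar u x₀ x) ^ 999 *
        ((apqx u x₀ x + aT u x - aAqqx u x₀ x + (4/5) * (aH u x₀ x * aT u x)) + (3/5 - 1) * (aH u x₀ x * aT u x)) -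
        999 * (S - uBar u x₀ x) ^ 998 * (aH u x₀ x * aH u x₀ x)) := by
  have e1 := hs.fieldI_pos x₀ (3/5) S 998 (fun j y => aH u x₀ y * qF u j y) hx hη
  have hHs : pa u (XF u x₀) (qF u) x = aH u x₀ x := hs.pa_symm _ _ hx
  have p1q : pa u (qF u) (fun j y => aH u x₀ y * qF u j y) x = aH u x₀ x * aT u x := by
    rw [pa_f_mul hs hΩ]; rfl
  have p1x : pa u (XF u x₀) (fun j y => aH u x₀ y * qF u j y) x = aH u x₀ x * aH u x₀ x := by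
    rw [pa_f_mul hs hΩ, hHs]
  rw [hs.dv_V2 hΩ hx, p1q, p1x, cN_three] at e1
  have n1 : ((998 : ℕ) : ℝ) + 1 = 999 := by norm_num
  rw [n1] at e1
  exact e1

lemma fI3 {x : Fin 3 → ℝ} (hx : x ∈ Ω) (S : ℝ) (hη : 0 < S - uBar u x₀ x) :
    hs.fieldI x₀ (3/5) S 998 (fun j y => aG u x₀ y * qF u j y) x =
      (hess u x).det ^ (3/5 : ℝ) * ((S - uBar u x₀ x) ^ 998 *
        ((2 * aH u x₀ x - aAqxx u x₀ x + (4/5) * (aG u x₀ x * aT u x)) + (3/5 - 1) * (aG u x₀ x * aT u x)) -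
        998 * (S - uBar u x₀ x) ^ 997 * (aG u x₀ x * aH u x₀ x)) := by
  have e1 := hs.fieldI_pos x₀ (3/5) S 997 (fun j y => aG u x₀ y * qF u j y) hx hη
  have hHs : pa u (XF u x₀) (qF u) x = aH u x₀ x := hs.pa_symm _ _ hx
  have p1q : pa u (qF u) (fun j y => aG u x₀ y * qF u j y) x = aG u x₀ x * aT u x := by
    rw [pa_f_mul hs hΩ]; rfl
  have p1x : pa u (XF u x₀) (fun j y => aG u x₀ y * qF u j y) x = aG u x₀ x * aH u x₀ x := by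
    rw [pa_f_mul hs hΩ, hHs]
  rw [hs.dv_V3 hΩ hx, p1q, p1x, cN_three] at e1
  have n1 : ((997 : ℕ) : ℝ) + 1 = 998 := by norm_num
  rw [n1] at e1
  exact e1

lemma fI4 {x : Fin 3 → ℝ} (hx : x ∈ Ω) (S : ℝ) (hη : 0 < S - uBar u x₀ x) :
    hs.fieldI x₀ (3/5) S 999 (fun j y => aT u y * XF u x₀ j y) x =
      (hess u x).det ^ (3/5 : ℝ) * ((S - uBar u x₀ x) ^ 999 *
        ((2 * apqx u x₀ x - aAqqx u x₀ x + 3 * aT u x) + (3/5 - 1) * (aT u x * aH u x₀ x)) -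
        999 * (S - uBar u x₀ x) ^ 998 * (aT u x * aG u x₀ x)) := by
  have e1 := hs.fieldI_pos x₀ (3/5) S 998 (fun j y => aT u y * XF u x₀ j y) hx hη
  have p1q : pa u (qF u) (fun j y => aT u y * XF u x₀ j y) x = aT u x * aH u x₀ x := by
    rw [pa_f_mul hs hΩ]; rfl
  have p1x : pa u (XF u x₀) (fun j y => aT u y * XF u x₀ j y) x = aT u x * aG u x₀ x := by
    rw [pa_f_mul hs hΩ]; rfl
  rw [hs.dv_V4 hΩ hx, p1q, p1x] at e1
  have n1 : ((998 : ℕ) : ℝ) + 1 = 999 := by norm_num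
  have c3 : ((3 : ℕ) : ℝ) = 3 := by norm_num
  rw [n1, c3] at e1
  exact e1

lemma fI5 {x : Fin 3 → ℝ} (hx : x ∈ Ω) (S : ℝ) (hη : 0 < S - uBar u x₀ x) :
    hs.fieldI x₀ (3/5) S 998 (fun j y => aH u x₀ y * XF u x₀ j y) x =
      (hess u x).det ^ (3/5 : ℝ) * ((S - uBar u x₀ x) ^ 998 *
        ((apxx u x₀ x + aH u x₀ x - aAqxx u x₀ x + 3 * aH u x₀ x) + (3/5 - 1) * (aH u x₀ x * aH u x₀ x)) -
        998 * (S - uBar u x₀ x) ^ 997 * (aH u x₀ x * aG u x₀ x)) := by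
  have e1 := hs.fieldI_pos x₀ (3/5) S 997 (fun j y => aH u x₀ y * XF u x₀ j y) hx hη
  have p1q : pa u (qF u) (fun j y => aH u x₀ y * XF u x₀ j y) x = aH u x₀ x * aH u x₀ x := by
    rw [pa_f_mul hs hΩ]; rfl
  have p1x : pa u (XF u x₀) (fun j y => aH u x₀ y * XF u x₀ j y) x = aH u x₀ x * aG u x₀ x := by
    rw [pa_f_mul hs hΩ]; rfl
  rw [hs.dv_V5 hΩ hx, p1q, p1x] at e1
  have n1 : ((997 : ℕ) : ℝ) + 1 = 998 := by norm_num
  have c3 : ((3 : ℕ) : ℝ) = 3 := by norm_num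
  rw [n1, c3] at e1
  exact e1

lemma fI6 {x : Fin 3 → ℝ} (hx : x ∈ Ω) (S : ℝ) (hη : 0 < S - uBar u x₀ x) :
    hs.fieldI x₀ (3/5) S 997 (fun j y => aG u x₀ y * XF u x₀ j y) x =
      (hess u x).det ^ (3/5 : ℝ) * ((S - uBar u x₀ x) ^ 997 *
        ((2 * aG u x₀ x - aAxxx u x₀ x + 3 * aG u x₀ x) + (3/5 - 1) * (aG u x₀ x * aH u x₀ x)) -
        997 * (S - uBar u x₀ x) ^ 996 * (aG u x₀ x * aG u x₀ x)) := by
  have e1 := hs.fieldI_pos x₀ (3/5) S 996 (fun j y => aG u x₀ y * XF u x₀ j y) hx hη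
  have p1q : pa u (qF u) (fun j y => aG u x₀ y * XF u x₀ j y) x = aG u x₀ x * aH u x₀ x := by
    rw [pa_f_mul hs hΩ]; rfl
  have p1x : pa u (XF u x₀) (fun j y => aG u x₀ y * XF u x₀ j y) x = aG u x₀ x * aG u x₀ x := by
    rw [pa_f_mul hs hΩ]; rfl
  rw [hs.dv_V6 hΩ hx, p1q, p1x] at e1
  have n1 : ((996 : ℕ) : ℝ) + 1 = 997 := by norm_num
  have c3 : ((3 : ℕ) : ℝ) = 3 := by norm_num
  rw [n1, c3] at e1
  exact e1

lemma fI7 {x : Fin 3 → ℝ} (hx : x ∈ Ω) (S : ℝ) (hη : 0 < S - uBar u x₀ x) :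
    hs.fieldI x₀ (3/5) S 1000 (Ah u (qF u) (qF u)) x =
      (hess u x).det ^ (3/5 : ℝ) * ((S - uBar u x₀ x) ^ 1000 *
        ((apqq u x - aMM u x + 2 * aHM u x) + (3/5 - 1) * aAqqq u x) -
        1000 * (S - uBar u x₀ x) ^ 999 * aAqqx u x₀ x) := by
  have e1 := hs.fieldI_pos x₀ (3/5) S 999 (Ah u (qF u) (qF u)) hx hη
  have p7q : pa u (qF u) (Ah u (qF u) (qF u)) x = aAqqq u x := hs.pa_Ah hΩ _ _ _ hx
  have p7x : pa u (XF u x₀) (Ah u (qF u) (qF u)) x = aAqqx u x₀ x := by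
    rw [hs.pa_Ah hΩ _ _ _ hx]
    exact hs.Bl_Ma_swap' hΩ (XF u x₀) (qF u) (qF u) hx
  rw [hs.dv_V7 hΩ hx, p7q, p7x] at e1
  have n1 : ((999 : ℕ) : ℝ) + 1 = 1000 := by norm_num
  rw [n1] at e1
  exact e1

lemma fI8 {x : Fin 3 → ℝ} (hx : x ∈ Ω) (S : ℝ) (hη : 0 < S - uBar u x₀ x) :
    hs.fieldI x₀ (3/5) S 999 (Ah u (qF u) (XF u x₀)) x =
      (hess u x).det ^ (3/5 : ℝ) * ((S - uBar u x₀ x) ^ 999 *
        ((apqx u x₀ x - aMN u x₀ x + aHN u x₀ x + aT u x) + (3/5 - 1) * aAqqx u x₀ x) -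
        999 * (S - uBar u x₀ x) ^ 998 * aAqxx u x₀ x) := by
  have e1 := hs.fieldI_pos x₀ (3/5) S 998 (Ah u (qF u) (XF u x₀)) hx hη
  have p8q : pa u (qF u) (Ah u (qF u) (XF u x₀)) x = aAqqx u x₀ x := hs.pa_Ah hΩ _ _ _ hx
  have p8x : pa u (XF u x₀) (Ah u (qF u) (XF u x₀)) x = aAqxx u x₀ x := by
    rw [hs.pa_Ah hΩ _ _ _ hx]
    exact hs.Bl_Ma_swap hΩ (XF u x₀) (qF u) (XF u x₀) hx
  rw [hs.dv_V8 hΩ hx, p8q, p8x] at e1
  have n1 : ((998 : ℕ) : ℝ) + 1 = 999 := by norm_num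
  rw [n1] at e1
  exact e1

lemma fI9 {x : Fin 3 → ℝ} (hx : x ∈ Ω) (S : ℝ) (hη : 0 < S - uBar u x₀ x) :
    hs.fieldI x₀ (3/5) S 998 (Ah u (XF u x₀) (XF u x₀)) x =
      (hess u x).det ^ (3/5 : ℝ) * ((S - uBar u x₀ x) ^ 998 *
        ((apxx u x₀ x - aNN u x₀ x + 2 * aH u x₀ x) + (3/5 - 1) * aAqxx u x₀ x) -
        998 * (S - uBar u x₀ x) ^ 997 * aAxxx u x₀ x) := by
  have e1 := hs.fieldI_pos x₀ (3/5) S 997 (Ah u (XF u x₀) (XF u x₀)) hx hη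
  have p9q : pa u (qF u) (Ah u (XF u x₀) (XF u x₀)) x = aAqxx u x₀ x := by
    rw [hs.pa_Ah hΩ _ _ _ hx]
    exact hs.Bl_Ma_swap' hΩ (qF u) (XF u x₀) (XF u x₀) hx
  have p9x : pa u (XF u x₀) (Ah u (XF u x₀) (XF u x₀)) x = aAxxx u x₀ x := hs.pa_Ah hΩ _ _ _ hx
  rw [hs.dv_V9 hΩ hx, p9q, p9x] at e1
  have n1 : ((997 : ℕ) : ℝ) + 1 = 998 := by norm_num
  rw [n1] at e1
  exact e1

lemma fI10 {x : Fin 3 → ℝ} (hx : x ∈ Ω) (S : ℝ) (hη : 0 < S - uBar u x₀ x) :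
    hs.fieldI x₀ (3/5) S 1000 (ph u (qF u)) x =
      (hess u x).det ^ (3/5 : ℝ) * ((S - uBar u x₀ x) ^ 1000 *
        ((2 * (4/5) * apqq u x - (4/5) * aAqqq u x + aHH u x) + (3/5 - 1) * apqq u x) -
        1000 * (S - uBar u x₀ x) ^ 999 * apqx u x₀ x) := by
  have e1 := hs.fieldI_pos x₀ (3/5) S 999 (ph u (qF u)) hx hη
  have p10q : pa u (qF u) (ph u (qF u)) x = apqq u x := hs.pa_ph hΩ _ _ hx
  have p10x : pa u (XF u x₀) (ph u (qF u)) x = apqx u x₀ x := by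
    rw [hs.pa_ph hΩ _ _ hx]
    exact Bl_symm_of (hs.Hp_symm hΩ hx) _ _ x
  rw [hs.dv_V10 hΩ hx, p10q, p10x, cN_three] at e1
  have n1 : ((999 : ℕ) : ℝ) + 1 = 1000 := by norm_num
  rw [n1] at e1
  exact e1

lemma fI11 {x : Fin 3 → ℝ} (hx : x ∈ Ω) (S : ℝ) (hη : 0 < S - uBar u x₀ x) :
    hs.fieldI x₀ (3/5) S 999 (ph u (XF u x₀)) x =
      (hess u x).det ^ (3/5 : ℝ) * ((S - uBar u x₀ x) ^ 999 *
        ((2 * (4/5) * apqx u x₀ x - (4/5) * aAqqx u x₀ x + (4/5) * aT u x) + (3/5 - 1) * apqx u x₀ x) -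
        999 * (S - uBar u x₀ x) ^ 998 * apxx u x₀ x) := by
  have e1 := hs.fieldI_pos x₀ (3/5) S 998 (ph u (XF u x₀)) hx hη
  have p11q : pa u (qF u) (ph u (XF u x₀)) x = apqx u x₀ x := hs.pa_ph hΩ _ _ hx
  have p11x : pa u (XF u x₀) (ph u (XF u x₀)) x = apxx u x₀ x := hs.pa_ph hΩ _ _ hx
  rw [hs.dv_V11 hΩ hx, p11q, p11x, cN_three] at e1
  have n1 : ((998 : ℕ) : ℝ) + 1 = 999 := by norm_num
  rw [n1] at e1
  exact e1

/-- The combination in terms of the certificate. -/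
lemma combI_eq {x : Fin 3 → ℝ} (hx : x ∈ Ω) (S : ℝ) (hη : 0 < S - uBar u x₀ x) :
    hs.combI x₀ S x = (hess u x).det ^ (3/5 : ℝ) * (S - uBar u x₀ x) ^ 1000 *
      (certTop (aT u x) (aH u x₀ x) (aG u x₀ x)
      (apqq u x) (apqx u x₀ x) (apxx u x₀ x) (aAqqq u x) (aAqqx u x₀ x) (aAqxx u x₀ x)
      (aAxxx u x₀ x) (aHH u x) (aHM u x) (aHN u x₀ x) (aMM u x) (aMN u x₀ x) (aNN u x₀ x)
      (1000 / (S - uBar u x₀ x)) + (1000 / (S - uBar u x₀ x)) * ((-146/125) * aT u x +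
        (168/25) * ((1000 / (S - uBar u x₀ x)) * aH u x₀ x) +
        (-52/5) * ((1000 / (S - uBar u x₀ x)) ^ 2 * aG u x₀ x))) := by
  rw [← comb_alg _ _ _ _ _ _ _ _ _ _ _ _ _ _ _ _ _ _ hη]
  unfold combI
  rw [hs.fI1 hΩ hx S hη, hs.fI2 hΩ hx S hη, hs.fI3 hΩ hx S hη, hs.fI4 hΩ hx S hη,
    hs.fI5 hΩ hx S hη, hs.fI6 hΩ hx S hη, hs.fI7 hΩ hx S hη, hs.fI8 hΩ hx S hη,
    hs.fI9 hΩ hx S hη, hs.fI10 hΩ hx S hη, hs.fI11 hΩ hx S hη]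

omit hs hΩ in
lemma final_alg (D η T : ℝ) (hη : 0 < η) :
    (1/1000) * (D * (η ^ 1000 * T ^ 2)) - 49000000000 * (D * η ^ 998) =
      D * η ^ 1000 * ((1/1000) * T ^ 2 - 49000 * (1000 / η) ^ 2) := by
  have h : η ^ 1000 * (1000 / η) ^ 2 = 1000000 * η ^ 998 := by
    have e : η ^ 1000 = η ^ 998 * η ^ 2 := by ring
    rw [e]
    field_simp
    norm_num
  linear_combination (49000 * D) * h

/-- The lower bound for the combination on the set where the cut-off is positive. -/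
lemma combI_lower_pos {x : Fin 3 → ℝ} (hx : x ∈ Ω) (S : ℝ) (hη : 0 < S - uBar u x₀ x) :
    (1/1000) * ((hess u x).det ^ (3/5 : ℝ) * ((S - uBar u x₀ x) ^ 1000 * aT u x ^ 2)) -
      49000000000 * ((hess u x).det ^ (3/5 : ℝ) * (S - uBar u x₀ x) ^ 998) ≤
      hs.combI x₀ S x := by
  have hD0 : 0 < (hess u x).det ^ (3/5 : ℝ) := Real.rpow_pos_of_pos (hs.det_pos hx) _
  have hc := cert_full (aT u x) (aH u x₀ x) (aG u x₀ x)
      (apqq u x) (apqx u x₀ x) (apxx u x₀ x) (aAqqq u x) (aAqqx u x₀ x) (aAqxx u x₀ x)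
      (aAxxx u x₀ x) (aHH u x) (aHM u x) (aHN u x₀ x) (aMM u x) (aMN u x₀ x) (aNN u x₀ x)
      (1000 / (S - uBar u x₀ x))
      (fun z1 z2 z3 z4 z5 z6 z7 => by
        have h := hs.gram_nonneg hΩ (x₀ := x₀) hx z1 z2 z3 z4 z5 z6 z7
        rw [cN_three] at h
        have c3 : ((3 : ℕ) : ℝ) = 3 := by norm_num
        rw [c3] at h
        exact h)
      (hs.pa_self_nonneg _ hx) (hs.pa_self_nonneg _ hx) (hs.pa_sq_le _ _ hx)
      (by positivity)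
  rw [hs.combI_eq hΩ hx S hη, final_alg _ _ _ hη]
  exact mul_le_mul_of_nonneg_left hc (by positivity)

/-- The lower bound for the combination on the set where the cut-off vanishes. -/
lemma combI_eq_zero_of_nonpos {x : Fin 3 → ℝ} (S : ℝ) (hη : S - uBar u x₀ x ≤ 0) :
    hs.combI x₀ S x = 0 := by
  have h1 : ∀ V, hs.fieldI x₀ (3/5) S 1000 V x = 0 := fun V => hs.fieldI_neg x₀ (3/5) S 998 V hη
  have h2 : ∀ V, hs.fieldI x₀ (3/5) S 999 V x = 0 := fun V => hs.fieldI_neg x₀ (3/5) S 997 V hη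
  have h3 : ∀ V, hs.fieldI x₀ (3/5) S 998 V x = 0 := fun V => hs.fieldI_neg x₀ (3/5) S 996 V hη
  have h4 : ∀ V, hs.fieldI x₀ (3/5) S 997 V x = 0 := fun V => hs.fieldI_neg x₀ (3/5) S 995 V hη
  unfold combI
  simp only [h1, h2, h3, h4]
  ring

end IsAffineMaximal

end Vale.Agent.Lib.P252
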