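import Vale.Agent.Lib.P252.DivFree

open scoped ContDiff Matrix
open MeasureTheory

namespace Vale.Agent.Lib.P252

variable {n : ℕ} {Ω : Set (Fin n → ℝ)}

/-- Test functions on `Ω`. -/
structure IsTest (Ω : Set (Fin n → ℝ)) (φ : (Fin n → ℝ) → ℝ) : Prop where
  smooth : ContDiff ℝ ∞ φ
  cpt : HasCompactSupport φ
  sub : tsupport φ ⊆ Ω

lemma IsTest.eq_zero {φ : (Fin n → ℝ) → ℝ} {x : Fin n → ℝ} (h : x ∉ tsupport φ) : φ x = 0 :=
  image_eq_zero_of_notMem_tsupport h

lemma IsTest.pd_eq_zero {φ : (Fin n → ℝ) → ℝ} {x : Fin n → ℝ} (h : x ∉ tsupport φ) (i : Fin n) :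
    pd i φ x = 0 := by
  have : fderiv ℝ φ x = 0 := fderiv_of_notMem_tsupport ℝ h
  simp [pd, this]

lemma IsTest.contDiffOn {φ : (Fin n → ℝ) → ℝ} (h : IsTest Ω φ) : ContDiffOn ℝ ∞ φ Ω :=
  h.smooth.contDiffOn

/-- An integrability criterion. -/
lemma integrable_of_support {K : Set (Fin n → ℝ)} (hK : IsCompact K) (hKΩ : K ⊆ Ω)
    {F : (Fin n → ℝ) → ℝ} (hF : ContinuousOn F Ω) (h0 : ∀ x, x ∉ K → F x = 0) :
    Integrable F := by
  have h1 : IntegrableOn F K := (hF.mono hKΩ).integrableOn_compact hK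
  exact (integrableOn_iff_integrable_of_support_subset (fun x hx => by
    by_contra hxK
    exact hx (h0 x hxK))).1 h1

lemma IsTest.mul_smoothOn (hΩ : IsOpen Ω) {φ g : (Fin n → ℝ) → ℝ} (hφ : IsTest Ω φ)
    (hg : ContDiffOn ℝ ∞ g Ω) : IsTest Ω (fun x => φ x * g x) := by
  refine ⟨?_, hφ.cpt.mul_right, (tsupport_mul_subset_left).trans hφ.sub⟩
  rw [contDiff_iff_contDiffAt]
  intro x
  by_cases hx : x ∈ Ω
  · exact (hφ.smooth.contDiffAt).mul (contDiffAt_of hΩ hg hx)
  · have hx' : x ∉ tsupport φ := fun h => hx (hφ.sub h)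
    have hev : φ =ᶠ[nhds x] 0 := notMem_tsupport_iff_eventuallyEq.1 hx'
    have : (fun y => φ y * g y) =ᶠ[nhds x] fun _ => 0 := by
      filter_upwards [hev] with y hy
      simp [hy]
    exact contDiffAt_const.congr_of_eventuallyEq this

lemma IsTest.pd {φ : (Fin n → ℝ) → ℝ} (hφ : IsTest Ω φ) (i : Fin n) :
    IsTest Ω (Vale.Agent.Lib.P252.pd i φ) := by
  refine ⟨?_, ?_, ?_⟩
  · have h : ContDiff ℝ ∞ (fderiv ℝ φ) := hφ.smooth.fderiv_right (by simp)
    exact h.clm_apply contDiff_const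
  · have h := hφ.cpt.fderiv (𝕜 := ℝ)
    exact h.comp_left (g := fun L : (Fin n → ℝ) →L[ℝ] ℝ => L (Pi.single i 1)) (by simp)
  · have : tsupport (Vale.Agent.Lib.P252.pd i φ) ⊆ tsupport φ := by
      apply closure_minimal _ (isClosed_tsupport _)
      intro x hx
      by_contra hx'
      exact hx (IsTest.pd_eq_zero hx' i)
    exact this.trans hφ.sub

/-- The integral of a partial derivative of a test function vanishes. -/
lemma integral_pd_eq_zero {F : (Fin n → ℝ) → ℝ} (hF : ContDiff ℝ ∞ F) (hc : HasCompactSupport F)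
    (i : Fin n) : ∫ x, pd i F x = 0 := by
  have hF1 : Continuous F := hF.continuous
  have hdF : Continuous (pd i F) := by
    have h : ContDiff ℝ ∞ (fderiv ℝ F) := hF.fderiv_right (by simp)
    exact (h.clm_apply contDiff_const).continuous
  have hcd : HasCompactSupport (pd i F) := by
    have h := hc.fderiv (𝕜 := ℝ)
    exact h.comp_left (g := fun L : (Fin n → ℝ) →L[ℝ] ℝ => L (Pi.single i 1)) (by simp)
  have h := integral_mul_fderiv_eq_neg_fderiv_mul_of_integrable (μ := (volume : Measure (Fin n → ℝ)))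
    (f := fun _ : Fin n → ℝ => (1 : ℝ)) (g := F) (v := Pi.single i 1)
    (by simp) (by simp only [one_mul]; exact hdF.integrable_of_hasCompactSupport hcd)
    (by simpa using hF1.integrable_of_hasCompactSupport hc)
    (fun _ _ => differentiableAt_const _)
    (fun x _ => (hF.differentiable (by simp)) x)
  simpa [pd] using h

section Form

variable {u : (Fin n → ℝ) → ℝ}

/-- The bilinear form `U^{ij} ∂_i f ∂_j g`. -/
noncomputable def formQ (u f g : (Fin n → ℝ) → ℝ) (x : Fin n → ℝ) : ℝ :=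
  ∑ i, ∑ j, (hess u x).adjugate i j * pd i f x * pd j g x

/-- The operator `L g = U^{ij} ∂_i ∂_j g`. -/
noncomputable def opL (u g : (Fin n → ℝ) → ℝ) (x : Fin n → ℝ) : ℝ :=
  ∑ i, ∑ j, (hess u x).adjugate i j * pd i (pd j g) x

lemma contOn_formQ (hΩ : IsOpen Ω) (hu : ContDiffOn ℝ ∞ u Ω) {f g : (Fin n → ℝ) → ℝ}
    (hf : ContDiffOn ℝ ∞ f Ω) (hg : ContDiffOn ℝ ∞ g Ω) : ContinuousOn (formQ u f g) Ω := by
  unfold formQ
  refine continuousOn_finsetSum _ fun i _ => continuousOn_finsetSum _ fun j _ => ?_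
  exact (((contDiffOn_adjHess hΩ hu i j).continuousOn).mul
    (contDiffOn_pd hΩ hf i).continuousOn).mul (contDiffOn_pd hΩ hg j).continuousOn

lemma contOn_opL (hΩ : IsOpen Ω) (hu : ContDiffOn ℝ ∞ u Ω) {g : (Fin n → ℝ) → ℝ}
    (hg : ContDiffOn ℝ ∞ g Ω) : ContinuousOn (opL u g) Ω := by
  unfold opL
  refine continuousOn_finsetSum _ fun i _ => continuousOn_finsetSum _ fun j _ => ?_
  exact ((contDiffOn_adjHess hΩ hu i j).continuousOn).mul (contDiffOn_pd2 hΩ hg i j).continuousOn

lemma formQ_eq_zero_of_test {f g : (Fin n → ℝ) → ℝ} {x : Fin n → ℝ} (h : x ∉ tsupport f) :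
    formQ u f g x = 0 := by
  simp [formQ, IsTest.pd_eq_zero h]

/-- Master integration by parts. -/
lemma ibp_master (hΩ : IsOpen Ω) (hu : ContDiffOn ℝ ∞ u Ω)
    (hdet : ∀ x ∈ Ω, (hess u x).det ≠ 0) {φ g : (Fin n → ℝ) → ℝ} (hφ : IsTest Ω φ)
    (hg : ContDiffOn ℝ ∞ g Ω) :
    ∫ x, formQ u φ g x = - ∫ x, φ x * opL u g x := by
  classical
  -- the vector field
  let F : Fin n → (Fin n → ℝ) → ℝ := fun i x => φ x * ∑ j, (hess u x).adjugate i j * pd j g x
  have hFin : ∀ i, ContDiffOn ℝ ∞ (fun x => ∑ j, (hess u x).adjugate i j * pd j g x) Ω := by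
    intro i
    refine ContDiffOn.sum fun j _ => ?_
    exact (contDiffOn_adjHess hΩ hu i j).mul (contDiffOn_pd hΩ hg j)
  have hFt : ∀ i, IsTest Ω (F i) := fun i => hφ.mul_smoothOn hΩ (hFin i)
  have h0 : ∀ i, ∫ x, pd i (F i) x = 0 := fun i =>
    integral_pd_eq_zero (hFt i).smooth (hFt i).cpt i
  -- pointwise identity
  have hpt : ∀ x, ∑ i, pd i (F i) x = formQ u φ g x + φ x * opL u g x := by
    intro x
    by_cases hx : x ∈ Ω
    · have hφd : DifferentiableAt ℝ φ x := diffAt hΩ hφ.contDiffOn hx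
      have hdadj : ∀ i j, DifferentiableAt ℝ (fun y => (hess u y).adjugate i j) x := fun i j =>
        diffAt hΩ (contDiffOn_adjHess hΩ hu i j) hx
      have hdpg : ∀ j, DifferentiableAt ℝ (pd j g) x := fun j => diffAt hΩ (contDiffOn_pd hΩ hg j) hx
      have hdiv := fun b => div_adj hΩ hu hx (hdet x hx) b
      have h1 : ∀ i, pd i (F i) x = pd i φ x * ∑ j, (hess u x).adjugate i j * pd j g x +
          φ x * ∑ j, (pd i (fun y => (hess u y).adjugate i j) x * pd j g x
            + (hess u x).adjugate i j * pd i (pd j g) x) := by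
        intro i
        have hd : DifferentiableAt ℝ (fun y => ∑ j, (hess u y).adjugate i j * pd j g y) x :=
          diffAt hΩ (hFin i) hx
        change pd i (fun y => φ y * ∑ j, (hess u y).adjugate i j * pd j g y) x = _
        rw [pd_mul hφd hd]
        congr 2
        rw [pd_sum Finset.univ (f := fun j y => (hess u y).adjugate i j * pd j g y)
          (fun j _ => (hdadj i j).fun_mul (hdpg j))]
        exact Finset.sum_congr rfl fun j _ => pd_mul (hdadj i j) (hdpg j) i
      have h2 : ∑ i, ∑ j, pd i (fun y => (hess u y).adjugate i j) x * pd j g x = 0 := by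
        rw [Finset.sum_comm]
        refine Finset.sum_eq_zero fun j _ => ?_
        rw [← Finset.sum_mul, hdiv j, zero_mul]
      have h3 : ∀ i, pd i (F i) x = ∑ j, (hess u x).adjugate i j * pd i φ x * pd j g x +
          φ x * ∑ j, pd i (fun y => (hess u y).adjugate i j) x * pd j g x +
          φ x * ∑ j, (hess u x).adjugate i j * pd i (pd j g) x := by
        intro i
        rw [h1 i, Finset.sum_add_distrib, mul_add, ← add_assoc, Finset.mul_sum]
        congr 2
        exact Finset.sum_congr rfl fun j _ => by ring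
      simp only [h3, Finset.sum_add_distrib, ← Finset.mul_sum, h2, mul_zero, add_zero]
      rfl
    · have hx' : x ∉ tsupport φ := fun h => hx (hφ.sub h)
      have h1 : ∀ i, pd i (F i) x = 0 := by
        intro i
        apply IsTest.pd_eq_zero
        intro h
        exact hx ((hFt i).sub h)
      simp [h1, formQ_eq_zero_of_test hx', IsTest.eq_zero hx']
  -- integrability
  have hφK : IsCompact (tsupport φ) := hφ.cpt
  have hint1 : Integrable (formQ u φ g) :=
    integrable_of_support hφK hφ.sub (contOn_formQ hΩ hu hφ.contDiffOn hg)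
      (fun x hx => formQ_eq_zero_of_test hx)
  have hint2 : Integrable (fun x => φ x * opL u g x) :=
    integrable_of_support hφK hφ.sub (hφ.contDiffOn.continuousOn.mul (contOn_opL hΩ hu hg))
      (fun x hx => by simp [IsTest.eq_zero hx])
  have hsum : ∫ x, ∑ i, pd i (F i) x = 0 := by
    rw [integral_finsetSum]
    · simp [h0]
    · intro i _
      have ht := (hFt i).pd i
      exact ht.smooth.continuous.integrable_of_hasCompactSupport ht.cpt
  simp only [hpt] at hsum
  rw [integral_add hint1 hint2] at hsum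
  linarith

end Form

end Vale.Agent.Lib.P252
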