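import Vale.Agent.Lib.P252.Core

open scoped ContDiff Matrix
open MeasureTheory

namespace Vale.Agent.Lib.P252

variable {n : ℕ} {Ω : Set (Fin n → ℝ)} {u : (Fin n → ℝ) → ℝ}

lemma fderiv_eq_sum (f : (Fin n → ℝ) → ℝ) (x v : Fin n → ℝ) :
    fderiv ℝ f x v = ∑ i, v i * pd i f x := by
  conv_lhs => rw [pi_eq_sum_univ' v]
  rw [map_sum]
  refine Finset.sum_congr rfl fun i _ => ?_
  rw [map_smul]
  rfl

lemma fderiv_eq_zero_of_gr {f : (Fin n → ℝ) → ℝ} {x : Fin n → ℝ} (h : gr f x = 0) :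
    fderiv ℝ f x = 0 := by
  ext1 v
  rw [fderiv_eq_sum]
  have : ∀ i, pd i f x = 0 := fun i => congrFun h i
  simp [this]

lemma IsAffineMaximal.det_const_of_gr (hs : IsAffineMaximal Ω u) (hΩ : IsOpen Ω)
    (hconn : IsPreconnected Ω) (hgr : ∀ x ∈ Ω, gr (weightW u) x = 0) {x y : Fin n → ℝ}
    (hx : x ∈ Ω) (hy : y ∈ Ω) : (hess u x).det = (hess u y).det := by
  have hW : weightW u x = weightW u y :=
    hΩ.is_const_of_fderiv_eq_zero (𝕜 := ℝ) hconn
      ((hs.contDiffOn_W hΩ).differentiableOn (by simp))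
      (fun z hz => fderiv_eq_zero_of_gr (hgr z hz)) hx hy
  set r : ℝ := -((n : ℝ) + 1) / ((n : ℝ) + 2) with hr
  have hn : (0 : ℝ) ≤ n := Nat.cast_nonneg n
  have hr0 : r ≠ 0 := by
    rw [hr]
    apply div_ne_zero <;> linarith
  have h1 := Real.rpow_rpow_inv (hs.det_pos hx).le hr0
  have h2 := Real.rpow_rpow_inv (hs.det_pos hy).le hr0
  have h3 : (hess u x).det ^ r = (hess u y).det ^ r := hW
  rw [← h1, ← h2, h3]

/-- From the non-integrability of `1/V` to the divergence of the series. -/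
lemma not_summable_of_not_integrable {V : ℝ → ℝ} (hmono : MonotoneOn V (Set.Ici 1))
    (hpos : ∀ s : ℝ, 1 ≤ s → 0 < V s)
    (h : ¬ IntegrableOn (fun s => (V s)⁻¹) (Set.Ioi 1)) :
    ¬ Summable fun k : ℕ => (V ((k : ℝ) + 1))⁻¹ := by
  intro hsum
  apply h
  have hanti : AntitoneOn (fun s => (V s)⁻¹) (Set.Ici 1) :=
    fun a ha b hb hab => inv_anti₀ (hpos a ha) (hmono ha hb hab)
  have hsub : ∀ i : ℕ, Set.Icc (1 : ℝ) (1 + i) ⊆ Set.Ici 1 := fun i x hx => hx.1
  have hle : ∀ i : ℕ, (1 : ℝ) ≤ 1 + i := fun i => by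
    have : (0 : ℝ) ≤ i := Nat.cast_nonneg i
    linarith
  refine integrableOn_Ioi_of_intervalIntegral_norm_bounded (l := Filter.atTop)
    (b := fun i : ℕ => 1 + (i : ℝ)) (∑' k : ℕ, (V ((k : ℝ) + 1))⁻¹) 1 ?_ ?_ ?_
  · intro i
    have : IntervalIntegrable (fun s => (V s)⁻¹) volume 1 (1 + i) := by
      apply AntitoneOn.intervalIntegrable
      rw [Set.uIcc_of_le (hle i)]
      exact hanti.mono (hsub i)
    exact (intervalIntegrable_iff_integrableOn_Ioc_of_le (hle i)).1 this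
  · exact Filter.tendsto_atTop_add_const_left _ _ tendsto_natCast_atTop_atTop
  · refine Filter.Eventually.of_forall fun i => ?_
    have h1 : ∫ x in (1 : ℝ)..(1 + i), ‖(V x)⁻¹‖ = ∫ x in (1 : ℝ)..(1 + i), (V x)⁻¹ := by
      apply intervalIntegral.integral_congr
      intro x hx
      rw [Set.uIcc_of_le (hle i)] at hx
      exact Real.norm_of_nonneg (inv_pos.2 (hpos x hx.1)).le
    rw [h1]
    refine (AntitoneOn.integral_le_sum (hanti.mono (hsub i))).trans ?_
    have h2 : ∑ j ∈ Finset.range i, (V (1 + (j : ℝ)))⁻¹ =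
        ∑ j ∈ Finset.range i, (V ((j : ℝ) + 1))⁻¹ := by
      refine Finset.sum_congr rfl fun j _ => ?_
      rw [add_comm]
    rw [h2]
    refine hsum.sum_le_tsum _ fun j _ => ?_
    have : (0 : ℝ) ≤ j := Nat.cast_nonneg j
    exact (inv_pos.2 (hpos _ (by linarith))).le

open IsAffineMaximal in
/-- The generic Liouville statement, for an exhaustion function. -/
lemma IsAffineMaximal.det_const_of_energy (hs : IsAffineMaximal Ω u) (hΩ : IsOpen Ω)
    (hconn : IsPreconnected Ω) {f ρ : (Fin n → ℝ) → ℝ} {q C : ℝ}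
    (hf : ContDiffOn ℝ ∞ f Ω)
    (hcpt : ∀ s, IsCompact (subLevelC Ω f s)) (hρ : ContinuousOn ρ Ω)
    (hρ0 : ∀ x ∈ Ω, 0 < ρ x) (hC : 0 ≤ C) (hq : q ≠ 1)
    (hE : ∀ t : ℝ, ∫ x, - (weightW u x ^ q * formQ u (testOf Ω f fun s => stepΓ (s - t)) f x)
      ≤ C * ∫ x, testOf Ω f (fun s => stepΓ (s - t)) x * ρ x)
    {x₀ : Fin n → ℝ} (hx₀ : x₀ ∈ Ω) (hf0 : f x₀ < 1)
    (hV : ¬ IntegrableOn (fun s => (mass Ω f ρ s)⁻¹) (Set.Ioi 1))
    {x y : Fin n → ℝ} (hx : x ∈ Ω) (hy : y ∈ Ω) : (hess u x).det = (hess u y).det := by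
  have hmono : MonotoneOn (mass Ω f ρ) (Set.Ici 1) := by
    intro a _ b _ hab
    refine setIntegral_mono_set (integrableOn_subLevel hρ (hcpt b)) ?_ ?_
    · filter_upwards [ae_restrict_mem (isOpen_subLevel hΩ hf b).measurableSet] with z hz
      exact (hρ0 z hz.1).le
    · exact Filter.Eventually.of_forall fun z hz => ⟨hz.1, lt_of_lt_of_le hz.2 hab⟩
  have hVpos : ∀ s : ℝ, 1 ≤ s → 0 < mass Ω f ρ s := by
    intro s hs1
    have hop := isOpen_subLevel hΩ hf s
    have hmem : x₀ ∈ subLevel Ω f s := ⟨hx₀, lt_of_lt_of_le hf0 hs1⟩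
    refine (setIntegral_pos_iff_support_of_nonneg_ae ?_ (integrableOn_subLevel hρ (hcpt s))).2 ?_
    · filter_upwards [ae_restrict_mem hop.measurableSet] with z hz
      exact (hρ0 z hz.1).le
    · have hpos : 0 < volume (subLevel Ω f s) := hop.measure_pos volume ⟨x₀, hmem⟩
      refine lt_of_lt_of_le hpos (measure_mono fun z hz => ⟨?_, hz⟩)
      exact (hρ0 z hz.1).ne'
  have hns := not_summable_of_not_integrable hmono hVpos hV
  exact hs.det_const_of_gr hΩ hconn
    (fun z hz => hs.gr_W_eq_zero hΩ hf hcpt hρ (fun w hw => (hρ0 w hw).le) hC hq hE hVpos hns hz)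
    hx hy

/-! ### The primal exhaustion `ū` -/

section Primal

variable {x₀ : Fin n → ℝ}

lemma hasFDerivAt_uBar {y : Fin n → ℝ} (hy : DifferentiableAt ℝ u y) :
    HasFDerivAt (uBar u x₀) (fderiv ℝ u y - fderiv ℝ u x₀) y := by
  have h1 : HasFDerivAt (fun x => fderiv ℝ u x₀ (x - x₀)) (fderiv ℝ u x₀) y := by
    have h := ((fderiv ℝ u x₀).hasFDerivAt (x := y - x₀)).comp y ((hasFDerivAt_id y).sub_const x₀)
    have e : (fderiv ℝ u x₀).comp (ContinuousLinearMap.id ℝ (Fin n → ℝ)) = fderiv ℝ u x₀ := by simp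
    rw [e] at h
    exact h
  exact (hy.hasFDerivAt.sub_const (u x₀)).sub h1

lemma contDiffOn_uBar (hu : ContDiffOn ℝ ∞ u Ω) : ContDiffOn ℝ ∞ (uBar u x₀) Ω := by
  unfold uBar
  refine (hu.sub contDiffOn_const).sub ?_
  exact ((fderiv ℝ u x₀).contDiff.comp (contDiff_id.sub contDiff_const)).contDiffOn

lemma pd_uBar (hΩ : IsOpen Ω) (hu : ContDiffOn ℝ ∞ u Ω) {y : Fin n → ℝ} (hy : y ∈ Ω) (j : Fin n) :
    pd j (uBar u x₀) y = pd j u y - fderiv ℝ u x₀ (Pi.single j 1) := by
  simp only [pd]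
  rw [(hasFDerivAt_uBar (diffAt hΩ hu hy)).fderiv]
  rfl

lemma pd2_uBar (hΩ : IsOpen Ω) (hu : ContDiffOn ℝ ∞ u Ω) {x : Fin n → ℝ} (hx : x ∈ Ω)
    (i j : Fin n) : pd i (pd j (uBar u x₀)) x = pd i (pd j u) x := by
  have h1 : pd i (pd j (uBar u x₀)) x =
      pd i (fun y => pd j u y - fderiv ℝ u x₀ (Pi.single j 1)) x :=
    pd_congr_on hΩ hx (fun y hy => pd_uBar hΩ hu hy j) i
  rw [h1, pd_sub (diffAt hΩ (contDiffOn_pd hΩ hu j) hx) (differentiableAt_const _), pd_const,
    sub_zero]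

lemma uBar_self : uBar u x₀ x₀ = 0 := by
  simp [uBar]

lemma opL_uBar (hs : IsAffineMaximal Ω u) (hΩ : IsOpen Ω) {x : Fin n → ℝ} (hx : x ∈ Ω) :
    opL u (uBar u x₀) x = n * (hess u x).det := by
  unfold opL
  have h1 : ∀ i j, (hess u x).adjugate i j * pd i (pd j (uBar u x₀)) x =
      (hess u x).adjugate i j * hess u x j i := by
    intro i j
    rw [pd2_uBar hΩ hs.smooth hx]
    congr 1
    exact pd_comm hΩ hs.smooth hx i j
  simp only [h1]
  have h2 : ∀ i, ∑ j, (hess u x).adjugate i j * hess u x j i = (hess u x).det := by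
    intro i
    have := congrFun (congrFun (Matrix.adjugate_mul (hess u x)) i) i
    simpa [Matrix.mul_apply] using this
  simp [h2]

/-- The primal form of the Liouville theorem. -/
theorem liouville_primal (hs : IsAffineMaximal Ω u) (hΩ : IsOpen Ω) (hconn : IsPreconnected Ω)
    (hx₀ : x₀ ∈ Ω) (hcpt : ∀ s : ℝ, IsCompact {x | x ∈ Ω ∧ uBar u x₀ x ≤ s})
    (hV : ¬ IntegrableOn
      (fun s : ℝ => (∫ x in {x | x ∈ Ω ∧ uBar u x₀ x < s}, (hess u x).det)⁻¹) (Set.Ioi 1))
    {x y : Fin n → ℝ} (hx : x ∈ Ω) (hy : y ∈ Ω) : (hess u x).det = (hess u y).det := by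
  have hf := contDiffOn_uBar (x₀ := x₀) hs.smooth
  have hρ : ContinuousOn (fun x => (hess u x).det) Ω :=
    (contDiffOn_detHess hΩ hs.smooth).continuousOn
  refine hs.det_const_of_energy (f := uBar u x₀) (ρ := fun x => (hess u x).det) (q := 0)
    (C := n) hΩ hconn hf hcpt hρ (fun z hz => hs.det_pos hz) (Nat.cast_nonneg n) (by norm_num)
    ?_ hx₀ (by rw [uBar_self]; norm_num) hV hx hy
  intro t
  have hφ : IsTest Ω (testOf Ω (uBar u x₀) fun s => stepΓ (s - t)) :=
    isTest_testOf hΩ hf (hcpt (t + 1)) (stepΓ_contDiff.comp (contDiff_id.sub contDiff_const))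
      (fun s hs' => stepΓ_zero (by linarith))
  refine le_of_eq ?_
  simp only [Real.rpow_zero, one_mul]
  rw [integral_neg, ibp_master hΩ hs.smooth (fun x hx => hs.det_ne hx) hφ hf, neg_neg,
    ← integral_const_mul]
  refine integral_congr_ae (Filter.Eventually.of_forall fun z => ?_)
  by_cases hz : z ∈ Ω
  · change _ * opL u (uBar u x₀) z = _
    rw [opL_uBar hs hΩ hz]
    ring
  · have : testOf Ω (uBar u x₀) (fun s => stepΓ (s - t)) z = 0 := testOf_eq_of_notMem hz
    simp [this]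

end Primal

/-! ### The dual exhaustion `v` -/

section Dual

variable {x₀ : Fin n → ℝ}

lemma vDual_eq (y : Fin n → ℝ) :
    vDual u x₀ y = (∑ k, (y k - x₀ k) * pd k (uBar u x₀) y) - uBar u x₀ y := by
  unfold vDual
  rw [fderiv_eq_sum]
  rfl

lemma contDiff_coord (k : Fin n) (c : ℝ) : ContDiff ℝ ∞ (fun y : Fin n → ℝ => y k - c) :=
  (contDiff_apply ℝ ℝ k).sub contDiff_const

lemma pd_coord (k i : Fin n) (c : ℝ) (x : Fin n → ℝ) :
    pd i (fun y : Fin n → ℝ => y k - c) x = (Pi.single i (1 : ℝ) : Fin n → ℝ) k := by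
  have h : HasFDerivAt (fun y : Fin n → ℝ => y k - c)
      (ContinuousLinearMap.proj (R := ℝ) (φ := fun _ : Fin n => ℝ) k) x :=
    ((ContinuousLinearMap.proj (R := ℝ) (φ := fun _ : Fin n => ℝ) k).hasFDerivAt).sub_const c
  simp only [pd]
  rw [h.fderiv]
  rfl

lemma contDiffOn_vDual (hΩ : IsOpen Ω) (hu : ContDiffOn ℝ ∞ u Ω) :
    ContDiffOn ℝ ∞ (vDual u x₀) Ω := by
  have hb := contDiffOn_uBar (x₀ := x₀) hu
  have : vDual u x₀ = fun y => (∑ k, (y k - x₀ k) * pd k (uBar u x₀) y) - uBar u x₀ y :=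
    funext vDual_eq
  rw [this]
  refine ContDiffOn.sub (ContDiffOn.sum fun k _ => ?_) hb
  exact (contDiff_coord k (x₀ k)).contDiffOn.mul (contDiffOn_pd hΩ hb k)

lemma pd_vDual (hΩ : IsOpen Ω) (hu : ContDiffOn ℝ ∞ u Ω) {x : Fin n → ℝ} (hx : x ∈ Ω) (i : Fin n) :
    pd i (vDual u x₀) x = ∑ k, (x k - x₀ k) * pd i (pd k u) x := by
  classical
  have hb := contDiffOn_uBar (x₀ := x₀) hu
  have hfun : vDual u x₀ = fun y => (∑ k, (y k - x₀ k) * pd k (uBar u x₀) y) - uBar u x₀ y :=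
    funext vDual_eq
  have hd1 : ∀ k, DifferentiableAt ℝ (fun y : Fin n → ℝ => y k - x₀ k) x := fun k =>
    (contDiff_coord k (x₀ k)).differentiable (by simp) x
  have hd2 : ∀ k, DifferentiableAt ℝ (pd k (uBar u x₀)) x := fun k =>
    diffAt hΩ (contDiffOn_pd hΩ hb k) hx
  have hd3 : DifferentiableAt ℝ (fun y => ∑ k, (y k - x₀ k) * pd k (uBar u x₀) y) x :=
    DifferentiableAt.fun_sum fun k _ => (hd1 k).fun_mul (hd2 k)
  rw [hfun, pd_sub hd3 (diffAt hΩ hb hx),
    pd_sum Finset.univ (f := fun k y => (y k - x₀ k) * pd k (uBar u x₀) y)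
      (fun k _ => (hd1 k).fun_mul (hd2 k))]
  have h1 : ∀ k, pd i (fun y => (y k - x₀ k) * pd k (uBar u x₀) y) x =
      (Pi.single i (1 : ℝ) : Fin n → ℝ) k * pd k (uBar u x₀) x +
        (x k - x₀ k) * pd i (pd k u) x := by
    intro k
    rw [pd_mul (hd1 k) (hd2 k), pd_coord, pd2_uBar hΩ hu hx]
  simp only [h1, Finset.sum_add_distrib]
  have h2 : ∑ k, (Pi.single i (1 : ℝ) : Fin n → ℝ) k * pd k (uBar u x₀) x = pd i (uBar u x₀) x := by
    rw [Finset.sum_eq_single i]
    · simp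
    · intro k _ hk
      simp [Pi.single_eq_of_ne hk]
    · simp
  rw [h2]
  ring

lemma formQ_vDual (hΩ : IsOpen Ω) (hu : ContDiffOn ℝ ∞ u Ω) {x : Fin n → ℝ} (hx : x ∈ Ω)
    (φ : (Fin n → ℝ) → ℝ) :
    formQ u φ (vDual u x₀) x = (hess u x).det * ∑ i, (x i - x₀ i) * pd i φ x := by
  classical
  unfold formQ
  have h1 : ∀ i, ∑ j, (hess u x).adjugate i j * pd i φ x * pd j (vDual u x₀) x =
      (hess u x).det * ((x i - x₀ i) * pd i φ x) := by
    intro i
    simp only [pd_vDual hΩ hu hx]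
    have h2 : ∀ k, ∑ j, (hess u x).adjugate i j * hess u x j k =
        (hess u x).det * (1 : Matrix (Fin n) (Fin n) ℝ) i k := by
      intro k
      have := congrFun (congrFun (Matrix.adjugate_mul (hess u x)) i) k
      simpa [Matrix.mul_apply] using this
    calc ∑ j, (hess u x).adjugate i j * pd i φ x * ∑ k, (x k - x₀ k) * pd j (pd k u) x
        = ∑ k, pd i φ x * (x k - x₀ k) * ∑ j, (hess u x).adjugate i j * hess u x j k := by
          simp only [Finset.mul_sum]
          rw [Finset.sum_comm]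
          refine Finset.sum_congr rfl fun k _ => Finset.sum_congr rfl fun j _ => ?_
          change _ = pd i φ x * (x k - x₀ k) * ((hess u x).adjugate i j * pd j (pd k u) x)
          ring
      _ = ∑ k, pd i φ x * (x k - x₀ k) * ((hess u x).det * (1 : Matrix (Fin n) (Fin n) ℝ) i k) := by
          simp only [h2]
      _ = _ := by
          rw [Finset.sum_eq_single i]
          · simp
            ring
          · intro k _ hk
            simp [Matrix.one_apply_ne (Ne.symm hk)]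
          · simp
  simp only [h1, Finset.mul_sum]

/-- Euler's divergence identity. -/
lemma integral_radial {φ : (Fin n → ℝ) → ℝ} (hφ : IsTest Ω φ) :
    ∫ x, ∑ i, (x i - x₀ i) * pd i φ x = - (n * ∫ x, φ x) := by
  classical
  have hφi : Integrable φ := hφ.smooth.continuous.integrable_of_hasCompactSupport hφ.cpt
  have hGi : ∀ i, IsTest Set.univ (fun x => φ x * (x i - x₀ i)) := by
    intro i
    have hφ' : IsTest Set.univ φ := ⟨hφ.smooth, hφ.cpt, Set.subset_univ _⟩
    exact hφ'.mul_smoothOn isOpen_univ (contDiff_coord i (x₀ i)).contDiffOn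
  have hd : ∀ i x, pd i (fun x => φ x * (x i - x₀ i)) x = (x i - x₀ i) * pd i φ x + φ x := by
    intro i x
    rw [pd_mul (hφ.smooth.differentiable (by simp) x)
      ((contDiff_coord i (x₀ i)).differentiable (by simp) x), pd_coord]
    simp
    ring
  have hInt : ∀ i, Integrable fun x : Fin n → ℝ => (x i - x₀ i) * pd i φ x := by
    intro i
    have h1 : (fun x : Fin n → ℝ => (x i - x₀ i) * pd i φ x) =
        fun x => pd i φ x * (x i - x₀ i) := funext fun x => mul_comm _ _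
    rw [h1]
    have hφ' : IsTest Set.univ φ := ⟨hφ.smooth, hφ.cpt, Set.subset_univ _⟩
    have ht := (hφ'.pd i).mul_smoothOn isOpen_univ (contDiff_coord i (x₀ i)).contDiffOn
    exact ht.smooth.continuous.integrable_of_hasCompactSupport ht.cpt
  have h0 : ∀ i, ∫ x, (x i - x₀ i) * pd i φ x = - ∫ x, φ x := by
    intro i
    have h := integral_pd_eq_zero (hGi i).smooth (hGi i).cpt i
    simp only [hd] at h
    rw [integral_add (hInt i) hφi] at h
    linarith
  rw [integral_finsetSum _ fun i _ => hInt i]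
  simp [h0]

lemma W_rpow_dual (hs : IsAffineMaximal Ω u) {x : Fin n → ℝ} (hx : x ∈ Ω) :
    weightW u x ^ (((n : ℝ) + 2) / ((n : ℝ) + 1)) = ((hess u x).det)⁻¹ := by
  have hn : (0 : ℝ) ≤ n := Nat.cast_nonneg n
  unfold weightW
  rw [← Real.rpow_mul (hs.det_pos hx).le]
  have : -((n : ℝ) + 1) / ((n : ℝ) + 2) * (((n : ℝ) + 2) / ((n : ℝ) + 1)) = -1 := by
    have h1 : (n : ℝ) + 1 ≠ 0 := by linarith
    have h2 : (n : ℝ) + 2 ≠ 0 := by linarith
    field_simp
  rw [this, Real.rpow_neg_one]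

lemma vDual_self : vDual u x₀ x₀ = 0 := by
  simp [vDual, uBar_self]

/-- The dual form of the Liouville theorem. -/
theorem liouville_dual (hs : IsAffineMaximal Ω u) (hΩ : IsOpen Ω) (hconn : IsPreconnected Ω)
    (hx₀ : x₀ ∈ Ω) (hcpt : ∀ s : ℝ, IsCompact {x | x ∈ Ω ∧ vDual u x₀ x ≤ s})
    (hV : ¬ IntegrableOn
      (fun s : ℝ => (volume.real {x | x ∈ Ω ∧ vDual u x₀ x < s})⁻¹) (Set.Ioi 1))
    {x y : Fin n → ℝ} (hx : x ∈ Ω) (hy : y ∈ Ω) : (hess u x).det = (hess u y).det := by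
  have hf := contDiffOn_vDual (x₀ := x₀) hΩ hs.smooth
  have hn : (0 : ℝ) ≤ n := Nat.cast_nonneg n
  have hmass : IsAffineMaximal.mass Ω (vDual u x₀) (fun _ => (1 : ℝ)) =
      fun s => volume.real {x | x ∈ Ω ∧ vDual u x₀ x < s} := by
    funext s
    simp [IsAffineMaximal.mass, subLevel]
  refine hs.det_const_of_energy (f := vDual u x₀) (ρ := fun _ => 1)
    (q := ((n : ℝ) + 2) / ((n : ℝ) + 1)) (C := n) hΩ hconn hf hcpt continuousOn_const
    (fun _ _ => one_pos) hn ?_ ?_ hx₀ (by rw [vDual_self]; norm_num) (by rw [hmass]; exact hV) hx hy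
  · intro h
    have h1 : (n : ℝ) + 1 ≠ 0 := by linarith
    rw [div_eq_one_iff_eq h1] at h
    linarith
  intro t
  have hφ : IsTest Ω (testOf Ω (vDual u x₀) fun s => stepΓ (s - t)) :=
    isTest_testOf hΩ hf (hcpt (t + 1)) (stepΓ_contDiff.comp (contDiff_id.sub contDiff_const))
      (fun s hs' => stepΓ_zero (by linarith))
  refine le_of_eq ?_
  have hpt : ∀ z, - (weightW u z ^ (((n : ℝ) + 2) / ((n : ℝ) + 1)) *
        formQ u (testOf Ω (vDual u x₀) fun s => stepΓ (s - t)) (vDual u x₀) z) =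
      - ∑ i, (z i - x₀ i) * pd i (testOf Ω (vDual u x₀) fun s => stepΓ (s - t)) z := by
    intro z
    by_cases hz : z ∈ Ω
    · rw [W_rpow_dual hs hz, formQ_vDual hΩ hs.smooth hz]
      have := (hs.det_pos hz).ne'
      field_simp
    · have hz' : z ∉ tsupport (testOf Ω (vDual u x₀) fun s => stepΓ (s - t)) :=
        fun h => hz (hφ.sub h)
      simp [formQ_eq_zero_of_test hz', IsTest.pd_eq_zero hz']
  simp only [hpt, mul_one]
  rw [integral_neg, integral_radial hφ]
  ring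

end Dual

/-! ### Sublevel sets of entire solutions are compact -/

section Entire

variable {x₀ : Fin n → ℝ}

/-- The restriction of `ū` to a line through the base point. -/
noncomputable def lineG (u : (Fin n → ℝ) → ℝ) (x₀ θ : Fin n → ℝ) (t : ℝ) : ℝ :=
  uBar u x₀ (x₀ + t • θ)

lemma hasDerivAt_line {f : (Fin n → ℝ) → ℝ} {x₀ θ : Fin n → ℝ} {t : ℝ}
    (hf : DifferentiableAt ℝ f (x₀ + t • θ)) :
    HasDerivAt (fun t : ℝ => f (x₀ + t • θ)) (∑ i, θ i * pd i f (x₀ + t • θ)) t := by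
  have h1 : HasDerivAt (fun t : ℝ => x₀ + t • θ) θ t := by
    simpa using ((hasDerivAt_id t).smul_const θ).const_add x₀
  have h2 := hf.hasFDerivAt.comp_hasDerivAt t h1
  rw [fderiv_eq_sum] at h2
  exact h2

lemma pd_uBar_self (hΩ : IsOpen Ω) (hu : ContDiffOn ℝ ∞ u Ω) (hx₀ : x₀ ∈ Ω) (i : Fin n) :
    pd i (uBar u x₀) x₀ = 0 := by
  rw [pd_uBar hΩ hu hx₀]
  simp [pd]

/-- Along a line through the base point, `ū` grows at least linearly at infinity. -/
lemma line_estimate (hu : ContDiffOn ℝ ∞ u Set.univ)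
    (hpos : ∀ x, (hess u x).PosDef) {θ : Fin n → ℝ} (hθ : θ ≠ 0) :
    0 < uBar u x₀ (x₀ + θ) ∧ ∀ t : ℝ, 1 ≤ t → t * uBar u x₀ (x₀ + θ) ≤ uBar u x₀ (x₀ + t • θ) := by
  classical
  have hb := contDiffOn_uBar (x₀ := x₀) hu
  have hdb : ∀ y, DifferentiableAt ℝ (uBar u x₀) y := fun y => diffAt isOpen_univ hb trivial
  let g : ℝ → ℝ := fun t => uBar u x₀ (x₀ + t • θ)
  let g1 : ℝ → ℝ := fun t => ∑ i, θ i * pd i (uBar u x₀) (x₀ + t • θ)
  have hg : ∀ t, HasDerivAt g (g1 t) t := fun t => hasDerivAt_line (hdb _)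
  have hg1 : ∀ t, HasDerivAt g1 (Qv (hess u (x₀ + t • θ)) θ θ) t := by
    intro t
    have h1 : ∀ i ∈ Finset.univ, HasDerivAt (fun t => θ i * pd i (uBar u x₀) (x₀ + t • θ))
        (θ i * ∑ j, θ j * pd j (pd i (uBar u x₀)) (x₀ + t • θ)) t := by
      intro i _
      exact (hasDerivAt_line (diffAt isOpen_univ (contDiffOn_pd isOpen_univ hb i) trivial)).const_mul _
    have h2 := HasDerivAt.fun_sum h1
    have e : Qv (hess u (x₀ + t • θ)) θ θ =
        ∑ i, θ i * ∑ j, θ j * pd j (pd i (uBar u x₀)) (x₀ + t • θ) := by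
      simp only [Qv, Finset.mul_sum]
      rw [Finset.sum_comm]
      refine Finset.sum_congr rfl fun i _ => Finset.sum_congr rfl fun j _ => ?_
      rw [pd2_uBar isOpen_univ hu trivial]
      change hess u _ j i * θ j * θ i = θ i * (θ j * hess u _ j i)
      ring
    rw [e]
    exact h2
  have hg2 : ∀ t : ℝ, 0 < Qv (hess u (x₀ + t • θ)) θ θ := fun t => Qv_pos (hpos _) hθ
  have hg0 : g 0 = 0 := by simp [g, uBar_self]
  have hg10 : g1 0 = 0 := by
    simp only [g1, zero_smul, add_zero]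
    refine Finset.sum_eq_zero fun i _ => ?_
    rw [pd_uBar_self isOpen_univ hu trivial]
    simp
  have hg1mono : StrictMono g1 := strictMono_of_deriv_pos fun t => by
    rw [(hg1 t).deriv]
    exact hg2 t
  have hgmono : StrictMonoOn g (Set.Ici 0) := by
    apply strictMonoOn_of_deriv_pos (convex_Ici 0)
      (fun t _ => (hg t).continuousAt.continuousWithinAt)
    intro t ht
    rw [interior_Ici] at ht
    rw [(hg t).deriv, ← hg10]
    exact hg1mono ht
  have h1pos : 0 < g 1 := by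
    have := hgmono (Set.mem_Ici.2 le_rfl) (Set.mem_Ici.2 zero_le_one) zero_lt_one
    rwa [hg0] at this
  have hconv : ConvexOn ℝ Set.univ g := by
    apply convexOn_of_deriv2_nonneg convex_univ
      (fun t _ => (hg t).continuousAt.continuousWithinAt)
      (fun t _ => (hg t).differentiableAt.differentiableWithinAt)
    · intro t _
      have : deriv g = g1 := funext fun t => (hg t).deriv
      rw [this]
      exact (hg1 t).differentiableAt.differentiableWithinAt
    · intro t _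
      have : deriv g = g1 := funext fun t => (hg t).deriv
      simp only [Function.iterate_succ, Function.iterate_zero, Function.comp, id]
      rw [this, (hg1 t).deriv]
      exact (hg2 t).le
  refine ⟨by simpa [g] using h1pos, fun t ht => ?_⟩
  have htpos : 0 < t := by linarith
  have h3 := hconv.2 (Set.mem_univ t) (Set.mem_univ (0 : ℝ)) (by positivity : (0 : ℝ) ≤ 1 / t)
    (by rw [sub_nonneg, div_le_one htpos]; exact ht : (0 : ℝ) ≤ 1 - 1 / t) (by ring)
  have e1 : (1 / t) • t + (1 - 1 / t) • (0 : ℝ) = 1 := by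
    simp only [smul_eq_mul, mul_zero, add_zero]
    field_simp
  rw [e1, hg0] at h3
  simp only [smul_eq_mul, mul_zero, add_zero] at h3
  have h4 : t * g 1 ≤ g t := by
    have := mul_le_mul_of_nonneg_left h3 htpos.le
    have e2 : t * (1 / t * g t) = g t := by field_simp
    rwa [e2] at this
  have e3 : g 1 = uBar u x₀ (x₀ + θ) := by simp [g]
  rwa [e3] at h4

/-- Sublevel sets of the normalised potential of an entire convex function are compact. -/
lemma isCompact_subLevel_uBar (hu : ContDiffOn ℝ ∞ u Set.univ)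
    (hpos : ∀ x, (hess u x).PosDef) (s : ℝ) :
    IsCompact {x | x ∈ (Set.univ : Set (Fin n → ℝ)) ∧ uBar u x₀ x ≤ s} := by
  classical
  have hb := contDiffOn_uBar (x₀ := x₀) hu
  have hc : Continuous (uBar u x₀) := continuousOn_univ.1 hb.continuousOn
  have hclosed : IsClosed {x | x ∈ (Set.univ : Set (Fin n → ℝ)) ∧ uBar u x₀ x ≤ s} := by
    simp only [Set.mem_univ, true_and]
    exact isClosed_le hc continuous_const
  by_cases hne : (Metric.sphere (0 : Fin n → ℝ) 1).Nonempty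
  · -- the minimum on the sphere
    have hcont : ContinuousOn (fun θ : Fin n → ℝ => uBar u x₀ (x₀ + θ))
        (Metric.sphere (0 : Fin n → ℝ) 1) :=
      (hc.comp (continuous_const.add continuous_id)).continuousOn
    obtain ⟨θ₀, hθ₀, hmin⟩ := (isCompact_sphere (0 : Fin n → ℝ) 1).exists_isMinOn hne hcont
    have hθne : ∀ θ ∈ Metric.sphere (0 : Fin n → ℝ) 1, θ ≠ 0 := by
      intro θ hθ h
      subst h
      simp at hθ
    set c := uBar u x₀ (x₀ + θ₀) with hc_def
    have hcpos : 0 < c := (line_estimate (x₀ := x₀) hu hpos (hθne θ₀ hθ₀)).1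
    refine (isCompact_closedBall x₀ (max 1 (s / c))).of_isClosed_subset hclosed ?_
    rintro x ⟨-, hx⟩
    rw [Metric.mem_closedBall, dist_eq_norm]
    by_contra hfar
    have hfar' : max 1 (s / c) < ‖x - x₀‖ := not_le.1 hfar
    have h1 : 1 < ‖x - x₀‖ := lt_of_le_of_lt (le_max_left _ _) hfar'
    have h2 : s / c < ‖x - x₀‖ := lt_of_le_of_lt (le_max_right _ _) hfar'
    set t := ‖x - x₀‖ with ht
    have htpos : 0 < t := by linarith
    set θ := t⁻¹ • (x - x₀) with hθ
    have hθs : θ ∈ Metric.sphere (0 : Fin n → ℝ) 1 := by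
      simp only [mem_sphere_zero_iff_norm, hθ, norm_smul, norm_inv, Real.norm_eq_abs, abs_of_pos htpos]
      rw [← ht]
      field_simp
    have hxe : x₀ + t • θ = x := by
      rw [hθ, smul_smul, mul_inv_cancel₀ htpos.ne', one_smul]
      abel
    have h3 := (line_estimate (x₀ := x₀) hu hpos (hθne θ hθs)).2 t h1.le
    rw [hxe] at h3
    have h4 : c ≤ uBar u x₀ (x₀ + θ) := hmin hθs
    have h5 : t * c ≤ t * uBar u x₀ (x₀ + θ) := mul_le_mul_of_nonneg_left h4 htpos.le
    have h6 : s < t * c := by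
      rw [div_lt_iff₀ hcpos] at h2
      exact h2
    linarith
  · -- the space is a point
    have hall : ∀ x : Fin n → ℝ, x = x₀ := by
      intro x
      by_contra hx
      apply hne
      have hx' : x - x₀ ≠ 0 := sub_ne_zero.2 hx
      refine ⟨‖x - x₀‖⁻¹ • (x - x₀), ?_⟩
      have : ‖x - x₀‖ ≠ 0 := norm_ne_zero_iff.2 hx'
      simp only [mem_sphere_zero_iff_norm, norm_smul, norm_inv, norm_norm]
      field_simp
    exact (Set.Subsingleton.isCompact fun a _ b _ => by rw [hall a, hall b])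

end Entire

end Vale.Agent.Lib.P252
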